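import Vale.Agent.P193.Basic
import Mathlib.GroupTheory.HNNExtension
import Mathlib.GroupTheory.Finiteness

/-! The ascending extension of a group presented up to an endomorphism. -/

namespace Vale.Agent.P193

variable {𝒜 : Type}

/-- The endomorphism of the free group given by a substitution. -/
def endo (s : 𝒜 → Word 𝒜) : FreeGroup 𝒜 →* FreeGroup 𝒜 :=
  FreeGroup.lift fun a => FreeGroup.mk (s a)

theorem endo_mk (s : 𝒜 → Word 𝒜) (w : Word 𝒜) :
    endo s (FreeGroup.mk w) = FreeGroup.mk (subst s w) := by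
  rw [← ev_of (subst s w), ev_subst]
  simp only [ev_of]; rfl

theorem endo_of (s : 𝒜 → Word 𝒜) (a : 𝒜) : endo s (FreeGroup.of a) = FreeGroup.mk (s a) := by
  simp [endo]

/-- Iterates of the endomorphism. -/
def endoN (s : 𝒜 → Word 𝒜) : ℕ → FreeGroup 𝒜 →* FreeGroup 𝒜
  | 0 => MonoidHom.id _
  | i + 1 => (endo s).comp (endoN s i)

@[simp] theorem endoN_zero (s : 𝒜 → Word 𝒜) (x : FreeGroup 𝒜) : endoN s 0 x = x := rfl

theorem endoN_succ (s : 𝒜 → Word 𝒜) (i : ℕ) (x : FreeGroup 𝒜) :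
    endoN s (i + 1) x = endo s (endoN s i x) := rfl

theorem endoN_add (s : 𝒜 → Word 𝒜) (i j : ℕ) (x : FreeGroup 𝒜) :
    endoN s (i + j) x = endoN s i (endoN s j x) := by
  induction i with
  | zero => simp
  | succ i ih => rw [Nat.add_right_comm, endoN_succ, endoN_succ, ih]

theorem endo_pow_mk (s : 𝒜 → Word 𝒜) (i : ℕ) (w : Word 𝒜) :
    endoN s i (FreeGroup.mk w) = FreeGroup.mk ((subst s)^[i] w) := by
  induction i with
  | zero => simp
  | succ i ih => rw [endoN_succ, ih, endo_mk, Function.iterate_succ_apply']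

/-- All iterates of a list of words. -/
def iterSet (s : 𝒜 → Word 𝒜) (L : List (Word 𝒜)) : Set (FreeGroup 𝒜) :=
  {g | ∃ i, ∃ w ∈ L, endoN s i (FreeGroup.mk w) = g}

/-- The limit normal subgroup. -/
def Ninf (s : 𝒜 → Word 𝒜) (L : List (Word 𝒜)) : Subgroup (FreeGroup 𝒜) :=
  Subgroup.normalClosure (iterSet s L)

instance (s : 𝒜 → Word 𝒜) (L : List (Word 𝒜)) : (Ninf s L).Normal :=
  Subgroup.normalClosure_normal

/-- The limit subgroup. -/
def Pinf (s : 𝒜 → Word 𝒜) (L Gs : List (Word 𝒜)) : Subgroup (FreeGroup 𝒜) :=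
  Ninf s L ⊔ Subgroup.closure (iterSet s Gs)

theorem endo_iterSet (s : 𝒜 → Word 𝒜) (L : List (Word 𝒜)) {g : FreeGroup 𝒜}
    (hg : g ∈ iterSet s L) : endo s g ∈ iterSet s L := by
  obtain ⟨i, w, hw, rfl⟩ := hg
  exact ⟨i + 1, w, hw, by rw [endoN_succ]⟩

theorem endo_Ninf (s : 𝒜 → Word 𝒜) (L : List (Word 𝒜)) {g : FreeGroup 𝒜}
    (hg : g ∈ Ninf s L) : endo s g ∈ Ninf s L := by
  have : Ninf s L ≤ (Ninf s L).comap (endo s) :=
    Subgroup.normalClosure_le_normal fun x hx =>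
      Subgroup.subset_normalClosure (endo_iterSet s L hx)
  exact this hg

theorem endo_Pinf (s : 𝒜 → Word 𝒜) (L Gs : List (Word 𝒜)) {g : FreeGroup 𝒜}
    (hg : g ∈ Pinf s L Gs) : endo s g ∈ Pinf s L Gs := by
  have : Pinf s L Gs ≤ (Pinf s L Gs).comap (endo s) := by
    refine sup_le (fun x hx => ?_) ((Subgroup.closure_le _).2 fun x hx => ?_)
    · exact Subgroup.mem_sup_left (endo_Ninf s L hx)
    · exact Subgroup.mem_sup_right (Subgroup.subset_closure (endo_iterSet s Gs hx))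
  exact this hg

theorem endo_pow_Pinf (s : 𝒜 → Word 𝒜) (L Gs : List (Word 𝒜)) (i : ℕ) {g : FreeGroup 𝒜}
    (hg : g ∈ Pinf s L Gs) : endoN s i g ∈ Pinf s L Gs := by
  induction i with
  | zero => simpa using hg
  | succ i ih => rw [endoN_succ]; exact endo_Pinf s L Gs ih

section Asc
variable [Fintype 𝒜] (s : 𝒜 → Word 𝒜) (L : List (Word 𝒜))

/-- Relators of the ascending extension; `none` is the stable letter. -/
noncomputable def ascRel : List (Word (Option 𝒜)) :=
  L.map (wmap some) ++ (Finset.univ : Finset 𝒜).toList.map fun a =>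
    (none, true) :: (some a, true) :: (none, false) :: FreeGroup.invRev (wmap some (s a))

/-- The ascending extension. -/
abbrev AscG : Type := PG (ascRel s L)

/-- The stable letter. -/
noncomputable def ascT : AscG s L := pgen _ none

/-- The map from the free group. -/
noncomputable def ascJ : FreeGroup 𝒜 →* AscG s L := FreeGroup.lift fun a => pgen _ (some a)

theorem ascJ_mk (w : Word 𝒜) : ascJ s L (FreeGroup.mk w) = ev (pgen _) (wmap some w) := by
  rw [ev_wmap]; rfl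

theorem ascT_conj (x : FreeGroup 𝒜) :
    ascT s L * ascJ s L x * (ascT s L)⁻¹ = ascJ s L (endo s x) := by
  have : (MulAut.conj (ascT s L)).toMonoidHom.comp (ascJ s L) =
      (ascJ s L).comp (endo s) := by
    ext a
    have h := ev_pgen_rel (ascRel s L) (w := (none, true) :: (some a, true) :: (none, false) ::
      FreeGroup.invRev (wmap some (s a))) (by
        simp only [ascRel, List.mem_append, List.mem_map]
        exact Or.inr ⟨a, by simp, rfl⟩)
    simp only [ev_cons, ev_invRev, sgn_true, sgn_false, ← ascJ_mk] at h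
    simp only [MonoidHom.comp_apply, MulEquiv.coe_toMonoidHom, MulAut.conj_apply, endo_of]
    have h3 : ascJ s L (FreeGroup.of a) = pgen _ (some a) := by simp [ascJ]
    rw [h3, ascT, ← mul_inv_eq_one, ← h]; group
  exact DFunLike.congr_fun this x

theorem ascT_pow_conj (i : ℕ) (x : FreeGroup 𝒜) :
    ascT s L ^ i * ascJ s L x * (ascT s L ^ i)⁻¹ = ascJ s L (endoN s i x) := by
  induction i with
  | zero => simp
  | succ i ih =>
    rw [endoN_succ, ← ascT_conj, ← ih, pow_succ']; group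

theorem ascJ_Ninf {x : FreeGroup 𝒜} (hx : x ∈ Ninf s L) : ascJ s L x = 1 := by
  have : Ninf s L ≤ (ascJ s L).ker := by
    refine Subgroup.normalClosure_le_normal ?_
    rintro _ ⟨i, w, hw, rfl⟩
    have : ascJ s L (FreeGroup.mk w) = 1 := by
      rw [ascJ_mk]
      exact ev_pgen_rel _ (List.mem_append_left _ (List.mem_map.2 ⟨w, hw, rfl⟩))
    simp only [SetLike.mem_coe, MonoidHom.mem_ker]
    rw [← ascT_pow_conj, this]; simp
  exact this hx

theorem asc_lift {G : Type} [Group G] (f : FreeGroup 𝒜 →* G) (T : G)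
    (hL : ∀ w ∈ L, f (FreeGroup.mk w) = 1) (hT : ∀ x, T * f x * T⁻¹ = f (endo s x)) :
    ∃ F : AscG s L →* G, F (ascT s L) = T ∧ ∀ x, F (ascJ s L x) = f x := by
  have key : ∀ w : Word 𝒜, ev (fun a : Option 𝒜 => a.elim T fun b => f (FreeGroup.of b))
      (wmap some w) = f (FreeGroup.mk w) := by
    intro w; rw [ev_wmap, ← ev_of, map_ev]; rfl
  refine ⟨PG.lift _ (fun a => a.elim T fun b => f (FreeGroup.of b)) ?_, ?_, ?_⟩
  · intro w hw
    simp only [ascRel, List.mem_append, List.mem_map] at hw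
    rcases hw with ⟨w, hw, rfl⟩ | ⟨a, -, rfl⟩
    · rw [key, hL w hw]
    · simp only [ev_cons, ev_invRev, key, sgn_true, sgn_false, Option.elim_none, Option.elim_some]
      rw [← endo_of, ← hT]; group
  · simp [ascT]
  · intro x
    obtain ⟨w, rfl⟩ := Quot.exists_rep x
    change PG.lift _ _ _ (ascJ s L (FreeGroup.mk w)) = f (FreeGroup.mk w)
    rw [ascJ_mk, PG.lift_ev, key]

theorem asc_exp : ∃ F : AscG s L →* Multiplicative ℤ, F (ascT s L) = Multiplicative.ofAdd 1 ∧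
    ∀ x, F (ascJ s L x) = 1 :=
  asc_lift s L 1 _ (by simp) (by simp)

theorem ascJ_eq_one (hN : ∀ x, endo s x ∈ Ninf s L → x ∈ Ninf s L) {x : FreeGroup 𝒜}
    (hx : ascJ s L x = 1) : x ∈ Ninf s L := by
  let ψ : FreeGroup 𝒜 ⧸ Ninf s L →* FreeGroup 𝒜 ⧸ Ninf s L :=
    QuotientGroup.map _ _ (endo s) fun x hx => endo_Ninf s L hx
  have hψ : Function.Injective ψ := by
    rw [injective_iff_map_eq_one]
    intro y hy
    obtain ⟨y, rfl⟩ := QuotientGroup.mk_surjective y
    rw [QuotientGroup.eq_one_iff]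
    apply hN
    rw [← QuotientGroup.eq_one_iff]
    exact hy
  let φ : (⊤ : Subgroup (FreeGroup 𝒜 ⧸ Ninf s L)) ≃* ψ.range :=
    Subgroup.topEquiv.trans (MonoidHom.ofInjective hψ)
  obtain ⟨F, -, hF⟩ := asc_lift s L (G := HNNExtension _ ⊤ ψ.range φ)
    (HNNExtension.of.comp (QuotientGroup.mk' _)) HNNExtension.t (by
      intro w hw
      have : ((FreeGroup.mk w : FreeGroup 𝒜) : FreeGroup 𝒜 ⧸ Ninf s L) = 1 :=
        (QuotientGroup.eq_one_iff _).2 (Subgroup.subset_normalClosure ⟨0, w, hw, by simp⟩)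
      simp [this]) (by
      intro y
      have := HNNExtension.t_mul_of (φ := φ) ⟨(y : FreeGroup 𝒜 ⧸ Ninf s L), Subgroup.mem_top _⟩
      simp only [MonoidHom.comp_apply, QuotientGroup.mk'_apply]
      rw [this, mul_inv_cancel_right]
      rfl)
  have := hF x
  rw [hx, map_one] at this
  have h2 := HNNExtension.of_injective φ (a₁ := 1) (a₂ := (x : FreeGroup 𝒜 ⧸ Ninf s L))
    (by simpa using this)
  exact (QuotientGroup.eq_one_iff _).1 h2.symm

theorem asc_form (Q : Subgroup (FreeGroup 𝒜)) (hQ : ∀ i, ∀ x ∈ Q, endoN s i x ∈ Q)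
    (S : Set (AscG s L)) (hS : ∀ g ∈ S, g = ascT s L ∨ ∃ x ∈ Q, g = ascJ s L x)
    {g : AscG s L} (hg : g ∈ Subgroup.closure S) :
    ∃ a b : ℕ, ∃ x ∈ Q, g = (ascT s L ^ a)⁻¹ * ascJ s L x * ascT s L ^ b := by
  induction hg using Subgroup.closure_induction with
  | mem g hg =>
    rcases hS g hg with rfl | ⟨x, hx, rfl⟩
    · exact ⟨0, 1, 1, Q.one_mem, by simp⟩
    · exact ⟨0, 0, x, hx, by simp⟩
  | one => exact ⟨0, 0, 1, Q.one_mem, by simp⟩
  | mul g h _ _ ihg ihh =>
    obtain ⟨a, b, x, hx, rfl⟩ := ihg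
    obtain ⟨c, d, y, hy, rfl⟩ := ihh
    refine ⟨a + c, b + d, endoN s c x * endoN s b y, Q.mul_mem (hQ _ _ hx) (hQ _ _ hy), ?_⟩
    rw [map_mul, ← ascT_pow_conj, ← ascT_pow_conj]; group
  | inv g _ ih =>
    obtain ⟨a, b, x, hx, rfl⟩ := ih
    exact ⟨b, a, x⁻¹, Q.inv_mem hx, by rw [map_inv]; group⟩

theorem asc_form_top (g : AscG s L) :
    ∃ a b : ℕ, ∃ x, g = (ascT s L ^ a)⁻¹ * ascJ s L x * ascT s L ^ b := by
  obtain ⟨a, b, x, -, h⟩ := asc_form s L ⊤ (by simp) (Set.range (pgen _)) (by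
    rintro _ ⟨a, rfl⟩
    cases a with
    | none => exact Or.inl rfl
    | some a => exact Or.inr ⟨FreeGroup.of a, trivial, by simp [ascJ]⟩)
    (g := g) ((mem_closure_range_iff _).2 (pgen_surj _ g))
  exact ⟨a, b, x, h⟩

variable (Gs : List (Word 𝒜))

/-- The point stabiliser. -/
noncomputable def ascP : Subgroup (AscG s L) :=
  Subgroup.closure (insert (ascT s L) {g | ∃ w ∈ Gs, ascJ s L (FreeGroup.mk w) = g})

theorem ascP_fg : (ascP s L Gs).FG := by
  rw [Subgroup.fg_iff]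
  refine ⟨_, rfl, Set.Finite.insert _ ?_⟩
  exact ((List.finite_toSet Gs).image fun w => ascJ s L (FreeGroup.mk w)).subset
    fun _ ⟨w, hw, h⟩ => ⟨w, hw, h⟩

theorem ascT_mem : ascT s L ∈ ascP s L Gs := Subgroup.subset_closure (Set.mem_insert _ _)

theorem ascJ_mem {x : FreeGroup 𝒜} (hx : x ∈ Pinf s L Gs) : ascJ s L x ∈ ascP s L Gs := by
  have : Pinf s L Gs ≤ (ascP s L Gs).comap (ascJ s L) := by
    refine sup_le (fun x hx => ?_) ((Subgroup.closure_le _).2 ?_)
    · rw [Subgroup.mem_comap, ascJ_Ninf s L hx]; exact one_mem _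
    · rintro _ ⟨i, w, hw, rfl⟩
      simp only [SetLike.mem_coe, Subgroup.mem_comap]
      rw [← ascT_pow_conj]
      have hT := pow_mem (ascT_mem s L Gs) i
      exact mul_mem (mul_mem hT (Subgroup.subset_closure (Set.mem_insert_of_mem _ ⟨w, hw, rfl⟩)))
        (inv_mem hT)
  exact this hx

theorem mem_of_ascJ_mem (hN : ∀ x, endo s x ∈ Ninf s L → x ∈ Ninf s L)
    (hP : ∀ x, endo s x ∈ Pinf s L Gs → x ∈ Pinf s L Gs) {x : FreeGroup 𝒜}
    (hx : ascJ s L x ∈ ascP s L Gs) : x ∈ Pinf s L Gs := by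
  obtain ⟨a, b, y, hy, h⟩ := asc_form s L (Pinf s L Gs) (fun i x hx => endo_pow_Pinf s L Gs i hx)
    _ (by
      rintro g (rfl | ⟨w, hw, rfl⟩)
      · exact Or.inl rfl
      · exact Or.inr ⟨_, Subgroup.mem_sup_right
          (Subgroup.subset_closure ⟨0, w, hw, by simp⟩), rfl⟩) hx
  obtain ⟨F, hT, hJ⟩ := asc_exp s L
  have hab : a = b := by
    have := congrArg (fun g => Multiplicative.toAdd (F g)) h
    simp [hT, hJ] at this
    omega
  subst hab
  have h2 : ascJ s L (y⁻¹ * endoN s a x) = 1 := by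
    rw [map_mul, map_inv, ← ascT_pow_conj, h]; group
  have h3 : endoN s a x ∈ Pinf s L Gs := by
    have := mul_mem hy (Subgroup.mem_sup_left (T := Subgroup.closure (iterSet s Gs))
      (ascJ_eq_one s L hN h2))
    simpa using this
  clear h h2
  induction a with
  | zero => simpa using h3
  | succ a ih => rw [endoN_succ] at h3; exact ih (hP _ h3)

theorem asc_main (hN : ∀ x, endo s x ∈ Ninf s L → x ∈ Ninf s L)
    (hP : ∀ x, endo s x ∈ Pinf s L Gs → x ∈ Pinf s L Gs) (w : FreeGroup 𝒜) (hw : w ∉ Pinf s L Gs)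
    (hlink : ∀ x, x ∉ Pinf s L Gs → ∃ i, ∃ p ∈ Pinf s L Gs, ∃ q ∈ Pinf s L Gs,
      endo s x = p * endoN s i w * q)
    (hconj : ∀ x, x ∉ Ninf s L → ∃ y, y * endo s x * y⁻¹ ∉ Pinf s L Gs)
    {Z : Type} [Group Z] (pr : FreeGroup 𝒜 →* Z) (hprN : ∀ x ∈ Ninf s L, pr x = 1)
    (hprψ : ∀ x, pr (endo s x) = 1) (hprw : pr w ≠ 1) :
    ascP s L Gs ≠ ⊥ ∧ ascJ s L w ∉ ascP s L Gs ∧
      (∀ g, g ∉ ascP s L Gs → ∃ p ∈ ascP s L Gs, ∃ q ∈ ascP s L Gs, g = p * ascJ s L w * q) ∧
      (ascP s L Gs).normalCore = ⊥ := by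
  obtain ⟨F, hT, hJ⟩ := asc_exp s L
  have hTm := ascT_mem s L Gs
  refine ⟨fun h => ?_, fun h => hw (mem_of_ascJ_mem s L Gs hN hP h), fun g hg => ?_, ?_⟩
  · rw [h, Subgroup.mem_bot] at hTm
    rw [hTm, map_one] at hT
    exact absurd (congrArg Multiplicative.toAdd hT) (by simp)
  · obtain ⟨a, b, x, rfl⟩ := asc_form_top s L g
    have hx : x ∉ Pinf s L Gs := fun hx =>
      hg (mul_mem (mul_mem (inv_mem (pow_mem hTm a)) (ascJ_mem s L Gs hx)) (pow_mem hTm b))
    obtain ⟨i, p, hp, q, hq, h⟩ := hlink x hx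
    have h2 := congrArg (ascJ s L) h
    rw [map_mul, map_mul, ← ascT_pow_conj, ← ascT_conj] at h2
    refine ⟨(ascT s L ^ a)⁻¹ * (ascT s L)⁻¹ * ascJ s L p * ascT s L ^ i, ?_,
      (ascT s L ^ i)⁻¹ * ascJ s L q * ascT s L * ascT s L ^ b, ?_, ?_⟩
    · exact mul_mem (mul_mem (mul_mem (inv_mem (pow_mem hTm a)) (inv_mem hTm))
        (ascJ_mem s L Gs hp)) (pow_mem hTm i)
    · exact mul_mem (mul_mem (mul_mem (inv_mem (pow_mem hTm i)) (ascJ_mem s L Gs hq)) hTm)
        (pow_mem hTm b)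
    · have : ascJ s L x = (ascT s L)⁻¹ * (ascJ s L p * (ascT s L ^ i * ascJ s L w *
        (ascT s L ^ i)⁻¹) * ascJ s L q) * ascT s L := by rw [← h2]; group
      rw [this]; group
  · set M := (ascP s L Gs).normalCore with hM
    have hMn : M.Normal := Subgroup.normalCore_normal _
    have hMP : M ≤ ascP s L Gs := Subgroup.normalCore_le _
    have h1 : ∀ x, ascJ s L x ∈ M → ascJ s L x = 1 := by
      intro x hx
      by_contra hne
      obtain ⟨y, hy⟩ := hconj x fun h => hne (ascJ_Ninf s L h)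
      apply hy
      apply mem_of_ascJ_mem s L Gs hN hP
      rw [map_mul, map_mul, map_inv, ← ascT_conj]
      exact hMP (hMn.conj_mem _ (hMn.conj_mem _ hx _) _)
    have h2 : ∀ (x : FreeGroup 𝒜) (l : ℕ), ascJ s L x * ascT s L ^ (l + 1) ∉ M := by
      intro x l hx
      have h3 : ascJ s L (x * endoN s (l + 1) w * x⁻¹ * w⁻¹) ∈ M := by
        have := mul_mem hx (hMn.conj_mem _ (inv_mem hx) (ascJ s L w))
        rw [map_mul, map_mul, map_mul, map_inv, map_inv, ← ascT_pow_conj]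
        convert this using 1; group
      have h4 := hprN _ (ascJ_eq_one s L hN (h1 _ h3))
      rw [endoN_succ] at h4
      simp [hprψ] at h4
      exact hprw h4
    rw [eq_bot_iff]
    intro g hg
    obtain ⟨a, b, x, rfl⟩ := asc_form_top s L g
    rw [Subgroup.mem_bot]
    rcases lt_trichotomy a b with h | rfl | h
    · obtain ⟨l, rfl⟩ := Nat.exists_eq_add_of_lt h
      refine absurd ?_ (h2 x l)
      convert hMn.conj_mem _ hg (ascT s L ^ a) using 1; group
    · have : ascJ s L x = 1 := h1 x (by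
        convert hMn.conj_mem _ hg (ascT s L ^ a) using 1; group)
      rw [this]; group
    · obtain ⟨l, rfl⟩ := Nat.exists_eq_add_of_lt h
      refine absurd ?_ (h2 x⁻¹ l)
      rw [map_inv]
      convert hMn.conj_mem _ (inv_mem hg) (ascT s L ^ b) using 1; group

end Asc

end Vale.Agent.P193
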