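import Mathlib.GroupTheory.FinitelyPresentedGroup
import Mathlib.GroupTheory.FreeGroup.Reduce
import Mathlib.Order.ConditionallyCompleteLattice.Basic
import Mathlib.Order.Lattice.Nat

/-! Words, evaluation, substitution and word norm. -/

namespace Vale.Agent.P193

/-- Words over an alphabet with formal inverses (`true` = the letter, `false` = its inverse). -/
abbrev Word (α : Type) := List (α × Bool)

variable {α β : Type} {G H : Type*} [Group G] [Group H]

/-- The value of a word. -/
def ev (g : α → G) (w : Word α) : G := FreeGroup.lift g (FreeGroup.mk w)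

/-- The value of a signed letter. -/
def sgn (x : G) (b : Bool) : G := cond b x x⁻¹

@[simp] theorem sgn_true (x : G) : sgn x true = x := rfl
@[simp] theorem sgn_false (x : G) : sgn x false = x⁻¹ := rfl
@[simp] theorem sgn_not (x : G) (b : Bool) : sgn x (!b) = (sgn x b)⁻¹ := by cases b <;> simp
@[simp] theorem map_sgn (f : G →* H) (x : G) (b : Bool) : f (sgn x b) = sgn (f x) b := by
  cases b <;> simp
@[simp] theorem one_sgn (b : Bool) : sgn (1 : G) b = 1 := by cases b <;> simp

@[simp] theorem ev_nil (g : α → G) : ev g [] = 1 := by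
  simp [ev, ← FreeGroup.one_eq_mk]

@[simp] theorem ev_append (g : α → G) (u v : Word α) : ev g (u ++ v) = ev g u * ev g v := by
  simp only [ev, ← FreeGroup.mul_mk, map_mul]

theorem ev_single (g : α → G) (a : α × Bool) : ev g [a] = sgn (g a.1) a.2 := by
  rcases a with ⟨a, _ | _⟩ <;> simp [ev, FreeGroup.lift_mk]

@[simp] theorem ev_cons (g : α → G) (a : α × Bool) (w : Word α) :
    ev g (a :: w) = sgn (g a.1) a.2 * ev g w := by
  rw [← ev_single, ← ev_append]; rfl

@[simp] theorem ev_invRev (g : α → G) (w : Word α) : ev g (FreeGroup.invRev w) = (ev g w)⁻¹ := by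
  simp only [ev, ← FreeGroup.inv_mk, map_inv]

theorem map_ev (f : G →* H) (g : α → G) (w : Word α) : f (ev g w) = ev (fun a => f (g a)) w := by
  induction w with
  | nil => simp
  | cons a w ih => simp [ih]

theorem ev_of (w : Word α) : ev FreeGroup.of w = FreeGroup.mk w := by
  have : (FreeGroup.lift (FreeGroup.of : α → FreeGroup α)) = MonoidHom.id _ := by
    ext a; simp
  simp [ev, this]

theorem lift_mk (g : α → G) (w : Word α) : FreeGroup.lift g (FreeGroup.mk w) = ev g w := rfl

@[simp] theorem ev_map (g : β → G) (f : α → β) (w : Word α) :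
    ev g (w.map fun a => (f a.1, a.2)) = ev (fun a => g (f a)) w := by
  induction w with
  | nil => simp
  | cons a w ih => simp [ih]

@[simp] theorem ev_replicate (g : α → G) (a : α × Bool) (n : ℕ) :
    ev g (List.replicate n a) = sgn (g a.1) a.2 ^ n := by
  induction n with
  | zero => simp
  | succ n ih => simp [List.replicate_succ, ih, pow_succ']

theorem ev_mem (S : Subgroup G) (g : α → G) (w : Word α) (h : ∀ a ∈ w, g a.1 ∈ S) :
    ev g w ∈ S := by
  induction w with
  | nil => simp
  | cons a w ih =>
    rw [ev_cons]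
    refine S.mul_mem ?_ (ih fun b hb => h b (List.mem_cons_of_mem _ hb))
    have := h a List.mem_cons_self
    cases a.2
    · exact S.inv_mem this
    · exact this

theorem exists_ev_of_mem_closure (g : α → G) {x : G}
    (hx : x ∈ Subgroup.closure (Set.range g)) : ∃ w, ev g w = x := by
  rw [← FreeGroup.range_lift_eq_closure] at hx
  obtain ⟨y, rfl⟩ := hx
  obtain ⟨w, rfl⟩ := Quot.exists_rep y
  exact ⟨w, rfl⟩

theorem mem_closure_range_iff (g : α → G) {x : G} :
    x ∈ Subgroup.closure (Set.range g) ↔ ∃ w, ev g w = x :=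
  ⟨exists_ev_of_mem_closure g, fun ⟨w, hw⟩ =>
    hw ▸ ev_mem _ g w fun a _ => Subgroup.subset_closure ⟨a.1, rfl⟩⟩

/-- Substitution of words for letters. -/
def subst (f : α → Word β) (w : Word α) : Word β :=
  w.flatMap fun a => cond a.2 (f a.1) (FreeGroup.invRev (f a.1))

@[simp] theorem subst_nil (f : α → Word β) : subst f [] = [] := rfl

@[simp] theorem subst_cons (f : α → Word β) (a : α × Bool) (w : Word α) :
    subst f (a :: w) = cond a.2 (f a.1) (FreeGroup.invRev (f a.1)) ++ subst f w := by
  simp [subst]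

@[simp] theorem subst_append (f : α → Word β) (u v : Word α) :
    subst f (u ++ v) = subst f u ++ subst f v := by
  simp [subst]

theorem ev_subst (g : β → G) (f : α → Word β) (w : Word α) :
    ev g (subst f w) = ev (fun a => ev g (f a)) w := by
  induction w with
  | nil => simp
  | cons a w ih => rcases a with ⟨a, _ | _⟩ <;> simp [ih]

/-- The word norm with respect to a family of generators. -/
noncomputable def wnorm (g : α → G) (x : G) : ℕ :=
  sInf {n | ∃ w : Word α, w.length = n ∧ ev g w = x}

theorem wnorm_ev_le (g : α → G) (w : Word α) : wnorm g (ev g w) ≤ w.length :=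
  Nat.sInf_le ⟨w, rfl, rfl⟩

theorem exists_ev_length (g : α → G) {x : G} (hx : ∃ w, ev g w = x) :
    ∃ w : Word α, w.length = wnorm g x ∧ ev g w = x := by
  obtain ⟨w, hw⟩ := hx
  exact Nat.sInf_mem (s := {n | ∃ w : Word α, w.length = n ∧ ev g w = x}) ⟨_, w, rfl, hw⟩

@[simp] theorem wnorm_one (g : α → G) : wnorm g 1 = 0 := by
  simpa using wnorm_ev_le g []

theorem wnorm_mul_le (g : α → G) (hg : ∀ x, ∃ w, ev g w = x) (x y : G) :
    wnorm g (x * y) ≤ wnorm g x + wnorm g y := by
  obtain ⟨u, hu, rfl⟩ := exists_ev_length g (hg x)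
  obtain ⟨v, hv, rfl⟩ := exists_ev_length g (hg y)
  rw [← hu, ← hv, ← ev_append, ← List.length_append]
  exact wnorm_ev_le g _

theorem wnorm_inv_le (g : α → G) (hg : ∀ x, ∃ w, ev g w = x) (x : G) :
    wnorm g x⁻¹ ≤ wnorm g x := by
  obtain ⟨u, hu, rfl⟩ := exists_ev_length g (hg x)
  rw [← hu, ← ev_invRev, ← FreeGroup.invRev_length]
  exact wnorm_ev_le g _

theorem wnorm_sgn_le (g : α → G) (a : α) (b : Bool) : wnorm g (sgn (g a) b) ≤ 1 := by
  simpa using wnorm_ev_le g [(a, b)]

/-- A subadditive symmetric size function on a group. -/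
structure IsSize (n : G → ℕ) : Prop where
  one : n 1 = 0
  mul : ∀ x y, n (x * y) ≤ n x + n y
  inv : ∀ x, n x⁻¹ ≤ n x

theorem isSize_wnorm (g : α → G) (hg : ∀ x, ∃ w, ev g w = x) : IsSize (wnorm g) :=
  ⟨wnorm_one g, wnorm_mul_le g hg, wnorm_inv_le g hg⟩

theorem isSize_zero : IsSize (fun _ : G => 0) := ⟨rfl, fun _ _ => le_rfl, fun _ => le_rfl⟩

/-- The relator set given by a list of words. -/
def relSet (l : List (Word α)) : Set (FreeGroup α) := {x | ∃ w ∈ l, FreeGroup.mk w = x}

theorem relSet_finite (l : List (Word α)) : (relSet l).Finite :=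
  ((List.finite_toSet l).image FreeGroup.mk).subset fun _ ⟨w, hw, h⟩ => ⟨w, hw, h⟩

/-- Relabelling of the letters of a word. -/
def wmap (f : α → β) (w : Word α) : Word β := w.map fun a => (f a.1, a.2)

@[simp] theorem ev_wmap (g : β → G) (f : α → β) (w : Word α) :
    ev g (wmap f w) = ev (fun a => g (f a)) w := ev_map g f w

@[simp] theorem length_wmap (f : α → β) (w : Word α) : (wmap f w).length = w.length := by
  simp [wmap]

/-- The positive word with the given letters. -/
def posw (w : List α) : Word α := w.map fun a => (a, true)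

/-- The group given by a finite list of relators. -/
abbrev PG (l : List (Word α)) : Type := PresentedGroup (relSet l)

/-- The generators of `PG l`. -/
abbrev pgen (l : List (Word α)) : α → PG l := PresentedGroup.of

theorem ev_pgen (l : List (Word α)) (w : Word α) :
    ev (pgen l) w = PresentedGroup.mk (relSet l) (FreeGroup.mk w) := by
  rw [← ev_of, map_ev]; rfl

theorem ev_pgen_eq_one (l : List (Word α)) (w : Word α) :
    ev (pgen l) w = 1 ↔ FreeGroup.mk w ∈ Subgroup.normalClosure (relSet l) := by
  rw [ev_pgen]; exact PresentedGroup.mk_eq_one_iff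

theorem ev_pgen_rel (l : List (Word α)) {w : Word α} (hw : w ∈ l) : ev (pgen l) w = 1 :=
  (ev_pgen_eq_one l w).2 (Subgroup.subset_normalClosure ⟨w, hw, rfl⟩)

theorem pgen_surj (l : List (Word α)) (x : PG l) : ∃ w, ev (pgen l) w = x := by
  obtain ⟨y, rfl⟩ := PresentedGroup.mk_surjective _ x
  obtain ⟨w, rfl⟩ := Quot.exists_rep y
  exact ⟨w, ev_pgen l w⟩

/-- Universal property of `PG l`. -/
def PG.lift (l : List (Word α)) (g : α → G) (h : ∀ w ∈ l, ev g w = 1) : PG l →* G :=
  PresentedGroup.toGroup (f := g) (by rintro _ ⟨w, hw, rfl⟩; exact h w hw)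

@[simp] theorem PG.lift_pgen (l : List (Word α)) (g : α → G) (h : ∀ w ∈ l, ev g w = 1) (a : α) :
    PG.lift l g h (pgen l a) = g a := PresentedGroup.toGroup.of _

theorem PG.lift_ev (l : List (Word α)) (g : α → G) (h : ∀ w ∈ l, ev g w = 1) (w : Word α) :
    PG.lift l g h (ev (pgen l) w) = ev g w := by
  rw [map_ev]; simp

instance PG.fp [Finite α] (l : List (Word α)) : Group.IsFinitelyPresented (PG l) :=
  haveI : Finite (relSet l) := (relSet_finite l).to_subtype
  inferInstance

end Vale.Agent.P193
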