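import Vale.Agent.P193.Basic

/-! Free completion of an action of a group together with injective relations. -/

namespace Vale.Agent.P193

/-- The relation of a signed letter. -/
def app {Y Ω : Type} (r : Ω → Y → Y → Prop) (l : Ω × Bool) (y y' : Y) : Prop :=
  cond l.2 (r l.1 y y') (r l.1 y' y)

/-- The free completion of an action with injective relations. -/
structure Core (A : Type) [Group A] {Y Ω : Type} [MulAction A Y] (r : Ω → Y → Y → Prop) where
  X : Type
  pa : A →* Equiv.Perm X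
  pl : Ω → Equiv.Perm X
  base : Y → X
  Top : A → Ω × Bool → X → Prop
  base_inj : Function.Injective base
  pa_base : ∀ a y, pa a (base y) = base (a • y)
  pa_top : ∀ a' a l p, Top a l p → Top (a' * a) l (pa a' p)
  pl_some : ∀ l y y', app r l y y' → sgn (pl l.1) l.2 (base y) = base y'
  pl_none : ∀ l y, (∀ y', ¬ app r l y y') → Top 1 l (sgn (pl l.1) l.2 (base y))
  pl_top : ∀ (l : Ω × Bool) a l' p, Top a l' p → ¬ (a = 1 ∧ l' = (l.1, !l.2)) →
    Top 1 l (sgn (pl l.1) l.2 p)
  top_ne : ∀ a l y, ¬ Top a l (base y)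

namespace CoreAux
variable {A Y Ω : Type} [Group A] [MulAction A Y] (r : Ω → Y → Y → Prop)

/-- Well-formed stacks. -/
def WF (y : Y) : List (A × Ω × Bool) → Prop
  | [] => True
  | [x] => ∀ y', ¬ app r x.2 y y'
  | x :: x' :: s => WF y (x' :: s) ∧ ¬ (x'.1 = 1 ∧ x'.2 = (x.2.1, !x.2.2))

/-- Action of a group element. -/
def actA (a : A) : Y × List (A × Ω × Bool) → Y × List (A × Ω × Bool)
  | (y, []) => (a • y, [])
  | (y, x :: s) => (y, (a * x.1, x.2) :: s)

open Classical in
/-- Action of a letter. -/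
noncomputable def actL (l : Ω × Bool) : Y × List (A × Ω × Bool) → Y × List (A × Ω × Bool)
  | (y, []) => if h : ∃ y', app r l y y' then (h.choose, []) else (y, [(1, l)])
  | (y, x :: s) => if x.1 = 1 ∧ x.2 = (l.1, !l.2) then (y, s) else (y, (1, l) :: x :: s)

theorem wf_tail {y : Y} {x : A × Ω × Bool} {s : List (A × Ω × Bool)} (h : WF r y (x :: s)) :
    WF r y s := by
  cases s with
  | nil => trivial
  | cons x' s => exact h.1

theorem wf_actA (a : A) {p : Y × List (A × Ω × Bool)} (h : WF r p.1 p.2) :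
    WF r (actA a p).1 (actA a p).2 := by
  rcases p with ⟨y, _ | ⟨x, _ | ⟨x', s⟩⟩⟩
  · trivial
  · exact h
  · exact h

theorem wf_actL (l : Ω × Bool) {p : Y × List (A × Ω × Bool)} (h : WF r p.1 p.2) :
    WF r (actL r l p).1 (actL r l p).2 := by
  rcases p with ⟨y, _ | ⟨x, s⟩⟩
  · simp only [actL]
    split_ifs with h1
    · trivial
    · exact fun y' h2 => h1 ⟨y', h2⟩
  · simp only [actL]
    split_ifs with h1
    · exact wf_tail r h
    · exact ⟨h, h1⟩

theorem actA_one (p : Y × List (A × Ω × Bool)) : actA (1 : A) p = p := by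
  rcases p with ⟨y, _ | ⟨x, s⟩⟩ <;> simp [actA]

theorem actA_mul (a b : A) (p : Y × List (A × Ω × Bool)) :
    actA (a * b) p = actA a (actA b p) := by
  rcases p with ⟨y, _ | ⟨x, s⟩⟩ <;> simp [actA, mul_smul, mul_assoc]

theorem app_not (l : Ω × Bool) (y y' : Y) : app r (l.1, !l.2) y y' ↔ app r l y' y := by
  rcases l with ⟨w, _ | _⟩ <;> simp [app]

variable {r}

theorem actL_some (hf : ∀ l y y₁ y₂, app r l y y₁ → app r l y y₂ → y₁ = y₂) {l : Ω × Bool}
    {y y' : Y} (h : app r l y y') : actL (A := A) r l (y, []) = (y', []) := by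
  have h1 : ∃ y', app r l y y' := ⟨y', h⟩
  simp only [actL, dif_pos h1]
  rw [hf l y _ _ h1.choose_spec h]

theorem actL_inv (hf : ∀ l y y₁ y₂, app r l y y₁ → app r l y y₂ → y₁ = y₂) (l : Ω × Bool)
    {p : Y × List (A × Ω × Bool)} (h : WF r p.1 p.2) :
    actL r (l.1, !l.2) (actL r l p) = p := by
  rcases p with ⟨y, _ | ⟨x, s⟩⟩
  · by_cases h1 : ∃ y', app r l y y'
    · obtain ⟨y', h1⟩ := h1
      rw [actL_some hf h1, actL_some hf ((app_not r l _ _).2 h1)]
    · simp [actL, h1]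
  · by_cases h1 : x.1 = 1 ∧ x.2 = (l.1, !l.2)
    · obtain ⟨a, l'⟩ := x
      obtain ⟨rfl, rfl⟩ := h1
      have e : actL r l (y, ((1 : A), l.1, !l.2) :: s) = (y, s) := by simp [actL]
      rw [e]
      cases s with
      | nil =>
        have h2 : ¬ ∃ y', app r (l.1, !l.2) y y' := fun ⟨y', h3⟩ => h y' h3
        simp only [actL, dif_neg h2]
      | cons x' s =>
        have h2 := h.2
        simp only [actL, if_neg h2]
    · simp [actL, h1]

end CoreAux

open CoreAux in
theorem exists_core (A : Type) [Group A] {Y Ω : Type} [MulAction A Y] (r : Ω → Y → Y → Prop)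
    (hf : ∀ w y y₁ y₂, r w y y₁ → r w y y₂ → y₁ = y₂)
    (hi : ∀ w y y₁ y₂, r w y₁ y → r w y₂ y → y₁ = y₂) : Nonempty (Core A r) := by
  have hf' : ∀ l y y₁ y₂, app r l y y₁ → app r l y y₂ → y₁ = y₂ := by
    rintro ⟨w, _ | _⟩ y y₁ y₂
    · exact hi w y y₁ y₂
    · exact hf w y y₁ y₂
  let X := {p : Y × List (A × Ω × Bool) // WF r p.1 p.2}
  let fa : A → X → X := fun a p => ⟨actA a p.1, wf_actA r a p.2⟩
  have fa1 : ∀ p, fa 1 p = p := fun p => Subtype.ext (actA_one p.1)
  have fam : ∀ a b p, fa (a * b) p = fa a (fa b p) := fun a b p => Subtype.ext (actA_mul a b p.1)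
  let fl : Ω × Bool → X → X := fun l p => ⟨actL r l p.1, wf_actL r l p.2⟩
  have fli : ∀ l p, fl (l.1, !l.2) (fl l p) = p := fun l p => Subtype.ext (actL_inv hf' l p.2)
  let pa : A →* Equiv.Perm X :=
    { toFun := fun a => ⟨fa a, fa a⁻¹, fun p => by rw [← fam, inv_mul_cancel, fa1],
        fun p => by rw [← fam, mul_inv_cancel, fa1]⟩
      map_one' := Equiv.ext fa1
      map_mul' := fun a b => Equiv.ext (fam a b) }
  let pl : Ω → Equiv.Perm X := fun w =>
    ⟨fl (w, true), fl (w, false), fli (w, true), fli (w, false)⟩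
  have hpl : ∀ (l : Ω × Bool) (p : X), sgn (pl l.1) l.2 p = fl l p := by
    rintro ⟨w, _ | _⟩ p <;> rfl
  refine ⟨{
    X := X
    pa := pa
    pl := pl
    base := fun y => ⟨(y, []), trivial⟩
    Top := fun a l p => ∃ s, p.1.2 = (a, l) :: s
    base_inj := fun y y' h => congrArg (fun p : X => p.1.1) h
    pa_base := fun a y => rfl
    pa_top := ?_
    pl_some := fun l y y' h => by rw [hpl]; exact Subtype.ext (actL_some hf' h)
    pl_none := fun l y h => ?_
    pl_top := ?_
    top_ne := fun a l y ⟨s, hs⟩ => by simp at hs }⟩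
  · rintro a' a l ⟨⟨y, s⟩, hp⟩ ⟨s', rfl⟩
    exact ⟨s', rfl⟩
  · rw [hpl]
    have h2 : ¬ ∃ y', app r l y y' := fun ⟨y', h3⟩ => h y' h3
    exact ⟨[], by simp only [fl, actL, dif_neg h2]⟩
  · rintro l a l' ⟨⟨y, s⟩, hp⟩ ⟨s', rfl⟩ h
    rw [hpl]
    exact ⟨(a, l') :: s', by simp only [fl, actL, if_neg h]⟩

end Vale.Agent.P193
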