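import Vale.Agent.P193.RE
import Vale.Agent.P193.EmitCore
import Mathlib.GroupTheory.GroupAction.Quotient
import Mathlib.GroupTheory.Coprod.Basic

/-! The linking layer: the free product of `A` with a free group on `α` (`false`), `σ` (`true`). -/

namespace Vale.Agent.P193

section Group
variable {A : Type} [Group A]

/-- The free product `A ∗ F(α, σ)`. -/
abbrev CG (A : Type) [Group A] : Type := Monoid.Coprod A (FreeGroup Bool)

/-- The element `σ ^ n α σ ^ (-n)`. -/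
def pEl (A : Type) [Group A] (n : ℕ) : CG A :=
  .inr (FreeGroup.of true ^ n * FreeGroup.of false * (FreeGroup.of true ^ n)⁻¹)

/-- The subgroup generated by `P` and the linking elements. -/
def Pplus (P : Subgroup A) (I : ℕ → Prop) (u g : ℕ → A) : Subgroup (CG A) :=
  Subgroup.closure ({x | ∃ a ∈ P, Monoid.Coprod.inl a = x} ∪ {x | ∃ n, I n ∧ pEl A n = x} ∪
    {x | ∃ n, I n ∧ (Monoid.Coprod.inl (g n))⁻¹ * pEl A n * Monoid.Coprod.inl (u n) = x})

theorem Pplus_bot (u g : ℕ → A) : Pplus ⊥ (fun _ => False) u g = ⊥ := by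
  rw [Pplus, Subgroup.closure_eq_bot_iff]
  rintro x ((⟨a, ha, rfl⟩ | ⟨n, h, -⟩) | ⟨n, h, -⟩)
  · rw [Subgroup.mem_bot.1 ha, map_one]; rfl
  · exact h.elim
  · exact h.elim

theorem inl_mem_Pplus_of {P : Subgroup A} (I : ℕ → Prop) (u g : ℕ → A) {a : A} (h : a ∈ P) :
    Monoid.Coprod.inl a ∈ Pplus P I u g :=
  Subgroup.subset_closure (Or.inl (Or.inl ⟨a, h, rfl⟩))

theorem pEl_mem_Pplus (P : Subgroup A) {I : ℕ → Prop} (u g : ℕ → A) {n : ℕ} (h : I n) :
    pEl A n ∈ Pplus P I u g :=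
  Subgroup.subset_closure (Or.inl (Or.inr ⟨n, h, rfl⟩))

theorem link_mem_Pplus (P : Subgroup A) {I : ℕ → Prop} (u g : ℕ → A) {n : ℕ} (h : I n) :
    (Monoid.Coprod.inl (g n))⁻¹ * pEl A n * Monoid.Coprod.inl (u n) ∈ Pplus P I u g :=
  Subgroup.subset_closure (Or.inr ⟨n, h, rfl⟩)

/-- The set acted on: cosets at height zero, free orbits at positive heights. -/
def CY (P : Subgroup A) : Type := (A ⧸ P) ⊕ (A × (A ⧸ P) × ℕ)

instance (P : Subgroup A) : MulAction A (CY P) where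
  smul a := Sum.map (fun x => a • x) fun x => (a * x.1, x.2)
  one_smul x := by
    rcases x with x | x
    · exact congrArg Sum.inl (one_smul A x)
    · exact congrArg Sum.inr (Prod.ext (one_mul _) rfl)
  mul_smul a b x := by
    rcases x with x | x
    · exact congrArg Sum.inl (mul_smul a b x)
    · exact congrArg Sum.inr (Prod.ext (mul_assoc _ _ _) rfl)

/-- The distinguished points. -/
def cpt (P : Subgroup A) (x : A) : ℕ → CY P
  | 0 => .inl (x : A ⧸ P)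
  | h + 1 => .inr (1, (x : A ⧸ P), h)

theorem cpt_eq {P : Subgroup A} {x x' : A} {h h' : ℕ} :
    cpt P x h = cpt P x' h' ↔ x⁻¹ * x' ∈ P ∧ h = h' := by
  rw [← QuotientGroup.eq]
  rcases h with _ | h <;> rcases h' with _ | h'
  · exact ⟨fun e => ⟨Sum.inl.inj e, rfl⟩, fun e => congrArg Sum.inl e.1⟩
  · exact ⟨fun e => (nomatch e), fun e => by omega⟩
  · exact ⟨fun e => (nomatch e), fun e => by omega⟩
  · refine ⟨fun e => ?_, fun e => ?_⟩
    · have := Sum.inr.inj e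
      simp only [Prod.mk.injEq, true_and] at this
      exact ⟨this.1, by omega⟩
    · obtain ⟨e1, e2⟩ := e
      obtain rfl : h = h' := by omega
      simp only [cpt, e1]
      rfl

theorem smul_cpt_zero (P : Subgroup A) (a x : A) : a • cpt P x 0 = cpt P (a * x) 0 := rfl

theorem smul_cpt_ne {P : Subgroup A} {a : A} (ha : a ≠ 1) (x x' : A) {h : ℕ} (hh : h ≠ 0)
    (h' : ℕ) : a • cpt P x h ≠ cpt P x' h' := by
  obtain ⟨h, rfl⟩ := Nat.exists_eq_succ_of_ne_zero hh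
  rcases h' with _ | h'
  · exact fun e => nomatch e
  · intro e
    have : a * 1 = 1 := congrArg Prod.fst (Sum.inr.inj e)
    exact ha (by simpa using this)

theorem smul_cpt_ne_zero {P : Subgroup A} (a x x' : A) {h : ℕ} (hh : h ≠ 0) :
    a • cpt P x h ≠ cpt P x' 0 := by
  obtain ⟨h, rfl⟩ := Nat.exists_eq_succ_of_ne_zero hh
  exact fun e => nomatch e

/-- The relations of the two letters. -/
def crel (P : Subgroup A) (I : ℕ → Prop) (u g : ℕ → A) : Bool → CY P → CY P → Prop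
  | true, y, y' => ∃ x h, y = cpt P x (h + 1) ∧ y' = cpt P x h
  | false, y, y' => ∃ n, I n ∧
      ((y = cpt P 1 n ∧ y' = cpt P 1 n) ∨ (y = cpt P (u n) n ∧ y' = cpt P (g n) n))

theorem exists_ccore {P : Subgroup A} {I : ℕ → Prop} {u g : ℕ → A}
    (adm : ∀ n, I n → (u n ∈ P ↔ g n ∈ P)) : Nonempty (Core A (crel P I u g)) := by
  refine exists_core A _ ?_ ?_
  · rintro (_ | _) y y₁ y₂
    · rintro ⟨n, hn, ⟨rfl, rfl⟩ | ⟨rfl, rfl⟩⟩ ⟨m, hm, ⟨e, rfl⟩ | ⟨e, rfl⟩⟩ <;>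
        obtain ⟨e1, rfl⟩ := cpt_eq.1 e
      · rfl
      · exact cpt_eq.2 ⟨by simpa using (adm n hn).1 (by simpa using e1), rfl⟩
      · exact cpt_eq.2 ⟨by simpa using (adm n hn).1 (by simpa using e1), rfl⟩
      · rfl
    · rintro ⟨x, h, rfl, rfl⟩ ⟨x', h', e, rfl⟩
      obtain ⟨e1, e2⟩ := cpt_eq.1 e
      exact cpt_eq.2 ⟨e1, by omega⟩
  · rintro (_ | _) y y₁ y₂
    · rintro ⟨n, hn, ⟨rfl, rfl⟩ | ⟨rfl, rfl⟩⟩ ⟨m, hm, ⟨rfl, e⟩ | ⟨rfl, e⟩⟩ <;>
        obtain ⟨e1, rfl⟩ := cpt_eq.1 e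
      · rfl
      · exact cpt_eq.2 ⟨by simpa using (adm n hn).2 (by simpa using e1), rfl⟩
      · exact cpt_eq.2 ⟨by simpa using (adm n hn).2 (by simpa using e1), rfl⟩
      · rfl
    · rintro ⟨x, h, rfl, rfl⟩ ⟨x', h', rfl, e⟩
      obtain ⟨e1, e2⟩ := cpt_eq.1 e
      exact cpt_eq.2 ⟨e1, by omega⟩

theorem crel_cpt {P : Subgroup A} {I : ℕ → Prop} {u g : ℕ → A} {l : Bool × Bool} {y y' : CY P}
    (h : app (crel P I u g) l y y') : ∃ x n, y = cpt P x n := by
  rcases l with ⟨_ | _, _ | _⟩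
  · obtain ⟨n, -, ⟨-, e⟩ | ⟨-, e⟩⟩ := h <;> exact ⟨_, _, e⟩
  · obtain ⟨n, -, ⟨e, -⟩ | ⟨e, -⟩⟩ := h <;> exact ⟨_, _, e⟩
  · obtain ⟨x, n, -, e⟩ := h; exact ⟨_, _, e⟩
  · obtain ⟨x, n, e, -⟩ := h; exact ⟨_, _, e⟩

/-- The action of the free product. -/
def cact {Y : Type} [MulAction A Y] {r : Bool → Y → Y → Prop} (K : Core A r) :
    CG A →* Equiv.Perm K.X :=
  Monoid.Coprod.lift K.pa (FreeGroup.lift K.pl)

theorem cact_inl {Y : Type} [MulAction A Y] {r : Bool → Y → Y → Prop} (K : Core A r) (a : A) :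
    cact K (.inl a) = K.pa a := by simp [cact]

theorem cact_of {Y : Type} [MulAction A Y] {r : Bool → Y → Y → Prop} (K : Core A r) (b : Bool) :
    cact K (.inr (FreeGroup.of b)) = K.pl b := by simp [cact]

theorem pl_pow {P : Subgroup A} {I : ℕ → Prop} {u g : ℕ → A} (K : Core A (crel P I u g))
    (x : A) (n : ℕ) : (K.pl true ^ n) (K.base (cpt P x n)) = K.base (cpt P x 0) := by
  induction n with
  | zero => rfl
  | succ n ih =>
    rw [pow_succ, Equiv.Perm.mul_apply, ← ih]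
    exact congrArg _ (K.pl_some (true, true) _ _ ⟨x, n, rfl, rfl⟩)

theorem cact_pEl {P : Subgroup A} {I : ℕ → Prop} {u g : ℕ → A} (K : Core A (crel P I u g))
    {x x' : A} {n : ℕ} (h : crel P I u g false (cpt P x n) (cpt P x' n)) :
    cact K (pEl A n) (K.base (cpt P x 0)) = K.base (cpt P x' 0) := by
  have e : cact K (pEl A n) = K.pl true ^ n * K.pl false * (K.pl true ^ n)⁻¹ := by
    simp [pEl, cact]
  have e1 : (K.pl true ^ n)⁻¹ (K.base (cpt P x 0)) = K.base (cpt P x n) := by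
    rw [Equiv.Perm.inv_eq_iff_eq, pl_pow]
  have e2 : K.pl false (K.base (cpt P x n)) = K.base (cpt P x' n) :=
    K.pl_some (false, true) _ _ h
  rw [e, Equiv.Perm.mul_apply, Equiv.Perm.mul_apply, e1, e2, pl_pow]

theorem cact_fix {P : Subgroup A} {I : ℕ → Prop} {u g : ℕ → A} (K : Core A (crel P I u g))
    {z : CG A} (hz : z ∈ Pplus P I u g) :
    cact K z (K.base (cpt P 1 0)) = K.base (cpt P 1 0) := by
  induction hz using Subgroup.closure_induction with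
  | mem x hx =>
    rcases hx with (⟨a, ha, rfl⟩ | ⟨n, h, rfl⟩) | ⟨n, h, rfl⟩
    · rw [cact_inl, K.pa_base, smul_cpt_zero]
      exact congrArg _ (cpt_eq.2 ⟨by simpa using ha, rfl⟩)
    · exact cact_pEl K ⟨n, h, Or.inl ⟨rfl, rfl⟩⟩
    · rw [map_mul, map_mul, map_inv, Equiv.Perm.mul_apply, Equiv.Perm.mul_apply, cact_inl,
        cact_inl, K.pa_base, smul_cpt_zero, mul_one,
        cact_pEl K (x' := g n) ⟨n, h, Or.inr ⟨rfl, rfl⟩⟩, Equiv.Perm.inv_eq_iff_eq, K.pa_base,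
        smul_cpt_zero, mul_one]
  | one => simp
  | mul x y _ _ hx hy => rw [map_mul, Equiv.Perm.mul_apply, hy, hx]
  | inv x _ hx => rw [map_inv, Equiv.Perm.inv_eq_iff_eq, hx]

theorem inl_mem_Pplus {P : Subgroup A} {I : ℕ → Prop} {u g : ℕ → A}
    (adm : ∀ n, I n → (u n ∈ P ↔ g n ∈ P)) (a : A) :
    Monoid.Coprod.inl a ∈ Pplus P I u g ↔ a ∈ P := by
  refine ⟨fun h => ?_, inl_mem_Pplus_of I u g⟩
  obtain ⟨K⟩ := exists_ccore adm
  have := cact_fix K h
  rw [cact_inl, K.pa_base, smul_cpt_zero] at this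
  simpa using (cpt_eq.1 (K.base_inj this)).1

end Group

section Cert
variable {𝒬 : Type}

/-- One block `l q` of a normal form. -/
abbrev CBlk (𝒬 : Type) := (Bool × Bool) × Word 𝒬

/-- The word of a list of blocks. -/
def cprod (s : List (CBlk 𝒬)) : Word (𝒬 ⊕ Bool) :=
  s.flatMap fun b => (.inr b.1.1, b.1.2) :: wmap .inl b.2

/-- The atomic predicates used by certificates. -/
structure CAt (𝒬 : Type) where
  eqC : Word (𝒬 ⊕ Bool) → Prop
  inP : Word (𝒬 ⊕ Bool) → Prop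
  notI : ℕ → Prop
  uw : ℕ → Word 𝒬
  gw : ℕ → Word 𝒬

/-- The word `y` leads from the base point to the point `x` at height `h`. -/
def CIn (B : CAt 𝒬) (y : Word (𝒬 ⊕ Bool)) (x : Word 𝒬) (h : ℕ) : Prop :=
  B.inP (FreeGroup.invRev (wmap .inl x) ++ List.replicate h (.inr true, true) ++ y)

/-- Two consecutive blocks do not cancel. -/
def CRed (Ne : Word 𝒬 → Prop) (a b : CBlk 𝒬) : Prop :=
  a.1.1 ≠ b.1.1 ∨ a.1.2 = b.1.2 ∨ Ne a.2

/-- The letter `l` cannot be applied at the point `x` of height `h`. -/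
def CFail (B : CAt 𝒬) (NotP : Word 𝒬 → Prop) (l : Bool × Bool) (x : Word 𝒬) (h : ℕ) : Prop :=
  (l = (true, true) ∧ h = 0) ∨ (l.1 = false ∧ (B.notI h ∨
    (NotP x ∧ NotP (FreeGroup.invRev (cond l.2 (B.uw h) (B.gw h)) ++ x))))

/-- A certificate that a word does not lie in `Pplus`. -/
def CertC (B : CAt 𝒬) (Ne NotP : Word 𝒬 → Prop) (y : Word (𝒬 ⊕ Bool)) : Prop :=
  ∃ (q : Word 𝒬) (s : List (CBlk 𝒬)),
    B.eqC (FreeGroup.invRev y ++ wmap .inl q ++ cprod s) ∧ List.IsChain (CRed Ne) s ∧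
    ∃ (x : Word 𝒬) (h : ℕ),
      (CIn B (cprod s) x h ∧ (h ≠ 0 ∨ NotP (q ++ x))) ∨
      ∃ (s₁ : List (CBlk 𝒬)) (b : CBlk 𝒬) (s₂ : List (CBlk 𝒬)), s = s₁ ++ b :: s₂ ∧
        ((CIn B (cprod s₂) x h ∧ h ≠ 0 ∧ Ne b.2) ∨
          (CIn B (wmap .inl b.2 ++ cprod s₂) x h ∧ CFail B NotP b.1 x h))

theorem CertC.mono {B B' : CAt 𝒬} {Ne NotP Ne' NotP' : Word 𝒬 → Prop}
    (h1 : ∀ x, B.eqC x → B'.eqC x) (h2 : ∀ x, B.inP x → B'.inP x)
    (h3 : ∀ n, B.notI n → B'.notI n) (h4 : B.uw = B'.uw) (h5 : B.gw = B'.gw)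
    (h7 : ∀ x, Ne x → Ne' x) (h8 : ∀ x, NotP x → NotP' x)
    {y : Word (𝒬 ⊕ Bool)} (h : CertC B Ne NotP y) : CertC B' Ne' NotP' y := by
  obtain ⟨q, s, a1, a2, x, n, a3⟩ := h
  refine ⟨q, s, h1 _ a1, a2.imp fun a b hab => hab.imp_right (Or.imp_right (h7 _)), x, n, ?_⟩
  rcases a3 with ⟨b1, b2⟩ | ⟨s₁, b, s₂, e, b1⟩
  · exact Or.inl ⟨h2 _ b1, b2.imp_right (h8 _)⟩
  · refine Or.inr ⟨s₁, b, s₂, e, ?_⟩
    rcases b1 with ⟨c1, c2, c3⟩ | ⟨c1, c2⟩
    · exact Or.inl ⟨h2 _ c1, c2, h7 _ c3⟩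
    · refine Or.inr ⟨h2 _ c1, c2.imp_right fun d => ⟨d.1, d.2.imp (h3 _) fun d' => ?_⟩⟩
      rw [← h4, ← h5]
      exact ⟨h8 _ d'.1, h8 _ d'.2⟩

theorem primrec_cprod [Primcodable 𝒬] : Primrec (cprod : List (CBlk 𝒬) → Word (𝒬 ⊕ Bool)) :=
  Lib.Comp.pr_flatMap (g := fun _ (b : CBlk 𝒬) => (Sum.inr b.1.1, b.1.2) :: wmap .inl b.2)
    Primrec.id (Lib.Comp.pr_cons (by fun_prop) (primrec_wmap Primrec.sumInl (by fun_prop)))

@[fun_prop] theorem computable_cprod {π : Type} [Primcodable π] [Primcodable 𝒬]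
    {f : π → List (CBlk 𝒬)} (hf : Computable f) : Computable fun a => cprod (f a) :=
  primrec_cprod.to_comp.comp hf

@[fun_prop] theorem computable_winl {π α β : Type} [Primcodable π] [Primcodable α] [Primcodable β]
    {f : π → Word α} (hf : Computable f) :
    Computable fun a => wmap (Sum.inl : α → α ⊕ β) (f a) :=
  computable_wmap Primrec.sumInl.to_comp hf

theorem computable_replicate {π α : Type} [Primcodable π] [Primcodable α] {f : π → ℕ}
    (hf : Computable f) (x : α) : Computable fun a => List.replicate (f a) x :=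
  (Lib.Comp.pr_replicate (f := fun n : ℕ => n) (g := fun _ => x) Primrec.id
    (Primrec.const x)).to_comp.comp hf

theorem re_cin {π τ : Type} [Primcodable 𝒬] [Primcodable π] [Primcodable τ] {B : π → CAt 𝒬}
    (h2 : REPred fun x : π × Word (𝒬 ⊕ Bool) => (B x.1).inP x.2) {p : τ → π}
    {y : τ → Word (𝒬 ⊕ Bool)} {x : τ → Word 𝒬} {h : τ → ℕ} (hp : Computable p)
    (hy : Computable y) (hx : Computable x) (hh : Computable h) :
    REPred fun a => CIn (B (p a)) (y a) (x a) (h a) :=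
  re_comp h2 (f := fun a => (p a, FreeGroup.invRev (wmap (Sum.inl : 𝒬 → 𝒬 ⊕ Bool) (x a)) ++
    List.replicate (h a) ((Sum.inr true : 𝒬 ⊕ Bool), true) ++ y a))
    (hp.pair (Lib.Comp.co_append (Lib.Comp.co_append (computable_invRev (computable_winl hx))
      (computable_replicate hh _)) hy))

theorem certC_enumOp {π β : Type} [Primcodable 𝒬] [Primcodable π] [Primcodable β]
    (B : π → CAt 𝒬) (Ne NotP : (β → Prop) → π → Word 𝒬 → Prop)
    (h1 : REPred fun x : π × Word (𝒬 ⊕ Bool) => (B x.1).eqC x.2)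
    (h2 : REPred fun x : π × Word (𝒬 ⊕ Bool) => (B x.1).inP x.2)
    (h3 : REPred fun x : π × ℕ => (B x.1).notI x.2)
    (h4 : Computable fun x : π × ℕ => (B x.1).uw x.2)
    (h5 : Computable fun x : π × ℕ => (B x.1).gw x.2)
    (h7 : EnumOp fun S (x : π × Word 𝒬) => Ne S x.1 x.2)
    (h8 : EnumOp fun S (x : π × Word 𝒬) => NotP S x.1 x.2) :
    EnumOp fun S (x : π × Word (𝒬 ⊕ Bool)) => CertC (B x.1) (Ne S x.1) (NotP S x.1) x.2 := by
  have hfail : EnumOp fun S (x : π × (Bool × Bool) × Word 𝒬 × ℕ) =>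
      CFail (B x.1) (NotP S x.1) x.2.1 x.2.2.1 x.2.2.2 := by
    have c4 : Computable fun x : π × (Bool × Bool) × Word 𝒬 × ℕ => (B x.1).uw x.2.2.2 :=
      h4.comp (g := fun x : π × (Bool × Bool) × Word 𝒬 × ℕ => (x.1, x.2.2.2)) (by fun_prop)
    have c5 : Computable fun x : π × (Bool × Bool) × Word 𝒬 × ℕ => (B x.1).gw x.2.2.2 :=
      h5.comp (g := fun x : π × (Bool × Bool) × Word 𝒬 × ℕ => (x.1, x.2.2.2)) (by fun_prop)
    refine EnumOp.or (EnumOp.const (re_and (re_eq (by fun_prop) (by fun_prop))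
      (re_eq (by fun_prop) (by fun_prop)))) (EnumOp.and (EnumOp.const
        (re_eq (by fun_prop) (by fun_prop))) (EnumOp.or (EnumOp.const
          (re_comp h3 (f := fun x : π × (Bool × Bool) × Word 𝒬 × ℕ => (x.1, x.2.2.2))
            (by fun_prop))) (EnumOp.and
          (h8.comp (f := fun x : π × (Bool × Bool) × Word 𝒬 × ℕ => (x.1, x.2.2.1)) (by fun_prop))
          (h8.comp (f := fun x : π × (Bool × Bool) × Word 𝒬 × ℕ => (x.1, FreeGroup.invRev
            (cond x.2.1.2 ((B x.1).uw x.2.2.2) ((B x.1).gw x.2.2.2)) ++ x.2.2.1))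
            (Computable.fst.pair (Lib.Comp.co_append
              (computable_invRev (Computable.cond (by fun_prop) c4 c5)) (by fun_prop)))))))
  have hA : EnumOp fun S (x : (π × List (CBlk 𝒬) × Word 𝒬 × ℕ) ×
      List (CBlk 𝒬) × CBlk 𝒬 × List (CBlk 𝒬)) => x.1.2.1 = x.2.1 ++ x.2.2.1 :: x.2.2.2 ∧
        ((CIn (B x.1.1) (cprod x.2.2.2) x.1.2.2.1 x.1.2.2.2 ∧ x.1.2.2.2 ≠ 0 ∧
          Ne S x.1.1 x.2.2.1.2) ∨
          (CIn (B x.1.1) (wmap .inl x.2.2.1.2 ++ cprod x.2.2.2) x.1.2.2.1 x.1.2.2.2 ∧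
            CFail (B x.1.1) (NotP S x.1.1) x.2.2.1.1 x.1.2.2.1 x.1.2.2.2)) :=
    EnumOp.and (EnumOp.const (re_eq (by fun_prop) (by fun_prop))) (EnumOp.or
      (EnumOp.and (EnumOp.const (re_cin h2 (by fun_prop) (by fun_prop) (by fun_prop)
        (by fun_prop))) (EnumOp.and (EnumOp.const (re_ne (by fun_prop) (by fun_prop)))
        (h7.comp (f := fun x : (π × List (CBlk 𝒬) × Word 𝒬 × ℕ) ×
          List (CBlk 𝒬) × CBlk 𝒬 × List (CBlk 𝒬) => (x.1.1, x.2.2.1.2)) (by fun_prop))))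
      (EnumOp.and (EnumOp.const (re_cin h2 (by fun_prop) (by fun_prop) (by fun_prop)
        (by fun_prop))) (hfail.comp (f := fun x : (π × List (CBlk 𝒬) × Word 𝒬 × ℕ) ×
          List (CBlk 𝒬) × CBlk 𝒬 × List (CBlk 𝒬) => (x.1.1, x.2.2.1.1, x.1.2.2.1, x.1.2.2.2))
          (by fun_prop))))
  have hB := EnumOp.exists (F := fun S (x : π × List (CBlk 𝒬) × Word 𝒬 × ℕ)
    (z : List (CBlk 𝒬) × CBlk 𝒬 × List (CBlk 𝒬)) => x.2.1 = z.1 ++ z.2.1 :: z.2.2 ∧
        ((CIn (B x.1) (cprod z.2.2) x.2.2.1 x.2.2.2 ∧ x.2.2.2 ≠ 0 ∧ Ne S x.1 z.2.1.2) ∨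
          (CIn (B x.1) (wmap .inl z.2.1.2 ++ cprod z.2.2) x.2.2.1 x.2.2.2 ∧
            CFail (B x.1) (NotP S x.1) z.2.1.1 x.2.2.1 x.2.2.2))) hA
  have hred : EnumOp fun S (x : π × CBlk 𝒬 × CBlk 𝒬) => CRed (Ne S x.1) x.2.1 x.2.2 :=
    EnumOp.or (EnumOp.const (re_ne (by fun_prop) (by fun_prop)))
      (EnumOp.or (EnumOp.const (re_eq (by fun_prop) (by fun_prop)))
        (h7.comp (f := fun x : π × CBlk 𝒬 × CBlk 𝒬 => (x.1, x.2.1.2)) (by fun_prop)))
  have hC := EnumOp.exists (F := fun S (x : π × Word (𝒬 ⊕ Bool))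
    (z : (Word 𝒬 × List (CBlk 𝒬)) × Word 𝒬 × ℕ) =>
      (B x.1).eqC (FreeGroup.invRev x.2 ++ wmap .inl z.1.1 ++ cprod z.1.2) ∧
      List.IsChain (CRed (Ne S x.1)) z.1.2 ∧
      ((CIn (B x.1) (cprod z.1.2) z.2.1 z.2.2 ∧ (z.2.2 ≠ 0 ∨ NotP S x.1 (z.1.1 ++ z.2.1))) ∨
        ∃ w : List (CBlk 𝒬) × CBlk 𝒬 × List (CBlk 𝒬), z.1.2 = w.1 ++ w.2.1 :: w.2.2 ∧
        ((CIn (B x.1) (cprod w.2.2) z.2.1 z.2.2 ∧ z.2.2 ≠ 0 ∧ Ne S x.1 w.2.1.2) ∨
          (CIn (B x.1) (wmap .inl w.2.1.2 ++ cprod w.2.2) z.2.1 z.2.2 ∧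
            CFail (B x.1) (NotP S x.1) w.2.1.1 z.2.1 z.2.2))))
    (EnumOp.and (EnumOp.const (re_comp h1 (f := fun x : (π × Word (𝒬 ⊕ Bool)) ×
      (Word 𝒬 × List (CBlk 𝒬)) × Word 𝒬 × ℕ =>
        (x.1.1, FreeGroup.invRev x.1.2 ++ wmap .inl x.2.1.1 ++ cprod x.2.1.2)) (by fun_prop)))
      (EnumOp.and (EnumOp.isChain (R := fun S (x : (π × Word (𝒬 ⊕ Bool)) ×
        (Word 𝒬 × List (CBlk 𝒬)) × Word 𝒬 × ℕ) => CRed (Ne S x.1.1)) (by fun_prop)
        (hred.comp (f := fun x : ((π × Word (𝒬 ⊕ Bool)) ×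
          (Word 𝒬 × List (CBlk 𝒬)) × Word 𝒬 × ℕ) × CBlk 𝒬 × CBlk 𝒬 => (x.1.1.1, x.2))
          (by fun_prop)))
        (EnumOp.or (EnumOp.and (EnumOp.const (re_cin h2 (by fun_prop) (by fun_prop) (by fun_prop)
          (by fun_prop))) (EnumOp.or (EnumOp.const (re_ne (by fun_prop) (by fun_prop)))
          (h8.comp (f := fun x : (π × Word (𝒬 ⊕ Bool)) ×
            (Word 𝒬 × List (CBlk 𝒬)) × Word 𝒬 × ℕ => (x.1.1, x.2.1.1 ++ x.2.2.1))
            (by fun_prop))))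
          (hB.comp (f := fun x : (π × Word (𝒬 ⊕ Bool)) ×
            (Word 𝒬 × List (CBlk 𝒬)) × Word 𝒬 × ℕ => (x.1.1, x.2.1.2, x.2.2)) (by fun_prop)))))
  refine hC.of_iff fun S x => ⟨?_, ?_⟩
  · rintro ⟨⟨⟨q, s⟩, y, h⟩, a1, a2, a3⟩
    exact ⟨q, s, a1, a2, y, h, a3.imp_right fun ⟨w, hw⟩ => ⟨w.1, w.2.1, w.2.2, hw⟩⟩
  · rintro ⟨q, s, a1, a2, y, h, a3⟩
    exact ⟨⟨⟨q, s⟩, y, h⟩, a1, a2, a3.imp_right fun ⟨s₁, b, s₂, hw⟩ => ⟨(s₁, b, s₂), hw⟩⟩

variable {A : Type} [Group A] (av : 𝒬 → A)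

/-- The values of the letters. -/
def cval : 𝒬 ⊕ Bool → CG A :=
  Sum.elim (fun a => .inl (av a)) fun b => .inr (FreeGroup.of b)

/-- The intended meaning of the atomic predicates. -/
def semC (P : Subgroup A) (I : ℕ → Prop) (uw gw : ℕ → Word 𝒬) : CAt 𝒬 where
  eqC x := ev (cval av) x = 1
  inP x := ev (cval av) x ∈ Pplus P I (fun n => ev av (uw n)) fun n => ev av (gw n)
  notI n := ¬ I n
  uw := uw
  gw := gw

variable {av} {P : Subgroup A} {I : ℕ → Prop} {uw gw : ℕ → Word 𝒬}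

theorem ev_cval_inl (x : Word 𝒬) : ev (cval av) (wmap .inl x) = .inl (ev av x) := by
  rw [ev_wmap, map_ev]; rfl

theorem cprod_cons (b : CBlk 𝒬) (s : List (CBlk 𝒬)) :
    cprod (b :: s) = (.inr b.1.1, b.1.2) :: (wmap .inl b.2 ++ cprod s) := by
  simp [cprod]

theorem ev_cprod_cons (b : CBlk 𝒬) (s : List (CBlk 𝒬)) :
    ev (cval av) (cprod (b :: s)) =
      sgn (.inr (FreeGroup.of b.1.1)) b.1.2 * (.inl (ev av b.2) * ev (cval av) (cprod s)) := by
  rw [cprod_cons, ev_cons, ev_append, ev_cval_inl]; rfl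

theorem cin_iff {y : Word (𝒬 ⊕ Bool)} {x : Word 𝒬} {h : ℕ} :
    CIn (semC av P I uw gw) y x h ↔ (Monoid.Coprod.inl (ev av x))⁻¹ *
      (Monoid.Coprod.inr (FreeGroup.of true) : CG A) ^ h * ev (cval av) y ∈
        Pplus P I (fun n => ev av (uw n)) fun n => ev av (gw n) := by
  simp only [CIn, semC, ev_append, ev_invRev, ev_cval_inl, ev_replicate, sgn_true]
  rfl

theorem cact_cin {u g : ℕ → A} (K : Core A (crel P I u g)) {z : CG A} {x : A} {h : ℕ}
    (hz : (Monoid.Coprod.inl x)⁻¹ * (Monoid.Coprod.inr (FreeGroup.of true) : CG A) ^ h * z ∈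
      Pplus P I u g) : cact K z (K.base (cpt P 1 0)) = K.base (cpt P x h) := by
  have := cact_fix K hz
  rw [map_mul, map_mul, map_inv, map_pow, cact_inl, cact_of, Equiv.Perm.mul_apply,
    Equiv.Perm.mul_apply, Equiv.Perm.inv_eq_iff_eq, K.pa_base, smul_cpt_zero, mul_one,
    ← pl_pow K x h] at this
  exact (K.pl true ^ h).injective this

theorem cact_cons {Y : Type} [MulAction A Y] {r : Bool → Y → Y → Prop} (K : Core A r)
    (b : CBlk 𝒬) (s : List (CBlk 𝒬)) (p : K.X) :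
    cact K (ev (cval av) (cprod (b :: s))) p =
      sgn (K.pl b.1.1) b.1.2 (K.pa (ev av b.2) (cact K (ev (cval av) (cprod s)) p)) := by
  rw [ev_cprod_cons, map_mul, map_mul, map_sgn, cact_of, cact_inl]; rfl

theorem cact_top {Y : Type} [MulAction A Y] {r : Bool → Y → Y → Prop} (K : Core A r)
    (p : K.X) (b : CBlk 𝒬) (s₂ : List (CBlk 𝒬))
    (hb : K.Top 1 b.1 (cact K (ev (cval av) (cprod (b :: s₂))) p)) (s₁ : List (CBlk 𝒬))
    (hs : List.IsChain (CRed fun x => ev av x ≠ 1) (s₁ ++ b :: s₂)) :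
    ∃ b' s', s₁ ++ b :: s₂ = b' :: s' ∧
      K.Top 1 b'.1 (cact K (ev (cval av) (cprod (s₁ ++ b :: s₂))) p) := by
  induction s₁ with
  | nil => exact ⟨b, s₂, rfl, hb⟩
  | cons a s₁ ih =>
    obtain ⟨b', s', e, h⟩ := ih (List.IsChain.tail hs)
    refine ⟨a, _, rfl, ?_⟩
    rw [List.cons_append, cact_cons]
    refine K.pl_top a.1 _ _ _ (K.pa_top _ _ _ _ h) ?_
    rw [List.cons_append, e, List.isChain_cons_cons] at hs
    rintro ⟨e1, e2⟩
    rcases hs.1 with h1 | h1 | h1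
    · exact h1 (by rw [e2])
    · rw [e2] at h1; simp at h1
    · exact h1 (by simpa using e1)

theorem certC_sound (adm : ∀ n, I n → (ev av (uw n) ∈ P ↔ ev av (gw n) ∈ P))
    {y : Word (𝒬 ⊕ Bool)}
    (hy : CertC (semC av P I uw gw) (fun x => ev av x ≠ 1) (fun x => ev av x ∉ P) y) :
    ev (cval av) y ∉ Pplus P I (fun n => ev av (uw n)) fun n => ev av (gw n) := by
  intro hin
  obtain ⟨K⟩ := exists_ccore (u := fun n => ev av (uw n)) (g := fun n => ev av (gw n)) adm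
  obtain ⟨q, s, a1, a2, x, h, a3⟩ := hy
  have e : ev (cval av) y = .inl (ev av q) * ev (cval av) (cprod s) := by
    have : ev (cval av) (FreeGroup.invRev y ++ wmap .inl q ++ cprod s) = 1 := a1
    rw [ev_append, ev_append, ev_invRev, ev_cval_inl, mul_assoc, inv_mul_eq_one] at this
    exact this
  have hfix := cact_fix K hin
  rw [e, map_mul, cact_inl, Equiv.Perm.mul_apply] at hfix
  rcases a3 with ⟨b1, b2⟩ | ⟨s₁, b, s₂, rfl, b1⟩
  · rw [cact_cin K (cin_iff.1 b1), K.pa_base] at hfix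
    have hfix := K.base_inj hfix
    by_cases hh : h = 0
    · subst hh
      rw [smul_cpt_zero, cpt_eq] at hfix
      exact (b2.resolve_left (by simp)) (by simpa using P.inv_mem hfix.1)
    · exact smul_cpt_ne_zero _ _ _ hh hfix
  · have hb : K.Top 1 b.1 (cact K (ev (cval av) (cprod (b :: s₂))) (K.base (cpt P 1 0))) := by
      rw [cact_cons]
      rcases b1 with ⟨c1, c2, c3⟩ | ⟨c1, c2⟩
      · rw [cact_cin K (cin_iff.1 c1), K.pa_base]
        refine K.pl_none _ _ fun y' hy' => ?_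
        obtain ⟨x', n, e'⟩ := crel_cpt hy'
        exact smul_cpt_ne c3 _ _ c2 _ e'
      · have c3 := cact_cin K (cin_iff.1 c1)
        rw [ev_append, ev_cval_inl, map_mul, cact_inl, Equiv.Perm.mul_apply] at c3
        rw [c3]
        refine K.pl_none _ _ fun y' hy' => ?_
        obtain ⟨⟨l, ε⟩, w⟩ := b
        rcases c2 with ⟨d1, rfl⟩ | ⟨d1, d2⟩
        · obtain ⟨rfl, rfl⟩ := Prod.mk.inj d1
          obtain ⟨x', n, e', -⟩ := hy'
          exact absurd (cpt_eq.1 e').2 (by omega)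
        · obtain rfl : l = false := d1
          cases ε
          · obtain ⟨n, hn, ⟨-, e'⟩ | ⟨-, e'⟩⟩ := hy' <;> obtain ⟨e1, rfl⟩ := cpt_eq.1 e'
            · exact d2.elim (fun d => d hn) fun d => d.1 (by simpa using e1)
            · exact d2.elim (fun d => d hn) fun d => d.2 (by simpa [semC] using P.inv_mem e1)
          · obtain ⟨n, hn, ⟨e', -⟩ | ⟨e', -⟩⟩ := hy' <;> obtain ⟨e1, rfl⟩ := cpt_eq.1 e'
            · exact d2.elim (fun d => d hn) fun d => d.1 (by simpa using e1)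
            · exact d2.elim (fun d => d hn) fun d => d.2 (by simpa [semC] using P.inv_mem e1)
    obtain ⟨b', s', -, ht⟩ := cact_top K _ b s₂ hb s₁ a2
    have := K.pa_top (ev av q) _ _ _ ht
    rw [hfix] at this
    exact K.top_ne _ _ _ this

theorem length_cprod_cons (b : CBlk 𝒬) (s : List (CBlk 𝒬)) :
    (cprod (b :: s)).length = b.2.length + (cprod s).length + 1 := by
  simp [cprod_cons]

theorem length_le_cprod {s : List (CBlk 𝒬)} {b : CBlk 𝒬} (hb : b ∈ s) :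
    b.2.length ≤ (cprod s).length := by
  induction s with
  | nil => simp at hb
  | cons a s ih =>
    rw [length_cprod_cons]
    rcases List.mem_cons.1 hb with rfl | hb
    · omega
    · have := ih hb; omega

theorem exists_cred (av : 𝒬 → A) (y : Word (𝒬 ⊕ Bool)) :
    ∃ (q : Word 𝒬) (s : List (CBlk 𝒬)),
      ev (cval av) y = .inl (ev av q) * ev (cval av) (cprod s) ∧
      List.IsChain (CRed fun x => ev av x ≠ 1) s ∧ q.length + (cprod s).length ≤ y.length := by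
  induction y with
  | nil => exact ⟨[], [], by simp [cprod], List.IsChain.nil, by simp [cprod]⟩
  | cons a y ih =>
    obtain ⟨q, s, e, hs, hl⟩ := ih
    rcases a with ⟨a | l, ε⟩
    · refine ⟨(a, ε) :: q, s, ?_, hs, by simp; omega⟩
      rw [ev_cons, ev_cons, e, map_mul, map_sgn, mul_assoc]; rfl
    · have hpush : ev (cval av) ((.inr l, ε) :: y) =
          .inl (ev av []) * ev (cval av) (cprod (((l, ε), q) :: s)) := by
        rw [ev_cons, e, ev_cprod_cons, ev_nil, map_one, one_mul]; rfl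
      have hlen : ([] : Word 𝒬).length + (cprod (((l, ε), q) :: s)).length ≤
          ((Sum.inr l, ε) :: y).length := by
        rw [length_cprod_cons]; simp; omega
      rcases s with _ | ⟨b, s⟩
      · exact ⟨[], _, hpush, List.IsChain.singleton _, hlen⟩
      · by_cases hr : CRed (fun x => ev av x ≠ 1) ((l, ε), q) b
        · exact ⟨[], _, hpush, List.IsChain.cons_cons hr hs, hlen⟩
        · simp only [CRed, not_or, not_not] at hr
          obtain ⟨h1, h2, h3⟩ := hr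
          refine ⟨b.2, s, ?_, hs.tail, ?_⟩
          · have h4 : b.1.2 = !ε := by
              revert h2; cases ε <;> cases b.1.2 <;> simp
            rw [ev_cons, e, ev_cprod_cons, h3, map_one, one_mul, h4, ← h1, sgn_not]
            exact mul_inv_cancel_left _ _
          · rw [length_cprod_cons] at hl; simp; omega

theorem pEl_eq (n : ℕ) : pEl A n = (Monoid.Coprod.inr (FreeGroup.of true) : CG A) ^ n *
    .inr (FreeGroup.of false) * ((Monoid.Coprod.inr (FreeGroup.of true) : CG A) ^ n)⁻¹ := by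
  simp [pEl]

theorem exists_crun (hu : ∀ n, I n → (uw n).length ≤ n) (hg : ∀ n, I n → (gw n).length ≤ n)
    (N : ℕ) (s : List (CBlk 𝒬)) (hN : 2 * (cprod s).length ≤ N) : ∃ (x : Word 𝒬) (h : ℕ),
    (CIn (semC av P I uw gw) (cprod s) x h ∧ h ≤ (cprod s).length ∧
      x.length ≤ (cprod s).length) ∨
    ∃ (s₁ : List (CBlk 𝒬)) (b : CBlk 𝒬) (s₂ : List (CBlk 𝒬)), s = s₁ ++ b :: s₂ ∧
      ((CIn (semC av P I uw gw) (cprod s₂) x h ∧ h ≠ 0 ∧ ev av b.2 ≠ 1 ∧ b.2.length ≤ N) ∨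
        (CIn (semC av P I uw gw) (wmap .inl b.2 ++ cprod s₂) x h ∧
          CFail (semC av P I uw gw) (fun x => ev av x ∉ P ∧ x.length ≤ N) b.1 x h)) := by
  induction s with
  | nil => exact ⟨[], 0, Or.inl ⟨cin_iff.2 (by simp [cprod]), by simp, by simp⟩⟩
  | cons b s ih =>
    rw [length_cprod_cons] at hN ⊢
    obtain ⟨x, h, ⟨a1, a2, a3⟩ | ⟨s₁, b', s₂, rfl, a1⟩⟩ := ih (by omega)
    swap
    · exact ⟨x, h, Or.inr ⟨b :: s₁, b', s₂, rfl, a1⟩⟩
    by_cases hc : h ≠ 0 ∧ ev av b.2 ≠ 1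
    · exact ⟨x, h, Or.inr ⟨[], b, s, rfl, Or.inl ⟨a1, hc.1, hc.2, by omega⟩⟩⟩
    have : ∃ x' : Word 𝒬, x'.length ≤ b.2.length + (cprod s).length ∧
        CIn (semC av P I uw gw) (wmap .inl b.2 ++ cprod s) x' h := by
      rw [cin_iff] at a1
      by_cases hh : h = 0
      · subst hh
        refine ⟨b.2 ++ x, by simp; omega, cin_iff.2 ?_⟩
        rw [ev_append, ev_append, ev_cval_inl]
        simpa [mul_assoc] using a1
      · have h1 : ev av b.2 = 1 := by tauto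
        refine ⟨x, by omega, cin_iff.2 ?_⟩
        rw [ev_append, ev_cval_inl, h1, map_one, one_mul]
        exact a1
    obtain ⟨x', l1, c1⟩ := this
    have fail : CFail (semC av P I uw gw) (fun x => ev av x ∉ P ∧ x.length ≤ N) b.1 x' h →
        ∃ (x : Word 𝒬) (h : ℕ),
      (CIn (semC av P I uw gw) (cprod (b :: s)) x h ∧ h ≤ b.2.length + (cprod s).length + 1 ∧
        x.length ≤ b.2.length + (cprod s).length + 1) ∨
      ∃ (s₁ : List (CBlk 𝒬)) (b' : CBlk 𝒬) (s₂ : List (CBlk 𝒬)), b :: s = s₁ ++ b' :: s₂ ∧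
        ((CIn (semC av P I uw gw) (cprod s₂) x h ∧ h ≠ 0 ∧ ev av b'.2 ≠ 1 ∧ b'.2.length ≤ N) ∨
          (CIn (semC av P I uw gw) (wmap .inl b'.2 ++ cprod s₂) x h ∧
            CFail (semC av P I uw gw) (fun x => ev av x ∉ P ∧ x.length ≤ N) b'.1 x h)) :=
      fun hf => ⟨x', h, Or.inr ⟨[], b, s, rfl, Or.inr ⟨c1, hf⟩⟩⟩
    have c2 := cin_iff.1 c1
    rw [ev_append, ev_cval_inl] at c2
    obtain ⟨⟨l, ε⟩, w⟩ := b
    dsimp only at hN hc l1 c2 ⊢
    cases l
    · by_cases hI : I h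
      swap
      · exact fail (Or.inr ⟨rfl, Or.inl hI⟩)
      by_cases hx : ev av x' ∈ P
      · refine ⟨[], h, Or.inl ⟨cin_iff.2 ?_, by omega, by simp⟩⟩
        have h1 : sgn (pEl A h) ε ∈ Pplus P I (fun n => ev av (uw n)) fun n => ev av (gw n) := by
          cases ε
          · exact Subgroup.inv_mem _ (pEl_mem_Pplus _ _ _ hI)
          · exact pEl_mem_Pplus _ _ _ hI
        have := Subgroup.mul_mem _ h1 (Subgroup.mul_mem _ (inl_mem_Pplus_of _ _ _ hx) c2)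
        rw [ev_cprod_cons]
        convert this using 1
        cases ε <;> simp [pEl_eq, mul_assoc]
      by_cases hy : ev av (FreeGroup.invRev (cond ε (uw h) (gw h)) ++ x') ∈ P
      · refine ⟨cond ε (gw h) (uw h), h, Or.inl ⟨cin_iff.2 ?_, by omega, ?_⟩⟩
        · have h1 : sgn ((Monoid.Coprod.inl (ev av (gw h)))⁻¹ * pEl A h *
              Monoid.Coprod.inl (ev av (uw h))) ε ∈
                Pplus P I (fun n => ev av (uw n)) fun n => ev av (gw n) := by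
            cases ε
            · exact Subgroup.inv_mem _ (link_mem_Pplus _ _ _ hI)
            · exact link_mem_Pplus _ _ _ hI
          have := Subgroup.mul_mem _ h1 (Subgroup.mul_mem _ (inl_mem_Pplus_of _ _ _ hy) c2)
          rw [ev_cprod_cons]
          convert this using 1
          cases ε <;> simp [pEl_eq, mul_assoc]
        · have := hu h hI
          have := hg h hI
          cases ε <;> simp <;> omega
      · refine fail (Or.inr ⟨rfl, Or.inr ⟨⟨hx, by omega⟩, hy, ?_⟩⟩)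
        have := hu h hI
        have := hg h hI
        cases ε <;> simp [semC] <;> omega
    · cases ε
      · refine ⟨x', h + 1, Or.inl ⟨cin_iff.2 ?_, by omega, by omega⟩⟩
        rw [ev_cprod_cons]
        convert c2 using 1
        simp [pow_succ, mul_assoc]
      · rcases h with _ | h
        · exact fail (Or.inl ⟨rfl, rfl⟩)
        · refine ⟨x', h, Or.inl ⟨cin_iff.2 ?_, by omega, by omega⟩⟩
          rw [ev_cprod_cons]
          convert c2 using 1
          simp [pow_succ, mul_assoc]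

theorem certC_complete (hu : ∀ n, I n → (uw n).length ≤ n) (hg : ∀ n, I n → (gw n).length ≤ n)
    {y : Word (𝒬 ⊕ Bool)}
    (hy : ev (cval av) y ∉ Pplus P I (fun n => ev av (uw n)) fun n => ev av (gw n)) :
    CertC (semC av P I uw gw) (fun x => ev av x ≠ 1 ∧ x.length ≤ 4 * y.length)
      (fun x => ev av x ∉ P ∧ x.length ≤ 4 * y.length) y := by
  obtain ⟨q, s, e, hs, hl⟩ := exists_cred av y
  obtain ⟨x, h, hr⟩ := exists_crun (av := av) (P := P) hu hg (4 * y.length) s (by omega)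
  refine ⟨q, s, ?_, ?_, x, h, ?_⟩
  · change ev (cval av) _ = 1
    rw [ev_append, ev_append, ev_invRev, ev_cval_inl, mul_assoc, ← e, inv_mul_cancel]
  · refine List.IsChain.imp_of_mem_imp (fun a b ha _ hab => ?_) hs
    refine hab.imp_right (Or.imp_right fun h1 => ⟨h1, ?_⟩)
    have := length_le_cprod ha
    omega
  · refine hr.imp (fun ⟨a1, a2, a3⟩ => ⟨a1, ?_⟩) id
    by_cases hh : h = 0
    · subst hh
      refine Or.inr ⟨fun hin => hy ?_, by simp; omega⟩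
      have := Subgroup.mul_mem _ (inl_mem_Pplus_of _ _ _ hin) (cin_iff.1 a1)
      rw [e]
      convert this using 1
      simp [mul_assoc]
    · exact Or.inl hh

end Cert

end Vale.Agent.P193
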