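import Vale.Agent.P193.RE
import Vale.Agent.P193.EmitCore
import Mathlib.GroupTheory.GroupAction.Quotient
import Mathlib.GroupTheory.NoncommCoprod
import Mathlib.GroupTheory.Coprod.Basic

/-! The emission group: `Z × C` with a stable letter `t` such that `t ρ_i em_i = ρ_i t`. -/

namespace Vale.Agent.P193

section Group
variable {Z C : Type} [Group Z] [Group C] {ι : Type}

/-- The relators of the emission group. -/
def emRels (ρ : ι → Z) (em : ι → C) : Set (Monoid.Coprod (Z × C) (FreeGroup Unit)) :=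
  {g | ∃ i, g = .inr (.of ()) * .inl (ρ i, em i) * (.inr (.of ()))⁻¹ * (.inl (ρ i, 1))⁻¹}

/-- The emission group. -/
def Em (ρ : ι → Z) (em : ι → C) : Type :=
  Monoid.Coprod (Z × C) (FreeGroup Unit) ⧸ Subgroup.normalClosure (emRels ρ em)

namespace Em
variable {ρ : ι → Z} {em : ι → C}

instance : Group (Em ρ em) := QuotientGroup.Quotient.group _

/-- The quotient map. -/
def mk : Monoid.Coprod (Z × C) (FreeGroup Unit) →* Em ρ em := QuotientGroup.mk' _

/-- The image of `Z`. -/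
def z : Z →* Em ρ em := mk.comp (Monoid.Coprod.inl.comp (MonoidHom.inl Z C))

/-- The image of `C`. -/
def c : C →* Em ρ em := mk.comp (Monoid.Coprod.inl.comp (MonoidHom.inr Z C))

/-- The stable letter. -/
def t : Em ρ em := mk (.inr (.of ()))

theorem commute (x : Z) (y : C) : Commute (z x : Em ρ em) (c y) :=
  ((MonoidHom.commute_inl_inr x y).map Monoid.Coprod.inl).map mk

theorem mk_inl (x : Z) (y : C) : (mk (.inl (x, y)) : Em ρ em) = z x * c y := by
  have : ((x, y) : Z × C) = MonoidHom.inl Z C x * MonoidHom.inr Z C y := by simp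
  rw [this, map_mul, map_mul]; rfl

theorem rel (i : ι) : (t : Em ρ em) * z (ρ i) * c (em i) = z (ρ i) * t := by
  have h : (mk (.inr (.of ()) * .inl (ρ i, em i) * (.inr (.of ()))⁻¹ * (.inl (ρ i, 1))⁻¹) :
      Em ρ em) = 1 :=
    (QuotientGroup.eq_one_iff _).2 (Subgroup.subset_normalClosure ⟨i, rfl⟩)
  rw [map_mul, map_mul, map_mul, map_inv, map_inv, mk_inl, mk_inl, map_one, mul_one,
    mul_inv_eq_one, mul_inv_eq_iff_eq_mul, ← mul_assoc] at h
  exact h

theorem rel_ev (v : Word ι) : (t : Em ρ em) * z (ev ρ v) * c (ev em v) = z (ev ρ v) * t := by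
  induction v with
  | nil => simp
  | cons a v ih =>
    have h1 : (t : Em ρ em) * z (sgn (ρ a.1) a.2) * c (sgn (em a.1) a.2) =
        z (sgn (ρ a.1) a.2) * t := by
      have h := rel (ρ := ρ) (em := em) a.1
      cases a.2
      · rw [sgn_false, sgn_false, map_inv, map_inv, mul_assoc,
          (commute (ρ a.1) (em a.1)).inv_inv.eq, ← mul_inv_rev, mul_inv_eq_iff_eq_mul, mul_assoc,
          ← mul_assoc t, h, inv_mul_cancel_left]
      · exact h
    rw [ev_cons, ev_cons, map_mul, map_mul]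
    calc (t : Em ρ em) * (z (sgn (ρ a.1) a.2) * z (ev ρ v)) *
          (c (sgn (em a.1) a.2) * c (ev em v))
        = t * z (sgn (ρ a.1) a.2) * (z (ev ρ v) * c (sgn (em a.1) a.2)) * c (ev em v) := by
          simp only [mul_assoc]
      _ = t * z (sgn (ρ a.1) a.2) * c (sgn (em a.1) a.2) * z (ev ρ v) * c (ev em v) := by
          rw [(commute _ _).eq]; simp only [mul_assoc]
      _ = z (sgn (ρ a.1) a.2) * (t * z (ev ρ v) * c (ev em v)) := by
          rw [h1]; simp only [mul_assoc]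
      _ = _ := by rw [ih, mul_assoc]

theorem exists_lift {G : Type} [Group G] (fz : Z →* G) (fc : C →* G) (ft : G)
    (hc : ∀ x y, Commute (fz x) (fc y)) (hr : ∀ i, ft * fz (ρ i) * fc (em i) = fz (ρ i) * ft) :
    ∃ f : Em ρ em →* G, (∀ x, f (z x) = fz x) ∧ (∀ y, f (c y) = fc y) ∧ f t = ft := by
  let F : Monoid.Coprod (Z × C) (FreeGroup Unit) →* G :=
    Monoid.Coprod.lift (fz.noncommCoprod fc hc) (FreeGroup.lift fun _ => ft)
  have hF : Subgroup.normalClosure (emRels ρ em) ≤ F.ker := by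
    refine Subgroup.normalClosure_le_normal ?_
    rintro _ ⟨i, rfl⟩
    have := hr i
    simp only [SetLike.mem_coe, MonoidHom.mem_ker, map_mul, map_inv, F,
      Monoid.Coprod.lift_apply_inl, Monoid.Coprod.lift_apply_inr, FreeGroup.lift_apply_of,
      MonoidHom.noncommCoprod_apply, map_one, mul_one]
    rw [← mul_assoc, this]; simp
  refine ⟨QuotientGroup.lift _ F hF, fun x => ?_, fun y => ?_, ?_⟩
  · change F (.inl (x, 1)) = _
    simp [F]
  · change F (.inl (1, y)) = _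
    simp [F]
  · change F (.inr (.of ())) = _
    simp [F]

theorem hom_ext {G : Type} [Group G] {f g : Em ρ em →* G} (hz : ∀ x, f (z x) = g (z x))
    (hc : ∀ y, f (c y) = g (c y)) (ht : f t = g t) : f = g := by
  have : f.comp mk = g.comp mk := by
    refine Monoid.Coprod.hom_ext (MonoidHom.ext fun x => ?_) (FreeGroup.ext_hom _ _ fun _ => ht)
    change f (mk (.inl (x.1, x.2))) = g (mk (.inl (x.1, x.2)))
    rw [mk_inl, map_mul, map_mul, hz, hc]
  refine MonoidHom.ext fun x => ?_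
  obtain ⟨y, rfl⟩ := QuotientGroup.mk'_surjective _ x
  exact DFunLike.congr_fun this y

/-- Conjugates of the stable letter. -/
def τ (H : Z) : Em ρ em := z H * t * (z H)⁻¹

theorem τ_mul (H : Z) (v : Word ι) : (τ (H * ev ρ v) : Em ρ em) = τ H * c (ev em v) := by
  rw [τ, τ, map_mul, mul_assoc (z H), ← rel_ev, mul_assoc t, (commute _ _).eq, mul_assoc _ _ (c _),
    (commute H _).inv_left.eq]
  simp only [mul_inv_rev, mul_assoc, mul_inv_cancel_left]

/-- The subgroup generated by `R`, the `τ H` with `H ∈ O`, and `Q`. -/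
def Psub (ρ : ι → Z) (em : ι → C) (R : Subgroup Z) (O : Set Z) (Q : Subgroup C) :
    Subgroup (Em ρ em) :=
  Subgroup.closure ({g | ∃ x ∈ R, z x = g} ∪ {g | ∃ H ∈ O, τ H = g} ∪ {g | ∃ y ∈ Q, c y = g})

/-- The standing hypotheses. -/
structure Good (ρ : ι → Z) (em : ι → C) (R : Subgroup Z) (O : Set Z) (Q : Subgroup C) :
    Prop where
  wd : ∀ v, ev ρ v = 1 → ev em v = 1
  inv : ∀ x ∈ R, ∀ H ∈ O, x * H ∈ O
  loop : ∀ H ∈ O, ∀ v, H * ev ρ v ∈ O → ev em v ∈ Q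

theorem good_bot (wd : ∀ v, ev ρ v = 1 → ev em v = 1) : Good ρ em ⊥ ∅ ⊥ :=
  ⟨wd, by simp, by simp⟩

theorem Psub_bot : Psub ρ em ⊥ ∅ ⊥ = ⊥ := by
  rw [Psub, Subgroup.closure_eq_bot_iff]
  rintro g ((⟨x, hx, rfl⟩ | ⟨H, hH, -⟩) | ⟨y, hy, rfl⟩)
  · rw [Subgroup.mem_bot.1 hx, map_one]; rfl
  · exact hH.elim
  · rw [Subgroup.mem_bot.1 hy, map_one]; rfl

variable {R : Subgroup Z} {O : Set Z} {Q : Subgroup C}

theorem z_mem_of {x : Z} (h : x ∈ R) : z x ∈ Psub ρ em R O Q :=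
  Subgroup.subset_closure (Or.inl (Or.inl ⟨x, h, rfl⟩))

theorem τ_mem_of {H : Z} (h : H ∈ O) : τ H ∈ Psub ρ em R O Q :=
  Subgroup.subset_closure (Or.inl (Or.inr ⟨H, h, rfl⟩))

theorem c_mem_of {y : C} (h : y ∈ Q) : c y ∈ Psub ρ em R O Q :=
  Subgroup.subset_closure (Or.inr ⟨y, h, rfl⟩)

theorem exists_pi (ρ : ι → Z) (em : ι → C) : ∃ π : Em ρ em →* Z, (∀ x, π (z x) = x) ∧
    (∀ y, π (c y) = 1) ∧ (∀ H, π (τ H) = 1) ∧
      ∀ R O Q, ∀ g ∈ Psub ρ em R O Q, π g ∈ R := by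
  obtain ⟨π, h1, h2, h3⟩ := exists_lift (ρ := ρ) (em := em) (MonoidHom.id Z) (1 : C →* Z) 1
    (fun x y => Commute.one_right _) (fun i => by simp)
  have h4 : ∀ H, π (τ H) = 1 := fun H => by simp [τ, h3]
  refine ⟨π, h1, h2, h4, fun R O Q g hg => ?_⟩
  refine (Subgroup.closure_le (R.comap π)).2 ?_ hg
  rintro g ((⟨x, hx, rfl⟩ | ⟨H, -, rfl⟩) | ⟨y, -, rfl⟩)
  · simpa [h1] using hx
  · simp [h4]
  · simp [h2]

theorem exists_act {X : Type} (fc : C →* Equiv.Perm X) (τ' : Z → Equiv.Perm X)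
    (h : ∀ H i, τ' (H * ρ i) = τ' H * fc (em i)) :
    ∃ f : Em ρ em →* Equiv.Perm (Z × X), (∀ x k p, f (z x) (k, p) = (x * k, p)) ∧
      (∀ y k p, f (c y) (k, p) = (k, fc y p)) ∧
        ∀ H k p, f (τ H) (k, p) = (k, τ' (k⁻¹ * H) p) := by
  let fz : Z →* Equiv.Perm (Z × X) :=
    { toFun := fun x => Equiv.prodCongr (Equiv.mulLeft x) (Equiv.refl X)
      map_one' := Equiv.ext fun p => by simp
      map_mul' := fun x y => Equiv.ext fun p => Prod.ext (mul_assoc _ _ _) rfl }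
  let fc' : C →* Equiv.Perm (Z × X) :=
    { toFun := fun y => Equiv.prodCongr (Equiv.refl Z) (fc y)
      map_one' := Equiv.ext fun p => by simp
      map_mul' := fun x y => Equiv.ext fun p => by
        rw [map_mul]; rfl }
  obtain ⟨f, h1, h2, h3⟩ := exists_lift (ρ := ρ) (em := em) fz fc'
    (Equiv.prodCongrRight fun k : Z => τ' k⁻¹) (fun x y => Equiv.ext fun p => rfl)
    (fun i => Equiv.ext fun p => by
      change (ρ i * p.1, τ' (ρ i * p.1)⁻¹ (fc (em i) p.2)) = (ρ i * p.1, τ' p.1⁻¹ p.2)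
      rw [← Equiv.Perm.mul_apply, ← h]; simp)
  refine ⟨f, fun x k p => by rw [h1]; rfl, fun y k p => by rw [h2]; rfl, fun H k p => ?_⟩
  rw [τ, ← map_inv, map_mul, map_mul, h1, h1, h3]
  change (H * (H⁻¹ * k), τ' (H⁻¹ * k)⁻¹ p) = _
  simp

theorem exists_rep (wd : ∀ v, ev ρ v = 1 → ev em v = 1) (O : Set Z) :
    ∃ (ω : Z → Z) (e : Z → C), (∀ H, ∃ v, H = ω H * ev ρ v ∧ e H = ev em v) ∧
      (∀ H v, ω (H * ev ρ v) = ω H) ∧ (∀ H v, e (H * ev ρ v) = e H * ev em v) ∧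
        ∀ H ∈ O, ω H ∈ O := by
  classical
  let Φ := Subgroup.closure (Set.range ρ)
  let rp : Z ⧸ Φ → Z := fun q => if h : ∃ H ∈ O, (H : Z ⧸ Φ) = q then h.choose else q.out
  have h1 : ∀ q, (rp q : Z ⧸ Φ) = q := fun q => by
    simp only [rp]
    split_ifs with h
    · exact h.choose_spec.2
    · exact QuotientGroup.out_eq' q
  have h2 : ∀ H : Z, ∃ v, H = rp H * ev ρ v := fun H => by
    obtain ⟨v, hv⟩ := exists_ev_of_mem_closure ρ (QuotientGroup.eq.1 (h1 H))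
    exact ⟨v, by rw [hv, mul_inv_cancel_left]⟩
  choose V hV using h2
  have h3 : ∀ (H : Z) v, rp (H * ev ρ v : Z) = rp H := fun H v => by
    congr 1
    exact QuotientGroup.mk_mul_of_mem H ((mem_closure_range_iff ρ).2 ⟨v, rfl⟩)
  refine ⟨fun H => rp H, fun H => ev em (V H), fun H => ⟨V H, hV H, rfl⟩, h3, fun H v => ?_,
    fun H hH => ?_⟩
  · have h4 := hV (H * ev ρ v)
    rw [h3] at h4
    have h5 : ev ρ (FreeGroup.invRev (V (H * ev ρ v)) ++ (V H ++ v)) = 1 := by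
      rw [ev_append, ev_append, ev_invRev, inv_mul_eq_one]
      refine mul_left_cancel (a := rp H) ?_
      rw [← h4, ← mul_assoc, ← hV H]
    have h6 := wd _ h5
    rwa [ev_append, ev_append, ev_invRev, inv_mul_eq_one] at h6
  · have h : ∃ H' ∈ O, (H' : Z ⧸ Φ) = H := ⟨H, hH, rfl⟩
    simp only [rp, dif_pos h]
    exact h.choose_spec.1

/-- The relations of the letters: only letters in `O` are defined, and only at the base point. -/
def orel (O : Set Z) (Q : Subgroup C) (w : Z) (y y' : C ⧸ Q) : Prop :=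
  w ∈ O ∧ y = (1 : C) ∧ y' = (1 : C)

theorem app_orel {l : Z × Bool} {y y' : C ⧸ Q} :
    app (orel O Q) l y y' ↔ l.1 ∈ O ∧ y = (1 : C) ∧ y' = (1 : C) := by
  rcases l with ⟨w, _ | _⟩
  · exact ⟨fun h => ⟨h.1, h.2.2, h.2.1⟩, fun h => ⟨h.1, h.2.2, h.2.1⟩⟩
  · rfl

/-- A permutation model of the emission group. -/
structure Model (ρ : ι → Z) (em : ι → C) (O : Set Z) (Q : Subgroup C) where
  ω : Z → Z
  e : Z → C
  K : Core C (orel O Q)
  f : Em ρ em →* Equiv.Perm (Z × K.X)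
  rep : ∀ H, ∃ v, H = ω H * ev ρ v ∧ e H = ev em v
  e_mul : ∀ H v, e (H * ev ρ v) = e H * ev em v
  ω_mem : ∀ H ∈ O, ω H ∈ O
  f_z : ∀ x k p, f (z x) (k, p) = (x * k, p)
  f_c : ∀ y k p, f (c y) (k, p) = (k, K.pa y p)
  f_τ : ∀ H k p, f (τ H) (k, p) = (k, (K.pl (ω (k⁻¹ * H)) * K.pa (e (k⁻¹ * H))) p)

theorem exists_model (wd : ∀ v, ev ρ v = 1 → ev em v = 1) (O : Set Z) (Q : Subgroup C) :
    Nonempty (Model ρ em O Q) := by
  obtain ⟨ω, e, h1, h2, h3, h4⟩ := exists_rep wd O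
  obtain ⟨K⟩ := exists_core C (orel O Q) (fun _ _ _ _ a b => a.2.2.trans b.2.2.symm)
    (fun _ _ _ _ a b => a.2.1.trans b.2.1.symm)
  obtain ⟨f, a1, a2, a3⟩ := exists_act (ρ := ρ) (em := em) K.pa
    (fun H => K.pl (ω H) * K.pa (e H)) (fun H i => by
      have b1 := h2 H [(i, true)]
      have b2 := h3 H [(i, true)]
      simp only [ev_single, sgn_true] at b1 b2
      rw [b1, b2, map_mul, mul_assoc])
  exact ⟨⟨ω, e, K, f, h1, h3, h4, a1, a2, a3⟩⟩

namespace Model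
variable (M : Model ρ em O Q)

/-- The base point. -/
def o : M.K.X := M.K.base ((1 : C) : C ⧸ Q)

theorem smul_one_eq {y : C} : y • ((1 : C) : C ⧸ Q) = (1 : C) ↔ y ∈ Q := by
  rw [MulAction.Quotient.smul_coe, QuotientGroup.eq]; simp

theorem pa_o {y : C} : M.K.pa y M.o = M.o ↔ y ∈ Q := by
  rw [o, M.K.pa_base, M.K.base_inj.eq_iff, smul_one_eq]

theorem e_mem (h : Good ρ em R O Q) {H : Z} (hH : H ∈ O) : M.e H ∈ Q := by
  obtain ⟨v, h1, h2⟩ := M.rep H
  rw [h2]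
  exact h.loop _ (M.ω_mem H hH) v (h1 ▸ hH)

theorem not_mem {H : Z} (hH : ∀ v, H * ev ρ v ∉ O) : M.ω H ∉ O := fun h => by
  obtain ⟨v, h1, -⟩ := M.rep H
  refine hH (FreeGroup.invRev v) ?_
  rw [ev_invRev]
  nth_rw 1 [h1]
  rwa [mul_inv_cancel_right]

theorem exists_of_ω_eq {H H' : Z} (h : M.ω H = M.ω H') : ∃ v, ev ρ v = H⁻¹ * H' := by
  obtain ⟨v, h1, -⟩ := M.rep H
  obtain ⟨v', h2, -⟩ := M.rep H'
  refine ⟨FreeGroup.invRev v ++ v', ?_⟩
  rw [ev_append, ev_invRev]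
  nth_rw 1 [h1, h2]
  rw [h]; simp [mul_assoc]

theorem fix (h : Good ρ em R O Q) {g : Em ρ em} (hg : g ∈ Psub ρ em R O Q) :
    ∃ x ∈ R, ∀ r ∈ R, M.f g (r, M.o) = (x * r, M.o) := by
  induction hg using Subgroup.closure_induction with
  | mem g hg =>
    rcases hg with (⟨x, hx, rfl⟩ | ⟨H, hH, rfl⟩) | ⟨y, hy, rfl⟩
    · exact ⟨x, hx, fun r _ => M.f_z _ _ _⟩
    · refine ⟨1, R.one_mem, fun r hr => ?_⟩
      have h1 := h.inv _ (R.inv_mem hr) H hH
      rw [M.f_τ, Equiv.Perm.mul_apply, M.pa_o.2 (M.e_mem h h1), one_mul]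
      exact congrArg _ (M.K.pl_some (_, true) _ _ (app_orel.2 ⟨M.ω_mem _ h1, rfl, rfl⟩))
    · exact ⟨1, R.one_mem, fun r _ => by rw [M.f_c, M.pa_o.2 hy, one_mul]⟩
  | one => exact ⟨1, R.one_mem, fun r _ => by simp⟩
  | mul g g' _ _ hg hg' =>
    obtain ⟨x, hx, h1⟩ := hg
    obtain ⟨x', hx', h2⟩ := hg'
    refine ⟨x * x', R.mul_mem hx hx', fun r hr => ?_⟩
    rw [map_mul, Equiv.Perm.mul_apply, h2 r hr, h1 _ (R.mul_mem hx' hr), mul_assoc]
  | inv g _ hg =>
    obtain ⟨x, hx, h1⟩ := hg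
    refine ⟨x⁻¹, R.inv_mem hx, fun r hr => ?_⟩
    rw [map_inv, Equiv.Perm.inv_eq_iff_eq, h1 _ (R.mul_mem (R.inv_mem hx) hr),
      mul_inv_cancel_left]

theorem f_τ_sgn (H : Z) (ε : Bool) (p : M.K.X) :
    M.f (sgn (τ H) ε) (1, p) = (1, sgn (M.K.pl (M.ω H) * M.K.pa (M.e H)) ε p) := by
  cases ε
  · rw [sgn_false, sgn_false, map_inv, Equiv.Perm.inv_eq_iff_eq, M.f_τ, inv_one, one_mul]
    simp
  · rw [sgn_true, sgn_true, M.f_τ, inv_one, one_mul]

end Model

theorem c_mem_Psub (h : Good ρ em R O Q) (y : C) : c y ∈ Psub ρ em R O Q ↔ y ∈ Q := by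
  refine ⟨fun hy => ?_, c_mem_of⟩
  obtain ⟨M⟩ := exists_model h.wd O Q
  obtain ⟨x, -, hx⟩ := M.fix h hy
  have := hx 1 R.one_mem
  rw [M.f_c] at this
  exact M.pa_o.1 (congrArg Prod.snd this)

theorem c_injective (wd : ∀ v, ev ρ v = 1 → ev em v = 1) :
    Function.Injective (c : C →* Em ρ em) := by
  refine (injective_iff_map_eq_one _).2 fun y hy => ?_
  have := (c_mem_Psub (good_bot wd) y).1 (hy ▸ Subgroup.one_mem _)
  exact Subgroup.mem_bot.1 this

theorem z_mem_Psub (x : Z) : z x ∈ Psub ρ em R O Q ↔ x ∈ R := by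
  refine ⟨fun hx => ?_, z_mem_of⟩
  obtain ⟨π, h1, -, -, h4⟩ := exists_pi ρ em
  exact h1 x ▸ h4 R O Q _ hx

theorem conj_not_mem (h : Good ρ em R O Q) {H : Z} (hH : ∀ v, H * ev ρ v ∉ O) {y : C}
    (hy : y ≠ 1) : τ H * c y * (τ H)⁻¹ ∉ Psub ρ em R O Q := by
  intro hin
  obtain ⟨M⟩ := exists_model h.wd O Q
  obtain ⟨x, -, hx⟩ := M.fix h hin
  have h1 := hx 1 R.one_mem
  have h2 := M.f_τ_sgn H false M.o
  rw [sgn_false] at h2
  rw [map_mul, map_mul, Equiv.Perm.mul_apply, Equiv.Perm.mul_apply, h2, M.f_c, M.f_τ, inv_one,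
    one_mul] at h1
  have h3 := congrArg Prod.snd h1
  have h4 : M.K.Top 1 (M.ω H, false) ((M.K.pl (M.ω H))⁻¹ M.o) :=
    M.K.pl_none (M.ω H, false) _ fun y' hy' => M.not_mem hH (app_orel.1 hy').1
  have h5 := M.K.pl_top (M.ω H, true) _ _ _ (M.K.pa_top (M.e H * y * (M.e H)⁻¹) _ _ _ h4)
    (fun h6 => hy (by simpa using h6.1))
  refine M.K.top_ne 1 (M.ω H, true) ((1 : C) : C ⧸ Q) ?_
  convert h5 using 1
  refine h3.symm.trans ?_
  simp

theorem exists_chi (h : Good ρ em R O ⊤) {G : Type} [Group G] (θ : C →* G)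
    (hθ : ∀ H ∈ O, ∀ v, H * ev ρ v ∈ O → θ (ev em v) = 1) :
    ∃ χ : Psub ρ em R O ⊤ →* G, ∀ g : Psub ρ em R O ⊤,
      (∀ x ∈ R, z x = g.1 → χ g = 1) ∧ (∀ H ∈ O, τ H = g.1 → χ g = 1) ∧
        ∀ y, c y = g.1 → χ g = θ y := by
  obtain ⟨ω, e, h1, h2, h3, h4⟩ := exists_rep h.wd O
  obtain ⟨f, a1, a2, a3⟩ := exists_act (ρ := ρ) (em := em) ((MulAction.toPermHom G G).comp θ)
    (fun H => MulAction.toPermHom G G (θ (e H))) (fun H i => by
      have b2 := h3 H [(i, true)]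
      simp only [ev_single, sgn_true] at b2
      rw [b2, map_mul, map_mul]; rfl)
  have hO : ∀ H ∈ O, θ (e H) = 1 := fun H hH => by
    obtain ⟨v, b1, b2⟩ := h1 H
    rw [b2]
    exact hθ _ (h4 H hH) v (b1 ▸ hH)
  have key : ∀ g ∈ Psub ρ em R O ⊤, ∃ x ∈ R, ∃ k : G, ∀ r ∈ R, ∀ p : G,
      f g (r, p) = (x * r, k * p) := by
    intro g hg
    induction hg using Subgroup.closure_induction with
    | mem g hg =>
      rcases hg with (⟨x, hx, rfl⟩ | ⟨H, hH, rfl⟩) | ⟨y, -, rfl⟩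
      · exact ⟨x, hx, 1, fun r _ p => by rw [a1, one_mul]⟩
      · refine ⟨1, R.one_mem, 1, fun r hr p => ?_⟩
        rw [a3, hO _ (h.inv _ (R.inv_mem hr) H hH)]; simp
      · exact ⟨1, R.one_mem, θ y, fun r _ p => by rw [a2, one_mul]; rfl⟩
    | one => exact ⟨1, R.one_mem, 1, fun r _ p => by simp⟩
    | mul g g' _ _ hg hg' =>
      obtain ⟨x, hx, k, b1⟩ := hg
      obtain ⟨x', hx', k', b2⟩ := hg'
      refine ⟨x * x', R.mul_mem hx hx', k * k', fun r hr p => ?_⟩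
      rw [map_mul, Equiv.Perm.mul_apply, b2 r hr, b1 _ (R.mul_mem hx' hr), mul_assoc, mul_assoc]
    | inv g _ hg =>
      obtain ⟨x, hx, k, b1⟩ := hg
      refine ⟨x⁻¹, R.inv_mem hx, k⁻¹, fun r hr p => ?_⟩
      rw [map_inv, Equiv.Perm.inv_eq_iff_eq, b1 _ (R.mul_mem (R.inv_mem hx) hr),
        mul_inv_cancel_left, mul_inv_cancel_left]
  refine ⟨MonoidHom.mk' (fun g => (f g.1 (1, 1)).2) fun g g' => ?_, fun g => ⟨?_, ?_, ?_⟩⟩
  · obtain ⟨x, hx, k, b1⟩ := key g.1 g.2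
    obtain ⟨x', hx', k', b2⟩ := key g'.1 g'.2
    rw [Subgroup.coe_mul, map_mul, Equiv.Perm.mul_apply, b2 1 R.one_mem,
      b1 _ (R.mul_mem hx' R.one_mem), b1 1 R.one_mem]
    simp
  · intro x _ hx
    change (f g.1 (1, 1)).2 = 1
    rw [← hx, a1]
  · intro H hH hx
    change (f g.1 (1, 1)).2 = 1
    rw [← hx, a3, inv_one, one_mul, hO H hH]; simp
  · intro y hx
    change (f g.1 (1, 1)).2 = θ y
    rw [← hx, a2]; simp

end Em
end Group

section Cert
variable {ζ 𝒞 ι : Type}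

/-- The alphabet of the emission group. -/
abbrev ELet (ζ 𝒞 : Type) := ζ ⊕ 𝒞 ⊕ Unit

/-- One block `τ(H)^ε γ` of a normal form. -/
abbrev EBlk (ζ 𝒞 : Type) := Word ζ × Bool × Word 𝒞

/-- A normal form `γ₀ τ(H₁)^ε₁ γ₁ ⋯ τ(Hₙ)^εₙ γₙ z(last)`. -/
abbrev EForm (ζ 𝒞 : Type) := Word 𝒞 × List (EBlk ζ 𝒞) × Word ζ

/-- The word of a block. -/
def EBlk.word (b : EBlk ζ 𝒞) : Word (ELet ζ 𝒞) :=
  wmap .inl b.1 ++ (.inr (.inr ()), b.2.1) :: wmap .inl (FreeGroup.invRev b.1) ++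
    wmap (fun a => .inr (.inl a)) b.2.2

/-- The word of a normal form. -/
def EForm.word (f : EForm ζ 𝒞) : Word (ELet ζ 𝒞) :=
  wmap (fun a => .inr (.inl a)) f.1 ++ f.2.1.flatMap EBlk.word ++ wmap .inl f.2.2

/-- The atomic predicates used by certificates. -/
structure EAt (ζ 𝒞 : Type) where
  eqK : Word (ELet ζ 𝒞) → Prop
  eqZ : Word ζ → Prop
  notPhi : Word ζ → Prop
  notR : Word ζ → Prop
  inP : Word ζ → Prop
  notOrb : Word ζ → Prop

/-- Two consecutive blocks do not cancel. -/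
def ERed (ρw : ι → Word ζ) (emw : ι → Word 𝒞) (A : EAt ζ 𝒞) (Ne : Word 𝒞 → Prop)
    (a b : EBlk ζ 𝒞) : Prop :=
  a.2.1 = b.2.1 ∨ A.notPhi (FreeGroup.invRev a.1 ++ b.1) ∨
    ∃ v : Word ι, A.eqZ (FreeGroup.invRev a.1 ++ b.1 ++ FreeGroup.invRev (subst ρw v)) ∧
      Ne (cond a.2.1 (a.2.2 ++ FreeGroup.invRev (subst emw v)) a.2.2)

/-- A certificate that a word does not lie in `Psub`. -/
def CertE (ρw : ι → Word ζ) (emw : ι → Word 𝒞) (A : EAt ζ 𝒞) (Ne NotP : Word 𝒞 → Prop)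
    (u : Word (ELet ζ 𝒞)) : Prop :=
  ∃ f : EForm ζ 𝒞, A.eqK (FreeGroup.invRev u ++ f.word) ∧
    List.IsChain (ERed ρw emw A Ne) f.2.1 ∧
    (A.notR f.2.2 ∨ (∃ b ∈ f.2.1, A.notOrb b.1) ∨
      ((∀ b ∈ f.2.1, A.inP b.1) ∧ (NotP f.1 ∨ ∃ b ∈ f.2.1, NotP b.2.2)))

theorem CertE.mono {ρw : ι → Word ζ} {emw : ι → Word 𝒞} {A A' : EAt ζ 𝒞}
    {Ne NotP Ne' NotP' : Word 𝒞 → Prop} (h1 : ∀ x, A.eqK x → A'.eqK x)
    (h2 : ∀ x, A.eqZ x → A'.eqZ x) (h3 : ∀ x, A.notPhi x → A'.notPhi x)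
    (h4 : ∀ x, A.notR x → A'.notR x) (h5 : ∀ x, A.inP x → A'.inP x)
    (h6 : ∀ x, A.notOrb x → A'.notOrb x) (h7 : ∀ x, Ne x → Ne' x) (h8 : ∀ x, NotP x → NotP' x)
    {u : Word (ELet ζ 𝒞)} (h : CertE ρw emw A Ne NotP u) : CertE ρw emw A' Ne' NotP' u := by
  obtain ⟨f, a1, a2, a3⟩ := h
  refine ⟨f, h1 _ a1, a2.imp fun a b hab => hab.imp_right (Or.imp (h3 _)
    fun ⟨v, b1, b2⟩ => ⟨v, h2 _ b1, h7 _ b2⟩), a3.imp (h4 _) (Or.imp
      (fun ⟨b, b1, b2⟩ => ⟨b, b1, h6 _ b2⟩) fun ⟨b1, b2⟩ => ⟨fun b hb => h5 _ (b1 b hb),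
        b2.imp (h8 _) fun ⟨b, c1, c2⟩ => ⟨b, c1, h8 _ c2⟩⟩)⟩

theorem primrec_eblk_word [Primcodable ζ] [Primcodable 𝒞] :
    Primrec (EBlk.word : EBlk ζ 𝒞 → Word (ELet ζ 𝒞)) :=
  Lib.Comp.pr_append (Lib.Comp.pr_append (primrec_wmap Primrec.sumInl (by fun_prop))
    (Lib.Comp.pr_cons (by fun_prop) (primrec_wmap Primrec.sumInl (by fun_prop))))
    (primrec_wmap (Primrec.sumInr.comp Primrec.sumInl) (by fun_prop))

theorem primrec_eform_word [Primcodable ζ] [Primcodable 𝒞] :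
    Primrec (EForm.word : EForm ζ 𝒞 → Word (ELet ζ 𝒞)) :=
  Lib.Comp.pr_append (Lib.Comp.pr_append
    (primrec_wmap (Primrec.sumInr.comp Primrec.sumInl) (by fun_prop))
    (Lib.Comp.pr_flatMap (g := fun _ (b : EBlk ζ 𝒞) => b.word) (by fun_prop)
      (primrec_eblk_word.comp Primrec.snd)))
    (primrec_wmap Primrec.sumInl (by fun_prop))

theorem computable_subst_fin {π α β : Type} [Primcodable π] [Primcodable α] [Primcodable β]
    [Finite α] (f : α → Word β) {w : π → Word α} (hw : Computable w) :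
    Computable fun a => subst f (w a) :=
  computable_subst (f := fun _ => f) ((primrec_of_finite f).to_comp.comp Computable.snd) hw

theorem EnumOp.exists_mem {α β γ : Type} [Primcodable α] [Primcodable β] [Primcodable γ]
    {F : (β → Prop) → α → γ → Prop} {l : α → List γ} (hl : Computable l)
    (h : EnumOp fun S (x : α × γ) => F S x.1 x.2) : EnumOp fun S a => ∃ c ∈ l a, F S a c :=
  EnumOp.exists (F := fun S a c => c ∈ l a ∧ F S a c)
    (EnumOp.and (EnumOp.const (re_mem_list Computable.snd (hl.comp Computable.fst))) h)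

theorem certE_enumOp {π β : Type} [Primcodable ζ] [Primcodable 𝒞] [Primcodable ι] [Finite ι]
    [Primcodable π] [Primcodable β] (ρw : ι → Word ζ) (emw : ι → Word 𝒞) (A : π → EAt ζ 𝒞)
    (Ne NotP : (β → Prop) → π → Word 𝒞 → Prop)
    (h1 : REPred fun x : π × Word (ELet ζ 𝒞) => (A x.1).eqK x.2)
    (h2 : REPred fun x : π × Word ζ => (A x.1).eqZ x.2)
    (h3 : REPred fun x : π × Word ζ => (A x.1).notPhi x.2)
    (h4 : REPred fun x : π × Word ζ => (A x.1).notR x.2)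
    (h5 : REPred fun x : π × Word ζ => (A x.1).inP x.2)
    (h6 : REPred fun x : π × Word ζ => (A x.1).notOrb x.2)
    (h7 : EnumOp fun S (x : π × Word 𝒞) => Ne S x.1 x.2)
    (h8 : EnumOp fun S (x : π × Word 𝒞) => NotP S x.1 x.2) :
    EnumOp fun S (x : π × Word (ELet ζ 𝒞)) =>
      CertE ρw emw (A x.1) (Ne S x.1) (NotP S x.1) x.2 := by
  have hred : EnumOp fun S (x : π × EBlk ζ 𝒞 × EBlk ζ 𝒞) =>
      ERed ρw emw (A x.1) (Ne S x.1) x.2.1 x.2.2 :=
    EnumOp.or (EnumOp.const (re_eq (by fun_prop) (by fun_prop)))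
      (EnumOp.or (EnumOp.const (re_comp h3 (f := fun x : π × EBlk ζ 𝒞 × EBlk ζ 𝒞 =>
        (x.1, FreeGroup.invRev x.2.1.1 ++ x.2.2.1)) (by fun_prop)))
        (EnumOp.exists (F := fun S (x : π × EBlk ζ 𝒞 × EBlk ζ 𝒞) (v : Word ι) =>
          (A x.1).eqZ (FreeGroup.invRev x.2.1.1 ++ x.2.2.1 ++ FreeGroup.invRev (subst ρw v)) ∧
            Ne S x.1 (cond x.2.1.2.1 (x.2.1.2.2 ++ FreeGroup.invRev (subst emw v)) x.2.1.2.2))
          (EnumOp.and (EnumOp.const (re_comp h2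
            (f := fun x : (π × EBlk ζ 𝒞 × EBlk ζ 𝒞) × Word ι => (x.1.1,
              FreeGroup.invRev x.1.2.1.1 ++ x.1.2.2.1 ++ FreeGroup.invRev (subst ρw x.2)))
            (Lib.Comp.co_pair (by fun_prop) (Lib.Comp.co_append (by fun_prop)
              (computable_invRev (computable_subst_fin ρw Computable.snd))))))
            (h7.comp (f := fun x : (π × EBlk ζ 𝒞 × EBlk ζ 𝒞) × Word ι => (x.1.1,
              cond x.1.2.1.2.1 (x.1.2.1.2.2 ++ FreeGroup.invRev (subst emw x.2)) x.1.2.1.2.2))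
              (Lib.Comp.co_pair (by fun_prop) (Computable.cond (by fun_prop)
                (Lib.Comp.co_append (by fun_prop)
                  (computable_invRev (computable_subst_fin emw Computable.snd)))
                (by fun_prop)))))))
  exact EnumOp.exists (F := fun S (x : π × Word (ELet ζ 𝒞)) (f : EForm ζ 𝒞) =>
      (A x.1).eqK (FreeGroup.invRev x.2 ++ f.word) ∧
      List.IsChain (ERed ρw emw (A x.1) (Ne S x.1)) f.2.1 ∧
      ((A x.1).notR f.2.2 ∨ (∃ b ∈ f.2.1, (A x.1).notOrb b.1) ∨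
        ((∀ b ∈ f.2.1, (A x.1).inP b.1) ∧ (NotP S x.1 f.1 ∨ ∃ b ∈ f.2.1, NotP S x.1 b.2.2))))
    (EnumOp.and (EnumOp.const (re_comp h1
      (f := fun x : (π × Word (ELet ζ 𝒞)) × EForm ζ 𝒞 =>
        (x.1.1, FreeGroup.invRev x.1.2 ++ x.2.word))
      (Lib.Comp.co_pair (by fun_prop) (Lib.Comp.co_append (by fun_prop)
        (primrec_eform_word.to_comp.comp Computable.snd)))))
    (EnumOp.and (EnumOp.isChain
      (R := fun S (x : (π × Word (ELet ζ 𝒞)) × EForm ζ 𝒞) => ERed ρw emw (A x.1.1) (Ne S x.1.1))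
      (by fun_prop) (hred.comp (f := fun x : ((π × Word (ELet ζ 𝒞)) × EForm ζ 𝒞) ×
        EBlk ζ 𝒞 × EBlk ζ 𝒞 => (x.1.1.1, x.2)) (by fun_prop)))
    (EnumOp.or (EnumOp.const (re_comp h4
      (f := fun x : (π × Word (ELet ζ 𝒞)) × EForm ζ 𝒞 => (x.1.1, x.2.2.2)) (by fun_prop)))
    (EnumOp.or (EnumOp.exists_mem
      (F := fun _ (x : (π × Word (ELet ζ 𝒞)) × EForm ζ 𝒞) (b : EBlk ζ 𝒞) =>
        (A x.1.1).notOrb b.1) (by fun_prop) (EnumOp.const (re_comp h6
          (f := fun x : ((π × Word (ELet ζ 𝒞)) × EForm ζ 𝒞) × EBlk ζ 𝒞 => (x.1.1.1, x.2.1))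
          (by fun_prop))))
    (EnumOp.and (EnumOp.forall_mem
      (F := fun _ (x : (π × Word (ELet ζ 𝒞)) × EForm ζ 𝒞) (b : EBlk ζ 𝒞) =>
        (A x.1.1).inP b.1) (by fun_prop) (EnumOp.const (re_comp h5
          (f := fun x : ((π × Word (ELet ζ 𝒞)) × EForm ζ 𝒞) × EBlk ζ 𝒞 => (x.1.1.1, x.2.1))
          (by fun_prop))))
    (EnumOp.or (h8.comp
      (f := fun x : (π × Word (ELet ζ 𝒞)) × EForm ζ 𝒞 => (x.1.1, x.2.1)) (by fun_prop))
    (EnumOp.exists_mem
      (F := fun S (x : (π × Word (ELet ζ 𝒞)) × EForm ζ 𝒞) (b : EBlk ζ 𝒞) =>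
        NotP S x.1.1 b.2.2) (by fun_prop) (h8.comp
          (f := fun x : ((π × Word (ELet ζ 𝒞)) × EForm ζ 𝒞) × EBlk ζ 𝒞 => (x.1.1.1, x.2.2.2))
          (by fun_prop)))))))))

variable {Z C : Type} [Group Z] [Group C] (zv : ζ → Z) (cv : 𝒞 → C) (ρw : ι → Word ζ)
  (emw : ι → Word 𝒞)

/-- The emission group given by words. -/
abbrev EmW : Type := Em (fun i => ev zv (ρw i)) (fun i => ev cv (emw i))

/-- The values of the letters. -/
def eval : ELet ζ 𝒞 → EmW zv cv ρw emw :=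
  Sum.elim (fun a => Em.z (zv a)) (Sum.elim (fun a => Em.c (cv a)) fun _ => Em.t)

/-- The intended meaning of the atomic predicates. -/
def semE (R : Subgroup Z) (O : Set Z) : EAt ζ 𝒞 where
  eqK x := ev (eval zv cv ρw emw) x = 1
  eqZ x := ev zv x = 1
  notPhi x := ∀ v, ev (fun i => ev zv (ρw i)) v ≠ ev zv x
  notR x := ev zv x ∉ R
  inP x := ev zv x ∈ O
  notOrb x := ∀ v, ev zv x * ev (fun i => ev zv (ρw i)) v ∉ O

/-- Weight of a word: letters of `C` count `κ`, the others count one. -/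
def ewt (κ : ℕ) (u : Word (ELet ζ 𝒞)) : ℕ :=
  (u.map fun a => Sum.elim (fun _ => 1) (Sum.elim (fun _ => κ) fun _ => 1) a.1).sum

variable {zv cv ρw emw} {R : Subgroup Z} {O : Set Z} {Q : Subgroup C}

theorem ev_eval_z (x : Word ζ) :
    ev (eval zv cv ρw emw) (wmap .inl x) = Em.z (ev zv x) := by
  rw [ev_wmap, map_ev]; rfl

theorem ev_eval_c (x : Word 𝒞) :
    ev (eval zv cv ρw emw) (wmap (fun a => .inr (.inl a)) x) = Em.c (ev cv x) := by
  rw [ev_wmap, map_ev]; rfl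

theorem ev_eval_blk (b : EBlk ζ 𝒞) : ev (eval zv cv ρw emw) b.word =
    sgn (Em.τ (ev zv b.1)) b.2.1 * Em.c (ev cv b.2.2) := by
  rw [EBlk.word, ev_append, ev_append, ev_cons, ev_eval_z, ev_eval_z, ev_eval_c, ev_invRev,
    map_inv]
  obtain ⟨H, _ | _, γ⟩ := b <;> simp [Em.τ, eval, mul_assoc]

/-- The value of a list of blocks. -/
def sval (zv : ζ → Z) (cv : 𝒞 → C) (ρw : ι → Word ζ) (emw : ι → Word 𝒞)
    (s : List (EBlk ζ 𝒞)) : EmW zv cv ρw emw :=
  ev (eval zv cv ρw emw) (s.flatMap EBlk.word)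

theorem sval_nil : sval zv cv ρw emw [] = 1 := ev_nil _

theorem sval_cons (b : EBlk ζ 𝒞) (s : List (EBlk ζ 𝒞)) : sval zv cv ρw emw (b :: s) =
    sgn (Em.τ (ev zv b.1)) b.2.1 * Em.c (ev cv b.2.2) * sval zv cv ρw emw s := by
  rw [sval, List.flatMap_cons, ev_append, ev_eval_blk]; rfl

theorem ev_eval_form (f : EForm ζ 𝒞) : ev (eval zv cv ρw emw) f.word =
    Em.c (ev cv f.1) * sval zv cv ρw emw f.2.1 * Em.z (ev zv f.2.2) := by
  rw [EForm.word, ev_append, ev_append, ev_eval_z, ev_eval_c]; rfl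

section Sound
variable (M : Em.Model (fun i => ev zv (ρw i)) (fun i => ev cv (emw i)) O Q)

/-- The action of a block in a model. -/
def bact (b : EBlk ζ 𝒞) (p : M.K.X) : M.K.X :=
  sgn (M.K.pl (M.ω (ev zv b.1)) * M.K.pa (M.e (ev zv b.1))) b.2.1 (M.K.pa (ev cv b.2.2) p)

/-- The last node was created by the block `b`. -/
def ETop (b : EBlk ζ 𝒞) (p : M.K.X) : Prop :=
  M.K.Top (cond b.2.1 1 (M.e (ev zv b.1))⁻¹) (M.ω (ev zv b.1), b.2.1) p

theorem f_sval (s : List (EBlk ζ 𝒞)) (p : M.K.X) :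
    M.f (sval zv cv ρw emw s) (1, p) = (1, s.foldr (bact M) p) := by
  induction s with
  | nil => rw [sval_nil, map_one]; rfl
  | cons b s ih =>
    rw [sval_cons, map_mul, map_mul, Equiv.Perm.mul_apply, Equiv.Perm.mul_apply, ih, M.f_c,
      M.f_τ_sgn]
    rfl

theorem bact_true (H : Word ζ) (γ : Word 𝒞) (p : M.K.X) : bact M (H, true, γ) p =
    sgn (M.K.pl (M.ω (ev zv H))) true (M.K.pa (M.e (ev zv H) * ev cv γ) p) := by
  simp [bact]

theorem bact_false (H : Word ζ) (γ : Word 𝒞) (p : M.K.X) : bact M (H, false, γ) p =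
    M.K.pa (M.e (ev zv H))⁻¹ (sgn (M.K.pl (M.ω (ev zv H))) false (M.K.pa (ev cv γ) p)) := by
  simp [bact]

theorem etop_step {a b : EBlk ζ 𝒞}
    (hab : ERed ρw emw (semE zv cv ρw emw R O) (fun x => ev cv x ≠ 1) a b) {p : M.K.X}
    (hp : ETop M b p) : ETop M a (bact M a p) := by
  obtain ⟨H, ε, γ⟩ := a
  obtain ⟨H', ε', γ'⟩ := b
  have key : ε' = !ε → M.ω (ev zv H') = M.ω (ev zv H) →
      ∃ v, M.e (ev zv H') = M.e (ev zv H) * ev cv (subst emw v) ∧
        ev cv (cond ε (γ ++ FreeGroup.invRev (subst emw v)) γ) ≠ 1 := by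
    intro h1 h2
    rcases hab with h3 | h3 | ⟨v, h3, h4⟩
    · simp [h1] at h3
    · obtain ⟨v, hv⟩ := M.exists_of_ω_eq h2.symm
      exact absurd (by simpa using hv) (h3 v)
    · refine ⟨v, ?_, h4⟩
      have h5 : ev zv (FreeGroup.invRev H ++ H' ++ FreeGroup.invRev (subst ρw v)) = 1 := h3
      rw [ev_append, ev_append, ev_invRev, ev_invRev, mul_inv_eq_one, inv_mul_eq_iff_eq_mul,
        ev_subst] at h5
      rw [h5, M.e_mul, ev_subst]
  cases ε
  · rw [bact_false]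
    have h1 := M.K.pl_top (M.ω (ev zv H), false) _ _ _ (M.K.pa_top (ev cv γ) _ _ _ hp) (by
      rintro ⟨h1, h2⟩
      obtain ⟨h2, rfl⟩ := Prod.mk.inj h2
      obtain ⟨v, -, h4⟩ := key rfl h2
      exact h4 (by simpa using h1))
    simpa [ETop] using M.K.pa_top (M.e (ev zv H))⁻¹ _ _ _ h1
  · rw [bact_true]
    refine M.K.pl_top (M.ω (ev zv H), true) _ _ _ (M.K.pa_top _ _ _ _ hp) ?_
    rintro ⟨h1, h2⟩
    obtain ⟨h2, rfl⟩ := Prod.mk.inj h2
    obtain ⟨v, h3, h4⟩ := key rfl h2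
    refine h4 ?_
    simp only [Bool.not_true, cond_false, h3, mul_inv_eq_one, mul_right_inj] at h1
    simp [h1]

theorem etop_base (a : EBlk ζ 𝒞) (y : C ⧸ Q) : ETop M a (bact M a (M.K.base y)) ∨
    (M.ω (ev zv a.1) ∈ O ∧ cond a.2.1 (M.e (ev zv a.1) * ev cv a.2.2) (ev cv a.2.2) • y = (1 : C) ∧
      bact M a (M.K.base y) = M.K.pa (cond a.2.1 1 (M.e (ev zv a.1))⁻¹) M.o) := by
  obtain ⟨H, ε, γ⟩ := a
  cases ε
  · rw [bact_false, M.K.pa_base]
    by_cases h : M.ω (ev zv H) ∈ O ∧ ev cv γ • y = (1 : C)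
    · refine Or.inr ⟨h.1, h.2, ?_⟩
      rw [M.K.pl_some (M.ω (ev zv H), false) _ _ (Em.app_orel.2 ⟨h.1, h.2, rfl⟩)]
      rfl
    · have h1 := M.K.pl_none (M.ω (ev zv H), false) (ev cv γ • y) fun y' hy' =>
        h ⟨(Em.app_orel.1 hy').1, (Em.app_orel.1 hy').2.1⟩
      left
      simpa [ETop] using M.K.pa_top (M.e (ev zv H))⁻¹ _ _ _ h1
  · rw [bact_true, M.K.pa_base]
    by_cases h : M.ω (ev zv H) ∈ O ∧ (M.e (ev zv H) * ev cv γ) • y = (1 : C)
    · refine Or.inr ⟨h.1, h.2, ?_⟩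
      rw [M.K.pl_some (M.ω (ev zv H), true) _ _ (Em.app_orel.2 ⟨h.1, h.2, rfl⟩)]
      simp [Em.Model.o]
    · exact Or.inl (M.K.pl_none (M.ω (ev zv H), true) _ fun y' hy' =>
        h ⟨(Em.app_orel.1 hy').1, (Em.app_orel.1 hy').2.1⟩)

theorem chain_inv {s : List (EBlk ζ 𝒞)}
    (hs : List.IsChain (ERed ρw emw (semE zv cv ρw emw R O) fun x => ev cv x ≠ 1) s) :
    ((∃ y, s.foldr (bact M) M.o = M.K.base y) ∧ ∀ b ∈ s, M.ω (ev zv b.1) ∈ O) ∨
      ∃ b s', s = b :: s' ∧ ETop M b (s.foldr (bact M) M.o) := by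
  induction s with
  | nil => exact Or.inl ⟨⟨_, rfl⟩, by simp⟩
  | cons a s ih =>
    rw [List.foldr_cons]
    rcases ih hs.tail with ⟨⟨y, h1⟩, h2⟩ | ⟨b, s', rfl, h1⟩
    · rw [h1]
      rcases etop_base M a y with h3 | ⟨h3, -, h4⟩
      · exact Or.inr ⟨a, s, rfl, h3⟩
      · exact Or.inl ⟨⟨_, h4.trans (M.K.pa_base _ _)⟩, by simpa [h3] using h2⟩
    · exact Or.inr ⟨a, _, rfl, etop_step M (List.isChain_cons_cons.1 hs).1 h1⟩

theorem chain_inv' (h : Em.Good (fun i => ev zv (ρw i)) (fun i => ev cv (emw i)) R O Q)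
    {s : List (EBlk ζ 𝒞)} (hO : ∀ b ∈ s, ev zv b.1 ∈ O)
    (hs : List.IsChain (ERed ρw emw (semE zv cv ρw emw R O) fun x => ev cv x ≠ 1) s) :
    (s.foldr (bact M) M.o = M.o ∧ ∀ b ∈ s, ev cv b.2.2 ∈ Q) ∨
      ∃ b s', s = b :: s' ∧ ETop M b (s.foldr (bact M) M.o) := by
  induction s with
  | nil => exact Or.inl ⟨rfl, by simp⟩
  | cons a s ih =>
    rw [List.foldr_cons]
    rcases ih (fun b hb => hO b (List.mem_cons_of_mem _ hb)) hs.tail with
      ⟨h1, h2⟩ | ⟨b, s', rfl, h1⟩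
    · rw [h1]
      have he := M.e_mem h (hO a List.mem_cons_self)
      rcases etop_base M a ((1 : C) : C ⧸ Q) with h3 | ⟨-, h3, h4⟩
      · exact Or.inr ⟨a, s, rfl, h3⟩
      · rw [Em.Model.smul_one_eq] at h3
        refine Or.inl ⟨h4.trans (M.pa_o.2 ?_), List.forall_mem_cons.2 ⟨?_, h2⟩⟩
        · cases a.2.1
          · exact Q.inv_mem he
          · exact Q.one_mem
        · revert h3
          cases a.2.1
          · exact id
          · exact (Q.mul_mem_cancel_left he).1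
    · exact Or.inr ⟨a, _, rfl, etop_step M (List.isChain_cons_cons.1 hs).1 h1⟩

end Sound

theorem certE_sound (h : Em.Good (fun i => ev zv (ρw i)) (fun i => ev cv (emw i)) R O Q)
    {u : Word (ELet ζ 𝒞)}
    (hu : CertE ρw emw (semE zv cv ρw emw R O) (fun x => ev cv x ≠ 1) (fun x => ev cv x ∉ Q) u) :
    ev (eval zv cv ρw emw) u ∉ Em.Psub _ _ R O Q := by
  intro hin
  obtain ⟨⟨γ, s, l⟩, a1, a2, a3⟩ := hu
  have e : ev (eval zv cv ρw emw) u =
      Em.c (ev cv γ) * sval zv cv ρw emw s * Em.z (ev zv l) := by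
    have : ev (eval zv cv ρw emw) (FreeGroup.invRev u ++ EForm.word (γ, s, l)) = 1 := a1
    rwa [ev_append, ev_invRev, inv_mul_eq_one, ev_eval_form] at this
  have hl : ev zv l ∈ R := by
    obtain ⟨π, h1, h2, h3, h4⟩ := Em.exists_pi (fun i => ev zv (ρw i)) (fun i => ev cv (emw i))
    have h5 : ∀ s, π (sval zv cv ρw emw s) = 1 := fun s => by
      induction s with
      | nil => rw [sval_nil, map_one]
      | cons b s ih => rw [sval_cons, map_mul, map_mul, map_sgn, h3, h2, ih]; simp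
    have := h4 R O Q _ hin
    rwa [e, map_mul, map_mul, h1, h2, h5, one_mul, one_mul] at this
  obtain ⟨M⟩ := Em.exists_model h.wd O Q
  obtain ⟨x, -, hx⟩ := M.fix h hin
  have h1 := hx _ (R.inv_mem hl)
  rw [e, map_mul, map_mul, Equiv.Perm.mul_apply, Equiv.Perm.mul_apply, M.f_z, mul_inv_cancel,
    f_sval, M.f_c] at h1
  have h2 : M.K.pa (ev cv γ) (s.foldr (bact M) M.o) = M.o := congrArg Prod.snd h1
  have h3 : ¬ ∃ b s', s = b :: s' ∧ ETop M b (s.foldr (bact M) M.o) := by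
    rintro ⟨b, s', -, h3⟩
    have := M.K.pa_top (ev cv γ) _ _ _ h3
    rw [h2] at this
    exact M.K.top_ne _ _ _ this
  rcases a3 with b1 | ⟨b, b1, b2⟩ | ⟨b1, b2⟩
  · exact b1 hl
  · exact M.not_mem b2 (((chain_inv M a2).resolve_right h3).2 b b1)
  · obtain ⟨c1, c2⟩ := (chain_inv' M h b1 a2).resolve_right h3
    rcases b2 with b2 | ⟨b, b2, b3⟩
    · rw [c1] at h2
      exact b2 (M.pa_o.1 h2)
    · exact b3 (c2 b b2)

section Complete

/-- A block `t^ε γ δ` of a relative form. -/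
abbrev RBlk (ζ 𝒞 : Type) := Bool × Word 𝒞 × Word ζ

/-- The value of a list of relative blocks. -/
def rval (zv : ζ → Z) (cv : 𝒞 → C) (ρw : ι → Word ζ) (emw : ι → Word 𝒞) :
    List (RBlk ζ 𝒞) → EmW zv cv ρw emw
  | [] => 1
  | b :: s => sgn Em.t b.1 * Em.c (ev cv b.2.1) * Em.z (ev zv b.2.2) * rval zv cv ρw emw s

/-- The weight of a list of relative blocks. -/
def rwt (κ : ℕ) : List (RBlk ζ 𝒞) → ℕ
  | [] => 0
  | b :: s => max (κ * b.2.1.length) b.2.2.length + rwt κ s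

/-- The two stable letters around `γ x` do not cancel. -/
def NoCancel (zv : ζ → Z) (cv : 𝒞 → C) (ρw : ι → Word ζ) (emw : ι → Word 𝒞) (ε ε' : Bool)
    (γ : Word 𝒞) (x : Z) : Prop :=
  ε' = !ε → ∀ v, ev (fun i => ev zv (ρw i)) v = x → ev cv γ ≠ cond ε (ev cv (subst emw v)) 1

theorem ewt_cons (κ : ℕ) (a : ELet ζ 𝒞 × Bool) (u : Word (ELet ζ 𝒞)) : ewt κ (a :: u) =
    Sum.elim (fun _ => 1) (Sum.elim (fun _ => κ) fun _ => 1) a.1 + ewt κ u := by
  simp [ewt]

theorem exists_rform (κ : ℕ)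
    (hlen : ∀ x v, ev (fun i => ev zv (ρw i)) v = ev zv x →
      ∃ v', ev (fun i => ev zv (ρw i)) v' = ev zv x ∧ κ * (subst emw v').length ≤ x.length)
    (u : Word (ELet ζ 𝒞)) : ∃ (γ : Word 𝒞) (δ : Word ζ) (s : List (RBlk ζ 𝒞)),
      ev (eval zv cv ρw emw) u = Em.c (ev cv γ) * Em.z (ev zv δ) * rval zv cv ρw emw s ∧
      List.IsChain (fun a b : RBlk ζ 𝒞 => NoCancel zv cv ρw emw a.1 b.1 a.2.1 (ev zv a.2.2)) s ∧
      max (κ * γ.length) δ.length + rwt κ s ≤ ewt κ u := by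
  induction u with
  | nil => exact ⟨[], [], [], by simp [rval], List.IsChain.nil, by simp [rwt]⟩
  | cons a u ih =>
    obtain ⟨γ, δ, s, e, hs, hl⟩ := ih
    rw [ewt_cons, ev_cons, e]
    rcases a with ⟨a | a | a, ε⟩
    · refine ⟨γ, (a, ε) :: δ, s, ?_, hs, ?_⟩
      · have : sgn (eval zv cv ρw emw (.inl a)) ε = Em.z (sgn (zv a) ε) := by
          rw [map_sgn]; rfl
        rw [this, ev_cons, map_mul, ← mul_assoc, ← mul_assoc, (Em.commute _ _).eq]
        simp only [mul_assoc]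
      · simp only [Sum.elim_inl, List.length_cons]; omega
    · refine ⟨(a, ε) :: γ, δ, s, ?_, hs, ?_⟩
      · have : sgn (eval zv cv ρw emw (.inr (.inl a))) ε = Em.c (sgn (cv a) ε) := by
          rw [map_sgn]; rfl
        rw [this, ev_cons, map_mul]
        simp only [mul_assoc]
      · simp only [Sum.elim_inl, Sum.elim_inr, List.length_cons, mul_add, mul_one]; omega
    · have hpush : sgn (eval zv cv ρw emw (.inr (.inr a))) ε *
          (Em.c (ev cv γ) * Em.z (ev zv δ) * rval zv cv ρw emw s) =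
          Em.c (ev cv []) * Em.z (ev zv []) * rval zv cv ρw emw ((ε, γ, δ) :: s) := by
        simp [rval, eval, mul_assoc]
      have hw : max (κ * ([] : Word 𝒞).length) ([] : Word ζ).length + rwt κ ((ε, γ, δ) :: s) ≤
          1 + ewt κ u := by
        simp only [rwt, List.length_nil]; omega
      rcases s with _ | ⟨b, s⟩
      · exact ⟨[], [], _, hpush, List.IsChain.singleton _, hw⟩
      by_cases hr : NoCancel zv cv ρw emw ε b.1 γ (ev zv δ)
      · exact ⟨[], [], _, hpush, List.IsChain.cons_cons hr hs, hw⟩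
      simp only [NoCancel, not_forall, not_not] at hr
      obtain ⟨h1, v, h2, h3⟩ := hr
      obtain ⟨ε', γ', δ'⟩ := b
      obtain rfl : ε' = !ε := h1
      simp only [rwt] at hl
      cases ε
      · obtain ⟨v', h4, h5⟩ := hlen δ v h2
        refine ⟨subst emw v' ++ γ', δ ++ δ', s, ?_, hs.tail, ?_⟩
        · have h6 := Em.rel_ev (ρ := fun i => ev zv (ρw i)) (em := fun i => ev cv (emw i)) v'
          rw [h4, ← ev_subst] at h6
          have h7 : ev cv γ = 1 := h3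
          simp only [rval, eval, Sum.elim_inr, sgn_false, Bool.not_false, sgn_true, h7, map_one,
            one_mul, ev_append, map_mul]
          rw [inv_mul_eq_iff_eq_mul, ← mul_assoc, ← mul_assoc, ← mul_assoc, ← h6,
            mul_assoc Em.t, mul_assoc Em.t, ← map_mul, mul_assoc (Em.z _), ← map_mul,
            (Em.commute _ _).eq]
          simp only [mul_assoc]
        · simp only [Sum.elim_inr, List.length_append, mul_add]; omega
      · refine ⟨γ', δ ++ δ', s, ?_, hs.tail, ?_⟩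
        · have h6 := Em.rel_ev (ρ := fun i => ev zv (ρw i)) (em := fun i => ev cv (emw i)) v
          have h7 : ev cv γ = ev cv (subst emw v) := h3
          rw [h2, ← ev_subst, ← h7, mul_assoc, (Em.commute _ _).eq] at h6
          simp only [rval, eval, Sum.elim_inr, sgn_false, Bool.not_true, sgn_true,
            ev_append, map_mul]
          rw [← mul_assoc, h6, ← mul_assoc, ← mul_assoc, ← mul_assoc, mul_inv_cancel_right,
            (Em.commute _ _).eq]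
          simp only [mul_assoc]
        · simp only [Sum.elim_inr, List.length_append]; omega

/-- Conversion of relative blocks. -/
def toAbs : Word ζ → List (RBlk ζ 𝒞) → List (EBlk ζ 𝒞)
  | _, [] => []
  | H, b :: s => (H, b.1, b.2.1) :: toAbs (H ++ b.2.2) s

theorem sval_toAbs (H : Word ζ) (s : List (RBlk ζ 𝒞)) : ∃ l : Word ζ,
    Em.z (ev zv H) * rval zv cv ρw emw s = sval zv cv ρw emw (toAbs H s) * Em.z (ev zv l) := by
  induction s generalizing H with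
  | nil => exact ⟨H, by simp [rval, toAbs, sval_nil]⟩
  | cons b s ih =>
    obtain ⟨l, hl⟩ := ih (H ++ b.2.2)
    refine ⟨l, ?_⟩
    rw [toAbs, sval_cons, mul_assoc, ← hl, ev_append, map_mul, rval, ← mul_assoc, ← mul_assoc,
      ← mul_assoc, ← mul_assoc, ← mul_assoc, mul_assoc _ (Em.c _) (Em.z (ev zv H)),
      ← (Em.commute _ _).eq]
    obtain ⟨_ | _, γ, δ⟩ := b <;> simp [Em.τ, mul_assoc]

theorem chain_toAbs {s : List (RBlk ζ 𝒞)} (hs : List.IsChain (fun a b : RBlk ζ 𝒞 =>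
      NoCancel zv cv ρw emw a.1 b.1 a.2.1 (ev zv a.2.2)) s) (H : Word ζ) :
    List.IsChain (fun a b : EBlk ζ 𝒞 => NoCancel zv cv ρw emw a.2.1 b.2.1 a.2.2
      ((ev zv a.1)⁻¹ * ev zv b.1)) (toAbs H s) := by
  induction hs generalizing H with
  | nil => exact List.IsChain.nil
  | singleton a => exact List.IsChain.singleton _
  | cons_cons h _ ih =>
    refine List.IsChain.cons_cons ?_ (ih _)
    simpa using h

theorem bound_toAbs (κ : ℕ) (s : List (RBlk ζ 𝒞)) (H : Word ζ) :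
    ∀ b ∈ toAbs H s, b.1.length ≤ H.length + rwt κ s ∧ κ * b.2.2.length ≤ rwt κ s := by
  induction s generalizing H with
  | nil => simp [toAbs]
  | cons a s ih =>
    intro b hb
    rcases List.mem_cons.1 hb with rfl | hb
    · simp only [rwt]; omega
    · have := ih _ b hb
      simp only [rwt, List.length_append] at this ⊢
      omega

/-- The word moved to the left of a list of blocks. -/
def preL (emw : ι → Word 𝒞) (V : EBlk ζ 𝒞 → Word ι) : List (EBlk ζ 𝒞) → Word 𝒞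
  | [] => []
  | b :: _ => cond b.2.1 [] (subst emw (V b))

/-- A shifted block. -/
def fixB (ρw : ι → Word ζ) (emw : ι → Word 𝒞) (V : EBlk ζ 𝒞 → Word ι) (b : EBlk ζ 𝒞)
    (n : Word 𝒞) : EBlk ζ 𝒞 :=
  (b.1 ++ subst ρw (V b), b.2.1,
    cond b.2.1 (FreeGroup.invRev (subst emw (V b))) [] ++ b.2.2 ++ n)

/-- Shifting all blocks. -/
def fixL (ρw : ι → Word ζ) (emw : ι → Word 𝒞) (V : EBlk ζ 𝒞 → Word ι) :
    List (EBlk ζ 𝒞) → List (EBlk ζ 𝒞)
  | [] => []
  | b :: s => fixB ρw emw V b (preL emw V s) :: fixL ρw emw V s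

theorem sval_fixL (V : EBlk ζ 𝒞 → Word ι) (s : List (EBlk ζ 𝒞)) : sval zv cv ρw emw s =
    Em.c (ev cv (preL emw V s)) * sval zv cv ρw emw (fixL ρw emw V s) := by
  induction s with
  | nil => simp [preL, fixL]
  | cons b s ih =>
    rw [fixL, sval_cons, sval_cons, ih]
    obtain ⟨H, _ | _, γ⟩ := b <;>
      simp [preL, fixB, ev_subst, Em.τ_mul, mul_assoc]

theorem length_subst_invRev (f : ι → Word 𝒞) (v : Word ι) :
    (subst f (FreeGroup.invRev v)).length = (subst f v).length := by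
  induction v with
  | nil => rfl
  | cons a v ih =>
    rw [FreeGroup.invRev_cons, subst_append, List.length_append, ih]
    rcases a with ⟨a, _ | _⟩ <;> simp [FreeGroup.invRev, add_comm]

theorem length_preL {κ W : ℕ} {V : EBlk ζ 𝒞 → Word ι} {s : List (EBlk ζ 𝒞)}
    (hV : ∀ b ∈ s, κ * (subst emw (V b)).length ≤ W) : κ * (preL emw V s).length ≤ W := by
  rcases s with _ | ⟨⟨H, _ | _, γ⟩, s⟩
  · simp [preL]
  · exact hV _ List.mem_cons_self
  · simp [preL]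

theorem mem_fixL {κ W : ℕ} {V : EBlk ζ 𝒞 → Word ι} {s : List (EBlk ζ 𝒞)}
    (hV : ∀ b ∈ s, κ * (subst emw (V b)).length ≤ W ∧ κ * b.2.2.length ≤ W) :
    ∀ b' ∈ fixL ρw emw V s, κ * b'.2.2.length ≤ 3 * W ∧
      ∃ b ∈ s, b'.1 = b.1 ++ subst ρw (V b) := by
  induction s with
  | nil => simp [fixL]
  | cons a s ih =>
    intro b' hb'
    rcases List.mem_cons.1 hb' with rfl | hb'
    · refine ⟨?_, a, List.mem_cons_self, rfl⟩
      have h1 := length_preL (emw := emw) (V := V) (s := s)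
        fun b hb => (hV b (List.mem_cons_of_mem _ hb)).1
      have h2 := hV a List.mem_cons_self
      obtain ⟨H, _ | _, γ⟩ := a <;>
        simp only [fixB, cond_true, cond_false, List.length_append, FreeGroup.invRev_length,
          List.length_nil, mul_add] at h2 ⊢ <;> omega
    · obtain ⟨h1, b, h2, h3⟩ := ih (fun b hb => hV b (List.mem_cons_of_mem _ hb)) b' hb'
      exact ⟨h1, b, List.mem_cons_of_mem _ h2, h3⟩

theorem chain_fixL {κ W : ℕ}
    (hlen : ∀ x v, ev (fun i => ev zv (ρw i)) v = ev zv x →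
      ∃ v', ev (fun i => ev zv (ρw i)) v' = ev zv x ∧ κ * (subst emw v').length ≤ x.length)
    {V : EBlk ζ 𝒞 → Word ι} {s : List (EBlk ζ 𝒞)}
    (hs : List.IsChain (fun a b : EBlk ζ 𝒞 => NoCancel zv cv ρw emw a.2.1 b.2.1 a.2.2
      ((ev zv a.1)⁻¹ * ev zv b.1)) s)
    (hV : ∀ b ∈ s, κ * (subst emw (V b)).length ≤ W ∧ κ * b.2.2.length ≤ W ∧ b.1.length ≤ W) :
    List.IsChain (ERed ρw emw (semE zv cv ρw emw R O)
      fun x => ev cv x ≠ 1 ∧ κ * x.length ≤ 8 * W) (fixL ρw emw V s) := by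
  induction hs with
  | nil => exact List.IsChain.nil
  | singleton a => exact List.IsChain.singleton _
  | @cons_cons a b s h _ ih =>
    refine List.IsChain.cons_cons ?_ (ih fun b hb => hV b (List.mem_cons_of_mem _ hb))
    have ha := hV a List.mem_cons_self
    have hb := hV b (List.mem_cons_of_mem _ List.mem_cons_self)
    by_cases h1 : a.2.1 = b.2.1
    · exact Or.inl h1
    have h2 : b.2.1 = !a.2.1 := by
      revert h1; cases a.2.1 <;> cases b.2.1 <;> simp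
    refine Or.inr ?_
    by_cases h3 : ∃ v, ev (fun i => ev zv (ρw i)) v = ev zv (FreeGroup.invRev a.1 ++ b.1)
    swap
    · refine Or.inl fun v hv => h3 ⟨V a ++ v ++ FreeGroup.invRev (V b), ?_⟩
      simp [hv, fixB, ev_subst, mul_assoc]
    obtain ⟨v, hv⟩ := h3
    obtain ⟨v, h4, h5⟩ := hlen _ v hv
    have h6 := h h2 v (by simpa using h4)
    refine Or.inr ⟨FreeGroup.invRev (V a) ++ v ++ V b, ?_, ?_⟩
    · change ev zv _ = 1
      simp [h4, fixB, ev_subst, mul_assoc]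
    · obtain ⟨H, ε, γ⟩ := a
      obtain ⟨H', ε', γ'⟩ := b
      obtain rfl : ε' = !ε := h2
      cases ε
      · simp only [fixB, preL, cond_false, Bool.not_false, cond_true, List.nil_append,
          List.append_nil] at h6 ha ⊢
        exact ⟨h6, by omega⟩
      · simp only [fixB, preL, cond_false, Bool.not_true, cond_true, List.length_append,
          FreeGroup.invRev_length, subst_append, length_subst_invRev, mul_add] at h5 h6 ha hb ⊢
        refine ⟨fun h7 => h6 ?_, by omega⟩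
        simp only [ev_append, ev_invRev, ev_subst, mul_inv_eq_one, mul_left_inj,
          mul_right_inj] at h7
        rw [h7, ev_subst]

end Complete

theorem certE_complete (κ : ℕ)
    (hlen : ∀ x v, ev (fun i => ev zv (ρw i)) v = ev zv x →
      ∃ v', ev (fun i => ev zv (ρw i)) v' = ev zv x ∧ κ * (subst emw v').length ≤ x.length)
    (hshort : ∀ H v, ev zv H * ev (fun i => ev zv (ρw i)) v ∈ O →
      ∃ v', ev zv H * ev (fun i => ev zv (ρw i)) v' ∈ O ∧ κ * (subst emw v').length ≤ H.length)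
    (wd : ∀ v, ev (fun i => ev zv (ρw i)) v = 1 → ev (fun i => ev cv (emw i)) v = 1)
    {u : Word (ELet ζ 𝒞)} (hu : ev (eval zv cv ρw emw) u ∉ Em.Psub _ _ R O Q) :
    CertE ρw emw (semE zv cv ρw emw R O) (fun x => ev cv x ≠ 1 ∧ κ * x.length ≤ 8 * ewt κ u)
      (fun x => ev cv x ∉ Q ∧ κ * x.length ≤ 8 * ewt κ u) u := by
  have _ := wd
  obtain ⟨γ, δ, r, e, hr, hl⟩ := exists_rform (cv := cv) κ hlen u
  obtain ⟨l, e1⟩ := sval_toAbs (zv := zv) (cv := cv) (ρw := ρw) (emw := emw) δ r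
  have hV : ∀ b : EBlk ζ 𝒞, ∃ v, κ * (subst emw v).length ≤ b.1.length ∧
      (ev zv b.1 * ev (fun i => ev zv (ρw i)) v ∈ O ∨
        ∀ v', ev zv b.1 * ev (fun i => ev zv (ρw i)) v' ∉ O) := fun b => by
    by_cases h : ∃ v, ev zv b.1 * ev (fun i => ev zv (ρw i)) v ∈ O
    · obtain ⟨v, hv⟩ := h
      obtain ⟨v, h1, h2⟩ := hshort _ v hv
      exact ⟨v, h2, Or.inl h1⟩
    · exact ⟨[], by simp, Or.inr fun v' hv' => h ⟨v', hv'⟩⟩
  choose V hV1 hV2 using hV
  have hb : ∀ b ∈ toAbs δ r, κ * (subst emw (V b)).length ≤ ewt κ u ∧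
      κ * b.2.2.length ≤ ewt κ u ∧ b.1.length ≤ ewt κ u := fun b hb => by
    have h1 := bound_toAbs κ r δ b hb
    have h2 := hV1 b
    omega
  have e2 : ev (eval zv cv ρw emw) u = Em.c (ev cv (γ ++ preL emw V (toAbs δ r))) *
      sval zv cv ρw emw (fixL ρw emw V (toAbs δ r)) * Em.z (ev zv l) := by
    rw [e, mul_assoc, e1, sval_fixL V, ev_append, map_mul]
    simp only [mul_assoc]
  have hm := mem_fixL (ρw := ρw) fun b h => ⟨(hb b h).1, (hb b h).2.1⟩
  refine ⟨(γ ++ preL emw V (toAbs δ r), fixL ρw emw V (toAbs δ r), l), ?_,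
    chain_fixL hlen (chain_toAbs hr δ) hb, ?_⟩
  · change ev (eval zv cv ρw emw) _ = 1
    rw [ev_append, ev_invRev, ev_eval_form, ← e2, inv_mul_cancel]
  by_cases h1 : ev zv l ∈ R
  swap
  · exact Or.inl h1
  by_cases h2 : ∀ b ∈ fixL ρw emw V (toAbs δ r), ev zv b.1 ∈ O
  swap
  · simp only [not_forall] at h2
    obtain ⟨b', h3, h4⟩ := h2
    obtain ⟨-, b, -, h5⟩ := hm b' h3
    refine Or.inr (Or.inl ⟨b', h3, fun v hv => ?_⟩)
    rw [h5, ev_append, ev_subst] at h4 hv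
    exact (hV2 b).resolve_left h4 (V b ++ v) (by rwa [ev_append, ← mul_assoc])
  refine Or.inr (Or.inr ⟨h2, ?_⟩)
  by_contra h3
  simp only [not_or, not_exists, not_and] at h3
  have h4 : ev cv (γ ++ preL emw V (toAbs δ r)) ∈ Q := by
    by_contra h4
    refine h3.1 h4 ?_
    have := length_preL fun b h => (hb b h).1
    simp only [List.length_append, mul_add]
    omega
  have h5 : ∀ b ∈ fixL ρw emw V (toAbs δ r), ev cv b.2.2 ∈ Q := fun b h => by
    by_contra h5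
    refine h3.2 b h h5 ?_
    have := (hm b h).1
    omega
  have h6 : ∀ s : List (EBlk ζ 𝒞), (∀ b ∈ s, ev zv b.1 ∈ O) → (∀ b ∈ s, ev cv b.2.2 ∈ Q) →
      sval zv cv ρw emw s ∈ Em.Psub _ _ R O Q := fun s => by
    induction s with
    | nil => exact fun _ _ => by rw [sval_nil]; exact Subgroup.one_mem _
    | cons b s ih =>
      intro c1 c2
      rw [sval_cons]
      refine Subgroup.mul_mem _ (Subgroup.mul_mem _ ?_ (Em.c_mem_of (c2 b List.mem_cons_self)))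
        (ih (fun b h => c1 b (List.mem_cons_of_mem _ h)) fun b h => c2 b (List.mem_cons_of_mem _ h))
      cases b.2.1
      · exact Subgroup.inv_mem _ (Em.τ_mem_of (c1 b List.mem_cons_self))
      · exact Em.τ_mem_of (c1 b List.mem_cons_self)
  exact hu (e2 ▸ Subgroup.mul_mem _ (Subgroup.mul_mem _ (Em.c_mem_of h4) (h6 _ h2 h5))
    (Em.z_mem_of h1))

end Cert

end Vale.Agent.P193
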