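import Vale.Agent.P193.MachDef
import Mathlib.Algebra.Order.Ring.Int

/-! The base group `Z r` and the specification of its machine subgroup. -/

namespace Vale.Agent.P193

/-- Generators: `inl 0 = y`, `inl 1 = z`, `inl 2 = w`, `inr (j, false) = x_j`,
`inr (j, true) = r_j`. -/
abbrev ZGen (r : ℕ) := Fin 3 ⊕ (Fin r × Bool)

/-- The commutator word of two letters. -/
def commw {α : Type} (a b : α) : Word α := [(a, true), (b, true), (a, false), (b, false)]

/-- The relators: the `x_i` commute, `r_j x_j r_j⁻¹ = x_j ^ 4`, `r_j` commutes with `x_i` for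
`i ≠ j`, and `y`, `z` commute with every `x_i`. -/
def zrel (r : ℕ) : List (Word (ZGen r)) :=
  (List.finRange r).flatMap fun i =>
    [commw (.inl 0) (.inr (i, false)), commw (.inl 1) (.inr (i, false))] ++
    (List.finRange r).flatMap fun j =>
      [commw (.inr (j, false)) (.inr (i, false)),
        if j = i then
          (.inr (i, true), true) :: (.inr (i, false), true) :: (.inr (i, true), false) ::
            List.replicate 4 (.inr (i, false), false)
        else commw (.inr (j, true)) (.inr (i, false))]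

/-- The base group. -/
abbrev ZG (r : ℕ) : Type := PG (zrel r)

/-- Its generators. -/
abbrev zg (r : ℕ) : ZGen r → ZG r := pgen (zrel r)

/-- The letters `y`, `z`, `r_j`. -/
def isR {r : ℕ} : ZGen r → Bool
  | .inl k => k ≠ 2
  | .inr p => p.2

/-- The subgroup generated by `y`, `z` and the `r_j`. -/
def RS (r : ℕ) : Subgroup (ZG r) := Subgroup.closure {g | ∃ a, isR a = true ∧ zg r a = g}

/-- The specification of the machine subgroup of `ZG r`. -/
structure Pkg (F : ℕ → List ℕ → Bool) (κ r Nc : ℕ) where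
  m : ℕ
  ρw : Fin m → Word (ZGen r)
  em : Fin m → Option ℕ
  rootw : ℕ → Word (ZGen r)
  root_comp : Computable rootw
  em_surj : ∀ a < Nc, ∃ i, em i = some a
  inj : ∀ v, ev (fun i => ev (zg r) (ρw i)) v = 1 → FreeGroup.mk v = 1
  len_le : ∀ x v, ev (fun i => ev (zg r) (ρw i)) v = ev (zg r) x →
    ∃ v', ev (fun i => ev (zg r) (ρw i)) v' = ev (zg r) x ∧ κ * v'.length ≤ x.length
  closed : ∀ e v, (ev (zg r) (rootw e))⁻¹ * ev (fun i => ev (zg r) (ρw i)) v *
    ev (zg r) (rootw e) ∈ RS r → hol em v ∈ accSub F e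
  realized : ∀ e w, F e w = true → (∀ a ∈ w, a < Nc) →
    ∃ v, (ev (zg r) (rootw e))⁻¹ * ev (fun i => ev (zg r) (ρw i)) v * ev (zg r) (rootw e) ∈ RS r ∧
      hol em v = FreeGroup.mk (posw w)
  short : ∀ e H v, ev (zg r) H * ev (fun i => ev (zg r) (ρw i)) v * ev (zg r) (rootw e) ∈ RS r →
    ∃ v', ev (zg r) H * ev (fun i => ev (zg r) (ρw i)) v' * ev (zg r) (rootw e) ∈ RS r ∧
      κ * cnt em v' ≤ H.length
  far : ∀ e, ∃ H : ZG r, ∀ v, H * ev (fun i => ev (zg r) (ρw i)) v * ev (zg r) (rootw e) ∉ RS r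
  re_orbit : REPred fun x : ℕ × Word (ZGen r) =>
    ∀ v, ev (zg r) x.2 * ev (fun i => ev (zg r) (ρw i)) v * ev (zg r) (rootw x.1) ∉ RS r
  re_notPhi : REPred fun x : Word (ZGen r) => ∀ v, ev (fun i => ev (zg r) (ρw i)) v ≠ ev (zg r) x

end Vale.Agent.P193
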