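import Vale.Agent.P193.Emit
import Vale.Agent.P193.ZDef

/-! Finite presentations of emission groups, and r.e. non-membership. -/

namespace Vale.Agent.P193

section Pres
variable {α β : Type} {G H : Type*} [Group G] [Group H]

theorem exists_hom_of_ev (g : α → G) (hg : ∀ x, ∃ w, ev g w = x) (h : α → H)
    (hh : ∀ w, ev g w = 1 → ev h w = 1) : ∃ f : G →* H, ∀ w, f (ev g w) = ev h w := by
  choose s hs using hg
  have key : ∀ u w, ev g u = ev g w → ev h u = ev h w := fun u w e => by
    have := hh (FreeGroup.invRev u ++ w) (by simp [e])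
    simpa [inv_mul_eq_one] using this
  refine ⟨MonoidHom.mk' (fun x => ev h (s x)) fun x y => ?_, fun w => key _ _ (hs _)⟩
  rw [← ev_append]
  exact key _ _ (by simp [hs])

/-- `l` is a list of defining relators of `G` with respect to the generators `g`. -/
structure Pres (g : α → G) (l : List (Word α)) : Prop where
  rel : ∀ w ∈ l, ev g w = 1
  surj : ∀ x, ∃ w, ev g w = x
  comp : ∀ w, ev g w = 1 → ev (pgen l) w = 1

theorem pres_pgen (l : List (Word α)) : Pres (pgen l) l :=
  ⟨fun _ => ev_pgen_rel l, pgen_surj l, fun _ h => h⟩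

theorem Pres.iff {g : α → G} {l : List (Word α)} (h : Pres g l) (w : Word α) :
    ev (pgen l) w = 1 ↔ ev g w = 1 :=
  ⟨fun e => by rw [← PG.lift_ev l g h.rel, e, map_one], h.comp w⟩

theorem Pres.ev_eq_one {g : α → G} {l : List (Word α)} (h : Pres g l) (k : α → H)
    (hk : ∀ w ∈ l, ev k w = 1) (w : Word α) (hw : ev g w = 1) : ev k w = 1 := by
  rw [← PG.lift_ev l k hk, h.comp w hw, map_one]

theorem Pres.exists_hom {g : α → G} {l : List (Word α)} (h : Pres g l) (k : α → H)
    (hk : ∀ w ∈ l, ev k w = 1) : ∃ f : G →* H, ∀ w, f (ev g w) = ev k w :=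
  exists_hom_of_ev g h.surj k (h.ev_eq_one k hk)

theorem Pres.exists_inj {g : α → G} {l : List (Word α)} (h : Pres g l) :
    ∃ f : G →* PG l, Function.Injective f ∧ ∀ w, f (ev g w) = ev (pgen l) w := by
  obtain ⟨f, hf⟩ := h.exists_hom (pgen l) fun _ => ev_pgen_rel l
  refine ⟨f, (injective_iff_map_eq_one f).2 fun x hx => ?_, hf⟩
  obtain ⟨w, rfl⟩ := h.surj x
  exact (h.iff w).1 ((hf w).symm.trans hx)

theorem Pres.relabel {g : α → G} {l : List (Word α)} (h : Pres g l) (e : α ≃ β) :
    Pres (fun b => g (e.symm b)) (l.map (wmap e)) := by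
  refine ⟨fun w hw => ?_, fun x => ?_, fun w hw => ?_⟩
  · obtain ⟨u, hu, rfl⟩ := List.mem_map.1 hw
    simpa using h.rel u hu
  · obtain ⟨w, rfl⟩ := h.surj x
    exact ⟨wmap e w, by simp⟩
  · have := h.ev_eq_one (fun a => pgen (l.map (wmap e)) (e a)) (fun u hu => by
      rw [← ev_wmap]; exact ev_pgen_rel _ (List.mem_map_of_mem hu)) (wmap e.symm w)
      (by simpa using hw)
    simpa using this

theorem Pres.re [Primcodable α] {g : α → G} {l : List (Word α)} (h : Pres g l) :
    REPred fun w => ev g w = 1 := (re_pg_eq_one l).of_eq h.iff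

theorem commute_ev {g : α → G} {x : G} (h : ∀ a, Commute x (g a)) (w : Word α) :
    Commute x (ev g w) :=
  ev_mem (Subgroup.centralizer {x}) g w (fun a _ => by
    rw [Subgroup.mem_centralizer_iff]; rintro _ rfl; exact h a.1) x rfl

@[simp] theorem ev_commw (g : α → G) (a b : α) :
    ev g (commw a b) = g a * g b * (g a)⁻¹ * (g b)⁻¹ := by
  simp [commw, mul_assoc]

end Pres

section Em
variable {ζ 𝒞 ι : Type} {Z C : Type} [Group Z] [Group C] {zv : ζ → Z} {cv : 𝒞 → C}
  {ρw : ι → Word ζ} {emw : ι → Word 𝒞}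

/-- The relators of an emission group. -/
noncomputable def erel [Fintype ζ] [Fintype 𝒞] [Fintype ι] (lz : List (Word ζ))
    (lc : List (Word 𝒞)) (ρw : ι → Word ζ) (emw : ι → Word 𝒞) : List (Word (ELet ζ 𝒞)) :=
  lz.map (wmap .inl) ++ lc.map (wmap fun a => .inr (.inl a)) ++
    (Finset.univ : Finset (ζ × 𝒞)).toList.map (fun x => commw (.inl x.1) (.inr (.inl x.2))) ++
    (Finset.univ : Finset ι).toList.map fun i =>
      (.inr (.inr ()), true) :: wmap .inl (ρw i) ++ wmap (fun a => .inr (.inl a)) (emw i) ++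
        (.inr (.inr ()), false) :: wmap .inl (FreeGroup.invRev (ρw i))

theorem eval_inl (w : Word ζ) : ev (eval zv cv ρw emw) (wmap .inl w) = Em.z (ev zv w) := by
  rw [ev_wmap, map_ev]; rfl

theorem eval_inr (w : Word 𝒞) :
    ev (eval zv cv ρw emw) (wmap (fun a => .inr (.inl a)) w) = Em.c (ev cv w) := by
  rw [ev_wmap, map_ev]; rfl

/-- Presentation of the emission group; the relators of `C` need only follow from `lc` and the
relations forced by `ρ`. -/
theorem pres_em [Fintype ζ] [Fintype 𝒞] [Fintype ι] {lz : List (Word ζ)} {lc : List (Word 𝒞)}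
    (hz : Pres zv lz) (hc : ∀ y, ∃ w, ev cv w = y) (hlc : ∀ w ∈ lc, ev cv w = 1)
    (hC : ∀ (H : Type) [Group H] (k : 𝒞 → H), (∀ w ∈ lc, ev k w = 1) →
      (∀ v, ev (fun i => ev zv (ρw i)) v = 1 → ev (fun i => ev k (emw i)) v = 1) →
      ∀ w, ev cv w = 1 → ev k w = 1) :
    Pres (eval zv cv ρw emw) (erel lz lc ρw emw) := by
  set l := erel lz lc ρw emw with hl
  have hrel : ∀ w ∈ l, ev (eval zv cv ρw emw) w = 1 := by
    intro w hw
    simp only [hl, erel, List.mem_append, List.mem_map] at hw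
    rcases hw with ((⟨u, hu, rfl⟩ | ⟨u, hu, rfl⟩) | ⟨x, -, rfl⟩) | ⟨i, -, rfl⟩
    · rw [eval_inl, hz.rel u hu, map_one]
    · rw [eval_inr, hlc u hu, map_one]
    · rw [ev_commw]
      exact commutatorElement_eq_one_iff_commute.2 (Em.commute _ _)
    · simp only [List.cons_append, ev_cons, ev_append, eval_inl, eval_inr, ev_invRev, map_inv,
        sgn_true, sgn_false]
      have := Em.rel (ρ := fun i => ev zv (ρw i)) (em := fun i => ev cv (emw i)) i
      change Em.t * (Em.z _ * Em.c _ * (Em.t⁻¹ * _)) = 1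
      rw [← mul_assoc, ← mul_assoc, ← mul_assoc, this]
      simp
  let kz : ζ → PG l := fun a => pgen l (.inl a)
  let kc : 𝒞 → PG l := fun a => pgen l (.inr (.inl a))
  let kt : PG l := pgen l (.inr (.inr ()))
  obtain ⟨fz, hfz⟩ := hz.exists_hom kz fun w hw => by
    rw [← ev_wmap (pgen l) Sum.inl]
    refine ev_pgen_rel l ?_
    simp only [hl, erel, List.mem_append, List.mem_map]
    exact Or.inl (Or.inl (Or.inl ⟨w, hw, rfl⟩))
  have hkc : ∀ w ∈ lc, ev kc w = 1 := fun w hw => by
    rw [← ev_wmap (pgen l) (fun a => .inr (.inl a))]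
    refine ev_pgen_rel l ?_
    simp only [hl, erel, List.mem_append, List.mem_map]
    exact Or.inl (Or.inl (Or.inr ⟨w, hw, rfl⟩))
  have hcomm : ∀ x w, Commute (fz x) (ev kc w) := fun x w => by
    obtain ⟨u, rfl⟩ := hz.surj x
    rw [hfz]
    refine commute_ev (fun b => (commute_ev (fun a => ?_) u).symm) w
    have := ev_pgen_rel l (w := commw (.inl a) (.inr (.inl b))) (by
      simp only [hl, erel, List.mem_append, List.mem_map]
      exact Or.inl (Or.inr ⟨(a, b), by simp, rfl⟩))
    rw [ev_commw] at this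
    exact (commutatorElement_eq_one_iff_commute.1 this).symm
  have hr : ∀ i, kt * fz (ev zv (ρw i)) * ev kc (emw i) = fz (ev zv (ρw i)) * kt := fun i => by
    have := ev_pgen_rel l (w := (.inr (.inr ()), true) :: wmap .inl (ρw i) ++
        wmap (fun a => .inr (.inl a)) (emw i) ++
        (.inr (.inr ()), false) :: wmap .inl (FreeGroup.invRev (ρw i))) (by
      simp only [hl, erel, List.mem_append, List.mem_map]
      exact Or.inr ⟨i, by simp, rfl⟩)
    simp only [List.cons_append, ev_cons, ev_append, ev_wmap, ev_invRev, sgn_true,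
      sgn_false] at this
    rw [hfz]
    change kt * (ev kz _ * ev kc _ * (kt⁻¹ * (ev kz _)⁻¹)) = 1 at this
    rw [← mul_inv_rev, ← mul_assoc, ← mul_assoc, mul_inv_eq_one] at this
    exact this
  have hrv : ∀ v, kt * fz (ev (fun i => ev zv (ρw i)) v) * ev (fun i => ev kc (emw i)) v
      = fz (ev (fun i => ev zv (ρw i)) v) * kt := by
    intro v
    induction v with
    | nil => simp
    | cons a v ih =>
      have h1 : kt * fz (sgn (ev zv (ρw a.1)) a.2) * sgn (ev kc (emw a.1)) a.2
          = fz (sgn (ev zv (ρw a.1)) a.2) * kt := by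
        cases a.2
        · have h2 := hr a.1
          have h3 := (hcomm (ev zv (ρw a.1)) (emw a.1)).eq
          simp only [sgn_false, map_inv]
          rw [mul_assoc] at h2
          rw [mul_assoc, ← mul_inv_rev, ← h3, eq_inv_mul_iff_mul_eq, ← mul_assoc, ← h2, h3]
          group
        · exact hr a.1
      have h4 : Commute (fz (ev (fun i => ev zv (ρw i)) v)) (sgn (ev kc (emw a.1)) a.2) := by
        cases a.2
        · exact (hcomm _ _).inv_right
        · exact hcomm _ _
      simp only [ev_cons, map_mul]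
      calc _ = kt * fz (sgn (ev zv (ρw a.1)) a.2) * (fz (ev (fun i => ev zv (ρw i)) v)
            * sgn (ev kc (emw a.1)) a.2) * ev (fun i => ev kc (emw i)) v := by group
        _ = (kt * fz (sgn (ev zv (ρw a.1)) a.2) * sgn (ev kc (emw a.1)) a.2)
            * fz (ev (fun i => ev zv (ρw i)) v) * ev (fun i => ev kc (emw i)) v := by
            rw [h4.eq]; group
        _ = fz (sgn (ev zv (ρw a.1)) a.2) * (kt * fz (ev (fun i => ev zv (ρw i)) v)
            * ev (fun i => ev kc (emw i)) v) := by rw [h1]; group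
        _ = _ := by rw [ih]; group
  obtain ⟨fc, hfc⟩ := exists_hom_of_ev cv hc kc (hC _ kc hkc fun v hv => by
    have := hrv v
    rw [hv] at this
    simpa using this)
  obtain ⟨f, f1, f2, f3⟩ := Em.exists_lift (ρ := fun i => ev zv (ρw i))
    (em := fun i => ev cv (emw i)) fz fc kt
    (fun x y => by obtain ⟨w, rfl⟩ := hc y; rw [hfc]; exact hcomm x w)
    (fun i => by rw [hfc]; exact hr i)
  have hf : ∀ w, f (ev (eval zv cv ρw emw) w) = ev (pgen l) w := fun w => by
    rw [map_ev]
    congr 1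
    funext a
    rcases a with a | a | a
    · simpa [eval, f1, ev_single] using hfz [(a, true)]
    · simpa [eval, f2, ev_single] using hfc [(a, true)]
    · exact f3
  refine ⟨hrel, fun x => ?_, fun w hw => by rw [← hf, hw, map_one]⟩
  have hid : (PG.lift l _ hrel).comp f = MonoidHom.id _ := by
    refine Em.hom_ext (fun x => ?_) (fun y => ?_) ?_
    · obtain ⟨w, rfl⟩ := hz.surj x
      rw [← eval_inl (cv := cv) (ρw := ρw) (emw := emw), MonoidHom.comp_apply, hf, PG.lift_ev]
      rfl
    · obtain ⟨w, rfl⟩ := hc y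
      rw [← eval_inr (zv := zv) (ρw := ρw) (emw := emw), MonoidHom.comp_apply, hf, PG.lift_ev]
      rfl
    · rw [MonoidHom.comp_apply, f3]
      exact PG.lift_pgen l _ hrel _
  obtain ⟨w, hw⟩ := pgen_surj l (f x)
  refine ⟨w, ?_⟩
  rw [← PG.lift_ev l _ hrel, hw]
  exact DFunLike.congr_fun hid x

/-- Non-membership in `Psub` is r.e. when the atoms are. -/
theorem re_notMem_Psub [Primcodable ζ] [Primcodable 𝒞] [Primcodable ι] [Finite ι]
    {R : Subgroup Z} {O : Set Z} {Q : Subgroup C}
    (h : Em.Good (fun i => ev zv (ρw i)) (fun i => ev cv (emw i)) R O Q)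
    (h1 : REPred fun x => ev (eval zv cv ρw emw) x = 1) (h2 : REPred fun x => ev zv x = 1)
    (h3 : REPred fun x => ∀ v, ev (fun i => ev zv (ρw i)) v ≠ ev zv x)
    (h4 : REPred fun x => ev zv x ∉ R) (h5 : REPred fun x => ev zv x ∈ O)
    (h6 : REPred fun x => ∀ v, ev zv x * ev (fun i => ev zv (ρw i)) v ∉ O)
    (h7 : REPred fun x => ev cv x ≠ 1) (h8 : REPred fun x => ev cv x ∉ Q) :
    REPred fun u => ev (eval zv cv ρw emw) u ∉ Em.Psub _ _ R O Q := by
  have := certE_enumOp (π := Unit) (β := Unit) ρw emw (fun _ => semE zv cv ρw emw R O)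
    (fun _ _ x => ev cv x ≠ 1) (fun _ _ x => ev cv x ∉ Q)
    (re_comp h1 Computable.snd) (re_comp h2 Computable.snd) (re_comp h3 Computable.snd)
    (re_comp h4 Computable.snd) (re_comp h5 Computable.snd) (re_comp h6 Computable.snd)
    (EnumOp.const (re_comp (p := fun x => ev cv x ≠ 1) h7 Computable.snd))
    (EnumOp.const (re_comp (p := fun x => ev cv x ∉ Q) h8 Computable.snd))
  refine (re_comp (this.re (S := fun _ => True) (re_const True))
    (f := fun u : Word (ELet ζ 𝒞) => ((), u)) (by fun_prop)).of_eq fun u =>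
    ⟨certE_sound h, fun hu => ?_⟩
  exact (certE_complete 0 (fun x v e => ⟨v, e, by simp⟩) (fun x v e => ⟨v, e, by simp⟩) h.wd
    hu).mono (fun _ => id) (fun _ => id) (fun _ => id) (fun _ => id) (fun _ => id) (fun _ => id)
    (fun _ e => e.1) fun _ e => e.1

theorem re_em_ne_one [Primcodable ζ] [Primcodable 𝒞] [Primcodable ι] [Finite ι]
    (wd : ∀ v, ev (fun i => ev zv (ρw i)) v = 1 → ev (fun i => ev cv (emw i)) v = 1)
    (h1 : REPred fun x => ev (eval zv cv ρw emw) x = 1) (h2 : REPred fun x => ev zv x = 1)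
    (h3 : REPred fun x => ∀ v, ev (fun i => ev zv (ρw i)) v ≠ ev zv x)
    (h4 : REPred fun x => ev zv x ≠ 1) (h7 : REPred fun x => ev cv x ≠ 1) :
    REPred fun u => ev (eval zv cv ρw emw) u ≠ 1 :=
  (re_notMem_Psub (Em.good_bot wd) h1 h2 h3 (h4.of_eq fun _ => by simp)
    ((re_const False).of_eq fun _ => by simp) ((re_const True).of_eq fun _ => by simp) h7
    (h7.of_eq fun _ => by simp)).of_eq fun _ => by rw [Em.Psub_bot]; simp

end Em

end Vale.Agent.P193
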