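import Vale.Agent.P193.Pkg
import Vale.Agent.P193.Emit
import Vale.Agent.P193.Pres

/-! Clapham's theorem: a finitely generated group with solvable word problem embeds in a finitely
presented group with solvable word problem. -/

namespace Vale.Agent.P193

/-- A raw letter codes a word. -/
def decW (n : ℕ) (a : ℕ) : Word (Fin n) := (Encodable.decode (α := Word (Fin n)) a).getD []

theorem decW_encode {n : ℕ} (w : Word (Fin n)) : decW n (Encodable.encode w) = w := by
  simp [decW]

theorem primrec_decW (n : ℕ) : Primrec (decW n) :=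
  Primrec.option_getD.comp Primrec.decode (Primrec.const _)

theorem ev_decW {H : Type*} [Group H] {n : ℕ} (k : Fin n → H) (w : List ℕ) :
    FreeGroup.lift (fun a => ev k (decW n a)) (FreeGroup.mk (posw w)) = ev k (w.flatMap (decW n)) := by
  rw [lift_mk]
  induction w with
  | nil => simp [posw]
  | cons a w ih => simpa [posw] using ih

theorem lift_hol {H : Type*} [Group H] {n : ℕ} (k : Fin n → H) {ι : Type} (em : ι → Option ℕ)
    (v : Word ι) : FreeGroup.lift (fun a => ev k (decW n a)) (hol em v)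
      = ev (fun i => ev k ((em i).elim [] (decW n))) v := by
  unfold hol
  rw [map_ev]
  congr 1
  funext i
  cases em i <;> simp

theorem clapham (G : Type) [Group G] (n : ℕ) (gen : Fin n → G)
    (hgen : Subgroup.closure (Set.range gen) = ⊤)
    (hWP : ComputablePred fun w : Word (Fin n) => ev gen w = 1) :
    ∃ (m : ℕ) (rel : List (Word (Fin m))), (REPred fun w => ev (pgen rel) w ≠ 1) ∧
      ∃ f : G →* PG rel, Function.Injective f := by
  classical
  have hsurj : ∀ y, ∃ w, ev gen w = y := fun y =>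
    exists_ev_of_mem_closure gen (hgen ▸ Subgroup.mem_top y)
  obtain ⟨f, hf, hf1, hf2⟩ := re_iff_primrec hWP.to_re
  let F : ℕ → List ℕ → Bool := fun _ w => f (w.flatMap (decW n), w.length)
  have hF : Primrec₂ F := hf.comp (Primrec.pair
    (Lib.Comp.pr_flatMap (g := fun _ a => decW n a) Primrec.snd
      ((primrec_decW n).comp Primrec.snd)) (by fun_prop))
  obtain ⟨r, hr⟩ := exists_pkg F hF 0
  obtain ⟨P⟩ := hr ((Finset.univ.sup fun x : Fin n × Bool => Encodable.encode [x])
    + Encodable.encode ([] : Word (Fin n)) + 1)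
  let emw : Fin P.m → Word (Fin n) := fun i => (P.em i).elim [] (decW n)
  let ρ : Fin P.m → ZG r := fun i => ev (zg r) (P.ρw i)
  let em : Fin P.m → FreeGroup (Fin n) := fun i => ev FreeGroup.of (emw i)
  let root : ZG r := ev (zg r) (P.rootw 0)
  let O : Set (ZG r) := {H | H * root ∈ RS r}
  have wd : ∀ v, ev ρ v = 1 → ev em v = 1 := fun v hv => by
    rw [← lift_mk, P.inj v hv, map_one]
  have good : Em.Good ρ em (RS r) O ⊤ :=
    ⟨wd, fun x hx H hH => by
      change x * H * root ∈ RS r
      rw [mul_assoc]; exact (RS r).mul_mem hx hH, fun _ _ _ _ => trivial⟩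
  have hθ : ∀ H ∈ O, ∀ v, H * ev ρ v ∈ O → FreeGroup.lift gen (ev em v) = 1 := by
    intro H hH v hv
    have h1 : root⁻¹ * ev ρ v * root ∈ RS r := by
      have := (RS r).mul_mem ((RS r).inv_mem hH) hv
      convert this using 1
      group
    have h2 := P.closed 0 v h1
    have h3 : accSub F 0 ≤ (FreeGroup.lift fun a => ev gen (decW n a)).ker := by
      refine (Subgroup.closure_le _).2 ?_
      rintro _ ⟨w, hw, rfl⟩
      rw [SetLike.mem_coe, MonoidHom.mem_ker, ev_decW]
      exact (hf1 _).2 ⟨_, hw⟩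
    have h4 := h3 h2
    rw [MonoidHom.mem_ker, lift_hol] at h4
    rw [map_ev, ← h4]
    congr 1
    funext i
    simp only [em, emw, ev_of, lift_mk]
  obtain ⟨χ, hχ⟩ := Em.exists_chi good (FreeGroup.lift gen) hθ
  let e1 := eval (zg r) (FreeGroup.of : Fin n → FreeGroup (Fin n)) P.ρw emw
  have pres1 : Pres e1 (erel (zrel r) [] P.ρw emw) :=
    pres_em (pres_pgen _) (fun y => by
      obtain ⟨w, rfl⟩ := Quot.exists_rep y
      exact ⟨w, ev_of w⟩) (by simp) fun H _ k _ _ w hw => by
        rw [ev_of] at hw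
        rw [← lift_mk, hw, map_one]
  let ρw2 : ZGen r ⊕ Unit ⊕ Fin n → Word (ELet (ZGen r) (Fin n)) :=
    Sum.elim (fun a => if isR a then [(.inl a, true)] else [])
      (Sum.elim (fun _ => wmap .inl (FreeGroup.invRev (P.rootw 0)) ++
        (.inr (.inr ()), true) :: wmap .inl (P.rootw 0)) fun j => [(.inr (.inl j), true)])
  let emw2 : ZGen r ⊕ Unit ⊕ Fin n → Word (Fin n) :=
    Sum.elim (fun _ => []) (Sum.elim (fun _ => []) fun j => [(j, true)])
  let ρ2 : ZGen r ⊕ Unit ⊕ Fin n → Em ρ em := fun i => ev e1 (ρw2 i)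
  have r1 : ∀ a, ρ2 (.inl a) = if isR a then Em.z (zg r a) else 1 := fun a => by
    simp only [ρ2, ρw2, Sum.elim_inl]
    split_ifs <;> simp [e1, eval]
  have r2 : ρ2 (.inr (.inl ())) = Em.τ root⁻¹ := by
    simp only [ρ2, ρw2, Sum.elim_inl, Sum.elim_inr, ev_append, ev_cons, e1,
      Em.τ, sgn_true, map_inv, inv_inv, mul_assoc]
    rw [eval_inl, eval_inl, ev_invRev, map_inv]
    rfl
  have r3 : ∀ j, ρ2 (.inr (.inr j)) = Em.c (FreeGroup.of j) := fun j => by
    simp [ρ2, ρw2, e1, eval]
  have r4 : ∀ w : Word (Fin n), ev ρ2 (wmap (fun j => .inr (.inr j)) w)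
      = Em.c (FreeGroup.mk w) := fun w => by
    rw [ev_wmap, ← ev_of, map_ev]
    simp only [r3]
  have hz : ∀ x ∈ RS r, Em.z x ∈ Subgroup.closure (Set.range ρ2) := by
    intro x hx
    refine (Subgroup.closure_le ((Subgroup.closure (Set.range ρ2)).comap Em.z)).2 ?_ hx
    rintro _ ⟨a, ha, rfl⟩
    exact Subgroup.subset_closure ⟨.inl a, by rw [r1, if_pos ha]⟩
  have hτ : ∀ x : ZG r, (Em.τ (x * root⁻¹) : Em ρ em) = Em.z x * Em.τ root⁻¹ * (Em.z x)⁻¹ :=
    fun x => by simp only [Em.τ, map_mul, mul_inv_rev, mul_assoc]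
  have hin : ∀ i, ρ2 i ∈ Em.Psub ρ em (RS r) O ⊤ := by
    rintro (a | a | j)
    · rw [r1]
      split_ifs with ha
      · exact Subgroup.subset_closure
          (Or.inl (Or.inl ⟨_, Subgroup.subset_closure ⟨a, ha, rfl⟩, rfl⟩))
      · exact one_mem _
    · exact Subgroup.subset_closure (Or.inl (Or.inr ⟨root⁻¹, by simp [O], r2.symm⟩))
    · exact Subgroup.subset_closure (Or.inr ⟨_, trivial, (r3 j).symm⟩)
  have hD : Em.Psub ρ em (RS r) O ⊤ = Subgroup.closure (Set.range ρ2) := by
    refine le_antisymm ((Subgroup.closure_le _).2 ?_) ((Subgroup.closure_le _).2 ?_)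
    · rintro _ ((⟨x, hx, rfl⟩ | ⟨H, hH, rfl⟩) | ⟨y, -, rfl⟩)
      · exact hz x hx
      · have : H = H * root * root⁻¹ := by group
        rw [this, hτ]
        exact mul_mem (mul_mem (hz _ hH) (Subgroup.subset_closure ⟨_, r2⟩)) (inv_mem (hz _ hH))
      · obtain ⟨w, rfl⟩ := Quot.exists_rep y
        exact (mem_closure_range_iff _).2 ⟨_, r4 w⟩
    · rintro _ ⟨i, rfl⟩
      exact hin i
  have wd2 : ∀ v, ev ρ2 v = 1 → ev (fun i => ev gen (emw2 i)) v = 1 := by
    intro v hv
    have h1 : ev (fun i => (⟨ρ2 i, hin i⟩ : Em.Psub ρ em (RS r) O ⊤)) v = 1 := by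
      apply Subtype.ext
      exact (map_ev (Subgroup.subtype _) _ v).trans hv
    have h2 := congrArg χ h1
    rw [map_one, map_ev] at h2
    rw [← h2]
    congr 1
    funext i
    rcases i with a | a | j
    · by_cases ha : isR a = true
      · exact ((hχ _).1 (zg r a) (Subgroup.subset_closure ⟨a, ha, rfl⟩)
          (by simp only [r1, if_pos ha])).symm
      · exact ((hχ _).1 1 (one_mem _) (by simp only [r1, if_neg ha, map_one])).symm
    · exact ((hχ _).2.1 root⁻¹ (by simp [O]) r2.symm).symm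
    · rw [(hχ _).2.2 (FreeGroup.of j) (r3 j).symm]
      simp [emw2]
  have pres2 : Pres (eval e1 gen ρw2 emw2) (erel (erel (zrel r) [] P.ρw emw) [] ρw2 emw2) := by
    refine pres_em pres1 hsurj (by simp) fun H _ k _ hk w hw => ?_
    obtain ⟨N, hN⟩ := (hf1 w).1 hw
    let raw : List ℕ := w.map (fun x => Encodable.encode [x]) ++
      List.replicate N (Encodable.encode ([] : Word (Fin n)))
    have hraw : raw.flatMap (decW n) = w := by
      simp only [raw, List.flatMap_append, List.flatMap_map, decW_encode, List.flatMap_replicate]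
      simp
    obtain ⟨v, hv1, hv2⟩ := P.realized 0 raw (by
      simp only [F, hraw]
      exact hf2 _ _ _ (by simp [raw]) hN) (by
      intro a ha
      rcases List.mem_append.1 ha with ha | ha
      · obtain ⟨x, -, rfl⟩ := List.mem_map.1 ha
        have := Finset.le_sup (f := fun x : Fin n × Bool => Encodable.encode [x])
          (Finset.mem_univ x)
        omega
      · rw [List.eq_of_mem_replicate ha]; omega)
    have h1 : ev em v = FreeGroup.mk w := by
      have := lift_hol (FreeGroup.of : Fin n → FreeGroup (Fin n)) P.em v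
      rw [hv2, ev_decW, hraw, ev_of] at this
      exact this.symm
    obtain ⟨vX, hvX⟩ := (mem_closure_range_iff _).1 (hz _ hv1)
    have h2 : (Em.τ (root⁻¹ * ev ρ v) : Em ρ em) = Em.τ root⁻¹ * Em.c (FreeGroup.mk w) := by
      rw [Em.τ_mul, h1]
    have h3 : root⁻¹ * ev ρ v = root⁻¹ * ev ρ v * root * root⁻¹ := by group
    rw [h3, hτ] at h2
    have h4 := hk ([(.inr (.inl ()), false)] ++ vX ++ [(.inr (.inl ()), true)] ++
      FreeGroup.invRev vX ++ FreeGroup.invRev (wmap (fun j => .inr (.inr j)) w)) (by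
        change ev ρ2 _ = 1
        simp only [ev_append, ev_invRev, ev_single, r2, r4, hvX, sgn_true, sgn_false]
        rw [mul_inv_eq_one, mul_assoc, mul_assoc, inv_mul_eq_iff_eq_mul, ← mul_assoc]
        exact h2)
    simpa [emw2, ev_single] using h4
  have hfree : REPred fun x : Word (Fin n) => ev FreeGroup.of x ≠ 1 :=
    (re_comp re_mk_ne (f := fun w : Word (Fin n) => (w, [])) (by fun_prop)).of_eq fun w => by
      rw [ev_of]; rfl
  have ne1 : REPred fun u => ev e1 u ≠ 1 :=
    re_em_ne_one wd pres1.re (re_pg_eq_one _) P.re_notPhi (z_re_ne_one r) hfree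
  have notD : REPred fun u => ev e1 u ∉ Em.Psub ρ em (RS r) O ⊤ :=
    re_notMem_Psub good pres1.re (re_pg_eq_one _) P.re_notPhi (z_re_not_mem_RS r)
      ((re_comp (z_re_mem_RS r) (f := fun x => x ++ P.rootw 0) (by fun_prop)).of_eq fun x => by
        simp [O, root])
      (re_comp P.re_orbit (f := fun x => (0, x)) (by fun_prop)) hfree
      ((re_const False).of_eq fun _ => by simp)
  have ne2 : REPred fun u => ev (eval e1 gen ρw2 emw2) u ≠ 1 :=
    re_em_ne_one wd2 pres2.re pres1.re (notD.of_eq fun x => by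
      rw [hD, mem_closure_range_iff, not_exists]) ne1 hWP.not.to_re
  let e := Fintype.equivFin (ELet (ELet (ZGen r) (Fin n)) (Fin n))
  have pres3 := pres2.relabel e
  obtain ⟨g, hg, -⟩ := pres3.exists_inj
  refine ⟨_, _, ?_, g.comp Em.c, hg.comp (Em.c_injective wd2)⟩
  refine (re_comp ne2 (computable_wmap (primrec_of_finite e.symm).to_comp Computable.id)).of_eq
    fun w => ?_
  rw [ne_eq, ne_eq, pres3.iff, ev_wmap]
  rfl

end Vale.Agent.P193
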