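import Vale.Agent.P193.SVSys
import Mathlib.GroupTheory.Index

/-! The concrete system of permutations. -/

namespace Vale.Agent.P193.SV

open Equiv

variable {G : Type} [Group G] {P : Subgroup G}

/-- points of a cube -/
abbrev Cube (P : Subgroup G) : Type := (G ⧸ P) → ℕ → Bool

/-- points of the union of the cubes -/
abbrev Pt (P : Subgroup G) : Type := ℕ × Cube P

/-- the action on a cube -/
def gact (g : G) (κ : Cube P) : Cube P := fun t => κ (g⁻¹ • t)

@[simp] lemma gact_one (κ : Cube P) : gact 1 κ = κ := by ext; simp [gact]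
lemma gact_mul (g g' : G) (κ : Cube P) : gact (g * g') κ = gact g (gact g' κ) := by
  ext; simp [gact, mul_smul]

/-- the action on points -/
def actF (w : W G) (x : Pt P) : Pt P := (w.p x.1, gact (w.g x.1) x.2)

lemma actF_mul (u v : W G) (x : Pt P) : actF (u * v) x = actF u (actF v x) := by
  simp [actF, gact_mul]

lemma actF_one (x : Pt P) : actF (1 : W G) x = x := by simp [actF]

variable (P) in
/-- the action as a homomorphism -/
def act : W G →* Perm (Pt P) where
  toFun w := ⟨actF w, actF w⁻¹, fun x => by rw [← actF_mul, inv_mul_cancel, actF_one],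
    fun x => by rw [← actF_mul, mul_inv_cancel, actF_one]⟩
  map_one' := Equiv.ext actF_one
  map_mul' u v := Equiv.ext (actF_mul u v)

@[simp] lemma act_apply (w : W G) (x : Pt P) : act P w x = (w.p x.1, gact (w.g x.1) x.2) := rfl

lemma act_inj (hcore : P.normalCore = ⊥) : Function.Injective (act P) := by
  classical
  rw [injective_iff_map_eq_one]
  intro w hw
  have h : ∀ x : Pt P, act P w x = x := fun x => by rw [hw]; rfl
  ext i
  · exact congrArg Prod.fst (h (i, fun _ _ => false))
  · have : (w.g i)⁻¹ ∈ P.normalCore := by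
      rw [Subgroup.normalCore_eq_ker, MonoidHom.mem_ker]
      ext t
      have := congrFun (congrFun (congrArg Prod.snd (h (i, fun t' _ => decide (t' = t)))) t) 0
      simpa [gact] using this
    rw [hcore, Subgroup.mem_bot, inv_eq_one] at this
    exact this

open Classical in
/-- remove the first digit of a coordinate -/
noncomputable def tl (s : G ⧸ P) (κ : Cube P) : Cube P :=
  fun t k => if t = s then κ t (k + 1) else κ t k

open Classical in
/-- add a first digit to a coordinate -/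
noncomputable def cs (s : G ⧸ P) (b : Bool) (κ : Cube P) : Cube P :=
  fun t k => if t = s then (Nat.casesOn k b (κ t)) else κ t k

@[simp] lemma tl_cs (s : G ⧸ P) (b : Bool) (κ : Cube P) : tl s (cs s b κ) = κ := by
  ext t k; by_cases h : t = s <;> simp [tl, cs, h]

@[simp] lemma cs_zero (s : G ⧸ P) (b : Bool) (κ : Cube P) : cs s b κ s 0 = b := by simp [cs]

lemma cs_tl (s : G ⧸ P) (κ : Cube P) : cs s (κ s 0) (tl s κ) = κ := by
  ext t k
  by_cases h : t = s
  · cases k <;> simp [tl, cs, h]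
  · simp [tl, cs, h]

lemma tl_gact (g : G) (s : G ⧸ P) (κ : Cube P) : tl (g • s) (gact g κ) = gact g (tl s κ) := by
  ext t k
  by_cases h : t = g • s
  · simp [tl, gact, h]
  · simp [tl, gact, h, inv_smul_eq_iff]

lemma tl_comm (s s' : G ⧸ P) (κ : Cube P) : tl s (tl s' κ) = tl s' (tl s κ) := by
  ext t k
  simp only [tl]
  split_ifs <;> rfl

lemma tl_ne {s s' : G ⧸ P} (h : s ≠ s') (κ : Cube P) (k : ℕ) : tl s' κ s k = κ s k := by
  simp [tl, h]

/-- splitting of a cube -/
noncomputable def LF (n i : ℕ) (s : G ⧸ P) (x : Pt P) : Pt P :=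
  if x.1 = i then (if x.2 s 0 then n else i, tl s x.2) else if n ≤ x.1 then (x.1 + 1, x.2) else x

/-- merging of two cubes -/
noncomputable def LI (n i : ℕ) (s : G ⧸ P) (x : Pt P) : Pt P :=
  if x.1 = i then (i, cs s false x.2) else if x.1 = n then (i, cs s true x.2) else
    if n < x.1 then (x.1 - 1, x.2) else x

lemma LF_self (n i : ℕ) (s : G ⧸ P) (κ : Cube P) :
    LF n i s (i, κ) = (if κ s 0 then n else i, tl s κ) := by simp [LF]

lemma LF_ge {n i j : ℕ} (s : G ⧸ P) (κ : Cube P) (h : j ≠ i) (h2 : n ≤ j) :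
    LF n i s (j, κ) = (j + 1, κ) := by simp [LF, h, h2]

lemma LF_lt {n i j : ℕ} (s : G ⧸ P) (κ : Cube P) (h : j ≠ i) (h2 : j < n) :
    LF n i s (j, κ) = (j, κ) := by simp [LF, h, h2.not_ge]

/-- splitting as a permutation -/
noncomputable def Lh (n i : ℕ) (s : G ⧸ P) : Perm (Pt P) :=
  if h : i < n then ⟨LF n i s, LI n i s, fun x => by
      obtain ⟨j, κ⟩ := x
      have := cs_tl s κ
      by_cases h1 : j = i
      · subst h1
        rw [LF_self]
        cases h2 : κ s 0
        · simpa [LI, h2] using this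
        · simpa [LI, h2, h.ne'] using this
      · by_cases h2 : n ≤ j
        · rw [LF_ge _ _ h1 h2, LI, if_neg (by simp; omega), if_neg (by simp; omega),
            if_pos (by simp; omega)]
          rfl
        · rw [LF_lt _ _ h1 (by omega), LI, if_neg h1, if_neg (by simp; omega),
            if_neg (by simp; omega)],
    fun x => by
      obtain ⟨j, κ⟩ := x
      by_cases h1 : j = i
      · simp [LI, h1, LF_self]
      · by_cases h2 : j = n
        · simp [LI, h2, h.ne', LF_self]
        · by_cases h3 : n < j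
          · rw [LI, if_neg h1, if_neg h2, if_pos h3, LF_ge _ _ (by omega) (by omega)]
            simp; omega
          · rw [LI, if_neg h1, if_neg h2, if_neg h3, LF_lt _ _ h1 (by omega)]⟩ else 1

lemma Lh_apply {n i : ℕ} (h : i < n) (s : G ⧸ P) (x : Pt P) : Lh n i s x = LF n i s x := by
  simp [Lh, h]

lemma Lh_E {n i : ℕ} (hi : i < n) (s : G ⧸ P) {w : W G} (hw : w ∈ Lv n) :
    Lh n (w.p i) (w.g i • s) * act P w = act P (plus n i w) * Lh n i s := by
  ext1 x
  obtain ⟨j, κ⟩ := x
  simp only [Perm.mul_apply, Lh_apply hi, Lh_apply (Lv_lt hw hi), act_apply, LF]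
  by_cases h1 : j = i
  · subst h1
    have h2 : gact (w.g j) κ (w.g j • s) 0 = κ s 0 := by simp [gact]
    have h3 := (hw n le_rfl).1
    simp only [if_true, tl_gact, h2, plus_p, plus_g]
    split_ifs <;> simp_all
  · have h2 : w.p j ≠ w.p i := fun h => h1 (w.p.injective h)
    by_cases h3 : n ≤ j
    · simp [h1, h3, hw j h3, hw (j + 1) (by omega), show j + 1 ≠ n by omega,
        show j ≠ w.p i from (hw j h3).1 ▸ h2]
    · have := Lv_lt hw (not_le.1 h3)
      simp [h1, h2, h3, not_le.2 this, show j ≠ n by omega]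

lemma Lh_C {n i j : ℕ} (hi : i < n) (hj : j < n) (hij : i ≠ j) (s s' : G ⧸ P) :
    Lh (n + 1) j s' * Lh n i s = act P (ta n) * Lh (n + 1) i s * Lh n j s' := by
  ext1 x
  obtain ⟨k, κ⟩ := x
  simp only [Perm.mul_apply, Lh_apply hi, Lh_apply hj, Lh_apply (Nat.lt_succ_of_lt hi),
    Lh_apply (Nat.lt_succ_of_lt hj), act_apply, ta, prm_p, prm_g, gact_one]
  by_cases h1 : k = i
  · subst h1
    cases h : κ s 0 <;>
      simp (disch := omega) [LF_self, LF_ge, LF_lt, h, swap_apply_of_ne_of_ne]
  by_cases h2 : k = j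
  · subst h2
    cases h : κ s' 0 <;>
      simp (disch := omega) [LF_self, LF_ge, LF_lt, h, swap_apply_of_ne_of_ne]
  by_cases h3 : n ≤ k <;> simp (disch := omega) [LF_ge, LF_lt, swap_apply_of_ne_of_ne]

lemma Lh_X {n i : ℕ} (hi : i < n) {s s' : G ⧸ P} (hs : s ≠ s') :
    Lh (n + 2) n s' * Lh (n + 1) i s' * Lh n i s =
      act P (ta n) * Lh (n + 2) n s * Lh (n + 1) i s * Lh n i s' := by
  ext1 x
  obtain ⟨k, κ⟩ := x
  have h1 := tl_comm s s' κ
  have h2 := tl_ne hs κ 0
  have h3 := tl_ne hs.symm κ 0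
  simp only [Perm.mul_apply, Lh_apply hi, Lh_apply (Nat.lt_succ_of_lt hi),
    Lh_apply (show n < n + 2 by omega), act_apply, ta, prm_p, prm_g, gact_one]
  by_cases h4 : k = i
  · subst h4
    cases h : κ s 0 <;> cases h' : κ s' 0 <;>
      simp (disch := omega) [LF_self, LF_ge, LF_lt, h, h', h1, h2, h3, swap_apply_of_ne_of_ne]
  by_cases h5 : n ≤ k <;> simp (disch := omega) [LF_ge, LF_lt, swap_apply_of_ne_of_ne]

variable (P) in
/-- the gauge -/
noncomputable def Lam (B : ℕ) : ℕ → Perm (Pt P)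
  | 0 => 1
  | k + 1 => if B ≤ k then Lh k 0 (s0 P) * Lam B k else 1

lemma Lam_base (B : ℕ) : Lam P B B = 1 := by
  cases B <;> simp [Lam]

lemma Lam_succ {B k : ℕ} (h : B ≤ k) : Lam P B (k + 1) = Lh k 0 (s0 P) * Lam P B k := by
  simp [Lam, h]

variable (P) in
/-- the concrete system -/
noncomputable def ac (B m : ℕ) (w : W G) : Perm (Pt P) := (Lam P B m)⁻¹ * act P w * Lam P B m

lemma ac_pre {B : ℕ} (hB : 2 ≤ B) (n : ℕ) : Pre P (ac P B) B n := by
  refine ⟨fun m _ _ u _ v _ => ?_, fun m hm _ u hu => ?_, fun m hm _ => ?_⟩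
  · simp [ac, mul_assoc]
  · have := Lh_E (i := 0) (by omega) (s0 P) hu.1
    rw [hu.2.1, smul_s0, (QuotientGroup.eq (s := P)).2 (show (u.g 0)⁻¹ * 1 ∈ P by
      simpa using hu.2.2)] at this
    rw [ac, ac, Lam_succ hm, ← mul_assoc, mul_assoc _ (act P (plus m 0 u)), ← this]
    group
  · have e1 := Lh_E (n := m) (i := 0) (by omega) (s0 P) (sg_mem (by omega))
    have e2 := Lh_E (n := m + 1) (i := 1) (by omega) (s0 P) (sg_mem (by omega))
    have c := Lh_C (n := m) (i := 0) (j := 1) (by omega) (by omega) (by omega) (s0 P) (s0 P)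
    simp only [sg, prm_p, prm_g, one_smul, swap_apply_left, swap_apply_right, plus_prm] at e1 e2
    change _ * act P sg = act P sg * _ at e1 e2
    have ss : act P (sg : W G) * act P sg = 1 := by rw [← map_mul, sg_sg, map_one]
    have tt : act P (ta m : W G) * act P (ta m) = 1 := by rw [← map_mul, ta_ta, map_one]
    simp only [ac, Lam_succ hm, Lam_succ (Nat.le_succ_of_le hm), map_mul]
    generalize act P (sg : W G) = σ at *
    generalize act P (ta m : W G) = τ at *
    generalize Lh m 0 (s0 P) = A0 at *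
    generalize Lh m 1 (s0 P) = A1 at *
    generalize Lh (m + 1) 0 (s0 P) = B0 at *
    generalize Lh (m + 1) 1 (s0 P) = B1 at *
    have hσ : σ⁻¹ = σ := inv_eq_of_mul_eq_one_right ss
    have hτ : τ⁻¹ = τ := inv_eq_of_mul_eq_one_right tt
    have f1 : A1 = σ * A0 * σ := by rw [← e1, mul_assoc, ss, mul_one]
    have f2 : B1 = σ * B0 * σ := by rw [mul_assoc, e2, ← mul_assoc, ss, one_mul]
    have f3 : τ = B1 * A0 * A1⁻¹ * B0⁻¹ := by rw [c]; group
    rw [f3, f1, f2]
    simp only [mul_inv_rev, hσ, mul_assoc, inv_mul_cancel_left, mul_inv_cancel_left]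
    rw [← mul_assoc σ σ, ss, one_mul, inv_mul_cancel_left]

lemma LL_ac {B m i : ℕ} (hm : B ≤ m) (hi : i < m) (s : G ⧸ P) :
    LL (ac P B) m i s = (Lam P B (m + 1))⁻¹ * Lh m i s * Lam P B m := by
  have := Lh_E (i := 0) (by omega) (s0 P) (w0_mem hi s)
  rw [w0_p, w0_g, out_smul_s0] at this
  rw [LL, ac, ac, Lam_succ hm, ← mul_assoc, mul_assoc _ (act P _), ← this]
  group

lemma ac_X {B m i : ℕ} (hm : B ≤ m) (hi : i < m) {s s' : G ⧸ P} (hs : s ≠ s') :
    XR (ac P B) m i s s' := by
  rw [XR, LL_ac hm hi, LL_ac hm hi, LL_ac (m := m + 1) (by omega) (by omega),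
    LL_ac (m := m + 1) (by omega) (by omega), LL_ac (m := m + 2) (by omega) (by omega),
    LL_ac (m := m + 2) (by omega) (by omega), ac]
  have := Lh_X hi hs
  simp only [mul_assoc, mul_inv_cancel_left] at this ⊢
  rw [← mul_assoc (Lh (m + 1) i s'), ← mul_assoc (Lh (m + 2) m s'), this]
  simp only [mul_assoc]

end Vale.Agent.P193.SV
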