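import Vale.Agent.P193.SVExt
import Vale.Agent.P193.SVConc
import Mathlib.GroupTheory.FinitelyPresentedGroup

/-! The finitely presented group carrying a system. -/

namespace Vale.Agent.P193.SV

open Equiv Monoid

lemma fg_of_fp {A : Type} [Group A] (h : Group.IsFinitelyPresented A) : Group.FG A := by
  obtain ⟨n, f, hf, -⟩ := h
  exact Group.fg_of_surjective hf

lemma fp_semi {A C K : Type} [Group A] [Group C] [Group K] (hA : Group.IsFinitelyPresented A)
    (hC : Group.IsFinitelyPresented C) (f : A →* K) (g : C →* K)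
    (h1 : ∀ x, ∃ a c, x = f a * g c) (h2 : ∀ a c, f a * g c = 1 → a = 1 ∧ c = 1)
    (h3 : ∀ c a, ∃ a', g c * f a = f a' * g c) : Group.IsFinitelyPresented K := by
  choose t ht using h3
  obtain ⟨SA, hSA, fA⟩ := Monoid.fg_iff.1 (Group.fg_iff_monoid_fg.1 (fg_of_fp hA))
  obtain ⟨SC, hSC, fC⟩ := Monoid.fg_iff.1 (Group.fg_iff_monoid_fg.1 (fg_of_fp hC))
  let r : C × A → Coprod A C := fun x =>
    Coprod.inr x.1 * Coprod.inl x.2 * (Coprod.inl (t x.1 x.2) * Coprod.inr x.1)⁻¹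
  let N := Subgroup.normalClosure (r '' (SC ×ˢ SA))
  have hN : N ≤ (Coprod.lift f g).ker := Subgroup.normalClosure_le_normal (by
    rintro _ ⟨x, -, rfl⟩
    simp [r, ht])
  refine Group.IsFinitelyPresented.of_surjective (Coprod.lift f g) (fun x => ?_)
    ⟨_, (fC.prod fA).image r, le_antisymm hN fun x hx => ?_⟩
  · obtain ⟨a, c, rfl⟩ := h1 x
    exact ⟨Coprod.inl a * Coprod.inr c, by simp⟩
  let q := QuotientGroup.mk' N
  have k1 : ∀ c ∈ SC, ∀ a, ∃ a', q (Coprod.inr c) * q (Coprod.inl a) =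
      q (Coprod.inl a') * q (Coprod.inr c) := by
    intro c hc a
    induction a using Submonoid.induction_of_closure_eq_top_left hSA with
    | one => exact ⟨1, by simp⟩
    | mul_left a ha b ih =>
      obtain ⟨b', hb⟩ := ih
      have : q (r (c, a)) = 1 := (QuotientGroup.eq_one_iff _).2
        (Subgroup.subset_normalClosure ⟨_, ⟨hc, ha⟩, rfl⟩)
      simp only [r, map_mul, map_inv, mul_inv_eq_one] at this
      exact ⟨t c a * b', by
        rw [map_mul, map_mul, map_mul, map_mul, ← mul_assoc, this, mul_assoc, hb, mul_assoc]⟩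
  have k2 : ∀ c a, ∃ a', q (Coprod.inr c) * q (Coprod.inl a) =
      q (Coprod.inl a') * q (Coprod.inr c) := by
    intro c
    induction c using Submonoid.induction_of_closure_eq_top_left hSC with
    | one => exact fun a => ⟨a, by simp⟩
    | mul_left c hc d ih =>
      intro a
      obtain ⟨a', h⟩ := ih a
      obtain ⟨a'', h'⟩ := k1 c hc a'
      exact ⟨a'', by rw [map_mul, map_mul, mul_assoc, h, ← mul_assoc, h', mul_assoc]⟩
  have k3 : ∀ y, ∃ a c, q y = q (Coprod.inl a * Coprod.inr c) := by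
    intro y
    induction y using Coprod.induction_on with
    | inl a => exact ⟨a, 1, by simp⟩
    | inr c => exact ⟨1, c, by simp⟩
    | mul x y hx hy =>
      obtain ⟨a, c, h⟩ := hx
      obtain ⟨a', c', h'⟩ := hy
      obtain ⟨a'', h''⟩ := k2 c a'
      refine ⟨a * a'', c * c', ?_⟩
      simp only [map_mul, h, h', mul_assoc]
      rw [← mul_assoc (q (Coprod.inr c)), h'', mul_assoc]
  obtain ⟨a, c, h⟩ := k3 x
  have h4 := hN (QuotientGroup.eq.1 h)
  rw [MonoidHom.mem_ker] at hx h4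
  rw [map_mul, map_inv, hx, inv_one, one_mul, map_mul, Coprod.lift_apply_inl,
    Coprod.lift_apply_inr] at h4
  rw [(h2 a c h4).1, (h2 a c h4).2, map_one, map_one, mul_one, map_one] at h
  exact (QuotientGroup.eq_one_iff _).1 h

variable {G : Type} [Group G] {P : Subgroup G}

/-- pure labellings -/
def Lab (m : ℕ) : Subgroup (W G) where
  carrier := {w | w ∈ Lv m ∧ w.p = 1}
  mul_mem' := fun ha hb => ⟨mul_mem ha.1 hb.1, by simp [ha.2, hb.2]⟩
  one_mem' := ⟨one_mem _, rfl⟩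
  inv_mem' := fun ha => ⟨inv_mem ha.1, by simp [ha.2]⟩

/-- pure permutations -/
def Prm (m : ℕ) : Subgroup (W G) where
  carrier := {w | w ∈ Lv m ∧ ∀ i, w.g i = 1}
  mul_mem' := fun ha hb => ⟨mul_mem ha.1 hb.1, by simp [ha.2, hb.2]⟩
  one_mem' := ⟨one_mem _, fun _ => rfl⟩
  inv_mem' := fun ha => ⟨inv_mem ha.1, by simp [ha.2]⟩

instance Prm_finite (m : ℕ) : Finite (Prm m : Subgroup (W G)) := by
  refine Finite.of_injective (fun w (i : Fin m) => (⟨w.1.p i, Lv_lt w.2.1 i.2⟩ : Fin m)) ?_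
  intro u v e
  ext i
  · by_cases h : i < m
    · exact congrArg Fin.val (congrFun e ⟨i, h⟩)
    · rw [(u.2.1 i (by omega)).1, (v.2.1 i (by omega)).1]
  · rw [u.2.2, v.2.2]

lemma Lab_fp (hG : Group.IsFinitelyPresented G) (m : ℕ) :
    Group.IsFinitelyPresented (Lab m : Subgroup (W G)) := by
  induction m with
  | zero =>
    have : Subsingleton (Lab 0 : Subgroup (W G)) := ⟨fun u v => by
      ext i
      · rw [u.2.2, v.2.2]
      · rw [(u.2.1 i (by omega)).2, (v.2.1 i (by omega)).2]⟩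
    infer_instance
  | succ m ih =>
    refine fp_semi hG ih ((lab m).codRestrict _ fun x => ⟨lab_mem (by omega) x, rfl⟩)
      (Subgroup.inclusion fun w hw => ⟨Lv_mono (by omega) hw.1, hw.2⟩) (fun x => ?_)
      (fun a c e => ?_) (fun c a => ?_)
    · refine ⟨x.1.g m, ⟨trunc m x.1, trunc_mem x.2.1 (by simp [x.2.2]), x.2.2⟩, Subtype.ext ?_⟩
      change x.1 = lab m (x.1.g m) * trunc m x.1
      ext i
      · simp
      · by_cases h : i = m <;> simp [h, x.2.2]
    · have e1 : lab m a * c.1 = 1 := congrArg Subtype.val e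
      have e2 := congrArg (fun w => w.g m) e1
      have e3 : a = 1 := by simpa [c.2.2, (c.2.1 m le_rfl).2] using e2
      rw [e3, map_one, one_mul] at e1
      exact ⟨e3, Subtype.ext e1⟩
    · refine ⟨c.1.g m * a * (c.1.g m)⁻¹, Subtype.ext ?_⟩
      have := conj_lab c.1 m a
      rwa [(c.2.1 m le_rfl).1] at this

theorem Lv_fp (hG : Group.IsFinitelyPresented G) (m : ℕ) :
    Group.IsFinitelyPresented (Lv m : Subgroup (W G)) := by
  refine fp_semi (Lab_fp hG m) (inferInstance : Group.IsFinitelyPresented (Prm m))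
    (Subgroup.inclusion fun w hw => hw.1) (Subgroup.inclusion fun w hw => hw.1) (fun x => ?_)
    (fun a c e => ?_) (fun c a => ?_)
  · have h1 : (prm x.1.p : W G) ∈ Lv m := prm_mem_iff.2 fun i hi => (x.2 i hi).1
    exact ⟨⟨x.1 * (prm x.1.p)⁻¹, mul_mem x.2 (inv_mem h1), by simp⟩, ⟨prm x.1.p, h1, fun _ => rfl⟩,
      Subtype.ext (by simp)⟩
  · have e1 : a.1 * c.1 = 1 := congrArg Subtype.val e
    have e2 : c.1.p = 1 := by simpa [a.2.2] using congrArg W.p e1
    have e3 : c.1 = 1 := W.ext e2 (funext c.2.2)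
    rw [e3, mul_one] at e1
    exact ⟨Subtype.ext e1, Subtype.ext e3⟩
  · exact ⟨⟨c.1 * a.1 * c.1⁻¹, mul_mem (mul_mem c.2.1 a.2.1) (inv_mem c.2.1), by simp [a.2.2]⟩,
      Subtype.ext (by simp)⟩

lemma fg_map {A C : Type} [Group A] [Group C] {S : Subgroup A} (h : S.FG) (f : A →* C) :
    (S.map f).FG := by
  obtain ⟨T, rfl, hT⟩ := (Subgroup.fg_iff _).1 h
  exact (Subgroup.fg_iff _).2 ⟨f '' T, (MonoidHom.map_closure _ _).symm, hT.image _⟩

theorem St_fg (hG : Group.IsFinitelyPresented G) (hP : P.FG) (m : ℕ) (hm : 0 < m) :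
    (St P m).FG := by
  have h1 : (Prm m ⊓ St P m).FG := by
    have : Finite (Prm m ⊓ St P m : Subgroup (W G)) :=
      Finite.of_injective _ (Subgroup.inclusion_injective inf_le_left)
    exact (Group.fg_iff_subgroup_fg _).1 inferInstance
  have h2 := Subgroup.FG.biSup (Set.finite_Ioo 0 m) (fun i => (⊤ : Subgroup G).map (lab i))
    fun i _ => fg_map (fg_of_fp hG).out _
  convert (h1.sup (fg_map hP (lab 0))).sup h2 using 1
  refine le_antisymm (fun w hw => ?_) (sup_le (sup_le inf_le_right ?_) (iSup₂_le fun i hi => ?_))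
  · refine lab_induction (Q := fun u => u ∈ _) w hw.1 ?_ fun u i hi hu => mul_mem hu ?_
    · have : (prm w.p : W G) ∈ Lv m := prm_mem_iff.2 fun i hi => (hw.1 i hi).1
      exact Subgroup.mem_sup_left (Subgroup.mem_sup_left
        ⟨⟨this, fun _ => rfl⟩, this, hw.2.1, by simp⟩)
    · by_cases h : i = 0
      · subst h
        exact Subgroup.mem_sup_left (Subgroup.mem_sup_right ⟨_, hw.2.2, rfl⟩)
      · exact Subgroup.mem_sup_right (Subgroup.mem_iSup_of_mem i
          (Subgroup.mem_iSup_of_mem ⟨by omega, hi⟩ ⟨_, trivial, rfl⟩))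
  · rintro _ ⟨x, hx, rfl⟩
    exact ⟨lab_mem hm x, rfl, by simpa using hx⟩
  · rintro _ ⟨x, -, rfl⟩
    exact ⟨lab_mem hi.2 x, rfl, by simp [hi.1.ne]⟩

open Classical in
/-- extension by one -/
noncomputable def tot {K F : Type} [Group K] [Group F] (S : Subgroup K) (f : S →* F) (w : K) : F :=
  if h : w ∈ S then f ⟨w, h⟩ else 1

lemma tot_eq {K F : Type} [Group K] [Group F] {S : Subgroup K} (f : S →* F) {w : K} (h : w ∈ S) :
    tot S f w = f ⟨w, h⟩ := dif_pos h

lemma tot_mul {K F : Type} [Group K] [Group F] {S : Subgroup K} (f : S →* F) {u v : K} (hu : u ∈ S)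
    (hv : v ∈ S) : tot S f (u * v) = tot S f u * tot S f v := by
  rw [tot_eq f hu, tot_eq f hv, tot_eq f (mul_mem hu hv), ← map_mul]; rfl

/-- the concrete system as homomorphisms -/
noncomputable def acH (P : Subgroup G) (m : ℕ) : (Lv m : Subgroup (W G)) →* Perm (Pt P) :=
  MonoidHom.mk' (fun w => ac P 8 m w) fun u v => by simp [ac, mul_assoc]

lemma free_sys (hG : Group.IsFinitelyPresented G) :
    ∃ (F : Type) (_ : Group F) (a : ℕ → W G → F) (ψ : F →* Perm (Pt P)),
      Group.IsFinitelyPresented F ∧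
      (∀ m, 8 ≤ m → m ≤ 11 → ∀ u ∈ Lv m, ∀ v ∈ Lv m, a m (u * v) = a m u * a m v) ∧
      (∀ m, 8 ≤ m → m ≤ 11 → ∀ w ∈ Lv m, ψ (a m w) = ac P 8 m w) ∧
      ∀ K : Subgroup F, (∀ m, 8 ≤ m → m ≤ 11 → ∀ w ∈ Lv m, a m w ∈ K) → K = ⊤ := by
  have := Lv_fp hG
  refine ⟨Coprod (Coprod (Lv 8 : Subgroup (W G)) (Lv 9 : Subgroup (W G)))
    (Coprod (Lv 10 : Subgroup (W G)) (Lv 11 : Subgroup (W G))), inferInstance,
    fun m => if m = 8 then tot _ (Coprod.inl.comp Coprod.inl) else
      if m = 9 then tot _ (Coprod.inl.comp Coprod.inr) else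
      if m = 10 then tot _ (Coprod.inr.comp Coprod.inl) else tot _ (Coprod.inr.comp Coprod.inr),
    Coprod.lift (Coprod.lift (acH P 8) (acH P 9)) (Coprod.lift (acH P 10) (acH P 11)),
    inferInstance, fun m h1 h2 u hu v hv => ?_, fun m h1 h2 w hw => ?_, fun K hK => ?_⟩
  · obtain rfl | rfl | rfl | rfl : m = 8 ∨ m = 9 ∨ m = 10 ∨ m = 11 := by omega
    all_goals exact tot_mul _ hu hv
  · obtain rfl | rfl | rfl | rfl : m = 8 ∨ m = 9 ∨ m = 10 ∨ m = 11 := by omega
    all_goals simp [tot_eq _ hw, acH]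
  · rw [eq_top_iff]
    intro x hx
    clear hx
    induction x using Coprod.induction_on with
    | inl y =>
      induction y using Coprod.induction_on with
      | inl z => simpa [tot_eq _ z.2] using hK 8 (by omega) (by omega) z.1 z.2
      | inr z => simpa [tot_eq _ z.2] using hK 9 (by omega) (by omega) z.1 z.2
      | mul x y hx hy => rw [map_mul]; exact mul_mem hx hy
    | inr y =>
      induction y using Coprod.induction_on with
      | inl z => simpa [tot_eq _ z.2] using hK 10 (by omega) (by omega) z.1 z.2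
      | inr z => simpa [tot_eq _ z.2] using hK 11 (by omega) (by omega) z.1 z.2
      | mul x y hx hy => rw [map_mul]; exact mul_mem hx hy
    | mul x y hx hy => exact mul_mem hx hy

lemma map_LL {F K : Type} [Group F] [Group K] {a : ℕ → W G → F} {b : ℕ → W G → K} (f : F →* K)
    (hf : ∀ m, 8 ≤ m → m ≤ 11 → ∀ w ∈ Lv m, f (a m w) = b m w) {m i : ℕ} (h1 : 8 ≤ m)
    (h2 : m ≤ 10) (hi : i < m) (s : G ⧸ P) : f (LL a m i s) = LL b m i s := by
  rw [LL, LL, map_mul, map_inv, hf _ h1 (by omega) _ (w0_mem hi s),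
    hf _ (by omega) (by omega) _ (plus_mem 0 (w0_mem hi s))]

lemma XR_iff {F K : Type} [Group F] [Group K] {a : ℕ → W G → F} {b : ℕ → W G → K} (f : F →* K)
    (hf : ∀ m, 8 ≤ m → m ≤ 11 → ∀ w ∈ Lv m, f (a m w) = b m w) (s s' : G ⧸ P) :
    f (LL a 10 8 s' * LL a 9 0 s' * LL a 8 0 s *
      (a 11 (ta 8) * LL a 10 8 s * LL a 9 0 s * LL a 8 0 s')⁻¹) = 1 ↔ XR b 8 0 s s' := by
  simp (disch := omega) only [map_mul, map_inv, mul_inv_eq_one, map_LL f hf,
    hf 11 (by omega) le_rfl _ (ta_mem (m := 8) (by omega))]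
  rfl

theorem exists_sys (hG : Group.IsFinitelyPresented G) (hP : P.FG) (g0 : G) (hg0 : g0 ∉ P) :
    ∃ (H : Type) (_ : Group H) (a : ℕ → W G → H) (φ : H →* Perm (Pt P)),
      Group.IsFinitelyPresented H ∧ (∀ n, Pre P a 8 n) ∧ XR a 8 0 (s0 P) (g0 • s0 P) ∧
      (∀ m, 8 ≤ m → ∀ w ∈ Lv m, φ (a m w) = ac P 8 m w) ∧
      ∀ K : Subgroup H, (∀ m, 8 ≤ m → ∀ w ∈ Lv m, a m w ∈ K) → K = ⊤ := by
  obtain ⟨F, _, b, ψ, h1, h2, h3, h4⟩ := free_sys (P := P) hG
  choose S hS fS using fun m => (Submonoid.fg_iff _).1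
    ((Subgroup.fg_iff_submonoid_fg _).1 (St_fg hG hP (m + 1) (by omega)))
  have hS' : ∀ m, ∀ u ∈ S m, u ∈ St P (m + 1) := fun m u hu =>
    (hS m ▸ Submonoid.subset_closure hu : u ∈ (St P (m + 1)).toSubmonoid)
  let x := LL b 10 8 (g0 • s0 P) * LL b 9 0 (g0 • s0 P) * LL b 8 0 (s0 P) *
      (b 11 (ta 8) * LL b 10 8 (s0 P) * LL b 9 0 (s0 P) * LL b 8 0 (g0 • s0 P))⁻¹
  let R : Set F := (⋃ m ∈ Set.Icc 7 9, (fun u => b (m + 1) u *
      (b (m + 2) (plus (m + 1) 0 u))⁻¹) '' S m) ∪ ((fun m => b (m + 2) (sg * ta m) *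
        (b (m + 1) sg * b m sg * b (m + 1) sg)⁻¹) '' Set.Icc 8 9 ∪ {x})
  have fR : R.Finite := ((Set.finite_Icc 7 9).biUnion fun m _ => (fS m).image _).union
    (((Set.finite_Icc 8 9).image _).union (Set.finite_singleton _))
  let N := Subgroup.normalClosure R
  let q := QuotientGroup.mk' N
  have hq : ∀ r ∈ R, q r = 1 := fun r hr =>
    (QuotientGroup.eq_one_iff _).2 (Subgroup.subset_normalClosure hr)
  have hac := ac_pre (P := P) (B := 8) (by omega)
  have hN : N ≤ ψ.ker := Subgroup.normalClosure_le_normal (by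
    rintro _ (hr | ⟨m, hm, rfl⟩ | rfl)
    · simp only [Set.mem_iUnion] at hr
      obtain ⟨m, hm, u, hu, rfl⟩ := hr
      have := hS' m u hu
      have h7 := hm.1
      have h9 := hm.2
      rw [SetLike.mem_coe, MonoidHom.mem_ker, map_mul, map_inv, mul_inv_eq_one,
        h3 _ (by omega) (by omega) _ this.1, h3 _ (by omega) (by omega) _ (plus_mem 0 this.1)]
      exact ae0 hac (by omega) this
    · have h7 := hm.1
      have h9 := hm.2
      rw [SetLike.mem_coe, MonoidHom.mem_ker, map_mul, map_inv, mul_inv_eq_one, map_mul, map_mul,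
        h3 _ (by omega) (by omega) _ (mul_mem (sg_mem (by omega)) (ta_mem le_rfl)),
        h3 _ (by omega) (by omega) _ (sg_mem (by omega)),
        h3 _ (by omega) (by omega) _ (sg_mem (by omega))]
      exact (hac _).cc m h7 le_rfl
    · refine (XR_iff ψ h3 _ _).2 (ac_X le_rfl (by omega) fun e => hg0 ?_)
      rw [smul_s0, QuotientGroup.eq] at e
      simpa using e)
  have hpre : Pre P (fun m w => q (b m w)) 8 (9 + 2) := by
    refine ⟨fun m k1 k2 u hu v hv => by rw [h2 m k1 k2 u hu v hv, map_mul],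
      fun m k1 k2 u hu => ?_, fun m k1 k2 => ?_⟩
    · obtain ⟨m, rfl⟩ : ∃ k, m = k + 1 := ⟨m - 1, by omega⟩
      have one : ∀ k, 8 ≤ k → k ≤ 11 → b k 1 = 1 := fun k k1 k2 => by
        simpa using h2 k k1 k2 1 (one_mem _) 1 (one_mem _)
      replace hu : u ∈ Submonoid.closure (S m) := hS m ▸ hu
      induction hu using Submonoid.closure_induction with
      | mem u hu =>
        have := hq _ (Or.inl (Set.mem_biUnion (show m ∈ Set.Icc 7 9 from ⟨by omega, by omega⟩)
          ⟨u, hu, rfl⟩))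
        rwa [map_mul, map_inv, mul_inv_eq_one] at this
      | one => rw [plus_one, one _ k1 (by omega), one _ (by omega) k2]
      | mul u v hu hv e1 e2 =>
        rw [hS] at hu hv
        rw [plus_mul 0 u (hv.1 _ le_rfl).1, hv.2.1, h2 _ k1 (by omega) u hu.1 v hv.1,
          h2 _ (by omega) k2 _ (plus_mem 0 hu.1) _ (plus_mem 0 hv.1), map_mul, map_mul, e1, e2]
    · have := hq _ (Or.inr (Or.inl ⟨m, ⟨k1, by omega⟩, rfl⟩))
      rwa [map_mul, map_inv, mul_inv_eq_one, map_mul, map_mul] at this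
  obtain ⟨A, hA, hA2⟩ := hpre.extend_all (by omega) (by omega)
  have hA3 : ∀ m, 8 ≤ m → m ≤ 11 → ∀ w ∈ Lv m, q (b m w) = A m w := fun m _ k2 w _ => by
    rw [hA2 m k2]
  refine ⟨F ⧸ N, inferInstance, A, QuotientGroup.lift N ψ hN,
    Group.IsFinitelyPresented.quotient N ⟨R, fR, rfl⟩, hA,
    (XR_iff q hA3 _ _).1 (hq x (Or.inr (Or.inr rfl))), ?_, fun K hK => ?_⟩
  · refine Pre.gen hA le_rfl _ (fun m k1 k2 w hw => ?_) (fun m hm u hu v hv e1 e2 => ?_)
      (fun m hm u hu e => ?_) (fun m hm e1 e2 => ?_)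
    · rw [← hA3 m k1 (by omega) w hw, ← h3 m k1 (by omega) w hw]; rfl
    · rw [amul hA hm hu hv, amul hac hm hu hv, map_mul, e1, e2]
    · rw [← ae0 hA hm hu, ← ae0 hac hm hu, e]
    · rw [(hA _).cc m hm le_rfl, (hac _).cc m hm le_rfl, map_mul, map_mul, e1, e2]
  · have := h4 (K.comap q) fun m k1 k2 w hw => by
      rw [Subgroup.mem_comap, hA3 m k1 k2 w hw]; exact hK m k1 w hw
    rw [eq_top_iff]
    intro y _
    obtain ⟨y, rfl⟩ := QuotientGroup.mk'_surjective N y
    exact (this ▸ Subgroup.mem_top y : y ∈ K.comap q)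

end Vale.Agent.P193.SV
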