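import Vale.Agent.P193.SVSimple

/-! Normal form, faithfulness and simplicity. -/

namespace Vale.Agent.P193.SV

open Equiv

variable {G : Type} [Group G] {P : Subgroup G} {H : Type} [Group H]

/-- normal forms -/
def NF (a : ℕ → W G → H) (B : ℕ) (x : H) (l1 l2 : Fl P) (N : ℕ) (w : W G) : Prop :=
  Val B l1 ∧ Val B l2 ∧ B + l1.length = N ∧ B + l2.length = N ∧ w ∈ Lv N ∧
    x = (Fo a B l1)⁻¹ * a N w * Fo a B l2

/-- the coordinates used by a forest -/
def crd (l : Fl P) : Multiset (G ⧸ P) := ((l.map Prod.snd : List (G ⧸ P)) : Multiset (G ⧸ P))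

/-- swaps of the two halves of a leaf -/
noncomputable def tau (a : ℕ → W G → H) (B : ℕ) (l : Fl P) (N i : ℕ) (s : G ⧸ P) : H :=
  (LL a N i s * Fo a B l)⁻¹ * a (N + 1) (prm (swap i N)) * (LL a N i s * Fo a B l)

lemma normalClosure_top (hP0 : P ≠ ⊥) {g0 : G}
    (hdc : ∀ g, g ∉ P → ∃ p ∈ P, ∃ q ∈ P, g = p * g0 * q) (hcore : P.normalCore = ⊥) :
    Subgroup.normalClosure (P : Set G) = ⊤ := by
  have h1 : P ≤ Subgroup.normalClosure (P : Set G) := Subgroup.le_normalClosure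
  have h2 : ¬ Subgroup.normalClosure (P : Set G) ≤ P := fun h => hP0 (by
    rw [← Subgroup.normal_le_normalCore, hcore] at h
    exact le_bot_iff.1 (h1.trans h))
  obtain ⟨g, g1, g2⟩ := SetLike.not_le_iff_exists.1 h2
  obtain ⟨p, hp, q, hq, rfl⟩ := hdc g g2
  have g3 : g0 ∈ Subgroup.normalClosure (P : Set G) := by
    rwa [Subgroup.mul_mem_cancel_right _ (h1 hq), Subgroup.mul_mem_cancel_left _ (h1 hp)] at g1
  rw [eq_top_iff]
  intro x _
  by_cases hx : x ∈ P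
  · exact h1 hx
  · obtain ⟨p, hp, q, hq, rfl⟩ := hdc x hx
    exact mul_mem (mul_mem (h1 hp) g3) (h1 hq)

variable {a : ℕ → W G → H} {B : ℕ} (h : ∀ n, Pre P a B n)

section

include h

lemma NF.refine {x : H} {l1 l2 : Fl P} {N : ℕ} {w : W G} (e : NF a B x l1 l2 N w) {l : Fl P}
    (hl : Val B (l2 ++ l)) : ∃ l' N' w', NF a B x l' (l2 ++ l) N' w' := by
  obtain ⟨e1, e2, e3, e4, e5, e6⟩ := e
  have hl' := (Val_append.1 hl).2
  rw [e4] at hl'
  obtain ⟨l', w', f1, f2, f3, f4⟩ := Fo_tr h (n := N) (by omega) hl' rfl e5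
  refine ⟨l1 ++ l', N + l.length, w', Val_append.2 ⟨e1, e3 ▸ f2⟩, hl, by simp; omega,
    by simp; omega, f1, ?_⟩
  rw [Fo_append, Fo_append, e3, e4, e6, eq_inv_mul_of_mul_eq f4]
  group

lemma NF.inv {x : H} {l1 l2 : Fl P} {N : ℕ} {w : W G} (e : NF a B x l1 l2 N w) :
    NF a B x⁻¹ l2 l1 N w⁻¹ := by
  obtain ⟨e1, e2, e3, e4, e5, e6⟩ := e
  refine ⟨e2, e1, e4, e3, inv_mem e5, ?_⟩
  rw [ainv h (by omega) e5, e6]
  group

lemma NF.unif {x : H} {l1 l2 : Fl P} {N : ℕ} {w : W G} (e : NF a B x l1 l2 N w)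
    {c : Multiset (G ⧸ P)} (hc : crd l2 ≤ c) :
    ∃ l1' l2' N' w', NF a B x l1' l2' N' w' ∧ Unif B (fun _ => c) l2' := by
  obtain ⟨l, hl⟩ := exists_unif_append e.2.1 (m := fun _ => c) fun _ _ => hc
  obtain ⟨l', N', w', e'⟩ := e.refine h hl.val
  exact ⟨_, _, _, _, e', hl⟩

lemma Fo_rep (hB : 0 < B) (k n : ℕ) (hn : B ≤ n) :
    Val n (List.replicate k (0, s0 P)) ∧ Fo a n (List.replicate k (0, s0 P)) = 1 := by
  induction k generalizing n with
  | zero => exact ⟨trivial, rfl⟩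
  | succ k ih =>
    obtain ⟨i1, i2⟩ := ih (n + 1) (by omega)
    exact ⟨⟨show 0 < n by omega, i1⟩, by
      rw [List.replicate_succ, Fo, i2, LL_zero h hn (by omega), mul_one]⟩

lemma conj_tau {x : H} {l1 l2 : Fl P} {N : ℕ} {w : W G} (e : NF a B x l1 l2 N w) {i : ℕ}
    (hi : i < N) (s : G ⧸ P) :
    x * tau a B l2 N i s * x⁻¹ = tau a B l1 N (w.p i) (w.g i • s) := by
  obtain ⟨e1, e2, e3, e4, e5, e6⟩ := e
  have c : (prm (swap (w.p i) N) : W G) = plus N i w * prm (swap i N) * (plus N i w)⁻¹ := by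
    rw [eq_mul_inv_iff_mul_eq]
    have n1 := (e5 N le_rfl).1
    ext k
    · have : w.p k = w.p i ↔ k = i := w.p.injective.eq_iff
      have : w.p k = N ↔ k = N := by rw [← w.p.injective.eq_iff (a := k), n1]
      simp only [W.mul_p, plus_p, prm_p, Perm.mul_apply, swap_apply_def]; grind
    · simp only [W.mul_g, plus_g, prm_g, prm_p, swap_apply_def, mul_one, one_mul]; grind
  rw [tau, tau, LL_E' h (by omega) hi s e5 rfl rfl, c,
    a_conj h (by omega) (plus_mem i e5) (swap_mem (by omega) (by omega)), e6]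
  group

end

variable (hX : ∀ m i, B ≤ m → i < m → ∀ s s' : G ⧸ P, s ≠ s' → XR a m i s s')
  {φ : H →* Perm (Pt P)} (hφ : ∀ m, B ≤ m → ∀ w ∈ Lv m, φ (a m w) = ac P B m w)
  (hgen : ∀ K : Subgroup H, (∀ m, B ≤ m → ∀ w ∈ Lv m, a m w ∈ K) → K = ⊤)

section

include h hX

lemma tau_form {l U : Fl P} {N i : ℕ} (hl : Val B l) (hN : B + l.length = N) (hi : i < N)
    (s : G ⧸ P) {c : Multiset (G ⧸ P)} (hc : crd (l ++ [(i, s)]) ≤ c)
    (hU : Unif B (fun _ => c) U) : ∃ π : Perm ℕ, (prm π : W G) ∈ Lv (B + U.length) ∧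
      tau a B l N i s = (Fo a B U)⁻¹ * a (B + U.length) (prm π) * Fo a B U := by
  obtain ⟨l', h1⟩ := exists_unif_append (n := B) (l := l ++ [(i, s)])
    (Val_append.2 ⟨hl, by rw [hN]; exact ⟨hi, trivial⟩⟩) (m := fun _ => c) fun _ _ => hc
  obtain ⟨k1, ρ, k2, k3⟩ := h1.coh h hX le_rfl hU
  rw [List.append_assoc] at h1
  obtain ⟨m, h2⟩ := h1.append
  rw [hN] at h2
  have h3 : Unif (N + 1) (upd N i s m) l' := by cases h2; assumption
  have hs : ∀ {k}, N + 1 ≤ k → (prm (swap i N) : W G) ∈ Lv k := fun hk =>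
    swap_mem (by omega) (by omega)
  have h4 := h3.trp (hs le_rfl) (m' := upd N i s m) fun j hj => by
    simp only [upd, swap_apply_def]; grind
  obtain ⟨-, σ, k5, k6⟩ := h3.coh h hX (by omega) h4
  have hl' : N + 1 + l'.length = B + U.length := by rw [← k1]; simp; omega
  have k7 := Fo_trp h (by omega) h3.val hl' (hs le_rfl)
  rw [k1] at k2 k3
  rw [hl'] at k5 k6
  rw [Fo_append, Fo_append, List.length_append, List.length_singleton, ← add_assoc, hN, Fo, Fo,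
    one_mul] at k3
  have k8 : (prm (swap i N) : W G) ∈ Lv (B + U.length) := hs (by omega)
  refine ⟨ρ⁻¹ * (σ * swap i N * ρ), ?_, ?_⟩
  · simp only [map_mul, map_inv]
    exact mul_mem (inv_mem k2) (mul_mem (mul_mem k5 k8) k2)
  · simp only [map_mul, map_inv]
    rw [amul h (by omega) (inv_mem k2) (mul_mem (mul_mem k5 k8) k2), ainv h (by omega) k2,
      amul h (by omega) (mul_mem k5 k8) k2, amul h (by omega) k5 k8, tau,
      eq_inv_mul_of_mul_eq k3, eq_inv_mul_of_mul_eq k7, eq_inv_mul_of_mul_eq k6.symm]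
    group

lemma NF.mul {x y : H} {l1 l2 l3 l4 : Fl P} {N M : ℕ} {w v : W G} (e : NF a B x l1 l2 N w)
    (e' : NF a B y l3 l4 M v) : ∃ l1 l2 N w, NF (P := P) a B (x * y) l1 l2 N w := by
  have := (e'.inv h).unif h (c := crd l2 + crd l3) (Multiset.le_add_left _ _)
  obtain ⟨l1, l2, N, w, ⟨e1, e2, e3, e4, e5, e6⟩, u1⟩ :=
    e.unif h (c := crd l2 + crd l3) (Multiset.le_add_right _ _)
  obtain ⟨l4, l3, M, v, ⟨f1, f2, f3, f4, f5, f6⟩, u2⟩ := this
  obtain ⟨k1, ρ, k2, k3⟩ := u1.coh h hX le_rfl u2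
  obtain rfl : M = N := by omega
  rw [e4] at k2 k3
  refine ⟨l1, l4, M, w * prm ρ * v⁻¹, e1, f1, e3, f3, mul_mem (mul_mem e5 k2) (inv_mem f5), ?_⟩
  rw [amul h (by omega) (mul_mem e5 k2) (inv_mem f5), amul h (by omega) e5 k2,
    ainv h (by omega) f5, e6, k3, inv_eq_iff_eq_inv.1 f6]
  group

include hgen in
lemma exists_NF (hB : 0 < B) (x : H) : ∃ l1 l2 N w, NF (P := P) a B x l1 l2 N w := by
  have gen : ∀ m, B ≤ m → ∀ w ∈ Lv m, ∃ l1 l2 N w', NF (P := P) a B (a m w) l1 l2 N w' := by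
    intro m hm w hw
    obtain ⟨h1, h2⟩ := Fo_rep h hB (m - B) B le_rfl
    exact ⟨_, _, m, w, h1, h1, by simp; omega, by simp; omega, hw, by simp [h2]⟩
  let K : Subgroup H :=
    { carrier := {x | ∃ l1 l2 N w, NF (P := P) a B x l1 l2 N w}
      mul_mem' := fun ⟨_, _, _, _, e⟩ ⟨_, _, _, _, e'⟩ => e.mul h hX e'
      one_mem' := aone h le_rfl ▸ gen B le_rfl 1 (one_mem _)
      inv_mem' := fun ⟨_, _, _, _, e⟩ => ⟨_, _, _, _, e.inv h⟩ }
  exact (hgen K gen ▸ Subgroup.mem_top x : x ∈ K)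

end

section

include hφ

lemma phi_LL {m i : ℕ} (hm : B ≤ m) (hi : i < m) (s : G ⧸ P) :
    φ (LL a m i s) = (Lam P B (m + 1))⁻¹ * Lh m i s * Lam P B m := by
  rw [← LL_ac hm hi, LL, LL, map_mul, map_inv, hφ _ hm _ (w0_mem hi s),
    hφ _ (by omega) _ (plus_mem 0 (w0_mem hi s))]

lemma phi_Fo {n N : ℕ} (hn : B ≤ n) {l : Fl P} (hl : Val n l) (hN : n + l.length = N) :
    φ (Fo a n l) = (Lam P B N)⁻¹ * Fh n l * Lam P B n := by
  induction l generalizing n with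
  | nil =>
    obtain rfl : n = N := hN
    simp [Fo, Fh]
  | cons x l ih =>
    rw [Fo, Fh, map_mul, ih (by omega) hl.2 (by rw [← hN, List.length_cons]; omega),
      phi_LL hφ hn hl.1]
    group

lemma NF.phi {x : H} {l1 l2 : Fl P} {N : ℕ} {w : W G} (e : NF a B x l1 l2 N w) :
    φ x = (Fh B l1)⁻¹ * act P w * Fh B l2 := by
  obtain ⟨e1, e2, e3, e4, e5, e6⟩ := e
  rw [e6, map_mul, map_mul, map_inv, phi_Fo hφ le_rfl e1 e3, phi_Fo hφ le_rfl e2 e4,
    hφ _ (by omega) _ e5, ac, Lam_base]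
  group

lemma tau_fix {l : Fl P} {N i : ℕ} (hl : Val B l) (hN : B + l.length = N) (hi : i < N)
    (s : G ⧸ P) (z : Pt P) : φ (tau a B l N i s) z = z ↔ (Fh B l z).1 ≠ i := by
  have : φ (tau a B l N i s) = (Lh N i s * Fh B l)⁻¹ * act P (prm (swap i N)) *
      (Lh N i s * Fh B l) := by
    rw [tau, map_mul, map_mul, map_inv, map_mul, phi_Fo hφ le_rfl hl hN, phi_LL hφ (by omega) hi,
      hφ _ (by omega) _ (swap_mem (by omega) (by omega)), ac, Lam_base]
    group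
  rw [this, Perm.mul_apply, Perm.mul_apply, Perm.inv_eq_iff_eq, Perm.mul_apply, act_apply,
    prm_p, prm_g, gact_one, Prod.ext_iff]
  simp only [and_true, swap_apply_def]
  rcases Lh_cases hi s (Fh B l z) with k | k | k
  · rw [k.2]; grind
  · rw [k.2.2]; grind
  · rw [k.2]; grind

end

include h hX hφ hgen

theorem faithful (hB : 0 < B) (hcore : P.normalCore = ⊥) {x : H} (hx : φ x = 1) : x = 1 := by
  obtain ⟨l1, l2, N, w, e⟩ := exists_NF h hX hgen hB x
  obtain ⟨l1, l2, N, w, e, u⟩ := e.unif h le_rfl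
  have e0 := e.phi hφ
  rw [hx, mul_assoc, eq_inv_mul_iff_mul_eq, mul_one] at e0
  have u1 := Sem.unif e.1 (m := fun _ => crd _) fun y z hy hz => by
    rw [← u.sem y z hy hz, e0]
    exact w.p.injective.eq_iff
  obtain ⟨k1, ρ, k2, k3⟩ := u1.coh h hX le_rfl u
  obtain ⟨e1, e2, e3, e4, e5, e6⟩ := e
  rw [e3] at k2 k3
  have e' : NF a B x l2 l2 N ((prm ρ)⁻¹ * w) := ⟨e2, e2, e4, e4, mul_mem (inv_mem k2) e5, by
    rw [amul h (by omega) (inv_mem k2) e5, ainv h (by omega) k2, e6, k3]; group⟩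
  have e7 := e'.phi hφ
  rw [hx, eq_comm, mul_assoc, inv_mul_eq_one, eq_comm, mul_eq_right, ← map_one (act P)] at e7
  rw [e'.2.2.2.2.2, act_inj hcore e7, aone h (by omega)]
  group

theorem eq_one_of_comm (hB : 0 < B) (hcore : P.normalCore = ⊥) {x : H}
    (hx : ∀ l1 l2 N w, NF (P := P) a B x l1 l2 N w → ∀ i, i < N →
      x * tau a B l2 N i (s0 P) = tau a B l2 N i (s0 P) * x) : x = 1 := by
  classical
  refine faithful h hX hφ hgen hB hcore (Equiv.ext fun z => ?_)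
  obtain ⟨l1, l2, N, w, e⟩ := exists_NF h hX hgen hB x
  have e0 := e.phi hφ
  by_cases hz : z.1 < B
  swap
  · obtain ⟨e1, e2, e3, e4, e5, e6⟩ := e
    rw [e0, Perm.mul_apply, Perm.mul_apply, Perm.inv_eq_iff_eq, Fh_ge e2 (by omega),
      Perm.one_apply, Fh_ge e1 (by omega), act_apply, (e5 _ (by simp; omega)).1,
      (e5 _ (by simp; omega)).2, gact_one]
    simp; omega
  have hz' : (φ x z).1 < B := by
    obtain ⟨e1, e2, e3, e4, e5, e6⟩ := e
    rw [← Fh_lt_iff e1, e0, ← Perm.mul_apply, mul_assoc, mul_inv_cancel_left, Perm.mul_apply, e3,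
      act_apply]
    exact Lv_lt e5 (by rwa [← e4, Fh_lt_iff e2])
  have key : ∀ c : Multiset (G ⧸ P), z.1 = (φ x z).1 ∧ agree (crd l2 + c) z.2 (φ x z).2 := by
    intro c
    obtain ⟨l1, l2, N, w, e, u⟩ := e.unif h (Multiset.le_add_right _ c)
    refine (u.sem z _ hz hz').1 ?_
    have hi : (Fh B l2 z).1 < N := by rwa [← e.2.2.2.1, Fh_lt_iff e.2.1]
    have h1 := congrArg (fun y => φ y z) (hx _ _ _ _ e _ hi)
    simp only [map_mul, Perm.mul_apply] at h1
    by_contra hc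
    rw [(tau_fix hφ e.2.1 e.2.2.2.1 hi _ _).2 (Ne.symm hc), (φ x).injective.eq_iff,
      tau_fix hφ e.2.1 e.2.2.2.1 hi] at h1
    exact h1 rfl
  refine Prod.ext (key 0).1.symm (funext fun s => funext fun k => ?_)
  refine ((key (Multiset.replicate (k + 1) s)).2 s k ?_).symm
  simp only [Multiset.count_add, Multiset.count_replicate_self]
  omega

theorem simple (hB : 8 ≤ B) (hcore : P.normalCore = ⊥)
    (hP : Subgroup.normalClosure (P : Set G) = ⊤) : IsSimpleGroup H := by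
  have : Nontrivial H := by
    refine ⟨a B sg, 1, fun e => ?_⟩
    have := hφ B le_rfl sg (sg_mem (by omega))
    rw [e, map_one, ac, Lam_base, inv_one, one_mul, mul_one, ← map_one (act P)] at this
    have := congrArg (fun w => w.p 0) (act_inj hcore this)
    simp [sg] at this
  refine ⟨fun K hK => ?_⟩
  by_cases h0 : K = ⊥
  · exact Or.inl h0
  right
  obtain ⟨⟨x, hx⟩, hx1⟩ := Subgroup.ne_bot_iff_exists_ne_one.1 h0
  have hx2 : x ≠ 1 := fun e => hx1 (Subtype.ext e)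
  have := mt (eq_one_of_comm h hX hφ hgen (by omega) hcore) hx2
  push Not at this
  obtain ⟨l1, l2, N, w, e, i, hi, hc⟩ := this
  have e1 := conj_tau h e hi (s0 P)
  obtain ⟨U, hU⟩ := exists_unif B
    (fun _ => crd (l2 ++ [(i, s0 P)]) + crd (l1 ++ [(w.p i, w.g i • s0 P)]))
  obtain ⟨π, p1, p2⟩ := tau_form h hX e.2.1 e.2.2.2.1 hi _ (Multiset.le_add_right _ _) hU
  obtain ⟨ρ, q1, q2⟩ := tau_form h hX e.1 e.2.2.1 (Lv_lt e.2.2.2.2.1 hi) _
    (Multiset.le_add_left _ _) hU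
  have r1 : (prm (ρ * π⁻¹) : W G) ∈ Lv (B + U.length) := by
    rw [map_mul, map_inv]; exact mul_mem q1 (inv_mem p1)
  have r2 : a (B + U.length) (prm (ρ * π⁻¹)) = Fo a B U *
      (x * (tau a B l2 N i (s0 P) * x⁻¹ * (tau a B l2 N i (s0 P))⁻¹)) * (Fo a B U)⁻¹ := by
    rw [map_mul, map_inv, amul h (by omega) q1 (inv_mem p1), ainv h (by omega) p1,
      ← mul_assoc x, ← mul_assoc x, e1, q2, p2]
    group
  have r3 : ρ * π⁻¹ ≠ 1 := fun r => hc (by
    rw [mul_inv_eq_one] at r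
    rw [r, ← p2, ← e1] at q2
    exact mul_inv_eq_iff_eq_mul.1 q2)
  have r4 := collapse (fun n => (h n).map (QuotientGroup.mk' K)) hB hP (by omega) r1 r3 (by
    rw [r2]
    exact (QuotientGroup.eq_one_iff _).2
      (hK.conj_mem _ (mul_mem hx (hK.conj_mem _ (inv_mem hx) _)) _))
  exact hgen K fun m hm w hw => (QuotientGroup.eq_one_iff _).1 (r4 m hm w hw)

omit hX hgen in
theorem embed (hB : 8 ≤ B) (hcore : P.normalCore = ⊥) : ∃ f : G →* H, Function.Injective f := by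
  refine ⟨MonoidHom.mk' (fun g => a B (lab 1 g)) fun x y => by
    rw [map_mul, amul h le_rfl (lab_mem (by omega) x) (lab_mem (by omega) y)], ?_⟩
  rw [injective_iff_map_eq_one]
  intro g hg
  have := hφ B le_rfl _ (lab_mem (show 1 < B by omega) g)
  rw [MonoidHom.mk'_apply] at hg
  rw [hg, map_one, ac, Lam_base, inv_one, one_mul, mul_one, ← map_one (act P)] at this
  have := congrArg (fun w => w.g 1) (act_inj hcore this)
  simpa using this.symm

end Vale.Agent.P193.SV
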