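import Vale.Agent.P193.Basic
import Vale.Agent.P193.SVMain
import Vale.Agent.P193.SVFP
import Mathlib.GroupTheory.Finiteness
import Mathlib.GroupTheory.Subgroup.Simple

/-! Twisted Brin-Thompson groups: a finitely presented group with a faithful two-transitive action
with finitely generated point stabiliser embeds in a finitely presented simple group. -/

namespace Vale.Agent.P193

theorem exists_fp_simple (Γ : Type) [Group Γ] (hΓ : Group.IsFinitelyPresented Γ)
    (P : Subgroup Γ) (hP : P.FG) (hP0 : P ≠ ⊥) (g0 : Γ) (hg0 : g0 ∉ P)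
    (hdc : ∀ g, g ∉ P → ∃ p ∈ P, ∃ q ∈ P, g = p * g0 * q) (hcore : P.normalCore = ⊥) :
    ∃ (H : Type) (_ : Group H), Group.IsFinitelyPresented H ∧ IsSimpleGroup H ∧
      ∃ f : Γ →* H, Function.Injective f := by
  obtain ⟨H, _, a, φ, h1, h2, h3, h4, h5⟩ := SV.exists_sys hΓ hP g0 hg0
  exact ⟨H, _, h1, SV.simple h2 (fun m i hm hi s s' hs => SV.XR_all h2 (by omega) hdc h3 hm hi hs)
    h4 h5 le_rfl hcore (SV.normalClosure_top hP0 hdc hcore), SV.embed h2 h4 le_rfl hcore⟩

end Vale.Agent.P193
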