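import Vale.Agent.P193.TMain
import Vale.Agent.P193.Clapham
import Vale.Agent.P193.SV

/-! Assembly of the proof. -/

namespace Vale.Agent.P193

theorem exists_TD (m1 : ℕ) (rel1 : List (Word (Fin m1))) :
    ∃ D : TD, ∃ h : D.m1 = m1, h ▸ D.rel1 = rel1 := by
  obtain ⟨r, hr⟩ := exists_pkg accF primrec_accF 64
  obtain ⟨B, hB⟩ := (Set.finite_range fun a : (Option (ZGen r) ⊕ Fin m1) × Bool =>
    Encodable.encode a).bddAbove
  obtain ⟨X⟩ := hr (B + 4)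
  refine ⟨⟨r, m1, rel1, B + 4, X, by omega, fun a => ?_⟩, rfl, rfl⟩
  have : Encodable.encode a ≤ B := hB ⟨a, rfl⟩
  omega

theorem TD.embed (D : TD) (hre1 : REPred fun w => ev (pgen D.rel1) w ≠ 1) :
    ∃ (H : Type) (_ : Group H), Group.IsFinitelyPresented H ∧ IsSimpleGroup H ∧
      ∃ f : PG D.rel1 →* H, Function.Injective f := by
  obtain ⟨e, h⟩ := D.exists_fix hre1
  have hN : ∀ x, endo D.s x ∈ Ninf D.s D.R0 → x ∈ Ninf D.s D.R0 := fun x hx =>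
    D.endo_mem_N' _ (D.Ninf_eq ▸ hx)
  have hP : ∀ x, endo D.s x ∈ Pinf D.s D.R0 (D.Gs e) → x ∈ Pinf D.s D.R0 (D.Gs e) := fun x hx =>
    D.endo_mem_P' _ h.1 le_sup_left (D.adm_inf h) (D.Pinf_eq e ▸ hx)
  obtain ⟨f, hf1, hf2⟩ := D.pr_eq (Ninf D.s D.R0)
  obtain ⟨h1, h2, h3, h4⟩ := asc_main D.s D.R0 (D.Gs e) hN hP (FreeGroup.mk D.w0)
    (fun hw => D.w_not_mem_Pn h 0 ((D.inf_le e _).2 hw)) (D.link_inf h)
    (fun x hx => by
      obtain ⟨y, hy⟩ := D.conj_not_mem_P' _ h.1 (Pinf D.s D.R0 (D.Gs e)) hx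
      exact ⟨y, by rwa [← D.Pinf_eq] at hy⟩)
    D.pr (fun x hx => by rw [hf2, (D.π_eq_one _ x).2 (D.Ninf_eq ▸ hx), map_one])
    (fun x => by rw [hf2, D.π_endo, hf1])
    (fun hw => w_not_mem_RS D.r (by
      have : D.pr (FreeGroup.mk D.w0) = zg D.r (.inl 2) := by
        simp [TD.pr, TD.w0, lift_mk]
      rw [← this, hw]; exact one_mem _))
  obtain ⟨H, _, hH1, hH2, g, hg⟩ := exists_fp_simple _ (PG.fp _) _ (ascP_fg D.s D.R0 (D.Gs e))
    h1 _ h2 h3 h4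
  have key : ∀ w : Word (Fin D.m1), ev (fun b => ascJ D.s D.R0 (FreeGroup.mk
      (D.defw (.inl (.inr b))))) w =
      ascJ D.s D.R0 (FreeGroup.mk (subst (fun b => D.defw (.inl (.inr b))) w)) := by
    intro w
    rw [← ev_of (subst _ _), ev_subst, map_ev]
    simp only [ev_of]
  let j : PG D.rel1 →* AscG D.s D.R0 :=
    PG.lift _ (fun b => ascJ D.s D.R0 (FreeGroup.mk (D.defw (.inl (.inr b))))) fun w hw => by
      rw [key]
      refine ascJ_Ninf _ _ (Subgroup.subset_normalClosure ⟨0, _, D.mem_R0_4 hw, ?_⟩)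
      simp [subst, wmap, List.flatMap_map]
  refine ⟨H, inferInstance, hH1, hH2, g.comp j, hg.comp ?_⟩
  rw [injective_iff_map_eq_one]
  intro x hx
  obtain ⟨w, rfl⟩ := pgen_surj _ x
  rw [PG.lift_ev, key] at hx
  exact D.g1_inj _ (D.Ninf_eq ▸ ascJ_eq_one _ _ hN hx)

theorem boone_higman (G : Type) [Group G] (n : ℕ) (gen : Fin n → G)
    (hgen : Subgroup.closure (Set.range gen) = ⊤)
    (hWP : ComputablePred fun w : Word (Fin n) => ev gen w = 1) :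
    ∃ (H : Type) (_ : Group H), Group.IsFinitelyPresented H ∧ IsSimpleGroup H ∧
      ∃ f : G →* H, Function.Injective f := by
  obtain ⟨m, rel, h1, f, hf⟩ := clapham G n gen hgen hWP
  obtain ⟨D, rfl, rfl⟩ := exists_TD m rel
  obtain ⟨H, _, h2, h3, g, hg⟩ := D.embed h1
  exact ⟨H, inferInstance, h2, h3, g.comp f, hg.comp hf⟩

end Vale.Agent.P193
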