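import Vale.Agent.P193.Mach4

/-! Existence of the machine. -/

namespace Vale.Agent.P193

open Function

theorem exists_MD (F : ℕ → List ℕ → Bool) (hF : Primrec₂ F) (κ : ℕ) :
    ∃ r, ∀ L, Nonempty (MD F κ r L) := by
  have hG : Primrec fun x : ℕ × List Bool × ℕ => F x.1 (decw κ x.2.2 0 x.2.1.reverse) := by
    have a1 : Primrec fun x : ℕ × List Bool × ℕ => (x.2.2, x.2.1.reverse) :=
      (Primrec.snd.comp Primrec.snd).pair
        (Primrec.list_reverse.comp (Primrec.fst.comp Primrec.snd))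
    have a2 := (primrec_decw κ).comp a1
    exact hF.comp Primrec.fst a2
  obtain ⟨r, hr, h⟩ := Prog.exists_verifier (fun e y N => F e (decw κ N 0 y.reverse)) hG
  refine ⟨r, fun L => ?_⟩
  obtain ⟨P, h1, h2, h3, h4⟩ := h L
  let f : ℕ → Fin r := fun j => if h : j < r then ⟨j, h⟩ else ⟨0, by omega⟩
  have hf : ∀ j < r, (f j : ℕ) = j := fun j hj => by simp [f, hj]
  have hne : ∀ i j, i < r → j < r → i ≠ j → f i ≠ f j := fun i j hi hj hij h =>
    hij (by rw [← hf i hi, h, hf j hj])
  refine ⟨⟨f 0, f 1, f 2, f 3, hne _ _ (by omega) (by omega) (by omega),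
    hne _ _ (by omega) (by omega) (by omega), hne _ _ (by omega) (by omega) (by omega),
    hne _ _ (by omega) (by omega) (by omega), hne _ _ (by omega) (by omega) (by omega),
    P.map f, Prog.wf_map f Fin.val P (fun j hj => hf j (h2 j hj)) h1,
    h3.map f (fun j hj h => by_contra fun h' => hne _ _ (h2 j hj) (by omega) h' h)
      (fun j hj h => by_contra fun h' => hne _ _ (h2 j hj) (by omega) h' h), fun x => ?_⟩⟩
  let s : St ℕ := fun k => if h : k < r then x ⟨k, h⟩ else []
  have e1 : x = s ∘ Fin.val := by funext k; simp [s]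
  have e2 : ∀ j < r, s j = x (f j) := fun j hj => by simp [s, f, hj]
  have e3 : ∀ (k : Fin r), ∀ j < r, k = f j ↔ (k : ℕ) = j := fun k j hj =>
    ⟨fun h => by rw [h, hf j hj], fun h => Fin.ext (by rw [h, hf j hj])⟩
  have e4 := Prog.run_map f Fin.val Fin.val_injective P (fun j hj => hf j (h2 j hj)) s
  rw [← e1, h4 s fun k hk => dif_neg (by omega), List.reverse_reverse, e2 0 (by omega),
    e2 1 (by omega)] at e4
  rw [e4]
  split_ifs
  · funext k
    simp [Prog.accSt, update_apply, e3 k 0 (by omega)]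
  · funext k
    simp only [Prog.rejSt, update_apply, e3 k 0 (by omega), e3 k 2 (by omega), e3 k 3 (by omega),
      comp_apply]
    split_ifs <;> first | rfl | omega

theorem exists_mach (F : ℕ → List ℕ → Bool) (hF : Primrec₂ F) (κ : ℕ) :
    ∃ r, ∀ Nc, Nonempty (MachPkg F κ r Nc) := by
  obtain ⟨r, hr⟩ := exists_MD F hF κ
  refine ⟨r, fun Nc => ?_⟩
  obtain ⟨D⟩ := hr (κ + Nc + 1)
  have hL : 0 < κ + Nc + 1 := by omega
  have inv := fun e (v : Word _) c (h : Path D.X.M (D.X.emb (D.rootA e)) v c) =>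
    D.X.path_inv (D.I e) D.pot (accSub F e) (D.edge_inv hL e) (D.I_root e) rfl h
  refine ⟨⟨_, D.X.M, fun e => D.X.emb (D.rootA e), ?_, fun i => (D.X.ok i).1,
    fun i => (D.X.ok i).2.1, fun i => (D.X.ok i).2.2, fun e => Nat.le_add_right _ _, ?_, ?_, ?_,
    ?_, ?_⟩⟩
  · have hacc : Primrec D.acc := Prog.primrec_upd D.r0 (Primrec.const _) Primrec.id
    have a2 : Primrec fun x : ℕ => List.replicate x true := by fun_prop
    exact ((Primrec.const (D.X.sN (.inl []))).pair (AM.primrec_vals.comp (hacc.comp a2))).to_comp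
  · intro a ha
    obtain ⟨i, hi⟩ := D.X.exists_M (D.rule_M (k := a) (by omega)) List.mem_cons_self
    exact ⟨i, by rw [hi]⟩
  · intro e v h
    obtain ⟨a, -, h1, h2⟩ := inv e v _ h
    rw [D.X.rep_emb h1, D.pot_root] at h2
    simpa using h2
  · intro e w h1 h2
    obtain ⟨y, rfl⟩ := exists_code κ Nc w h2
    let x0 := update (D.acc (List.replicate e true)) D.r1 y
    have e0 : x0 D.r0 = List.replicate e true := by simp [x0, D.h01]
    have e1 : x0 D.r1 = y := by simp [x0]
    have h4 := D.conn_fin hL (.inr none, x0) trivial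
    have h5 := D.conn_V x0
    rw [D.run_V, e0, e1, List.length_replicate, if_pos h1] at h5
    simp only [MD.fin, MD.emi, e0, e1] at h4
    obtain ⟨v, h6, h7, -⟩ := h5.symm.trans h4
    exact ⟨v, h6, by simpa using h7⟩
  · intro e v c s h hs
    obtain ⟨a, h1, h2, -⟩ := inv e v c h
    obtain ⟨g, n, h3, h4⟩ := D.conn_I hL h1
    obtain ⟨v', h5, -, h6⟩ := h3.trans (D.X.conn_rep h2)
    refine ⟨v', h5, ?_⟩
    have h7 : ∀ j, (a.2 j).length ≤ s := fun j => length_le_of_val (by
      have := hs j; rwa [h2.snd] at this)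
    have h8 := h7 D.r1
    have h9 := h7 D.r3
    rw [h6, zero_add]
    rcases κ with _ | κ
    · simp
    · omega
  · refine re_of_iff (D.X.re_far D.I (D.SK.map .inl ++ .inr none ::
      ((List.range (κ + Nc + 1)).map (fun k => .inr (some (false, k))) ++
        (List.range (κ + Nc + 1)).map fun k => .inr (some (true, k)))) ?_ (D.re_not_I hF))
      fun x => not_congr ⟨?_, ?_⟩
    · rintro e ⟨K | _ | ⟨_ | _, k⟩, x⟩ ⟨h, -⟩ <;> simpa [MD.Val] using h
    · rintro ⟨a, h1, h2⟩
      obtain ⟨g, n, h3, -⟩ := D.conn_I hL h1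
      obtain ⟨v, h5, -⟩ := h3.trans (D.X.conn_rep h2)
      exact ⟨v, h5⟩
    · rintro ⟨v, h⟩
      obtain ⟨a, h1, h2, -⟩ := inv _ v _ h
      exact ⟨a, h1, h2⟩

end Vale.Agent.P193
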