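import Vale.Agent.P193.RE
import Mathlib.Tactic.DeriveCountable

/-! A small language of loop programs on binary stacks. -/

namespace Vale.Agent.P193

open Function

/-- Loop programs. -/
inductive Prog (ρ : Type)
  | skip
  | push (j : ρ) (b : Bool)
  | seq (P Q : Prog ρ)
  | loop (j : ρ) (P Q : Prog ρ)
  deriving Countable

/-- Contents of the stacks. -/
abbrev St (ρ : Type) := ρ → List Bool

namespace Prog
variable {ρ : Type} [DecidableEq ρ]

/-- One round of a loop. -/
def round (j : ρ) (p q : St ρ → St ρ) (s : St ρ) : St ρ :=
  List.casesOn (s j) s fun b x => cond b (q (update s j x)) (p (update s j x))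

/-- The effect of a program. -/
def run : Prog ρ → St ρ → St ρ
  | skip, s => s
  | push j b, s => update s j (b :: s j)
  | seq P Q, s => Q.run (P.run s)
  | loop j P Q, s => (round j P.run Q.run)^[(s j).length] s

/-- The registers mentioned by a program. -/
def regs : Prog ρ → List ρ
  | skip => []
  | push j _ => [j]
  | seq P Q => P.regs ++ Q.regs
  | loop j P Q => j :: (P.regs ++ Q.regs)

/-- Loop bodies do not mention the loop register. -/
def WF : Prog ρ → Prop
  | skip => True
  | push _ _ => True
  | seq P Q => P.WF ∧ Q.WF
  | loop j P Q => j ∉ P.regs ∧ j ∉ Q.regs ∧ P.WF ∧ Q.WF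

theorem run_frame (P : Prog ρ) {k : ρ} (hk : k ∉ P.regs) (s : St ρ) : P.run s k = s k := by
  induction P generalizing s with
  | skip => rfl
  | push j b => simp only [regs, List.mem_singleton] at hk; simp [run, update_of_ne hk]
  | seq P Q ihP ihQ =>
    simp only [regs, List.mem_append, not_or] at hk
    rw [run, ihQ hk.2, ihP hk.1]
  | loop j P Q ihP ihQ =>
    simp only [regs, List.mem_cons, List.mem_append, not_or] at hk
    rw [run]
    generalize (s j).length = n
    induction n generalizing s with
    | zero => rfl
    | succ n ih =>
      rw [iterate_succ_apply, ih, round]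
      rcases s j with _ | ⟨_ | _, x⟩
      · rfl
      · simp [ihP hk.2.1, update_of_ne hk.1]
      · simp [ihQ hk.2.2, update_of_ne hk.1]

theorem run_loop_nil {j : ρ} (P Q : Prog ρ) {s : St ρ} (h : s j = []) :
    (loop j P Q).run s = s := by simp [run, h]

theorem run_loop_cons {j : ρ} {P Q : Prog ρ} (hP : j ∉ P.regs) (hQ : j ∉ Q.regs) {s : St ρ}
    {b : Bool} {x : List Bool} (h : s j = b :: x) :
    (loop j P Q).run s = (loop j P Q).run ((cond b Q P).run (update s j x)) := by
  have h1 : round j P.run Q.run s = (cond b Q P).run (update s j x) := by
    rw [round, h]; cases b <;> rfl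
  have h2 : (cond b Q P).run (update s j x) j = x := by
    cases b
    · simp [P.run_frame hP]
    · simp [Q.run_frame hQ]
  rw [run, run, h, List.length_cons, iterate_succ_apply, h1, h2]

/-- Loop invariants. -/
theorem loop_inv {j : ρ} {P Q : Prog ρ} (hP : j ∉ P.regs) (hQ : j ∉ Q.regs) (I : St ρ → Prop)
    (step : ∀ s b x, s j = b :: x → I s → I ((cond b Q P).run (update s j x))) {s : St ρ}
    (h : I s) : I ((loop j P Q).run s) ∧ (loop j P Q).run s j = [] := by
  generalize hx : s j = x
  induction x generalizing s with
  | nil => rw [run_loop_nil P Q hx]; exact ⟨h, hx⟩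
  | cons b x ih =>
    rw [run_loop_cons hP hQ hx]
    refine ih (step s b x hx h) ?_
    cases b
    · simp [P.run_frame hP]
    · simp [Q.run_frame hQ]

/-- Empty a register. -/
def clear (j : ρ) : Prog ρ := loop j skip skip

theorem run_clear (j : ρ) (s : St ρ) : (clear j).run s = update s j [] := by
  obtain ⟨h1, h2⟩ := loop_inv (j := j) (P := skip) (Q := skip) (by simp [regs]) (by simp [regs])
    (fun t => ∀ k, k ≠ j → t k = s k) (by
      intro t b x _ h k hk
      cases b <;> simp [run, update_of_ne hk, h k hk]) (s := s) (fun _ _ => rfl)
  funext k
  by_cases hk : k = j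
  · subst hk; rw [update_self]; exact h2
  · rw [update_of_ne hk]; exact h1 k hk

/-- Add the length of a register to another one, emptying the first. -/
def move (j o : ρ) : Prog ρ := loop j (push o true) (push o true)

theorem run_move {j o : ρ} (h : j ≠ o) (s : St ρ) : (move j o).run s =
    update (update s j []) o (List.replicate (s j).length true ++ s o) := by
  generalize hx : s j = x
  induction x generalizing s with
  | nil => rw [move, run_loop_nil _ _ hx, ← hx, update_eq_self, hx]; simp
  | cons b x ih =>
    have e : (cond b (push o true) (push o true)).run (update s j x) =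
        update (update s j x) o (true :: s o) := by
      cases b <;> simp [run, update_of_ne h.symm]
    rw [move, run_loop_cons (by simpa [regs]) (by simpa [regs]) hx, e]
    refine (ih _ (by simp [update_of_ne h])).trans ?_
    funext k
    simp only [update_apply, List.length_cons, List.replicate_succ', List.append_assoc]
    split_ifs <;> simp_all

/-- Reverse a register onto another one. -/
def rev (j t : ρ) : Prog ρ := loop j (push t false) (push t true)

theorem run_rev {j t : ρ} (h : j ≠ t) (s : St ρ) : (rev j t).run s =
    update (update s j []) t ((s j).reverse ++ s t) := by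
  generalize hx : s j = x
  induction x generalizing s with
  | nil => rw [rev, run_loop_nil _ _ hx, ← hx, update_eq_self, hx]; simp
  | cons b x ih =>
    have e : (cond b (push t true) (push t false)).run (update s j x) =
        update (update s j x) t (b :: s t) := by
      cases b <;> simp [run, update_of_ne h.symm]
    rw [rev, run_loop_cons (by simpa [regs]) (by simpa [regs]) hx, e]
    refine (ih _ (by simp [update_of_ne h])).trans ?_
    funext k
    simp only [update_apply, List.reverse_cons, List.append_assoc]
    split_ifs <;> simp_all

/-- Add the length of a register to another one, using a temporary register. -/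
def copy (j o t : ρ) : Prog ρ :=
  seq (loop j (seq (push t false) (push o true)) (seq (push t true) (push o true))) (rev t j)

theorem run_copy {j o t : ρ} (h1 : j ≠ o) (h2 : j ≠ t) (h3 : o ≠ t) (s : St ρ) (ht : s t = []) :
    (copy j o t).run s = update s o (List.replicate (s j).length true ++ s o) := by
  have key : ∀ x (s : St ρ), s j = x →
      (loop j (seq (push t false) (push o true)) (seq (push t true) (push o true))).run s =
        update (update (update s j []) t (x.reverse ++ s t)) o
          (List.replicate x.length true ++ s o) := by
    intro x
    induction x with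
    | nil => intro s hx; rw [run_loop_nil _ _ hx, ← hx, update_eq_self, hx]; simp
    | cons b x ih =>
      intro s hx
      have e : (cond b (seq (push t true) (push o true)) (seq (push t false) (push o true))).run
          (update s j x) = update (update (update s j x) t (b :: s t)) o (true :: s o) := by
        cases b <;> simp [run, update_of_ne h1.symm, update_of_ne h2.symm, update_of_ne h3]
      rw [run_loop_cons (by simp [regs, h1, h2]) (by simp [regs, h1, h2]) hx, e]
      refine (ih _ (by simp [update_of_ne h1, update_of_ne h2])).trans ?_
      funext k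
      simp only [update_apply, List.length_cons, List.replicate_succ', List.append_assoc,
        List.reverse_cons]
      split_ifs <;> simp_all
  rw [copy, run, key _ s rfl, run_rev h2.symm]
  funext k
  simp only [update_apply]
  split_ifs <;> simp_all

/-- A program for each element of a list, in order. -/
def seqs : List (Prog ρ) → Prog ρ
  | [] => skip
  | P :: l => seq P (seqs l)

theorem wf_seqs {l : List (Prog ρ)} (h : ∀ P ∈ l, P.WF) : (seqs l).WF := by
  induction l with
  | nil => trivial
  | cons P l ih =>
    exact ⟨h P List.mem_cons_self, ih fun Q hQ => h Q (List.mem_cons_of_mem _ hQ)⟩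

theorem mem_regs_seqs {l : List (Prog ρ)} {j : ρ} : j ∈ (seqs l).regs ↔ ∃ P ∈ l, j ∈ P.regs := by
  induction l with
  | nil => simp [seqs, regs]
  | cons P l ih => simp [seqs, regs, ih]

theorem run_clears (l : List ρ) (s : St ρ) :
    (seqs (l.map clear)).run s = fun k => if k ∈ l then [] else s k := by
  induction l generalizing s with
  | nil => simp [seqs, run]
  | cons j l ih =>
    rw [List.map_cons, seqs, run, ih, run_clear]
    funext k
    simp only [update_apply, List.mem_cons]
    split_ifs <;> simp_all

/-- The specification of a program adding a value to the register `o`. -/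
def Comp {n : ℕ} (f : List.Vector ℕ n → ℕ) (args : Fin n → ℕ) (o B : ℕ) (P : Prog ℕ) : Prop :=
  P.WF ∧ (∀ j ∈ P.regs, j = o ∨ B ≤ j ∨ ∃ i, args i = j) ∧
    ∀ s : St ℕ, (∀ k, B ≤ k → s k = []) → P.run s = update s o
      (List.replicate (f (List.Vector.ofFn fun i => (s (args i)).length)) true ++ s o)

theorem comp_copy {j o B : ℕ} (h1 : j < B) (h2 : o < B) (h3 : j ≠ o) :
    (copy j o B).WF ∧ (∀ k ∈ (copy j o B).regs, k = o ∨ B ≤ k ∨ j = k) ∧
      ∀ s : St ℕ, (∀ k, B ≤ k → s k = []) →
        (copy j o B).run s = update s o (List.replicate (s j).length true ++ s o) := by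
  refine ⟨?_, ?_, fun s hs => run_copy h3 h1.ne h2.ne s (hs B le_rfl)⟩
  · simp [copy, rev, WF, regs, h3, h1.ne, h1.ne']
  · simp [copy, rev, regs]

theorem compile {n : ℕ} {f : List.Vector ℕ n → ℕ} (hf : Nat.Primrec' f) :
    ∀ (args : Fin n → ℕ) (o B : ℕ), (∀ i, args i < B) → o < B → (∀ i, args i ≠ o) →
      ∃ P, Comp f args o B P := by
  induction hf with
  | zero => exact fun args o B _ _ _ => ⟨skip, trivial, by simp [regs], by simp [run]⟩
  | succ =>
    intro args o B h1 h2 h3
    obtain ⟨a1, a2, a3⟩ := comp_copy (h1 0) h2 (h3 0)
    refine ⟨seq (copy (args 0) o B) (push o true), ⟨a1, trivial⟩, ?_, fun s hs => ?_⟩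
    · intro j hj
      simp only [regs, List.mem_append, List.mem_singleton] at hj
      rcases hj with hj | hj
      · exact (a2 j hj).imp_right (Or.imp_right fun h => ⟨0, h⟩)
      · exact Or.inl hj
    · rw [run, a3 s hs]
      simp [run, List.replicate_succ, List.Vector.head_ofFn]
  | get i =>
    intro args o B h1 h2 h3
    obtain ⟨a1, a2, a3⟩ := comp_copy (h1 i) h2 (h3 i)
    refine ⟨_, a1, fun j hj => (a2 j hj).imp_right (Or.imp_right fun h => ⟨i, h⟩), fun s hs => ?_⟩
    rw [a3 s hs]; simp
  | @comp m n f g _ _ ihf ihg =>
    intro args o B h1 h2 h3
    choose G hG using fun i : Fin n => ihg i args (B + i) (B + n) (fun k => by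
      have := h1 k; omega) (by have := i.2; omega) (fun k => by have := h1 k; omega)
    obtain ⟨P, hP⟩ := ihf (fun i => B + i) o (B + n) (fun i => by have := i.2; omega) (by omega)
      (fun i => by omega)
    have key : ∀ (l : List (Fin n)), l.Nodup → ∀ s : St ℕ, (∀ k, B + n ≤ k → s k = []) →
        (∀ i ∈ l, s (B + i) = []) → (seqs (l.map G)).run s = fun k =>
          if h : ∃ i ∈ l, B + i = k then List.replicate (g h.choose
            (List.Vector.ofFn fun i => (s (args i)).length)) true else s k := by
      intro l
      induction l with
      | nil => intro _ s _ _; simp [seqs, run]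
      | cons i l ih =>
        intro hl s hs hs2
        rw [List.nodup_cons] at hl
        rw [List.map_cons, seqs, run, (hG i).2.2 s hs, ih hl.2]
        · funext k
          have e : ∀ x, (fun j => (update s (B + i) x (args j)).length) =
              fun j => (s (args j)).length := fun x => by
            funext j; rw [update_of_ne]; have := h1 j; omega
          rw [e]
          by_cases hk : ∃ j ∈ l, B + j = k
          · have hk' : ∃ j ∈ i :: l, B + j = k := by
              obtain ⟨j, hj, h⟩ := hk; exact ⟨j, List.mem_cons_of_mem _ hj, h⟩
            rw [dif_pos hk, dif_pos hk']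
            have : hk.choose = hk'.choose :=
              Fin.ext (by have := hk.choose_spec.2; have := hk'.choose_spec.2; omega)
            rw [this]
          · rw [dif_neg hk]
            by_cases hi : B + i = k
            · have hk' : ∃ j ∈ i :: l, B + j = k := ⟨i, List.mem_cons_self, hi⟩
              rw [dif_pos hk']
              have : hk'.choose = i := Fin.ext (by have := hk'.choose_spec.2; omega)
              rw [this, ← hi, update_self, hs2 i List.mem_cons_self, List.append_nil]
            · rw [dif_neg, update_of_ne (Ne.symm hi)]
              rintro ⟨j, hj, h⟩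
              rcases List.mem_cons.1 hj with rfl | hj
              · exact hi h
              · exact hk ⟨j, hj, h⟩
        · intro k hk
          rw [update_of_ne (by have := i.2; omega)]; exact hs k hk
        · intro j hj
          rw [update_of_ne, hs2 j (List.mem_cons_of_mem _ hj)]
          intro h
          exact hl.1 ((Fin.ext (by omega) : j = i) ▸ hj)
    refine ⟨seq (seqs ((List.finRange n).map G)) (seq P
      (seqs (((List.finRange n).map fun i => B + i.1).map clear))), ⟨wf_seqs ?_, hP.1, wf_seqs ?_⟩,
      ?_, fun s hs => ?_⟩
    · simpa using fun i => (hG i).1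
    · simp [clear, WF, regs]
    · intro j hj
      simp only [regs, List.mem_append, mem_regs_seqs, List.mem_map] at hj
      rcases hj with ⟨_, ⟨i, -, rfl⟩, hj⟩ | hj | ⟨_, ⟨_, ⟨i, -, rfl⟩, rfl⟩, hj⟩
      · rcases (hG i).2.1 j hj with h | h | h
        · right; left; omega
        · right; left; omega
        · right; right; exact h
      · rcases hP.2.1 j hj with h | h | ⟨i, h⟩
        · left; exact h
        · right; left; omega
        · right; left; simp only at h; omega
      · simp [clear, regs] at hj; right; left; omega
    · rw [run, run, key _ (List.nodup_finRange n) s (fun k hk => hs k (by omega))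
        (fun i _ => hs _ (by omega)), hP.2.2, run_clears]
      · funext k
        have e : ∀ i : Fin n, ∃ h : ∃ j ∈ List.finRange n, B + j = B + i, h.choose = i :=
          fun i => by
            have h : ∃ j ∈ List.finRange n, B + j = B + i := ⟨i, List.mem_finRange i, rfl⟩
            exact ⟨h, Fin.ext (by have := h.choose_spec.2; omega)⟩
        have e2 : (fun i : Fin n => (if h : ∃ j ∈ List.finRange n, B + j = B + i then
            List.replicate (g h.choose (List.Vector.ofFn fun i => (s (args i)).length)) true
            else s (B + i)).length) =
            fun i => g i (List.Vector.ofFn fun i => (s (args i)).length) := by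
          funext i
          obtain ⟨h, hh⟩ := e i
          rw [dif_pos h, hh, List.length_replicate]
        have e3 : ¬ ∃ j ∈ List.finRange n, B + j = o := by rintro ⟨j, -, h⟩; omega
        rw [e2, dif_neg e3]
        by_cases hk : k ∈ (List.finRange n).map fun i => B + i.1
        · rw [if_pos hk]
          obtain ⟨i, -, rfl⟩ := List.mem_map.1 hk
          rw [update_of_ne (by omega), hs _ (by omega)]
        · rw [if_neg hk]
          simp only [update_apply]
          rw [dif_neg (by simpa using hk)]
      · intro k hk
        rw [dif_neg (by rintro ⟨j, -, h⟩; have := j.2; omega)]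
        exact hs k (by omega)
  | @prec n f g _ _ ihf ihg =>
    intro args o B h1 h2 h3
    obtain ⟨P, hP⟩ := ihf (fun i => args i.succ) B (B + 4) (fun i => by
      have := h1 i.succ; omega) (by omega) (fun i => (h1 _).ne)
    obtain ⟨Q, hQ⟩ := ihg (Fin.cons (B + 1) (Fin.cons B fun i => args i.succ)) (B + 3) (B + 4)
      (by
        refine Fin.cases (by simp) (Fin.cases (by simp) fun i => ?_)
        have := h1 i.succ; simp; omega) (by omega) (by
        refine Fin.cases (by simp) (Fin.cases (by simp) fun i => ?_)
        have := h1 i.succ; simp; omega)
    obtain ⟨a1, a2, a3⟩ := comp_copy (j := args 0) (o := B + 2) (B := B + 4)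
      (by have := h1 0; omega) (by omega) (by have := h1 0; omega)
    let body := seq Q (seq (clear B) (seq (move (B + 3) B) (push (B + 1) true)))
    have hQr : ∀ j ∈ Q.regs, j ≠ B + 2 ∧ (B ≤ j ∨ ∃ i, args i = j) := by
      intro j hj
      rcases hQ.2.1 j hj with h | h | ⟨i, h⟩
      · omega
      · omega
      · revert h
        refine Fin.cases (by simp; omega) (Fin.cases (by simp; omega) fun i => ?_) i
        have := h1 i.succ
        simp only [Fin.cons_succ]
        exact fun h => ⟨by omega, Or.inr ⟨_, h⟩⟩
    have hb : B + 2 ∉ body.regs := by
      simp only [body, regs, clear, move, List.mem_append, List.mem_cons]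
      have := fun h => (hQr _ h).1 rfl
      simp; exact this
    refine ⟨seq P (seq (copy (args 0) (B + 2) (B + 4)) (seq (loop (B + 2) body body)
      (seq (move B o) (clear (B + 1))))), ⟨hP.1, a1, ⟨hb, hb, ?_, ?_⟩, ?_, ?_⟩, ?_, fun s hs => ?_⟩
    · simp [body, WF, hQ.1, clear, move, regs]
    · simp [body, WF, hQ.1, clear, move, regs]
    · simp [WF, move, regs]; omega
    · simp [WF, clear, regs]
    · intro j hj
      simp only [body, regs, clear, move, List.mem_append, List.mem_cons] at hj
      have h4 := hQr j
      have h5 : j ∈ P.regs → B ≤ j ∨ ∃ i, args i = j := fun h => by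
        rcases hP.2.1 j h with h | h | ⟨i, h⟩
        · left; omega
        · left; omega
        · exact Or.inr ⟨_, h⟩
      have h6 : j ∈ (copy (args 0) (B + 2) (B + 4)).regs → B ≤ j ∨ ∃ i, args i = j := fun h => by
        rcases a2 j h with h | h | h
        · left; omega
        · left; omega
        · exact Or.inr ⟨_, h⟩
      by_cases h7 : B ≤ j
      · exact Or.inr (Or.inl h7)
      · by_cases h8 : j = o
        · exact Or.inl h8
        · right
          simp only [List.not_mem_nil, or_false, false_or] at hj
          rcases hj with h | h | h | h
          · exact h5 h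
          · exact h6 h
          · rcases h with h | (h | h) | h | h
            · omega
            · exact (h4 h).2
            · omega
            · exact (h4 h).2
            · omega
          · omega
    · let v : List.Vector ℕ n := List.Vector.ofFn fun i => (s (args i.succ)).length
      let R : ℕ → ℕ := fun y => Nat.rec (f v) (fun y IH => g (y ::ᵥ IH ::ᵥ v)) y
      have hA : ∀ i, args i ≠ B ∧ args i ≠ B + 1 ∧ args i ≠ B + 2 ∧ args i ≠ B + 3 := fun i => by
        have := h1 i; omega
      rw [run, run, run, run, hP.2.2 s fun k hk => hs k (by omega), a3]
      swap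
      · intro k hk; rw [update_of_ne (by omega)]; exact hs k (by omega)
      obtain ⟨⟨y, i1, i2, i3, i4⟩, i5⟩ := loop_inv hb hb (fun t => ∃ y,
        y + (t (B + 2)).length = (s (args 0)).length ∧ t B = List.replicate (R y) true ∧
          (t (B + 1)).length = y ∧ ∀ k, k ≠ B → k ≠ B + 1 → k ≠ B + 2 → t k = s k) (by
          rintro t b x hx ⟨y, i1, i2, i3, i4⟩
          have hz : ∀ k, B + 3 ≤ k → t k = [] := fun k hk => by
            rw [i4 k (by omega) (by omega) (by omega)]; exact hs k (by omega)
          have hv : (List.Vector.ofFn fun i => (update t (B + 2) x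
              ((Fin.cons (B + 1) (Fin.cons B fun i => args i.succ) : Fin (n + 2) → ℕ) i)).length) =
              y ::ᵥ R y ::ᵥ v := by
            ext i
            rw [List.Vector.get_ofFn]
            refine Fin.cases ?_ (Fin.cases ?_ fun i => ?_) i
            · simp [i3]
            · simp [i2]; rfl
            · have := hA i.succ
              simp [v, update_of_ne this.2.2.1, i4 _ this.1 this.2.1 this.2.2.1]
          rw [Bool.cond_self]
          simp only [body]
          rw [run, run, run, hQ.2.2, hv, run_clear, run_move (by omega)]
          swap
          · intro k hk; rw [update_of_ne (by omega)]; exact hz k (by omega)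
          refine ⟨y + 1, ?_, ?_, ?_, fun k k1 k2 k3 => ?_⟩
          · rw [hx] at i1; simp [run] at i1 ⊢; omega
          · simp [run, hz (B + 3) le_rfl, R]
          · simp [run, i3]
          · by_cases k4 : k = B + 3
            · subst k4; simp [run, hs]
            · simp [run, update_of_ne, k1, k2, k3, k4, i4])
        (s := update (update s B (List.replicate (f v) true ++ s B)) (B + 2)
          (List.replicate (update s B (List.replicate (f v) true ++ s B) (args 0)).length true ++
            update s B (List.replicate (f v) true ++ s B) (B + 2)))
        ⟨0, by simp [update_of_ne (hA 0).1, hs], by simp [hs, R], by simp [hs],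
          fun k k1 k2 k3 => by simp [update_of_ne, k1, k3]⟩
      generalize (loop (B + 2) body body).run _ = t at i1 i2 i3 i4 i5 ⊢
      rw [run_clear, run_move (by omega), i2, i4 o (by omega) (by omega) (by omega)]
      have hy : y = (s (args 0)).length := by rw [i5] at i1; simpa using i1
      funext k
      simp only [update_apply, List.length_replicate, List.Vector.head_ofFn,
        List.Vector.tail_ofFn]
      split_ifs with c1 c2 c3 c4
      · omega
      · rw [c1, hs _ (by omega)]
      · rw [hy]
      · rw [c4, hs _ le_rfl]
      · by_cases c5 : k = B + 2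
        · rw [c5, i5, hs _ (by omega)]
        · exact i4 k c4 c1 c5

end Prog

end Vale.Agent.P193
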