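import Vale.Agent.P193.Mach1

/-! Continuations, renaming, computability and the verification program. -/

namespace Vale.Agent.P193

open Function

namespace Prog
variable {ρ ρ' : Type} [DecidableEq ρ] [DecidableEq ρ']

/-- Renaming of registers. -/
def map (f : ρ → ρ') : Prog ρ → Prog ρ'
  | skip => skip
  | push j b => push (f j) b
  | seq P Q => seq (P.map f) (Q.map f)
  | loop j P Q => loop (f j) (P.map f) (Q.map f)

omit [DecidableEq ρ] [DecidableEq ρ'] in
theorem regs_map (f : ρ → ρ') (P : Prog ρ) : (P.map f).regs = P.regs.map f := by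
  induction P <;> simp_all [map, regs]

theorem run_map (f : ρ → ρ') (g : ρ' → ρ) (hg : Injective g) (P : Prog ρ)
    (h : ∀ j ∈ P.regs, g (f j) = j) (s : St ρ) :
    (P.map f).run (s ∘ g) = P.run s ∘ g := by
  have hu : ∀ j, g (f j) = j → ∀ (s : St ρ) x, update (s ∘ g) (f j) x = update s j x ∘ g := by
    intro j hj s x
    rw [← update_comp_eq_of_injective _ hg, hj]
  induction P generalizing s with
  | skip => rfl
  | push j b =>
    have hj := h j (by simp [regs])
    rw [map, run, run, hu j hj, comp_apply, hj]
  | seq P Q ihP ihQ =>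
    rw [map, run, run, ihP (fun j hj => h j (by simp [regs, hj])),
      ihQ fun j hj => h j (by simp [regs, hj])]
  | loop j P Q ihP ihQ =>
    have hj := h j (by simp [regs])
    rw [map, run, run, comp_apply, hj]
    generalize (s j).length = n
    induction n generalizing s with
    | zero => rfl
    | succ n ih =>
      rw [iterate_succ_apply, iterate_succ_apply, ← ih]
      congr 1
      rw [round, round, comp_apply, hj]
      rcases s j with _ | ⟨_ | _, x⟩
      · rfl
      · simp only [cond_false]
        rw [hu j hj, ihP fun j hj => h j (by simp [regs, hj])]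
      · simp only [cond_true]
        rw [hu j hj, ihQ fun j hj => h j (by simp [regs, hj])]

omit [DecidableEq ρ] [DecidableEq ρ'] in
theorem wf_map (f : ρ → ρ') (g : ρ' → ρ) (P : Prog ρ) (h : ∀ j ∈ P.regs, g (f j) = j)
    (hP : P.WF) : (P.map f).WF := by
  induction P with
  | skip => trivial
  | push j b => trivial
  | seq P Q ihP ihQ =>
    exact ⟨ihP (fun j hj => h j (by simp [regs, hj])) hP.1,
      ihQ (fun j hj => h j (by simp [regs, hj])) hP.2⟩
  | loop j P Q ihP ihQ =>
    have key : ∀ R : Prog ρ, (∀ k ∈ R.regs, k ∈ (loop j P Q).regs) → j ∉ R.regs →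
        f j ∉ (R.map f).regs := by
      intro R h1 h2 h3
      rw [regs_map] at h3
      obtain ⟨k, hk, e⟩ := List.mem_map.1 h3
      have := congrArg g e
      rw [h k (h1 k hk), h j (by simp [regs])] at this
      exact h2 (this ▸ hk)
    exact ⟨key P (fun k hk => by simp [regs, hk]) hP.1, key Q (fun k hk => by simp [regs, hk]) hP.2.1,
      ihP (fun j hj => h j (by simp [regs, hj])) hP.2.2.1,
      ihQ (fun j hj => h j (by simp [regs, hj])) hP.2.2.2⟩

theorem primrec_upd {α : Type} [Primcodable α] {r : ℕ} {f : α → St (Fin r)} (j : Fin r)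
    {g : α → List Bool} (hf : Primrec f) (hg : Primrec g) :
    Primrec fun a => update (f a) j (g a) :=
  Primrec.fin_curry.2 ((Primrec.ite (Primrec.eq.comp Primrec.snd (Primrec.const j))
    (hg.comp Primrec.fst) (Primrec.fin_app.comp (hf.comp Primrec.fst) Primrec.snd)).of_eq
    fun x => by simp [update_apply])

theorem primrec_run {r : ℕ} (P : Prog (Fin r)) : Primrec P.run := by
  have ha : ∀ j : Fin r, Primrec fun s : St (Fin r) => s j := fun j =>
    Primrec.fin_app.comp Primrec.id (Primrec.const j)
  induction P with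
  | skip => exact Primrec.id
  | push j b =>
    exact primrec_upd j Primrec.id (Primrec.list_cons.comp (Primrec.const b) (ha j))
  | seq P Q ihP ihQ => exact ihQ.comp ihP
  | loop j P Q ihP ihQ =>
    have h1 : Primrec fun x : St (Fin r) × Bool × List Bool => update x.1 j x.2.2 :=
      primrec_upd j Primrec.fst (Primrec.snd.comp Primrec.snd)
    have h2 : Primrec (round j P.run Q.run) :=
      Primrec.list_casesOn (ha j) Primrec.id (h := fun s x =>
        cond x.1 (Q.run (update s j x.2)) (P.run (update s j x.2)))
        (Primrec.cond (Primrec.fst.comp Primrec.snd) (ihQ.comp h1) (ihP.comp h1)).to₂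
    exact Primrec.nat_iterate (Primrec.list_length.comp (ha j)) Primrec.id
      (h2.comp Primrec.snd).to₂

/-- The effect of a continuation. -/
def runs (K : List (Prog ρ)) (s : St ρ) : St ρ := K.foldl (fun s P => P.run s) s

@[simp] theorem runs_nil (s : St ρ) : runs [] s = s := rfl
@[simp] theorem runs_cons (P : Prog ρ) (K : List (Prog ρ)) (s : St ρ) :
    runs (P :: K) s = runs K (P.run s) := rfl

theorem primrec_runs {r : ℕ} (K : List (Prog (Fin r))) : Primrec (runs K) := by
  induction K with
  | nil => exact Primrec.id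
  | cons P K ih => exact ih.comp P.primrec_run

/-- The continuations met while running a program. -/
def subs : Prog ρ → List (Prog ρ) → List (List (Prog ρ))
  | skip, K => [skip :: K]
  | push j b, K => [push j b :: K]
  | seq P Q, K => (seq P Q :: K) :: (P.subs (Q :: K) ++ Q.subs K)
  | loop j P Q, K => (loop j P Q :: K) :: (P.subs (loop j P Q :: K) ++ Q.subs (loop j P Q :: K))

/-- The successors of a continuation. -/
def succs : List (Prog ρ) → List (List (Prog ρ))
  | [] => []
  | skip :: K => [K]
  | push _ _ :: K => [K]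
  | seq P Q :: K => [P :: Q :: K]
  | loop j P Q :: K => [K, P :: loop j P Q :: K, Q :: loop j P Q :: K]

omit [DecidableEq ρ] in
theorem self_mem_subs (P : Prog ρ) (K : List (Prog ρ)) : P :: K ∈ P.subs K := by
  cases P <;> simp [subs]

omit [DecidableEq ρ] in
theorem subs_closed (P : Prog ρ) (K : List (Prog ρ)) :
    ∀ X ∈ P.subs K, ∀ Y ∈ succs X, Y ∈ P.subs K ∨ Y = K := by
  induction P generalizing K with
  | skip => simp [subs, succs]
  | push j b => simp [subs, succs]
  | seq P Q ihP ihQ =>
    intro X hX Y hY
    simp only [subs, List.mem_cons, List.mem_append] at hX ⊢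
    rcases hX with rfl | hX | hX
    · simp only [succs, List.mem_singleton] at hY
      exact Or.inl (Or.inr (Or.inl (hY ▸ self_mem_subs _ _)))
    · rcases ihP _ X hX Y hY with h | h
      · exact Or.inl (Or.inr (Or.inl h))
      · exact Or.inl (Or.inr (Or.inr (h ▸ self_mem_subs _ _)))
    · exact (ihQ _ X hX Y hY).imp_left fun h => Or.inr (Or.inr h)
  | loop j P Q ihP ihQ =>
    intro X hX Y hY
    simp only [subs, List.mem_cons, List.mem_append] at hX ⊢
    rcases hX with rfl | hX | hX
    · simp only [succs, List.mem_cons, List.not_mem_nil, or_false] at hY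
      rcases hY with rfl | rfl | rfl
      · exact Or.inr rfl
      · exact Or.inl (Or.inr (Or.inl (self_mem_subs _ _)))
      · exact Or.inl (Or.inr (Or.inr (self_mem_subs _ _)))
    · exact Or.inl ((ihP _ X hX Y hY).elim (fun h => Or.inr (Or.inl h)) Or.inl)
    · exact Or.inl ((ihQ _ X hX Y hY).elim (fun h => Or.inr (Or.inr h)) Or.inl)

omit [DecidableEq ρ] in
theorem subs_wf (P : Prog ρ) (K : List (Prog ρ)) (hP : P.WF) (hK : ∀ Q ∈ K, Q.WF) :
    ∀ X ∈ P.subs K, ∀ Q ∈ X, Q.WF := by
  induction P generalizing K with
  | skip => simpa [subs, WF] using hK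
  | push j b => simpa [subs, WF] using hK
  | seq P Q ihP ihQ =>
    intro X hX
    simp only [subs, List.mem_cons, List.mem_append] at hX
    rcases hX with rfl | hX | hX
    · simpa using ⟨hP, hK⟩
    · exact ihP _ hP.1 (by simpa using ⟨hP.2, hK⟩) X hX
    · exact ihQ _ hP.2 hK X hX
  | loop j P Q ihP ihQ =>
    intro X hX
    simp only [subs, List.mem_cons, List.mem_append] at hX
    rcases hX with rfl | hX | hX
    · simpa using ⟨hP, hK⟩
    · exact ihP _ hP.2.2.1 (by simpa using ⟨hP, hK⟩) X hX
    · exact ihQ _ hP.2.2.2 (by simpa using ⟨hP, hK⟩) X hX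

/-- Programs that increase the total length of two registers by at most `c`. -/
inductive Bal (a b : ρ) : ℕ → Prog ρ → Prop
  | skip (c : ℕ) : Bal a b c skip
  | push (c : ℕ) (j : ρ) (x : Bool) : j ≠ a → j ≠ b → Bal a b c (push j x)
  | push1 (j : ρ) (x : Bool) : Bal a b 1 (push j x)
  | seq {c : ℕ} {P Q : Prog ρ} : Bal a b c P → Bal a b 0 Q → Bal a b c (seq P Q)
  | loop0 (c : ℕ) (j : ρ) {P Q : Prog ρ} : Bal a b 0 P → Bal a b 0 Q → Bal a b c (loop j P Q)
  | loop1 (c : ℕ) {P Q : Prog ρ} : Bal a b 1 P → Bal a b 1 Q → Bal a b c (loop a P Q)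

omit [DecidableEq ρ] in
theorem bal_of_not_mem {a b : ρ} {P : Prog ρ} (ha : a ∉ P.regs) (hb : b ∉ P.regs) :
    Bal a b 0 P := by
  induction P with
  | skip => exact .skip 0
  | push j x =>
    simp only [regs, List.mem_singleton] at ha hb
    exact .push 0 j x (Ne.symm ha) (Ne.symm hb)
  | seq P Q ihP ihQ =>
    simp only [regs, List.mem_append, not_or] at ha hb
    exact .seq (ihP ha.1 hb.1) (ihQ ha.2 hb.2)
  | loop j P Q ihP ihQ =>
    simp only [regs, List.mem_cons, List.mem_append, not_or] at ha hb
    exact .loop0 0 j (ihP ha.2.1 hb.2.1) (ihQ ha.2.2 hb.2.2)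

omit [DecidableEq ρ] [DecidableEq ρ'] in
theorem Bal.map {a b : ρ} {c : ℕ} {P : Prog ρ} (h : Bal a b c P) (f : ρ → ρ')
    (ha : ∀ j ∈ P.regs, f j = f a → j = a) (hb : ∀ j ∈ P.regs, f j = f b → j = b) :
    Bal (f a) (f b) c (P.map f) := by
  induction h with
  | skip c => exact .skip c
  | push c j x h1 h2 =>
    exact .push c _ x (fun h => h1 (ha j (by simp [regs]) h)) fun h => h2 (hb j (by simp [regs]) h)
  | push1 j x => exact .push1 _ x
  | seq _ _ ih1 ih2 =>
    exact .seq (ih1 (fun j hj => ha j (by simp [regs, hj])) fun j hj => hb j (by simp [regs, hj]))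
      (ih2 (fun j hj => ha j (by simp [regs, hj])) fun j hj => hb j (by simp [regs, hj]))
  | loop0 c j _ _ ih1 ih2 =>
    exact .loop0 c _
      (ih1 (fun j hj => ha j (by simp [regs, hj])) fun j hj => hb j (by simp [regs, hj]))
      (ih2 (fun j hj => ha j (by simp [regs, hj])) fun j hj => hb j (by simp [regs, hj]))
  | loop1 c _ _ ih1 ih2 =>
    exact .loop1 c
      (ih1 (fun j hj => ha j (by simp [regs, hj])) fun j hj => hb j (by simp [regs, hj]))
      (ih2 (fun j hj => ha j (by simp [regs, hj])) fun j hj => hb j (by simp [regs, hj]))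

/-- The total length of two registers. -/
def mu (a b : ρ) (s : St ρ) : ℕ := (s a).length + (s b).length

theorem iterate_le {α : Type} (m : α → ℕ) (f : α → α) (h : ∀ s, m (f s) ≤ m s) (n : ℕ) (s : α) :
    m (f^[n] s) ≤ m s := by
  induction n generalizing s with
  | zero => exact le_rfl
  | succ n ih => exact (ih _).trans (h s)

theorem Bal.le {a b : ρ} (hab : a ≠ b) {c : ℕ} {P : Prog ρ} (h : Bal a b c P) (s : St ρ) :
    mu a b (P.run s) ≤ mu a b s + c := by
  induction h generalizing s with
  | skip c => simp [run]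
  | push c j x h1 h2 => simp [run, mu, update_of_ne h1.symm, update_of_ne h2.symm]
  | push1 j x =>
    simp only [run, mu, update_apply]
    split_ifs with h1 h2 h2
    · exact absurd (h1.trans h2.symm) hab
    · subst h1; simp; omega
    · subst h2; simp; omega
    · omega
  | seq _ _ ih1 ih2 => exact (ih2 _).trans (ih1 s)
  | @loop0 c j P Q _ _ ih1 ih2 =>
    refine (iterate_le (mu a b) _ (fun s => ?_) _ s).trans (by omega)
    have : ∀ y x, s j = y :: x → mu a b (update s j x) ≤ mu a b s := by
      intro y x hx
      simp only [mu, update_apply]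
      split_ifs with h1 h2 h2
      · exact absurd (h1.trans h2.symm) hab
      · subst h1; simp [hx]
      · subst h2; simp [hx]
      · omega
    rw [round]
    rcases hx : s j with _ | ⟨_ | _, x⟩
    · exact le_rfl
    · exact (ih1 _).trans (this _ _ hx)
    · exact (ih2 _).trans (this _ _ hx)
  | @loop1 c P Q _ _ ih1 ih2 =>
    refine (iterate_le (mu a b) _ (fun s => ?_) _ s).trans (by omega)
    have : ∀ y x, s a = y :: x → mu a b (update s a x) + 1 ≤ mu a b s := by
      intro y x hx
      simp [mu, update_of_ne hab.symm, hx]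
    rw [round]
    rcases hx : s a with _ | ⟨_ | _, x⟩
    · exact le_rfl
    · exact (ih1 _).trans (this _ _ hx)
    · exact (ih2 _).trans (this _ _ hx)

theorem Bal.tail {a b : ρ} (hab : a ≠ b) {c : ℕ} {P : Prog ρ} (h : Bal a b c P) (hc : c ≤ 1)
    (K : List (Prog ρ)) : ∀ X ∈ P.subs K, ∀ s, ∃ s', runs X s = runs K s' ∧
      mu a b s' ≤ mu a b s + 1 := by
  have h0 : ∀ s, ∃ s', runs (P :: K) s = runs K s' ∧ mu a b s' ≤ mu a b s + 1 := fun s =>
    ⟨_, rfl, (h.le hab s).trans (by omega)⟩
  have hl : ∀ {j : ρ} {P Q R : Prog ρ} {K : List (Prog ρ)}, Bal a b 0 R →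
      (∀ X ∈ P.subs (R :: K), ∀ s, ∃ s', runs X s = runs (R :: K) s' ∧
        mu a b s' ≤ mu a b s + 1) →
      ∀ X ∈ P.subs (R :: K), ∀ s, ∃ s', runs X s = runs K s' ∧ mu a b s' ≤ mu a b s + 1 := by
    intro j P Q R K hR h X hX s
    obtain ⟨s', h1, h2⟩ := h X hX s
    exact ⟨_, h1, (hR.le hab s').trans h2⟩
  induction h generalizing K with
  | skip c => simpa [subs] using h0
  | push c j x => simpa [subs] using h0
  | push1 j x => simpa [subs] using h0
  | @seq c P Q h1 h2 ih1 ih2 =>
    intro X hX
    simp only [subs, List.mem_cons, List.mem_append] at hX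
    rcases hX with rfl | hX | hX
    · exact h0
    · exact hl (j := a) (Q := Q) h2 (ih1 hc _ fun s => ⟨_, rfl, (h1.le hab s).trans (by omega)⟩)
        X hX
    · exact ih2 (by omega) _ (fun s => ⟨_, rfl, (h2.le hab s).trans (by omega)⟩) X hX
  | @loop0 c j P Q h1 h2 ih1 ih2 =>
    intro X hX
    simp only [subs, List.mem_cons, List.mem_append] at hX
    rcases hX with rfl | hX | hX
    · exact h0
    · exact hl (j := a) (Q := Q) (.loop0 0 j h1 h2)
        (ih1 (by omega) _ fun s => ⟨_, rfl, (h1.le hab s).trans (by omega)⟩) X hX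
    · exact hl (j := a) (Q := Q) (.loop0 0 j h1 h2)
        (ih2 (by omega) _ fun s => ⟨_, rfl, (h2.le hab s).trans (by omega)⟩) X hX
  | @loop1 c P Q h1 h2 ih1 ih2 =>
    intro X hX
    simp only [subs, List.mem_cons, List.mem_append] at hX
    rcases hX with rfl | hX | hX
    · exact h0
    · exact hl (j := a) (Q := Q) (.loop1 0 h1 h2)
        (ih1 (by omega) _ fun s => ⟨_, rfl, h1.le hab s⟩) X hX
    · exact hl (j := a) (Q := Q) (.loop1 0 h1 h2)
        (ih2 (by omega) _ fun s => ⟨_, rfl, h2.le hab s⟩) X hX

/-- Replacing the register `4` by a function of its length. -/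
theorem exists_assign {h : ℕ → ℕ} (hh : Primrec h) : ∃ P : Prog ℕ, P.WF ∧ (∀ j ∈ P.regs, 4 ≤ j) ∧
    ∀ s : St ℕ, (∀ k, 5 ≤ k → s k = []) →
      P.run s = update s 4 (List.replicate (h (s 4).length) true) := by
  obtain ⟨P, h1, h2, h3⟩ := compile (Nat.Primrec'.prim_iff₁.2 hh) (fun _ => 4) 5 6 (by simp)
    (by simp) (by simp)
  refine ⟨seq P (seq (clear 4) (move 5 4)), ⟨h1, by simp [WF, clear, move, regs]⟩, ?_,
    fun s hs => ?_⟩
  · intro j hj
    simp only [regs, clear, move, List.mem_append, List.mem_cons, List.not_mem_nil] at hj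
    have := h2 j
    simp only [exists_const] at this
    by_cases hp : j ∈ P.regs
    · have := this hp; omega
    · simp only [hp, false_or, or_false] at hj; omega
  · rw [run, run, h3 s fun k hk => hs k (by omega), run_clear, run_move (by omega)]
    funext k
    simp only [update_apply, List.Vector.head_ofFn]
    split_ifs <;> simp_all

/-- The final configuration on acceptance. -/
def accSt (d : List Bool) : St ℕ := fun k => if k = 0 then d else []

/-- The final configuration on rejection. -/
def rejSt (d x : List Bool) : St ℕ :=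
  fun k => if k = 0 then d else if k = 2 then [true] else if k = 3 then x else []

theorem exists_verifier (G : ℕ → List Bool → ℕ → Bool)
    (hG : Primrec fun x : ℕ × List Bool × ℕ => G x.1 x.2.1 x.2.2) :
    ∃ r, 6 < r ∧ ∀ N, ∃ P : Prog ℕ, P.WF ∧ (∀ j ∈ P.regs, j < r) ∧ Bal 1 3 0 P ∧
      ∀ s : St ℕ, (∀ k, r ≤ k → s k = []) → P.run s =
        if G (s 0).length (s 1).reverse N then accSt (s 0) else rejSt (s 0) (s 1).reverse := by
  obtain ⟨A0, a1, a2, a3⟩ := exists_assign (h := fun n => Nat.pair (Encodable.encode false) n + 1)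
    (by fun_prop)
  obtain ⟨A1, b1, b2, b3⟩ := exists_assign (h := fun n => Nat.pair (Encodable.encode true) n + 1)
    (by fun_prop)
  have hg : Primrec fun v : List.Vector ℕ 3 => bif G (v.get 0)
      ((Encodable.decode (α := List Bool) (v.get 1)).getD []) (v.get 2) then 1 else 0 := by
    have h0 : ∀ i : Fin 3, Primrec fun v : List.Vector ℕ 3 => v.get i := fun i =>
      Primrec.vector_get.comp Primrec.id (Primrec.const i)
    have h1 := hG.comp ((h0 0).pair ((Primrec.option_getD.comp
      ((Primrec.decode (α := List Bool)).comp (h0 1)) (Primrec.const [])).pair (h0 2)))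
    exact Primrec.cond h1 (Primrec.const 1) (Primrec.const 0)
  obtain ⟨C, c1, c2, c3⟩ := compile (Nat.Primrec'.prim_iff.2 hg) ![0, 4, 5] 6 7
    (by simp [Fin.forall_fin_succ]) (by simp) (by simp [Fin.forall_fin_succ])
  obtain ⟨r, hr⟩ := (List.finite_toSet (A0.regs ++ A1.regs ++ C.regs)).bddAbove
  have hr' : ∀ j, j ∈ A0.regs ∨ j ∈ A1.regs ∨ j ∈ C.regs → j ≤ r := fun j hj =>
    hr (by simpa using hj)
  have c4 : ∀ j ∈ C.regs, j ≠ 1 ∧ j ≠ 3 := fun j hj => by
    have := c2 j hj
    simp [Fin.exists_fin_succ] at this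
    omega
  refine ⟨r + 7, by omega, fun N => ⟨seq (seqs (((List.range (r + 5)).map (· + 2)).map clear))
    (seq (loop 1 (seq (push 3 false) A0) (seq (push 3 true) A1))
      (seq (seqs (List.replicate N (push 5 true))) (seq C (seq (clear 4) (seq (clear 5)
        (seq (push 2 true) (loop 6 (seq (clear 3) (clear 2)) (seq (clear 3) (clear 2))))))))),
    ⟨wf_seqs ?_, ⟨?_, ?_, ⟨trivial, a1⟩, trivial, b1⟩, wf_seqs ?_, c1, ?_⟩, ?_, ?_, ?_⟩⟩
  · simp [clear, WF, regs]
  · simpa [regs] using fun h => by have := a2 _ h; omega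
  · simpa [regs] using fun h => by have := b2 _ h; omega
  · intro P hP; rw [List.eq_of_mem_replicate hP]; trivial
  · simp [clear, WF, regs]
  · intro j hj
    simp only [regs, clear, List.mem_append, List.mem_cons, mem_regs_seqs, List.mem_map,
      List.not_mem_nil, List.mem_range, List.mem_replicate, or_false, false_or] at hj
    have := hr' j
    rcases hj with ⟨_, ⟨_, ⟨i, hi, rfl⟩, rfl⟩, hj⟩ | hj | ⟨_, ⟨-, rfl⟩, hj⟩ | hj | hj
    · simp [regs] at hj; omega
    · rcases hj with hj | (hj | hj) | hj | hj
      · omega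
      · omega
      · have := this (Or.inl hj); omega
      · omega
      · have := this (Or.inr (Or.inl hj)); omega
    · simp [regs] at hj; omega
    · have := this (Or.inr (Or.inr hj)); omega
    · omega
  · have hc : ∀ j : ℕ, Bal 1 3 0 (clear j) := fun j => .loop0 0 j (.skip 0) (.skip 0)
    have hs : ∀ l : List (Prog ℕ), (∀ P ∈ l, Bal 1 3 0 P) → Bal 1 3 0 (seqs l) := by
      intro l hl
      induction l with
      | nil => exact .skip 0
      | cons P l ih =>
        exact .seq (hl P List.mem_cons_self) (ih fun Q hQ => hl Q (List.mem_cons_of_mem _ hQ))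
    refine .seq (hs _ ?_) (.seq (.loop1 0 (.seq (.push1 _ _) (bal_of_not_mem ?_ ?_))
      (.seq (.push1 _ _) (bal_of_not_mem ?_ ?_))) (.seq (hs _ ?_)
        (.seq (bal_of_not_mem ?_ ?_) (.seq (hc _) (.seq (hc _) (.seq (.push 0 _ _ (by simp) (by simp))
          (.loop0 0 _ (.seq (hc _) (hc _)) (.seq (hc _) (hc _)))))))))
    · intro P hP; obtain ⟨j, -, rfl⟩ := List.mem_map.1 hP; exact hc j
    · exact fun h => by have := a2 _ h; omega
    · exact fun h => by have := a2 _ h; omega
    · exact fun h => by have := b2 _ h; omega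
    · exact fun h => by have := b2 _ h; omega
    · intro P hP; rw [List.eq_of_mem_replicate hP]; exact .push 0 _ _ (by simp) (by simp)
    · exact fun h => (c4 _ h).1 rfl
    · exact fun h => (c4 _ h).2 rfl
  · intro s hs
    simp only [run_clears, show ∀ (P Q : Prog ℕ) s, (seq P Q).run s = Q.run (P.run s) from
      fun _ _ _ => rfl]
    obtain ⟨⟨i0, i1, i2, i3, i4⟩, i5⟩ := loop_inv (j := 1) (P := seq (push 3 false) A0)
      (Q := seq (push 3 true) A1) (by simpa [regs] using fun h => by have := a2 _ h; omega)
      (by simpa [regs] using fun h => by have := b2 _ h; omega)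
      (fun t => t 0 = s 0 ∧ (t 3).reverse ++ t 1 = s 1 ∧ t 2 = [] ∧
        (t 4).length = Encodable.encode (t 3) ∧ ∀ k, 5 ≤ k → t k = []) (by
        rintro t b x hx ⟨i0, i1, i2, i3, i4⟩
        have e : (cond b (seq (push 3 true) A1) (seq (push 3 false) A0)).run (update t 1 x) =
            update (update (update t 1 x) 3 (b :: t 3)) 4
              (List.replicate (Nat.pair (Encodable.encode b) (t 4).length + 1) true) := by
          have hz : ∀ y k, 5 ≤ k → update (update t 1 x) 3 y k = [] := fun y k hk => by
            rw [update_of_ne (by omega), update_of_ne (by omega), i4 k hk]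
          cases b
          · simp only [cond_false, run]; rw [a3 _ (hz _)]; simp
          · simp only [cond_true, run]; rw [b3 _ (hz _)]; simp
        rw [e]
        refine ⟨by simpa using i0, by simp [← i1, hx], by simpa using i2, by simp [i3], ?_⟩
        intro k hk
        rw [update_of_ne (by omega), update_of_ne (by omega), update_of_ne (by omega), i4 k hk])
      (s := fun k => if k ∈ (List.range (r + 5)).map (· + 2) then [] else s k) (by
        have hz : ∀ k, 2 ≤ k → (if k ∈ (List.range (r + 5)).map (· + 2) then [] else s k) = [] := by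
          intro k hk
          split_ifs with h
          · rfl
          · refine hs k ?_
            by_contra h2
            exact h (List.mem_map.2 ⟨k - 2, List.mem_range.2 (by omega), by omega⟩)
        refine ⟨by simp, ?_, hz 2 le_rfl, ?_, fun k hk => hz k (by omega)⟩
        · simp only [hz 3 (by omega)]; simp
        · simp only [hz 3 (by omega), hz 4 (by omega)]; rfl)
    generalize (loop 1 (seq (push 3 false) A0) (seq (push 3 true) A1)).run _ = t
      at i0 i1 i2 i3 i4 i5 ⊢
    have e1 : ∀ (n : ℕ) (t : St ℕ), (seqs (List.replicate n (push 5 true))).run t =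
        update t 5 (List.replicate n true ++ t 5) := by
      intro n
      induction n with
      | zero => simp [seqs, run]
      | succ n ih =>
        intro t
        rw [List.replicate_succ, seqs, run, ih]
        simp [run, List.replicate_succ']
    have e2 : t 3 = (s 1).reverse := by rw [← i1, i5]; simp
    rw [e1, c3 _ fun k hk => by rw [update_of_ne (by omega)]; exact i4 k (by omega), run_clear,
      run_clear]
    simp only [List.Vector.get_ofFn]
    have e3 : (update t 5 (List.replicate N true ++ t 5) (![0, 4, 5] 0)).length = (s 0).length := by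
      simp [i0]
    have e4 : (update t 5 (List.replicate N true ++ t 5) (![0, 4, 5] 1)).length =
        Encodable.encode (s 1).reverse := by simp [i3, e2]
    have e5 : (update t 5 (List.replicate N true ++ t 5) (![0, 4, 5] 2)).length = N := by
      simp [i4]
    rw [e3, e4, e5, Encodable.encodek, Option.getD_some]
    cases G (s 0).length (s 1).reverse N
    · rw [run_loop_nil _ _ (by simp [run, i4])]
      funext k
      simp only [run, update_apply, rejSt, cond_false, Bool.false_eq_true, if_false]
      rcases k with _ | _ | _ | _ | _ | _ | _ | k <;> simp [i0, i2, i4, i5, e2]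
    · rw [run_loop_cons (b := true) (x := []) (by simp [regs, clear]) (by simp [regs, clear])
        (by simp [run, i4]), run_loop_nil _ _ (by simp [run, run_clear])]
      funext k
      simp only [run, run_clear, update_apply, accSt, cond_true, if_true]
      rcases k with _ | _ | _ | _ | _ | _ | _ | k <;> simp [i0, i2, i4, i5, e2]

end Prog

end Vale.Agent.P193
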