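import Vale.Agent.P193.RE

/-! Stack machines with emission, their paths and the specification of the machine used. -/

namespace Vale.Agent.P193

/-- Operations on `r` stacks, each stack being an integer written in base four. -/
inductive Op (r : ℕ)
  | nop
  | push (j : Fin r) (d : ℕ)
  | pop (j : Fin r) (d : ℕ)

/-- The digit of an operation is below four. -/
def Op.Ok {r : ℕ} : Op r → Prop
  | .nop => True
  | .push _ d => d < 4
  | .pop _ d => d < 4

/-- The effect of an operation, as a relation between old and new contents. -/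
def Op.Rel {r : ℕ} : Op r → (Fin r → ℤ) → (Fin r → ℤ) → Prop
  | .nop, a, b => b = a
  | .push j d, a, b => b = Function.update a j (4 * a j + d)
  | .pop j d, a, b => a = Function.update b j (4 * b j + d)

/-- An instruction: source state, target state, operation and emitted letter. -/
structure Instr (r : ℕ) where
  src : ℕ
  tgt : ℕ
  op : Op r
  emit : Option ℕ

/-- Configurations. -/
abbrev Cfg (r : ℕ) := ℕ × (Fin r → ℤ)

/-- One step of an instruction. -/
def Step {r : ℕ} (I : Instr r) (c c' : Cfg r) : Prop :=
  c.1 = I.src ∧ c'.1 = I.tgt ∧ I.op.Rel c.2 c'.2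

/-- Paths in the configuration graph; steps may be used backwards. The first step is the last
letter of the word. -/
inductive Path {r m : ℕ} (M : Fin m → Instr r) : Cfg r → Word (Fin m) → Cfg r → Prop
  | nil (c : Cfg r) : Path M c [] c
  | fwd {c c' c'' : Cfg r} {v : Word (Fin m)} (i : Fin m) :
      Path M c v c' → Step (M i) c' c'' → Path M c ((i, true) :: v) c''
  | bwd {c c' c'' : Cfg r} {v : Word (Fin m)} (i : Fin m) :
      Path M c v c' → Step (M i) c'' c' → Path M c ((i, false) :: v) c''

/-- The holonomy (product of the emitted letters) of a word of instructions. -/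
def hol {ι : Type} (em : ι → Option ℕ) (v : Word ι) : FreeGroup ℕ :=
  ev (fun i => (em i).elim 1 FreeGroup.of) v

/-- The number of emitting instructions in a word. -/
def cnt {ι : Type} (em : ι → Option ℕ) (v : Word ι) : ℕ :=
  v.countP fun a => (em a.1).isSome

/-- The subgroup generated by the accepted words. -/
def accSub (F : ℕ → List ℕ → Bool) (e : ℕ) : Subgroup (FreeGroup ℕ) :=
  Subgroup.closure {g | ∃ w, F e w = true ∧ FreeGroup.mk (posw w) = g}

/-- The specification of the machine. -/
structure MachPkg (F : ℕ → List ℕ → Bool) (κ r Nc : ℕ) where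
  m : ℕ
  M : Fin m → Instr r
  root : ℕ → Cfg r
  root_comp : Computable root
  ok : ∀ i, (M i).op.Ok
  src_ge : ∀ i, κ ≤ (M i).src
  tgt_ge : ∀ i, κ ≤ (M i).tgt
  root_ge : ∀ e, κ ≤ (root e).1
  em_surj : ∀ a < Nc, ∃ i, (M i).emit = some a
  closed : ∀ e v, Path M (root e) v (root e) → hol (fun i => (M i).emit) v ∈ accSub F e
  realized : ∀ e w, F e w = true → (∀ a ∈ w, a < Nc) →
    ∃ v, Path M (root e) v (root e) ∧ hol (fun i => (M i).emit) v = FreeGroup.mk (posw w)
  short : ∀ e v c s, Path M (root e) v c → (∀ j, |c.2 j| < 4 ^ s) →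
    ∃ v', Path M (root e) v' c ∧ κ * cnt (fun i => (M i).emit) v' ≤ 4 * s + 4 * κ
  re_far : REPred fun x : ℕ × Cfg r => ¬ ∃ v, Path M (root x.1) v x.2

end Vale.Agent.P193
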