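import Vale.Agent.P193.Mach2
import Vale.Agent.P193.MachDef

/-! Abstract machines on binary stacks and their simulation by integer stack machines. -/

namespace Vale.Agent.P193

open Function

section Paths
variable {r m : ℕ} {M : Fin m → Instr r}

theorem Path.trans {c c' c'' : Cfg r} {v v' : Word (Fin m)} (h : Path M c v c')
    (h' : Path M c' v' c'') : Path M c (v' ++ v) c'' := by
  induction h' with
  | nil => exact h
  | fwd i _ hs ih => exact .fwd i ih hs
  | bwd i _ hs ih => exact .bwd i ih hs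

theorem Path.symm {c c' : Cfg r} {v : Word (Fin m)} (h : Path M c v c') :
    Path M c' (FreeGroup.invRev v) c := by
  induction h with
  | nil => exact .nil _
  | fwd i _ hs ih => rw [FreeGroup.invRev_cons]; exact (Path.bwd i (.nil _) hs).trans ih
  | bwd i _ hs ih => rw [FreeGroup.invRev_cons]; exact (Path.fwd i (.nil _) hs).trans ih

/-- A path with given holonomy and number of emissions. -/
def Conn (M : Fin m → Instr r) (c c' : Cfg r) (g : FreeGroup ℕ) (n : ℕ) : Prop :=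
  ∃ v, Path M c v c' ∧ hol (fun i => (M i).emit) v = g ∧ cnt (fun i => (M i).emit) v = n

theorem Conn.refl (c : Cfg r) : Conn M c c 1 0 := ⟨[], .nil c, by simp [hol], rfl⟩

theorem Conn.trans {c c' c'' : Cfg r} {g g' : FreeGroup ℕ} {n n' : ℕ} (h : Conn M c c' g n)
    (h' : Conn M c' c'' g' n') : Conn M c c'' (g' * g) (n' + n) := by
  obtain ⟨v, h1, rfl, rfl⟩ := h
  obtain ⟨v', h2, rfl, rfl⟩ := h'
  exact ⟨_, h1.trans h2, by simp [hol], by simp [cnt]⟩

theorem Conn.symm {c c' : Cfg r} {g : FreeGroup ℕ} {n : ℕ} (h : Conn M c c' g n) :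
    Conn M c' c g⁻¹ n := by
  obtain ⟨v, h1, rfl, rfl⟩ := h
  exact ⟨_, h1.symm, by simp [hol], by simp [cnt, FreeGroup.invRev, List.countP_map, comp_def]⟩

theorem Conn.step {c c' : Cfg r} (i : Fin m) (h : Step (M i) c c') :
    Conn M c c' ((M i).emit.elim 1 FreeGroup.of) (M i).emit.toList.length :=
  ⟨[(i, true)], .fwd i (.nil c) h, by simp [hol], by
    simp only [cnt, List.countP_singleton]; cases (M i).emit <;> simp⟩

end Paths

/-- The value of a digit string over a tail. -/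
def valT (x : List Bool) (y : ℤ) : ℤ := x.foldr (fun b z => 4 * z + cond b 2 1) y

/-- The value of a stack. -/
def val (x : List Bool) : ℤ := valT x 0

@[simp] theorem val_nil : val [] = 0 := rfl
theorem val_cons (b : Bool) (x : List Bool) : val (b :: x) = 4 * val x + cond b 2 1 := rfl

theorem val_inj {x y : List Bool} (h : val x = val y) : x = y := by
  induction x generalizing y with
  | nil => rcases y with _ | ⟨_ | _, y⟩ <;> simp [val_cons] at h ⊢ <;> omega
  | cons a x ih =>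
    rcases y with _ | ⟨b, y⟩
    · cases a <;> simp [val_cons] at h <;> omega
    · cases a <;> cases b <;> simp [val_cons] at h ⊢
      · exact ih h
      · omega
      · omega
      · exact ih h

theorem val_eq {x : List Bool} {z : ℤ} {b : Bool} (h : val x = 4 * z + cond b 2 1) :
    ∃ y, x = b :: y ∧ val y = z := by
  rcases x with _ | ⟨a, x⟩
  · cases b <;> simp at h <;> omega
  · cases a <;> cases b <;> simp [val_cons] at h ⊢ <;> omega

theorem val_eq_zero {x : List Bool} {z : ℤ} (h : val x = 4 * z) : x = [] ∧ z = 0 := by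
  rcases x with _ | ⟨_ | _, x⟩ <;> simp [val_cons] at h ⊢ <;> omega

theorem pow_le_val (x : List Bool) : 4 ^ x.length ≤ 3 * val x + 1 := by
  induction x with
  | nil => simp
  | cons b x ih => cases b <;> simp only [val_cons, List.length_cons, pow_succ, cond] <;> omega

theorem length_le_of_val {x : List Bool} {s : ℕ} (h : |val x| < 4 ^ s) : x.length ≤ s := by
  by_contra hs
  have h1 : (4 : ℤ) ^ (s + 1) ≤ 4 ^ x.length := pow_le_pow_right₀ (by norm_num) (by omega)
  have h2 := pow_le_val x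
  have h3 := le_abs_self (val x)
  have h4 := abs_nonneg (val x)
  rw [pow_succ] at h1
  omega

theorem not_val_iff (z : ℤ) : (¬ ∃ x, val x = z) ↔
    ∃ p : List Bool × ℤ, valT p.1 p.2 = z ∧ p.2 ≠ 0 ∧ p.2 % 4 ≠ 1 ∧ p.2 % 4 ≠ 2 := by
  constructor
  · intro h
    induction hn : z.natAbs using Nat.strong_induction_on generalizing z with
    | _ n ih =>
      by_cases h1 : z % 4 = 1 ∨ z % 4 = 2
      · obtain ⟨p, h2, h3⟩ := ih (z / 4).natAbs (by omega) (z / 4) (by
          rintro ⟨x, hx⟩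
          rcases h1 with h1 | h1
          · exact h ⟨false :: x, by simp [val_cons, hx]; omega⟩
          · exact h ⟨true :: x, by simp [val_cons, hx]; omega⟩) rfl
        rcases h1 with h1 | h1
        · exact ⟨(false :: p.1, p.2), by simp [valT] at h2 ⊢; omega, h3⟩
        · exact ⟨(true :: p.1, p.2), by simp [valT] at h2 ⊢; omega, h3⟩
      · exact ⟨([], z), rfl, fun h2 => h ⟨[], h2.symm⟩, by simpa using h1⟩
  · rintro ⟨⟨x, y⟩, rfl, h1, h2, h3⟩ ⟨x', h⟩
    induction x generalizing x' with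
    | nil =>
      rcases x' with _ | ⟨_ | _, x'⟩ <;> simp [val_cons, valT] at h h1 h2 h3 <;> omega
    | cons b x ih =>
      obtain ⟨y', -, h4⟩ := val_eq (b := b) (z := valT x y) h
      exact ih h1 h2 h3 y' h4

theorem primrec_valT : Primrec fun p : List Bool × ℤ => valT p.1 p.2 := by
  unfold valT; fun_prop

/-- Commands of an abstract machine. -/
inductive Cmd (σ : Type) (r : ℕ)
  | goto (s : σ) (e : Option ℕ)
  | push (j : Fin r) (b : Bool) (s : σ)
  | pop (j : Fin r) (s0 sf st : σ)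
  deriving Countable

variable {σ : Type} {r : ℕ}

/-- The effect of a command. -/
def Cmd.Fire : Cmd σ r → St (Fin r) → Option ℕ → σ × St (Fin r) → Prop
  | .goto s e, x, l, a => l = e ∧ a = (s, x)
  | .push j b s, x, l, a => l = none ∧ a = (s, update x j (b :: x j))
  | .pop j s0 sf st, x, l, a => l = none ∧ ((x j = [] ∧ a = (s0, x)) ∨
      ∃ b y, x j = b :: y ∧ a = (cond b st sf, update x j y))

/-- An abstract machine with a numbering of its states. -/
structure AM (σ : Type) (r : ℕ) where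
  R : List (σ × Cmd σ r)
  κ : ℕ
  n1 : σ → ℕ
  n2 : σ × Cmd σ r → ℕ
  h1 : Injective n1
  h2 : Injective n2

namespace AM
variable (X : AM σ r)

/-- Edges of the abstract configuration graph. -/
def Edge (a : σ × St (Fin r)) (l : Option ℕ) (a' : σ × St (Fin r)) : Prop :=
  ∃ c, (a.1, c) ∈ X.R ∧ c.Fire a.2 l a'

/-- Number of a state. -/
def sN (s : σ) : ℕ := X.κ + 2 * X.n1 s

/-- Number of an auxiliary state. -/
def aN (p : σ × Cmd σ r) : ℕ := X.κ + 2 * X.n2 p + 1

theorem sN_inj {s t : σ} (h : X.sN s = X.sN t) : s = t := X.h1 (by simp only [sN] at h; omega)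
theorem aN_inj {s t : σ × Cmd σ r} (h : X.aN s = X.aN t) : s = t :=
  X.h2 (by simp only [aN] at h; omega)
theorem sN_ne_aN (s : σ) (t : σ × Cmd σ r) : X.sN s ≠ X.aN t := by simp only [sN, aN]; omega

/-- The instructions of a rule. -/
def instrs : σ × Cmd σ r → List (Instr r)
  | (p, .goto s e) => [⟨X.sN p, X.sN s, .nop, e⟩]
  | (p, .push j b s) => [⟨X.sN p, X.sN s, .push j (cond b 2 1), none⟩]
  | (p, .pop j s0 sf st) => [⟨X.sN p, X.sN sf, .pop j 1, none⟩, ⟨X.sN p, X.sN st, .pop j 2, none⟩,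
      ⟨X.sN p, X.aN (p, .pop j s0 sf st), .pop j 0, none⟩,
      ⟨X.aN (p, .pop j s0 sf st), X.sN s0, .push j 0, none⟩]

/-- All instructions. -/
def Ins : List (Instr r) := X.R.flatMap X.instrs

/-- The integer machine. -/
def M : Fin X.Ins.length → Instr r := X.Ins.get

theorem exists_M {I : Instr r} {p : σ × Cmd σ r} (hp : p ∈ X.R) (h : I ∈ X.instrs p) :
    ∃ i, X.M i = I := List.mem_iff_get.1 (List.mem_flatMap.2 ⟨p, hp, h⟩)

theorem M_mem (i : Fin X.Ins.length) : ∃ p ∈ X.R, X.M i ∈ X.instrs p :=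
  List.mem_flatMap.1 (List.get_mem _ i)

/-- The integer stacks. -/
def vals (x : St (Fin r)) : Fin r → ℤ := fun j => val (x j)

theorem vals_update (x : St (Fin r)) (j : Fin r) (y : List Bool) :
    vals (update x j y) = update (vals x) j (val y) := by
  funext k; simp only [vals, update_apply]; split_ifs <;> rfl

theorem upd0 {z : Fin r → ℤ} {j : Fin r} (h : z j = 0) : update z j (4 * z j + (0 : ℕ)) = z := by
  rw [update_eq_self_iff, h]; rfl

/-- The integer configuration. -/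
def emb (a : σ × St (Fin r)) : Cfg r := (X.sN a.1, vals a.2)

/-- An integer configuration represents an abstract one. -/
def Rep (a : σ × St (Fin r)) (c : Cfg r) : Prop :=
  c = X.emb a ∨ ∃ j s0 sf st, (a.1, Cmd.pop j s0 sf st) ∈ X.R ∧ a.2 j = [] ∧
    c = (X.aN (a.1, .pop j s0 sf st), vals a.2)

theorem Rep.snd {X : AM σ r} {a : σ × St (Fin r)} {c : Cfg r} (h : X.Rep a c) :
    c.2 = vals a.2 := by
  rcases h with rfl | ⟨_, _, _, _, _, _, rfl⟩ <;> rfl

theorem Rep.of_sN {X : AM σ r} {a : σ × St (Fin r)} {c : Cfg r} (h : X.Rep a c) {s : σ}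
    (hs : c.1 = X.sN s) : a.1 = s := by
  rcases h with rfl | ⟨_, _, _, _, _, _, rfl⟩
  · exact X.sN_inj hs
  · exact absurd hs.symm (X.sN_ne_aN _ _)

theorem Rep.of_aN {X : AM σ r} {a : σ × St (Fin r)} {c : Cfg r} (h : X.Rep a c) {s s0 sf st : σ}
    {j : Fin r} (hs : c.1 = X.aN (s, .pop j s0 sf st)) : a.1 = s ∧ a.2 j = [] := by
  rcases h with rfl | ⟨_, _, _, _, _, h, rfl⟩
  · exact absurd hs (X.sN_ne_aN _ _)
  · have := X.aN_inj hs
    simp only [Prod.mk.injEq, Cmd.pop.injEq] at this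
    exact ⟨this.1, this.2.1 ▸ h⟩

theorem rep_emb {a a' : σ × St (Fin r)} (h : X.Rep a (X.emb a')) : a = a' :=
  Prod.ext (h.of_sN rfl) (funext fun j => (val_inj (congrFun h.snd j)).symm)

theorem step_fwd (i : Fin X.Ins.length) {a : σ × St (Fin r)} {c c' : Cfg r} (h : X.Rep a c)
    (hs : Step (X.M i) c c') : ((X.M i).emit = none ∧ X.Rep a c') ∨
      ∃ a', X.Edge a (X.M i).emit a' ∧ X.Rep a' c' := by
  obtain ⟨⟨p, cm⟩, hp, hi⟩ := X.M_mem i
  generalize X.M i = I at hi hs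
  obtain ⟨q, x⟩ := a
  obtain ⟨n, z⟩ := c
  obtain ⟨n', z'⟩ := c'
  obtain rfl : z = vals x := h.snd
  rcases cm with ⟨s, e⟩ | ⟨j, b, s⟩ | ⟨j, s0, sf, st⟩ <;>
    simp only [instrs, List.mem_cons, List.not_mem_nil, or_false] at hi
  · subst hi
    obtain ⟨h1, rfl, rfl⟩ := hs
    obtain rfl : q = p := h.of_sN h1
    exact Or.inr ⟨(s, x), ⟨_, hp, rfl, rfl⟩, Or.inl rfl⟩
  · subst hi
    obtain ⟨h1, rfl, rfl⟩ := hs
    obtain rfl : q = p := h.of_sN h1
    refine Or.inr ⟨_, ⟨_, hp, rfl, rfl⟩, Or.inl ?_⟩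
    rw [emb, vals_update, val_cons]
    cases b <;> rfl
  · have key : ∀ b : Bool, q = p → vals x = update z' j (4 * z' j + cond b 2 1) →
        ∃ a', X.Edge (q, x) none a' ∧ X.Rep a' (X.sN (cond b st sf), z') := by
      rintro b rfl h3
      obtain ⟨y, hy, h4⟩ := val_eq (x := x j) (b := b) (z := z' j)
        ((congrFun h3 j).trans (update_self ..))
      refine ⟨_, ⟨_, hp, rfl, Or.inr ⟨b, y, hy, rfl⟩⟩, Or.inl ?_⟩
      rw [emb, vals_update, h3, h4]; simp
    rcases hi with rfl | rfl | rfl | rfl <;> obtain ⟨h1, rfl, h3⟩ := hs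
    · exact Or.inr (key false (h.of_sN h1) h3)
    · exact Or.inr (key true (h.of_sN h1) h3)
    · obtain rfl : q = p := h.of_sN h1
      have h3 : vals x = update z' j (4 * z' j + (0 : ℕ)) := h3
      obtain ⟨h4, h5⟩ := val_eq_zero (x := x j) (z := z' j)
        (((congrFun h3 j).trans (update_self ..)).trans (by simp))
      refine Or.inl ⟨rfl, Or.inr ⟨j, s0, sf, st, hp, h4, ?_⟩⟩
      rw [h3, upd0 h5]
    · obtain ⟨rfl, h4⟩ : q = p ∧ x j = [] := h.of_aN h1
      have h3 : z' = update (vals x) j (4 * vals x j + (0 : ℕ)) := h3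
      refine Or.inr ⟨_, ⟨_, hp, rfl, Or.inl ⟨h4, rfl⟩⟩, Or.inl ?_⟩
      have : vals x j = 0 := by simp [vals, h4]
      rw [h3, upd0 this]; rfl

theorem step_bwd (i : Fin X.Ins.length) {a : σ × St (Fin r)} {c c' : Cfg r} (h : X.Rep a c')
    (hs : Step (X.M i) c c') : ((X.M i).emit = none ∧ X.Rep a c) ∨
      ∃ a', X.Edge a' (X.M i).emit a ∧ X.Rep a' c := by
  obtain ⟨⟨p, cm⟩, hp, hi⟩ := X.M_mem i
  generalize X.M i = I at hi hs
  obtain ⟨q, x⟩ := a
  obtain ⟨n, z⟩ := c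
  obtain ⟨n', z'⟩ := c'
  obtain rfl : z' = vals x := h.snd
  rcases cm with ⟨s, e⟩ | ⟨j, b, s⟩ | ⟨j, s0, sf, st⟩ <;>
    simp only [instrs, List.mem_cons, List.not_mem_nil, or_false] at hi
  · subst hi
    obtain ⟨rfl, h1, h2⟩ := hs
    obtain rfl : q = s := h.of_sN h1
    obtain rfl : vals x = z := h2
    exact Or.inr ⟨(p, x), ⟨_, hp, rfl, rfl⟩, Or.inl rfl⟩
  · subst hi
    obtain ⟨rfl, h1, h3⟩ := hs
    obtain rfl : q = s := h.of_sN h1
    have h3 : vals x = update z j (4 * z j + cond b 2 1) := by cases b <;> exact h3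
    obtain ⟨y, hy, h4⟩ := val_eq (x := x j) (b := b) (z := z j)
      ((congrFun h3 j).trans (update_self ..))
    refine Or.inr ⟨(p, update x j y), ⟨_, hp, rfl, by simp [← hy]⟩, Or.inl ?_⟩
    rw [emb, vals_update, h3, h4]; simp
  · have key : ∀ b : Bool, q = cond b st sf → z = update (vals x) j (4 * vals x j + cond b 2 1) →
        ∃ a', X.Edge a' none (q, x) ∧ X.Rep a' (X.sN p, z) := by
      rintro b rfl rfl
      refine ⟨(p, update x j (b :: x j)), ⟨_, hp, rfl, Or.inr ⟨b, x j, by simp, by simp⟩⟩,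
        Or.inl ?_⟩
      rw [emb, vals_update]; rfl
    rcases hi with rfl | rfl | rfl | rfl <;> obtain ⟨rfl, h1, h3⟩ := hs
    · exact Or.inr (key false (h.of_sN h1) h3)
    · exact Or.inr (key true (h.of_sN h1) h3)
    · obtain ⟨rfl, h4⟩ : q = p ∧ x j = [] := h.of_aN h1
      have h3 : z = update (vals x) j (4 * vals x j + (0 : ℕ)) := h3
      refine Or.inl ⟨rfl, Or.inl ?_⟩
      have : vals x j = 0 := by simp [vals, h4]
      rw [h3, upd0 this]; rfl
    · obtain rfl : q = s0 := h.of_sN h1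
      have h3 : vals x = update z j (4 * z j + (0 : ℕ)) := h3
      obtain ⟨h4, h5⟩ := val_eq_zero (x := x j) (z := z j)
        (((congrFun h3 j).trans (update_self ..)).trans (by simp))
      refine Or.inr ⟨(p, x), ⟨_, hp, rfl, Or.inl ⟨h4, rfl⟩⟩, Or.inr ⟨j, q, sf, st, hp, h4, ?_⟩⟩
      rw [h3, upd0 h5]

theorem path_inv (I : σ × St (Fin r) → Prop) (pot : σ × St (Fin r) → FreeGroup ℕ)
    (H : Subgroup (FreeGroup ℕ)) (hE : ∀ a l a', X.Edge a l a' → (I a ↔ I a') ∧
      (I a → (pot a')⁻¹ * l.elim 1 FreeGroup.of * pot a ∈ H))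
    {a0 : σ × St (Fin r)} (h0 : I a0) {c0 c : Cfg r} (hc : c0 = X.emb a0)
    {v : Word (Fin X.Ins.length)} (h : Path X.M c0 v c) :
    ∃ a, I a ∧ X.Rep a c ∧ (pot a)⁻¹ * hol (fun i => (X.M i).emit) v * pot a0 ∈ H := by
  induction h with
  | nil => exact ⟨a0, h0, Or.inl hc, by simp [hol]⟩
  | fwd i _ hs ih =>
    obtain ⟨a, h1, h2, h3⟩ := ih
    rcases X.step_fwd i h2 hs with ⟨h4, h5⟩ | ⟨a', h4, h5⟩
    · exact ⟨a, h1, h5, by simpa [hol, h4] using h3⟩
    · refine ⟨a', (hE _ _ _ h4).1.1 h1, h5, ?_⟩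
      convert mul_mem ((hE _ _ _ h4).2 h1) h3 using 1
      simp [hol, mul_assoc]
  | bwd i _ hs ih =>
    obtain ⟨a, h1, h2, h3⟩ := ih
    rcases X.step_bwd i h2 hs with ⟨h4, h5⟩ | ⟨a', h4, h5⟩
    · exact ⟨a, h1, h5, by simpa [hol, h4] using h3⟩
    · have h6 := (hE _ _ _ h4).1.2 h1
      refine ⟨a', h6, h5, ?_⟩
      convert mul_mem (inv_mem ((hE _ _ _ h4).2 h6)) h3 using 1
      simp [hol, mul_assoc]

theorem conn_instr {I : Instr r} {p : σ × Cmd σ r} (hp : p ∈ X.R) (h : I ∈ X.instrs p)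
    {c c' : Cfg r} (hs : Step I c c') :
    Conn X.M c c' (I.emit.elim 1 FreeGroup.of) I.emit.toList.length := by
  obtain ⟨i, rfl⟩ := X.exists_M hp h
  exact Conn.step i hs

theorem conn_aux {p s0 sf st : σ} {j : Fin r} (hp : (p, Cmd.pop j s0 sf st) ∈ X.R)
    {x : St (Fin r)} (hx : x j = []) :
    Conn X.M (X.emb (p, x)) (X.aN (p, .pop j s0 sf st), vals x) 1 0 ∧
      Conn X.M (X.aN (p, .pop j s0 sf st), vals x) (X.emb (s0, x)) 1 0 := by
  have h0 : vals x = update (vals x) j (4 * vals x j + (0 : ℕ)) := by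
    rw [upd0 (by simp [vals, hx])]
  exact ⟨X.conn_instr hp (I := ⟨X.sN p, X.aN (p, .pop j s0 sf st), .pop j 0, none⟩)
      (by simp [instrs]) ⟨rfl, rfl, h0⟩,
    X.conn_instr hp (I := ⟨X.aN (p, .pop j s0 sf st), X.sN s0, .push j 0, none⟩)
      (by simp [instrs]) ⟨rfl, rfl, h0⟩⟩

theorem conn_rep {a : σ × St (Fin r)} {c : Cfg r} (h : X.Rep a c) :
    Conn X.M (X.emb a) c 1 0 := by
  rcases h with rfl | ⟨j, s0, sf, st, hp, hx, rfl⟩
  · exact Conn.refl _
  · exact (X.conn_aux hp hx).1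

theorem conn_edge {a a' : σ × St (Fin r)} {l : Option ℕ} (h : X.Edge a l a') :
    Conn X.M (X.emb a) (X.emb a') (l.elim 1 FreeGroup.of) l.toList.length := by
  obtain ⟨p, x⟩ := a
  obtain ⟨cm, hp, h⟩ := h
  rcases cm with ⟨s, e⟩ | ⟨j, b, s⟩ | ⟨j, s0, sf, st⟩
  · obtain ⟨rfl, rfl⟩ := h
    exact X.conn_instr hp (I := ⟨X.sN p, X.sN s, .nop, l⟩) (by simp [instrs]) ⟨rfl, rfl, rfl⟩
  · obtain ⟨rfl, rfl⟩ := h
    refine X.conn_instr hp (I := ⟨X.sN p, X.sN s, .push j (cond b 2 1), none⟩)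
      (by simp [instrs]) ⟨rfl, rfl, ?_⟩
    change vals _ = _
    rw [vals_update, val_cons]; cases b <;> rfl
  · obtain ⟨rfl, ⟨hx, rfl⟩ | ⟨b, y, hx, rfl⟩⟩ := h
    · simpa using (X.conn_aux hp hx).1.trans (X.conn_aux hp hx).2
    · refine X.conn_instr hp (I := ⟨X.sN p, X.sN (cond b st sf), .pop j (cond b 2 1), none⟩)
        (by cases b <;> simp [instrs]) ⟨rfl, rfl, ?_⟩
      change vals x = update (vals (update x j y)) j (4 * vals (update x j y) j + _)
      have : vals x j = 4 * val y + ((cond b 2 1 : ℕ) : ℤ) := by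
        have hx : x j = b :: y := hx
        rw [vals, hx, val_cons]; cases b <;> rfl
      rw [vals_update]; simp [← this]

theorem ok (i : Fin X.Ins.length) :
    (X.M i).op.Ok ∧ X.κ ≤ (X.M i).src ∧ X.κ ≤ (X.M i).tgt := by
  obtain ⟨⟨p, cm⟩, -, hi⟩ := X.M_mem i
  generalize X.M i = I at hi
  rcases cm with ⟨s, e⟩ | ⟨j, _ | _, s⟩ | ⟨j, s0, sf, st⟩ <;>
    simp only [instrs, List.mem_cons, List.not_mem_nil, or_false] at hi
  · subst hi; simp [Op.Ok, sN]
  · subst hi; simp [Op.Ok, sN]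
  · subst hi; simp [Op.Ok, sN]
  · rcases hi with rfl | rfl | rfl | rfl <;> simp [Op.Ok, sN, aN] <;> omega

theorem primrec_vals : Primrec (vals : St (Fin r) → Fin r → ℤ) :=
  Primrec.fin_curry.2 (primrec_valT.comp
    ((Primrec.fin_app.comp Primrec.fst Primrec.snd).pair (Primrec.const 0)))

theorem re_forall_list {α β : Type} [Primcodable α] {p : α → β → Prop} (l : List β)
    (h : ∀ b, REPred fun a => p a b) : REPred fun a => ∀ b ∈ l, p a b := by
  induction l with
  | nil => exact re_of_iff (re_const True) (by simp)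
  | cons b l ih => exact re_of_iff (re_and (h b) ih) (by simp)

theorem re_far (I : ℕ → σ × St (Fin r) → Prop) (S : List σ) (hS : ∀ e a, I e a → a.1 ∈ S)
    (hre : ∀ s, REPred fun x : ℕ × St (Fin r) => ¬ I x.1 (s, x.2)) :
    REPred fun x : ℕ × Cfg r => ¬ ∃ a, I x.1 a ∧ X.Rep a x.2 := by
  have a0 : Computable fun y : (ℕ × Cfg r) × St (Fin r) => (y.1.1, y.2) := by fun_prop
  have a1 : Computable fun y : (ℕ × Cfg r) × St (Fin r) => y.1.2.1 := by fun_prop
  have hre' := fun s => re_comp (hre s) a0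
  have a10 : Computable fun y : (ℕ × Cfg r) × St (Fin r) => y.1.2.2 := by fun_prop
  have b1 : REPred fun y : (ℕ × Cfg r) × St (Fin r) =>
      ∀ s ∈ S, y.1.2.1 ≠ X.sN s ∨ ¬ I y.1.1 (s, y.2) :=
    re_forall_list S fun s => re_or (re_ne a1 (Computable.const _)) (hre' s)
  have b2 : REPred fun y : (ℕ × Cfg r) × St (Fin r) => ∀ p ∈ X.R, ∀ j s0 sf st,
      p.2 = .pop j s0 sf st → y.1.2.1 ≠ X.aN p ∨ y.2 j ≠ [] ∨ ¬ I y.1.1 (p.1, y.2) := by
    refine re_forall_list X.R ?_
    rintro ⟨p, ⟨s, e⟩ | ⟨j, b, s⟩ | ⟨j, s0, sf, st⟩⟩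
    · exact re_of_iff (re_const True) (by simp)
    · exact re_of_iff (re_const True) (by simp)
    · have a2 := (Primrec.fin_app.comp (Primrec.snd (α := ℕ × Cfg r) (β := St (Fin r)))
        (Primrec.const j)).to_comp
      refine re_of_iff (re_or (re_ne a1 (Computable.const (X.aN (p, .pop j s0 sf st))))
        (re_or (re_ne a2 (Computable.const [])) (hre' p))) fun y => ?_
      constructor
      · rintro h _ _ _ _ ⟨⟩; exact h
      · exact fun h => h _ _ _ _ rfl
  have a3 := (primrec_vals.comp (Primrec.snd (α := ℕ × Cfg r) (β := St (Fin r)))).to_comp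
  have b3 := re_exists (p := fun (y : ℕ × Cfg r) (x : St (Fin r)) => y.2.2 = vals x ∧
    (∀ s ∈ S, y.2.1 ≠ X.sN s ∨ ¬ I y.1 (s, x)) ∧ ∀ p ∈ X.R, ∀ j s0 sf st,
      p.2 = .pop j s0 sf st → y.2.1 ≠ X.aN p ∨ x j ≠ [] ∨ ¬ I y.1 (p.1, x))
    (re_and (re_eq a10 a3) (re_and b1 b2))
  have a4 := primrec_valT.comp (Primrec.snd.comp
    (Primrec.snd (α := ℕ × Cfg r) (β := Fin r × List Bool × ℤ)))
  have a8 : Primrec fun y : (ℕ × Cfg r) × Fin r × List Bool × ℤ => y.1.2.2 := by fun_prop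
  have a9 : Primrec fun y : (ℕ × Cfg r) × Fin r × List Bool × ℤ => y.2.1 := by fun_prop
  have a5 := Primrec.fin_app.comp a8 a9
  have a6 : Primrec fun y : (ℕ × Cfg r) × Fin r × List Bool × ℤ => y.2.2.2 := by fun_prop
  have a7 := primrec_int_emod_four a6
  have b4 := re_exists (p := fun (y : ℕ × Cfg r) (q : Fin r × List Bool × ℤ) =>
    valT q.2.1 q.2.2 = y.2.2 q.1 ∧ q.2.2 ≠ 0 ∧ q.2.2 % 4 ≠ 1 ∧ q.2.2 % 4 ≠ 2)
    (re_and (re_eq a4.to_comp a5.to_comp) (re_and (re_ne a6.to_comp (Computable.const _))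
      (re_and (re_ne a7.to_comp (Computable.const _)) (re_ne a7.to_comp (Computable.const _)))))
  refine re_of_iff (re_or b4 b3) ?_
  rintro ⟨e, c⟩
  constructor
  · rintro (⟨⟨j, q⟩, h⟩ | ⟨x, h1, h2, h3⟩) ⟨⟨s, y⟩, h4, h5⟩
    · exact (not_val_iff _).2 ⟨q, h⟩ ⟨y j, (congrFun h5.snd j).symm⟩
    · obtain rfl : x = y := funext fun j => val_inj (congrFun (h1.symm.trans h5.snd) j)
      rcases h5 with rfl | ⟨j, s0, sf, st, h6, h7, rfl⟩
      · exact (h2 s (hS _ _ h4)).elim (fun h => h rfl) fun h => h h4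
      · rcases h3 _ h6 _ _ _ _ rfl with h | h | h
        exacts [h rfl, h h7, h h4]
  · intro h
    by_cases h1 : ∀ j, ∃ x, val x = c.2 j
    · choose x hx using h1
      have h2 : c.2 = vals x := funext fun j => (hx j).symm
      refine Or.inr ⟨x, h2, fun s _ => ?_, fun p hp j s0 sf st h3 => ?_⟩
      · by_contra h3
        push Not at h3
        exact h ⟨(s, x), h3.2, Or.inl (Prod.ext h3.1 h2)⟩
      · by_contra h4
        push Not at h4
        obtain ⟨p, cm⟩ := p
        obtain rfl : cm = _ := h3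
        exact h ⟨(p, x), h4.2.2, Or.inr ⟨j, s0, sf, st, hp, h4.2.1, Prod.ext h4.1 h2⟩⟩
    · push Not at h1
      obtain ⟨j, hj⟩ := h1
      obtain ⟨q, hq⟩ := (not_val_iff (c.2 j)).1 (by simpa using hj)
      exact Or.inl ⟨(j, q), hq⟩

end AM

end Vale.Agent.P193
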