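import Vale.Agent.P193.Mach3

/-! The concrete machine: emission automaton and verification program. -/

namespace Vale.Agent.P193

open Function

/-- One step of the decoder. -/
def dstep (κ L : ℕ) (p : ℕ × List ℕ) (b : Bool) : ℕ × List ℕ :=
  cond b (0, if κ ≤ p.1 then (p.1 - κ) :: p.2 else p.2) (if p.1 + 1 < L then p.1 + 1 else 0, p.2)

/-- The decoder. -/
def decw (κ L k : ℕ) (x : List Bool) : List ℕ := (x.foldl (dstep κ L) (k, [])).2

theorem foldl_dstep (κ L : ℕ) (x : List Bool) (k : ℕ) (acc : List ℕ) :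
    (x.foldl (dstep κ L) (k, acc)).2 = decw κ L k x ++ acc := by
  induction x generalizing k acc with
  | nil => simp [decw]
  | cons b x ih =>
    cases b
    · simp only [decw, List.foldl_cons, dstep, cond_false]; rw [ih, ih]; simp
    · simp only [decw, List.foldl_cons, dstep, cond_true]; rw [ih, ih]; split_ifs <;> simp

theorem decw_false (κ L k : ℕ) (x : List Bool) :
    decw κ L k (false :: x) = decw κ L (if k + 1 < L then k + 1 else 0) x := rfl

theorem decw_true (κ L k : ℕ) (x : List Bool) :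
    decw κ L k (true :: x) = decw κ L 0 x ++ if κ ≤ k then [k - κ] else [] :=
  foldl_dstep κ L x 0 _

theorem decw_length (κ L k : ℕ) (x : List Bool) :
    κ * (decw κ L k x).length ≤ x.length + min k κ := by
  induction x generalizing k with
  | nil => simp [decw]
  | cons b x ih =>
    cases b
    · rw [decw_false]
      refine (ih _).trans ?_
      simp only [List.length_cons]; split_ifs <;> omega
    · have := ih 0
      rw [decw_true]
      split_ifs <;> simp [mul_add] at this ⊢ <;> omega

theorem decw_block (κ L k n : ℕ) (h : k + n < L) (x : List Bool) :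
    decw κ L k (List.replicate n false ++ x) = decw κ L (k + n) x := by
  induction n generalizing k with
  | zero => simp
  | succ n ih =>
    rw [List.replicate_succ, List.cons_append, decw_false, if_pos (by omega), ih _ (by omega)]
    congr 1; omega

theorem exists_code (κ N : ℕ) (w : List ℕ) (h : ∀ a ∈ w, a < N) :
    ∃ x, decw κ (κ + N + 1) 0 x = w := by
  induction w using List.reverseRecOn with
  | nil => exact ⟨[], rfl⟩
  | append_singleton w a ih =>
    obtain ⟨x, hx⟩ := ih fun b hb => h b (List.mem_append_left _ hb)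
    have := h a (by simp)
    refine ⟨List.replicate (κ + a) false ++ true :: x, ?_⟩
    rw [decw_block _ _ _ _ (by omega), decw_true, hx, if_pos (by omega)]
    simp

theorem primrec_decw (κ : ℕ) : Primrec fun p : ℕ × List Bool => decw κ p.1 0 p.2 := by
  have h1 : Primrec fun p : (ℕ × List Bool) × (ℕ × List ℕ) × Bool => dstep κ p.1.1 p.2.1 p.2.2 := by
    refine Primrec.cond (by fun_prop) (Primrec.pair (by fun_prop) (Primrec.ite
      (Primrec.nat_le.comp (by fun_prop) (by fun_prop)) (by fun_prop) (by fun_prop)))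
      (Primrec.pair (Primrec.ite (Primrec.nat_lt.comp (by fun_prop) (by fun_prop))
        (by fun_prop) (by fun_prop)) (by fun_prop))
  exact Primrec.snd.comp (Primrec.list_foldl (h := fun p q => dstep κ p.1 q.1 q.2) Primrec.snd
    (Primrec.const (0, [])) h1.to₂)

/-- States of the machine. -/
abbrev MS (r : ℕ) : Type := List (Prog (Fin r)) ⊕ Option (Bool × ℕ)

/-- The data defining the machine. -/
structure MD (F : ℕ → List ℕ → Bool) (κ r L : ℕ) where
  r0 : Fin r
  r1 : Fin r
  r2 : Fin r
  r3 : Fin r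
  h01 : r0 ≠ r1
  h02 : r0 ≠ r2
  h03 : r0 ≠ r3
  h13 : r1 ≠ r3
  h23 : r2 ≠ r3
  V : Prog (Fin r)
  wf : V.WF
  bal : Prog.Bal r1 r3 0 V
  spec : ∀ x, V.run x = if F (x r0).length (decw κ L 0 (x r1)) then update (fun _ => []) r0 (x r0)
    else update (update (update (fun _ => []) r0 (x r0)) r2 [true]) r3 (x r1).reverse

namespace MD
variable {F : ℕ → List ℕ → Bool} {κ r L : ℕ} (D : MD F κ r L)

/-- Accepting final stacks. -/
def acc (d : List Bool) : St (Fin r) := update (fun _ => []) D.r0 d

/-- Rejecting final stacks. -/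
def rej (d y : List Bool) : St (Fin r) := update (update (D.acc d) D.r2 [true]) D.r3 y

@[simp] theorem acc_r0 (d : List Bool) : D.acc d D.r0 = d := by simp [acc]
@[simp] theorem acc_r2 (d : List Bool) : D.acc d D.r2 = [] := by simp [acc, D.h02.symm]
@[simp] theorem rej_r0 (d y : List Bool) : D.rej d y D.r0 = d := by simp [rej, D.h02, D.h03]
@[simp] theorem rej_r2 (d y : List Bool) : D.rej d y D.r2 = [true] := by simp [rej, D.h23]
@[simp] theorem rej_r3 (d y : List Bool) : D.rej d y D.r3 = y := by simp [rej]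

theorem acc_ne_rej (d d' y : List Bool) : D.acc d ≠ D.rej d' y := fun h => by
  simpa using congrFun h D.r2

theorem run_V (x : St (Fin r)) : D.V.run x = if F (x D.r0).length (decw κ L 0 (x D.r1)) then
    D.acc (x D.r0) else D.rej (x D.r0) (x D.r1).reverse := D.spec x

/-- The cleaning program. -/
def C : Prog (Fin r) := Prog.seqs (((List.finRange r).filter (· ≠ D.r0)).map Prog.clear)

theorem run_C (x : St (Fin r)) : D.C.run x = D.acc (x D.r0) := by
  rw [C, Prog.run_clears]
  funext k
  by_cases h : k = D.r0 <;> simp [acc, h]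

theorem wf_C : D.C.WF := Prog.wf_seqs (by simp [Prog.clear, Prog.WF, Prog.regs])

theorem bal_C : Prog.Bal D.r1 D.r3 0 D.C := by
  rw [C]
  induction (List.finRange r).filter (· ≠ D.r0) with
  | nil => exact .skip 0
  | cons j l ih => exact .seq (.loop0 0 j (.skip 0) (.skip 0)) ih

/-- The continuations used. -/
def SK : List (List (Prog (Fin r))) := [] :: (D.V.subs [] ++ D.C.subs [])

theorem SK_closed {X : List (Prog (Fin r))} (hX : X ∈ D.SK) : ∀ Y ∈ Prog.succs X, Y ∈ D.SK := by
  intro Y hY
  simp only [SK, List.mem_cons, List.mem_append] at hX ⊢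
  rcases hX with rfl | h | h
  · simp [Prog.succs] at hY
  · exact (Prog.subs_closed _ _ X h Y hY).elim (fun h => Or.inr (Or.inl h)) Or.inl
  · exact (Prog.subs_closed _ _ X h Y hY).elim (fun h => Or.inr (Or.inr h)) Or.inl

theorem SK_wf {X : List (Prog (Fin r))} (hX : X ∈ D.SK) : ∀ Q ∈ X, Q.WF := by
  simp only [SK, List.mem_cons, List.mem_append] at hX
  rcases hX with rfl | h | h
  · simp
  · exact Prog.subs_wf _ _ D.wf (by simp) X h
  · exact Prog.subs_wf _ _ D.wf_C (by simp) X h

theorem SK_mu {X : List (Prog (Fin r))} (hX : X ∈ D.SK) (x : St (Fin r)) :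
    Prog.mu D.r1 D.r3 (Prog.runs X x) ≤ Prog.mu D.r1 D.r3 x + 1 := by
  simp only [SK, List.mem_cons, List.mem_append] at hX
  rcases hX with rfl | h | h
  · simp
  · obtain ⟨s, h1, h2⟩ := D.bal.tail D.h13 (by omega) [] X h x
    rwa [h1]
  · obtain ⟨s, h1, h2⟩ := D.bal_C.tail D.h13 (by omega) [] X h x
    rwa [h1]

theorem V_mem : [D.V] ∈ D.SK := by simp [SK, Prog.self_mem_subs]
theorem C_mem : [D.C] ∈ D.SK := by simp [SK, Prog.self_mem_subs]

/-- The command of a continuation. -/
def cmdOf : List (Prog (Fin r)) → List (Cmd (MS r) r)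
  | [] => []
  | .skip :: K => [.goto (.inl K) none]
  | .push j b :: K => [.push j b (.inl K)]
  | .seq P Q :: K => [.goto (.inl (P :: Q :: K)) none]
  | .loop j P Q :: K => [.pop j (.inl K) (.inl (P :: .loop j P Q :: K))
      (.inl (Q :: .loop j P Q :: K))]

/-- The command of a reading state. -/
def cmdE (k : ℕ) : Cmd (MS r) r :=
  .pop D.r1 (.inl [D.C]) (.inr (some (false, if k + 1 < L then k + 1 else 0)))
    (.inr (some (if κ ≤ k then (true, k - κ) else (false, 0))))

/-- The rules. -/
def rules : List (MS r × Cmd (MS r) r) :=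
  (D.SK.flatMap fun K => (cmdOf K).map fun c => (.inl K, c)) ++
  [(.inr none, .goto (.inr (some (false, 0))) none), (.inr none, .goto (.inl [D.V]) none)] ++
  ((List.range L).map fun k => (.inr (some (false, k)), D.cmdE k)) ++
  (List.range L).map fun k => (.inr (some (true, k)), .goto (.inr (some (false, 0))) (some k))

/-- The abstract machine. -/
noncomputable def X : AM (MS r) r where
  R := D.rules
  κ := κ
  n1 := (exists_injective_nat _).choose
  n2 := (exists_injective_nat _).choose
  h1 := (exists_injective_nat _).choose_spec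
  h2 := (exists_injective_nat _).choose_spec

theorem rule_prog {K : List (Prog (Fin r))} (hK : K ∈ D.SK) {c : Cmd (MS r) r}
    (hc : c ∈ cmdOf K) : (.inl K, c) ∈ D.X.R := by
  simp only [X, rules, List.mem_append, List.mem_flatMap, List.mem_map]
  exact Or.inl (Or.inl (Or.inl ⟨K, hK, c, hc, rfl⟩))

theorem rule_E {k : ℕ} (hk : k < L) : (.inr (some (false, k)), D.cmdE k) ∈ D.X.R := by
  simp only [X, rules, List.mem_append, List.mem_map, List.mem_range]
  exact Or.inl (Or.inr ⟨k, hk, rfl⟩)

theorem rule_M {k : ℕ} (hk : k < L) :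
    (.inr (some (true, k)), .goto (.inr (some (false, 0))) (some k)) ∈ D.X.R := by
  simp only [X, rules, List.mem_append, List.mem_map, List.mem_range]
  exact Or.inr ⟨k, hk, rfl⟩

/-- The states in use. -/
def Val : MS r → Prop
  | .inl K => K ∈ D.SK
  | .inr none => True
  | .inr (some p) => p.2 < L

/-- The final stacks. -/
def fin : MS r × St (Fin r) → St (Fin r)
  | (.inl K, x) => Prog.runs K x
  | (.inr _, x) => D.acc (x D.r0)

/-- The letters emitted on the way to the end. -/
def emi : MS r × St (Fin r) → List ℕ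
  | (.inl _, _) => []
  | (.inr none, x) => decw κ L 0 (x D.r1)
  | (.inr (some (false, k)), x) => decw κ L k (x D.r1)
  | (.inr (some (true, k)), x) => decw κ L 0 (x D.r1) ++ [k]

theorem edge_cases (hL : 0 < L) {a a' : MS r × St (Fin r)} {l : Option ℕ} (h : D.X.Edge a l a') :
    D.Val a.1 ∧ D.Val a'.1 ∧ ((D.fin a = D.fin a' ∧ D.emi a = D.emi a' ++ l.toList) ∨
      (a.1 = .inr none ∧ a' = (.inl [D.V], a.2) ∧ l = none)) := by
  obtain ⟨s, x⟩ := a
  obtain ⟨c, hc, h⟩ := h
  simp only [X, rules, List.mem_append, List.mem_flatMap, List.mem_map, List.mem_range,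
    List.mem_cons, List.not_mem_nil, or_false, Prod.mk.injEq] at hc
  rcases hc with ((⟨K, hK, c, hc, rfl, rfl⟩ | ⟨rfl, rfl⟩ | ⟨rfl, rfl⟩) | ⟨k, hk, rfl, rfl⟩) |
    ⟨k, hk, rfl, rfl⟩
  · have hs := D.SK_closed hK
    have hw := D.SK_wf hK
    refine ⟨hK, ?_⟩
    rcases K with _ | ⟨_ | ⟨j, b⟩ | ⟨P, Q⟩ | ⟨j, P, Q⟩, K⟩ <;>
      simp only [cmdOf, List.mem_singleton, List.not_mem_nil] at hc <;> subst hc
    · obtain ⟨rfl, rfl⟩ := h
      exact ⟨hs _ (by simp [Prog.succs]), Or.inl ⟨rfl, rfl⟩⟩
    · obtain ⟨rfl, rfl⟩ := h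
      exact ⟨hs _ (by simp [Prog.succs]), Or.inl ⟨rfl, rfl⟩⟩
    · obtain ⟨rfl, rfl⟩ := h
      exact ⟨hs _ (by simp [Prog.succs]), Or.inl ⟨rfl, rfl⟩⟩
    · have hw := hw _ List.mem_cons_self
      obtain ⟨rfl, ⟨hx, rfl⟩ | ⟨b, y, hx, rfl⟩⟩ := h
      · refine ⟨hs _ (by simp [Prog.succs]), Or.inl ⟨?_, rfl⟩⟩
        simp only [fin, Prog.runs_cons]
        rw [Prog.run_loop_nil _ _ hx]
      · have := Prog.run_loop_cons hw.1 hw.2.1 hx
        cases b
        · refine ⟨hs _ (by simp [Prog.succs]), Or.inl ⟨?_, rfl⟩⟩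
          simp only [fin, Prog.runs_cons, cond_false] at this ⊢
          rw [this]
        · refine ⟨hs _ (by simp [Prog.succs]), Or.inl ⟨?_, rfl⟩⟩
          simp only [fin, Prog.runs_cons, cond_true] at this ⊢
          rw [this]
  · obtain ⟨rfl, rfl⟩ := h
    exact ⟨trivial, hL, Or.inl ⟨rfl, by simp [emi]⟩⟩
  · obtain ⟨rfl, rfl⟩ := h
    exact ⟨trivial, D.V_mem, Or.inr ⟨rfl, rfl, rfl⟩⟩
  · refine ⟨hk, ?_⟩
    obtain ⟨rfl, ⟨hx, rfl⟩ | ⟨b, y, hx, rfl⟩⟩ := h
    · refine ⟨D.C_mem, Or.inl ⟨by simp [fin, run_C], ?_⟩⟩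
      have hx : x D.r1 = [] := hx
      simp [emi, hx, decw]
    · have hx : x D.r1 = b :: y := hx
      cases b
      · refine ⟨?_, Or.inl ⟨by simp [fin, D.h01], by simp [emi, hx, decw_false]⟩⟩
        simp only [cond_false, Val]; split_ifs <;> omega
      · by_cases h1 : κ ≤ k
        · refine ⟨?_, Or.inl ⟨by simp [fin, D.h01], by simp [emi, hx, decw_true, h1]⟩⟩
          simp only [cond_true, Val, if_pos h1]; omega
        · refine ⟨?_, Or.inl ⟨by simp [fin, D.h01], by simp [emi, hx, decw_true, h1]⟩⟩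
          simp only [cond_true, Val, if_neg h1]; omega
  · obtain ⟨rfl, rfl⟩ := h
    exact ⟨hk, hL, Or.inl ⟨rfl, by simp [emi]⟩⟩

theorem conn_prog (P : Prog (Fin r)) : ∀ (K : List (Prog (Fin r))) (x : St (Fin r)),
    P :: K ∈ D.SK → K ∈ D.SK ∧
      Conn D.X.M (D.X.emb (.inl (P :: K), x)) (D.X.emb (.inl K, P.run x)) 1 0 := by
  induction P with
  | skip =>
    intro K x h
    exact ⟨D.SK_closed h _ (by simp [Prog.succs]), D.X.conn_edge (l := none)
      ⟨_, D.rule_prog h List.mem_cons_self, rfl, rfl⟩⟩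
  | push j b =>
    intro K x h
    exact ⟨D.SK_closed h _ (by simp [Prog.succs]), D.X.conn_edge (l := none)
      ⟨_, D.rule_prog h List.mem_cons_self, rfl, rfl⟩⟩
  | seq P Q ihP ihQ =>
    intro K x h
    obtain ⟨h1, h2⟩ := ihP (Q :: K) x (D.SK_closed h _ (by simp [Prog.succs]))
    obtain ⟨h3, h4⟩ := ihQ K (P.run x) h1
    have h5 := D.X.conn_edge (l := none) (a := (.inl (.seq P Q :: K), x))
      ⟨_, D.rule_prog h List.mem_cons_self, rfl, rfl⟩
    exact ⟨h3, by simpa [Prog.run] using (h5.trans h2).trans h4⟩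
  | loop j P Q ihP ihQ =>
    intro K x h
    refine ⟨D.SK_closed h _ (by simp [Prog.succs]), ?_⟩
    have hw := D.SK_wf h _ List.mem_cons_self
    generalize hx : x j = y
    induction y generalizing x with
    | nil =>
      rw [Prog.run_loop_nil _ _ hx]
      exact D.X.conn_edge (l := none)
        ⟨_, D.rule_prog h List.mem_cons_self, rfl, Or.inl ⟨hx, rfl⟩⟩
    | cons b y ih =>
      rw [Prog.run_loop_cons hw.1 hw.2.1 hx]
      have h5 := D.X.conn_edge (l := none) (a := (.inl (.loop j P Q :: K), x))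
        ⟨_, D.rule_prog h List.mem_cons_self, rfl, Or.inr ⟨b, y, hx, rfl⟩⟩
      cases b
      · have h6 := (ihP (.loop j P Q :: K) (update x j y)
          (D.SK_closed h _ (by simp [Prog.succs]))).2
        simpa using (h5.trans h6).trans (ih _ (by simp [P.run_frame hw.1]))
      · have h6 := (ihQ (.loop j P Q :: K) (update x j y)
          (D.SK_closed h _ (by simp [Prog.succs]))).2
        simpa using (h5.trans h6).trans (ih _ (by simp [Q.run_frame hw.2.1]))

theorem conn_runs (K : List (Prog (Fin r))) (x : St (Fin r)) (h : K ∈ D.SK) :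
    Conn D.X.M (D.X.emb (.inl K, x)) (D.X.emb (.inl [], Prog.runs K x)) 1 0 := by
  induction K generalizing x with
  | nil => exact Conn.refl _
  | cons P K ih =>
    obtain ⟨h1, h2⟩ := D.conn_prog P K x h
    simpa using h2.trans (ih _ h1)

theorem mk_posw_append (u v : List ℕ) :
    FreeGroup.mk (posw (u ++ v)) = FreeGroup.mk (posw u) * FreeGroup.mk (posw v) := by
  simp [posw]

theorem mk_posw_nil : FreeGroup.mk (posw ([] : List ℕ)) = 1 := rfl

theorem mk_posw_concat (u : List ℕ) (a : ℕ) :
    FreeGroup.mk (posw (u ++ [a])) = FreeGroup.mk (posw u) * FreeGroup.of a :=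
  mk_posw_append u [a]

theorem conn_E (hL : 0 < L) (k : ℕ) (x : St (Fin r)) (hk : k < L) :
    Conn D.X.M (D.X.emb (.inr (some (false, k)), x)) (D.X.emb (.inl [], D.acc (x D.r0)))
      (FreeGroup.mk (posw (decw κ L k (x D.r1)))) (decw κ L k (x D.r1)).length := by
  generalize hx : x D.r1 = y
  induction y generalizing x k with
  | nil =>
    have h1 := D.X.conn_edge (l := none) (a := (.inr (some (false, k)), x))
      ⟨_, D.rule_E hk, rfl, Or.inl ⟨hx, rfl⟩⟩
    have h2 := D.conn_runs _ x D.C_mem
    simpa [run_C, decw, mk_posw_nil] using h1.trans h2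
  | cons b y ih =>
    have h1 := D.X.conn_edge (l := none) (a := (.inr (some (false, k)), x))
      ⟨_, D.rule_E hk, rfl, Or.inr ⟨b, y, hx, rfl⟩⟩
    have h0 : update x D.r1 y D.r0 = x D.r0 := by simp [D.h01]
    cases b
    · have h2 := ih (if k + 1 < L then k + 1 else 0) (update x D.r1 y) (by split_ifs <;> omega)
        (by simp)
      rw [h0] at h2
      simpa [decw_false] using h1.trans h2
    · have h2 := ih 0 (update x D.r1 y) hL (by simp)
      rw [h0] at h2
      by_cases h3 : κ ≤ k
      · have h4 := D.X.conn_edge (l := some (k - κ))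
          (a := (.inr (some (true, k - κ)), update x D.r1 y)) ⟨_, D.rule_M (by omega), rfl, rfl⟩
        simp only [cond_true, if_pos h3] at h1
        rw [decw_true, if_pos h3, mk_posw_concat]
        simpa using (h1.trans h4).trans h2
      · simp only [cond_true, if_neg h3] at h1
        rw [decw_true, if_neg h3]
        simpa using h1.trans h2

theorem conn_fin (hL : 0 < L) (a : MS r × St (Fin r)) (h : D.Val a.1) :
    Conn D.X.M (D.X.emb a) (D.X.emb (.inl [], D.fin a)) (FreeGroup.mk (posw (D.emi a)))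
      (D.emi a).length := by
  obtain ⟨K | _ | ⟨_ | _, k⟩, x⟩ := a
  · exact D.conn_runs K x h
  · have h1 := D.X.conn_edge (l := none) (a := (.inr none, x)) (a' := (.inr (some (false, 0)), x))
      ⟨.goto (.inr (some (false, 0))) none, by simp [X, rules], rfl, rfl⟩
    simpa [fin, emi] using h1.trans (D.conn_E hL 0 x hL)
  · exact D.conn_E hL k x h
  · have h1 := D.X.conn_edge (l := some k) (a := (.inr (some (true, k)), x))
      ⟨_, D.rule_M h, rfl, rfl⟩
    simp only [emi, mk_posw_concat, fin]
    simpa using h1.trans (D.conn_E hL 0 x hL)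

theorem conn_V (x : St (Fin r)) :
    Conn D.X.M (D.X.emb (.inr none, x)) (D.X.emb (.inl [], D.V.run x)) 1 0 := by
  have h1 := D.X.conn_edge (l := none) (a := (.inr none, x)) (a' := (.inl [D.V], x))
    ⟨.goto (.inl [D.V]) none, by simp [X, rules], rfl, rfl⟩
  simpa using h1.trans (D.conn_runs _ x D.V_mem)

theorem emi_length (a : MS r × St (Fin r)) : κ * (D.emi a).length ≤ (a.2 D.r1).length + κ := by
  obtain ⟨K | _ | ⟨_ | _, k⟩, x⟩ := a
  · simp [emi]
  · exact (decw_length _ _ _ _).trans (by simp)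
  · exact (decw_length _ _ _ _).trans (by simp)
  · have := decw_length κ L 0 (x D.r1)
    simp [emi, mul_add] at this ⊢; omega

/-- The component of the root. -/
def I (e : ℕ) (a : MS r × St (Fin r)) : Prop :=
  D.Val a.1 ∧ (D.fin a = D.acc (List.replicate e true) ∨
    (D.fin a = D.rej (List.replicate e true) (D.fin a D.r3) ∧
      F e (decw κ L 0 (D.fin a D.r3).reverse) = false))

/-- The potential. -/
def pot (a : MS r × St (Fin r)) : FreeGroup ℕ :=
  (FreeGroup.mk (posw (D.emi a)))⁻¹ *
    if D.fin a D.r2 = [] then 1 else (FreeGroup.mk (posw (decw κ L 0 (D.fin a D.r3).reverse)))⁻¹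

theorem edge_inv (hL : 0 < L) (e : ℕ) (a : MS r × St (Fin r)) (l : Option ℕ)
    (a' : MS r × St (Fin r)) (h : D.X.Edge a l a') : (D.I e a ↔ D.I e a') ∧
      (D.I e a → (D.pot a')⁻¹ * l.elim 1 FreeGroup.of * D.pot a ∈ accSub F e) := by
  obtain ⟨h1, h2, ⟨h3, h4⟩ | ⟨h3, rfl, rfl⟩⟩ := D.edge_cases hL h
  · refine ⟨by simp [I, h1, h2, h3], fun _ => ?_⟩
    have : FreeGroup.mk (posw l.toList) = l.elim 1 FreeGroup.of := by cases l <;> rfl
    rw [pot, pot, h3, h4, mk_posw_append, this]
    convert (accSub F e).one_mem using 1; group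
  · obtain ⟨s, x⟩ := a
    obtain rfl : s = .inr none := h3
    have e1 : D.I e (.inr none, x) ↔ x D.r0 = List.replicate e true := by
      simp only [I, Val, fin, true_and, D.acc_ne_rej, false_and, or_false]
      exact ⟨fun h => by simpa using congrFun h D.r0, fun h => by rw [h]⟩
    have e2 : D.fin (.inl [D.V], x) = D.V.run x := rfl
    rw [e1]
    by_cases h5 : F (x D.r0).length (decw κ L 0 (x D.r1)) = true
    · rw [run_V, if_pos h5] at e2
      refine ⟨?_, fun h6 => ?_⟩
      · simp only [I, h2, e2, true_and, D.acc_ne_rej, false_and, or_false]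
        exact ⟨fun h => by rw [h], fun h => by simpa using congrFun h D.r0⟩
      · rw [h6, List.length_replicate] at h5
        have : FreeGroup.mk (posw (decw κ L 0 (x D.r1))) ∈ accSub F e :=
          Subgroup.subset_closure ⟨_, h5, rfl⟩
        simp only [pot, e2]
        simpa [emi, fin, mk_posw_nil, -FreeGroup.inv_mk] using this
    · rw [run_V, if_neg h5] at e2
      refine ⟨?_, fun h6 => ?_⟩
      · simp only [I, h2, e2, true_and, (D.acc_ne_rej _ _ _).symm, false_or, rej_r3,
          List.reverse_reverse]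
        refine ⟨fun h => ⟨by rw [h], ?_⟩, fun h => by simpa using congrFun h.1 D.r0⟩
        rw [h, List.length_replicate] at h5
        simpa using h5
      · simp only [pot, e2]
        simp [emi, fin, mk_posw_nil, -FreeGroup.inv_mk]

/-- The root. -/
def rootA (e : ℕ) : MS r × St (Fin r) := (.inl [], D.acc (List.replicate e true))

theorem I_root (e : ℕ) : D.I e (D.rootA e) := ⟨by simp [rootA, Val, SK], Or.inl rfl⟩

theorem pot_root (e : ℕ) : D.pot (D.rootA e) = 1 := by
  simp [pot, rootA, emi, fin, mk_posw_nil]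

theorem conn_I (hL : 0 < L) {e : ℕ} {a : MS r × St (Fin r)} (h : D.I e a) :
    ∃ g n, Conn D.X.M (D.X.emb (D.rootA e)) (D.X.emb a) g n ∧
      κ * n ≤ (a.2 D.r1).length + (a.2 D.r3).length + κ + 1 := by
  have h1 := D.conn_fin hL a h.1
  rcases h.2 with h2 | ⟨h2, h3⟩
  · rw [h2] at h1
    exact ⟨_, _, h1.symm, (D.emi_length a).trans (by omega)⟩
  · obtain ⟨K | s, x⟩ := a
    · generalize hy : D.fin (.inl K, x) D.r3 = y at h2 h3
      let x0 := update (D.acc (List.replicate e true)) D.r1 y.reverse
      have e0 : x0 D.r0 = List.replicate e true := by simp [x0, D.h01]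
      have e1 : x0 D.r1 = y.reverse := by simp [x0]
      have h4 := D.conn_fin hL (.inr none, x0) trivial
      have h5 := D.conn_V x0
      rw [run_V, e0, e1, List.length_replicate, h3, if_neg (by simp), List.reverse_reverse,
        ← h2] at h5
      simp only [fin, emi, e0, e1] at h4
      refine ⟨_, _, (h4.symm.trans h5).trans h1.symm, ?_⟩
      have h6 := D.SK_mu h.1 x
      have h7 := decw_length κ L 0 y.reverse
      simp only [fin] at hy
      simp [Prog.mu, hy, emi] at h6 h7 ⊢
      omega
    · exact absurd h2 (D.acc_ne_rej _ _ _)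

theorem re_not_I (hF : Primrec₂ F) (s : MS r) :
    REPred fun x : ℕ × St (Fin r) => ¬ D.I x.1 (s, x.2) := by
  have ha : ∀ j : Fin r, Primrec fun s : St (Fin r) => s j := fun j =>
    Primrec.fin_app.comp Primrec.id (Primrec.const j)
  have hacc : Primrec D.acc := Prog.primrec_upd D.r0 (Primrec.const _) Primrec.id
  have hrej : Primrec fun p : List Bool × List Bool => D.rej p.1 p.2 :=
    Prog.primrec_upd D.r3 (Prog.primrec_upd D.r2 (hacc.comp Primrec.fst) (Primrec.const _))
      Primrec.snd
  have hfin : Primrec fun x : St (Fin r) => D.fin (s, x) := by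
    rcases s with K | s
    · exact Prog.primrec_runs K
    · exact hacc.comp (ha _)
  have a1 := hfin.comp (Primrec.snd (α := ℕ))
  have a2 : Primrec fun x : ℕ × St (Fin r) => List.replicate x.1 true := by fun_prop
  have a3 := (ha D.r3).comp a1
  have a4 := hacc.comp a2
  have a5 := hrej.comp (a2.pair a3)
  have a6 := (primrec_decw κ).comp ((Primrec.const L).pair (Primrec.list_reverse.comp a3))
  have a7 := hF.comp Primrec.fst a6
  refine re_of_iff (re_or (re_const (¬ D.Val s)) (re_and (re_ne a1.to_comp a4.to_comp)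
    (re_or (re_ne a1.to_comp a5.to_comp) (re_of_computable a7.to_comp)))) fun x => ?_
  simp only [I, not_and_or, not_or, Bool.not_eq_false, ne_eq]

end MD

end Vale.Agent.P193
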