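import Vale.Agent.P193.PkgLam

/-! The machine subgroup of `ZG r`. -/

namespace Vale.Agent.P193

variable {r m : ℕ}

/-- The word of an operation. -/
def opw : Op r → Word (ZGen r)
  | .nop => []
  | .push j d => List.replicate d (.inr (j, false), true) ++ [(.inr (j, true), true)]
  | .pop j d => (.inr (j, true), false) :: List.replicate d (.inr (j, false), false)

/-- The word of a signed operation. -/
def ops (o : Op r) (ε : Bool) : Word (ZGen r) := cond ε (opw o) (FreeGroup.invRev (opw o))

/-- The word of a signed instruction. -/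
def ρs (M : Fin m → Instr r) (k : ℕ) (l : Fin m × Bool) : Word (ZGen r) :=
  List.replicate (cond l.2 (M l.1).tgt (M l.1).src) (.inl 2, true) ++ (ζw r k l ++
    (ops (M l.1).op l.2 ++ (ζw r k l ++
      List.replicate (cond l.2 (M l.1).src (M l.1).tgt) (.inl 2, false))))

/-- The word of an instruction. -/
def ρi (M : Fin m → Instr r) (k : ℕ) (i : Fin m) : Word (ZGen r) := ρs M k (i, true)

theorem invRev_replicate {α : Type} (n : ℕ) (a : α) (ε : Bool) :
    FreeGroup.invRev (List.replicate n (a, ε)) = List.replicate n (a, !ε) := by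
  simp [FreeGroup.invRev]

theorem subst_ρi_cons (M : Fin m → Instr r) (k : ℕ) (l : Fin m × Bool) (v : Word (Fin m)) :
    subst (ρi M k) (l :: v) = ρs M k l ++ subst (ρi M k) v := by
  rw [subst_cons]
  congr 1
  rcases l with ⟨i, _ | _⟩
  · simp [ρi, ρs, ζw, ops, invRev_replicate]
  · rfl

theorem run_invRev {ab : Bool} (u : Word (ZGen r)) {p : ZP r} (hp : ZWF ab p.2) :
    run ab (FreeGroup.invRev u) (run ab u p) = p := by
  rw [← run_append, run_congr (v := []) (by simp) hp, run_nil]

theorem run_invRev' {ab : Bool} (u : Word (ZGen r)) {p : ZP r} (hp : ZWF ab p.2) :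
    run ab u (run ab (FreeGroup.invRev u) p) = p := by
  rw [← run_append, run_congr (v := []) (by simp) hp, run_nil]

theorem run_ζw_base (k : ℕ) (l : Fin m × Bool) (a : ZV r) : run true (ζw r k l) (a, []) = (a, []) := by
  have : ∀ (n : ℕ) (i : Fin 3) (ε : Bool), i ≠ 2 →
      run true (List.replicate n (.inl i, ε)) (a, []) = (a, []) := fun n i ε hi => by
    induction n with
    | zero => rfl
    | succ n ih => rw [List.replicate_succ, run_cons, ih]; simp [act, gen, split, hi, isR]
  rw [ζw, run_append, run_append, this _ _ _ (by decide), this _ _ _ (by decide),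
    this _ _ _ (by decide)]

theorem run_push (j : Fin r) (d : ℕ) (a : ZV r) :
    run true (opw (.push j d)) (a, []) = (Function.update a j (4 * a j + d), []) := by
  rw [opw, run_append, run_x]
  refine Prod.ext (funext fun i => ?_) (by simp [act, gen, split, isR])
  by_cases h : i = j
  · subst h; simp [act, gen, split, isR]
  · simp [act, gen, split, isR, h]

theorem invRev_pop (j : Fin r) (d : ℕ) : FreeGroup.invRev (opw (.pop j d)) = opw (.push j d) := by
  simp [opw, invRev_replicate, FreeGroup.invRev]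

theorem invRev_push (j : Fin r) (d : ℕ) : FreeGroup.invRev (opw (.push j d)) = opw (.pop j d) := by
  rw [← invRev_pop, FreeGroup.invRev_invRev]

theorem run_opw {o : Op r} {a b : ZV r} (h : o.Rel a b) : run true (opw o) (a, []) = (b, []) := by
  cases o with
  | nop => obtain rfl : b = a := h; rfl
  | push j d => obtain rfl : b = _ := h; exact run_push j d a
  | pop j d =>
    obtain rfl : a = _ := h
    rw [← run_push, ← invRev_push, run_invRev _ (p := (b, [])) trivial]

/-- A signed step. -/
def SStep (M : Fin m → Instr r) (l : Fin m × Bool) (c c' : Cfg r) : Prop :=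
  cond l.2 (Step (M l.1) c c') (Step (M l.1) c' c)

theorem run_ρs {M : Fin m → Instr r} (k : ℕ) {l : Fin m × Bool} {c c' : Cfg r}
    (h : SStep M l c c') : run true (ρs M k l) (cfp c.1 c.2) = cfp c'.1 c'.2 := by
  have h1 : c.1 = cond l.2 (M l.1).src (M l.1).tgt ∧ c'.1 = cond l.2 (M l.1).tgt (M l.1).src ∧
      run true (ops (M l.1).op l.2) (c.2, []) = (c'.2, []) := by
    rcases l with ⟨i, _ | _⟩
    · refine ⟨h.2.1, h.1, ?_⟩
      rw [← run_opw h.2.2]
      exact run_invRev _ (p := (c'.2, [])) trivial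
    · exact ⟨h.1, h.2.1, run_opw h.2.2⟩
  have h2 := run_winv_cfp c.1 0 c.2
  have h3 := run_w_cfp c'.1 0 c'.2
  rw [zero_add] at h2 h3
  rw [ρs, ← h1.1, ← h1.2.1, run_append, run_append, run_append, run_append, h2, cfp, run_ζw_base,
    h1.2.2, run_ζw_base, ← h3, cfp]

theorem run_path {M : Fin m → Instr r} (k : ℕ) {c c' : Cfg r} {v : Word (Fin m)}
    (h : Path M c v c') : run true (subst (ρi M k) v) (cfp c.1 c.2) = cfp c'.1 c'.2 := by
  induction h with
  | nil => rfl
  | fwd i _ hs ih => rw [subst_ρi_cons, run_append, ih, run_ρs k (l := (i, true)) hs]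
  | bwd i _ hs ih => rw [subst_ρi_cons, run_append, ih, run_ρs k (l := (i, false)) hs]

theorem run_pop (j : Fin r) (d : ℕ) (a : ZV r) :
    (∃ b : ZV r, a = Function.update b j (4 * b j + d)) ∨
      ∃ β b, run true (opw (.pop j d)) (a, []) = (β, [((.inr (j, true), false), b)]) := by
  rw [opw, run_cons, run_x]
  simp only [act, gen]
  split_ifs with h
  · refine Or.inl ⟨Function.update a j ((a j - d) / 4), funext fun i => ?_⟩
    have h1 := congrFun h.1 j
    simp [split] at h1
    by_cases hi : i = j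
    · subst hi; simp; omega
    · simp [hi]
  · exact Or.inr ⟨_, _, rfl⟩

theorem blocked_ops {M : Fin m → Instr r} {l : Fin m × Bool} {c : Cfg r}
    (hc : c.1 = cond l.2 (M l.1).src (M l.1).tgt) (h : ∀ c', ¬ SStep M l c c') :
    ∃ j β b, run true (ops (M l.1).op l.2) (c.2, []) = (β, [((.inr (j, true), false), b)]) := by
  have h1 : ∀ b, ¬ cond l.2 ((M l.1).op.Rel c.2 b) ((M l.1).op.Rel b c.2) := fun b hb => by
    refine h (cond l.2 (M l.1).tgt (M l.1).src, b) ?_
    rcases l with ⟨i, _ | _⟩
    · exact ⟨rfl, hc, hb⟩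
    · exact ⟨hc, rfl, hb⟩
  generalize (M l.1).op = o at h1
  generalize l.2 = ε at h1
  cases o with
  | nop => exact absurd (by cases ε <;> rfl) (h1 c.2)
  | push j d =>
    cases ε
    · rcases run_pop j d c.2 with ⟨b, hb⟩ | ⟨β, b, hb⟩
      · exact absurd hb (h1 b)
      · exact ⟨j, β, b, by rw [ops, cond_false, invRev_push, hb]⟩
    · exact absurd rfl (h1 _)
  | pop j d =>
    cases ε
    · exact absurd rfl (h1 _)
    · rcases run_pop j d c.2 with ⟨b, hb⟩ | ⟨β, b, hb⟩
      · exact absurd hb (h1 b)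
      · exact ⟨j, β, b, hb⟩

theorem ops_right (o : Op r) (ε : Bool) : ∀ a ∈ ops o ε, a.1.isRight = true := by
  have h : ∀ o : Op r, ∀ a ∈ opw o, a.1.isRight = true := fun o a ha => by
    cases o with
    | nop => simp [opw] at ha
    | push j d =>
      simp only [opw, List.mem_append, List.mem_replicate, List.mem_singleton] at ha
      rcases ha with ⟨-, rfl⟩ | rfl <;> rfl
    | pop j d =>
      simp only [opw, List.mem_cons, List.mem_replicate] at ha
      rcases ha with rfl | ⟨-, rfl⟩ <;> rfl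
  cases ε
  · intro a ha
    simp only [ops, cond_false, FreeGroup.invRev, List.mem_reverse, List.mem_map] at ha
    obtain ⟨b, hb, rfl⟩ := ha
    exact h o b hb
  · exact h o

theorem triv_ops (o : Op r) (ε : Bool) : Triv (ops o ε) := fun a ha => by
  have := ops_right o ε a ha
  rcases a with ⟨k | j, ε⟩
  · simp at this
  · rfl

theorem lg_ρs (M : Fin m → Instr r) (k : ℕ) (l : Fin m × Bool) (h : Word (Fin m)) :
    ev lg (ρs M k l) (0, FreeGroup.mk (pw k h)) = (0, FreeGroup.mk (pw k (l :: l :: h))) := by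
  simp only [ρs, ev_append, (triv_w _ _).ev, (triv_ops _ _).ev, one_mul, mul_one,
    Equiv.Perm.mul_apply, lg_ζw]

/-- Doubling of all letters. -/
def dbl (v : Word (Fin m)) : Word (Fin m) := v.flatMap fun l => [l, l]

theorem length_dbl (v : Word (Fin m)) : (dbl v).length = 2 * v.length := by
  induction v with
  | nil => rfl
  | cons a v ih => simp only [dbl, List.flatMap_cons, List.length_append] at ih ⊢; simp; omega

theorem reduced_dbl {v h : Word (Fin m)} (hv : FreeGroup.IsReduced (v ++ h)) :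
    FreeGroup.IsReduced (dbl v ++ h) := by
  induction v with
  | nil => exact hv
  | cons a v ih =>
    have h1 := ih (List.IsChain.tail hv)
    refine List.IsChain.cons_cons (fun _ => rfl) ?_
    rcases v with _ | ⟨b, v⟩
    · exact hv
    · exact List.IsChain.cons_cons (List.isChain_cons_cons.1 hv).1 h1

theorem lg_subst (M : Fin m → Instr r) (k : ℕ) (v : Word (Fin m)) :
    ev lg (subst (ρi M k) v) (0, 1) = (0, FreeGroup.mk (pw k (dbl v))) := by
  induction v with
  | nil => rfl
  | cons l v ih => rw [subst_ρi_cons, ev_append, Equiv.Perm.mul_apply, ih, lg_ρs]; rfl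

theorem len_le_of_reduced (M : Fin m → Instr r) (k : ℕ) {v : Word (Fin m)}
    (hv : FreeGroup.IsReduced v) {x : Word (ZGen r)}
    (h : ev (zg r) (subst (ρi M k) v) = ev (zg r) x) : k * (2 * v.length) ≤ x.length := by
  have h1 := norm_lg x (0, 1)
  have h2 := reduced_dbl (v := v) (h := []) (by simpa using hv)
  rw [List.append_nil] at h2
  rw [← lg_congr h, lg_subst, norm_pw k h2, length_dbl] at h1
  simpa using h1

theorem over_ρs {ab : Bool} {e : ZL r × ZV r} {s : List (ZL r × ZV r)} {k : ℕ} (hk : k ≠ 0)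
    (M : Fin m → Instr r) {l l' : Fin m × Bool} {h : Word (Fin m)} {p : ZP r}
    (he : e.1.1 ≠ .inl 0 ∧ e.1.1 ≠ .inl 1) (hr : FreeGroup.IsReduced (l :: l :: l' :: h))
    (hp : Over (e :: s) (0, FreeGroup.mk (pw k (l' :: h))) p) :
    Over (e :: s) (0, FreeGroup.mk (pw k (l :: l :: l' :: h))) (run ab (ρs M k l) p) := by
  rw [ρs, run_append, run_append, run_append, run_append]
  exact over_triv (over_ζw he (over_triv (over_ζw he (over_triv hp
    (pw_ne hk (List.IsChain.tail (List.IsChain.tail hr))) (triv_w _ _)) l)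
    (pw_ne hk (List.IsChain.tail hr)) (triv_ops _ _)) l) (pw_ne hk hr) (triv_w _ _)

theorem over_subst {ab : Bool} {e : ZL r × ZV r} {s : List (ZL r × ZV r)} {k : ℕ} (hk : k ≠ 0)
    (M : Fin m → Instr r) {l' : Fin m × Bool} {h : Word (Fin m)} {p : ZP r}
    (he : e.1.1 ≠ .inl 0 ∧ e.1.1 ≠ .inl 1)
    (hp : Over (e :: s) (0, FreeGroup.mk (pw k (l' :: h))) p) {v : Word (Fin m)}
    (hr : FreeGroup.IsReduced (v ++ l' :: h)) :
    Over (e :: s) (0, FreeGroup.mk (pw k (dbl v ++ l' :: h))) (run ab (subst (ρi M k) v) p) := by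
  induction v with
  | nil => exact hp
  | cons l v ih =>
    have h1 := ih (List.IsChain.tail hr)
    have h2 := reduced_dbl hr
    rw [subst_ρi_cons, run_append]
    obtain ⟨l'', h'', e2⟩ : ∃ l'' h'', dbl v ++ l' :: h = l'' :: h'' :=
      List.exists_cons_of_ne_nil (by simp)
    have e3 : dbl (l :: v) ++ l' :: h = l :: l :: l'' :: h'' := by rw [← e2]; rfl
    rw [e3] at h2 ⊢
    rw [e2] at h1
    exact over_ρs hk M he h2 h1

theorem over_blocked {k : ℕ} (hk : k ≠ 0) {M : Fin m → Instr r} {l : Fin m × Bool} {c : Cfg r}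
    (h : ∀ c', ¬ SStep M l c c') : ∃ e s h', (e.1.1 ≠ .inl 0 ∧ e.1.1 ≠ .inl 1) ∧
      (h' = [] ∨ h' = [l]) ∧ Over (e :: s) (0, FreeGroup.mk (pw k (l :: h')))
        (run true (ρs M k l) (cfp c.1 c.2)) := by
  rw [ρs, run_append, run_append, run_append, run_append]
  by_cases hc : c.1 = cond l.2 (M l.1).src (M l.1).tgt
  · obtain ⟨j, β, b, h1⟩ := blocked_ops hc h
    have h2 := run_winv_cfp c.1 0 c.2
    rw [zero_add] at h2
    rw [← hc, h2, cfp, run_ζw_base, h1]
    have he : ((.inr (j, true) : ZGen r) ≠ .inl 0 ∧ (.inr (j, true) : ZGen r) ≠ .inl 1) := by simp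
    refine ⟨((.inr (j, true), false), b), [], [], he, Or.inl rfl,
      over_triv (over_ζw (h := []) he ⟨[], rfl, rfl⟩ l)
        (pw_ne hk (List.IsChain.singleton _)) (triv_w _ _)⟩
  · obtain ⟨e, s, h1, h2⟩ := run_winv_head hc c.2
    have he : e.1.1 ≠ .inl 0 ∧ e.1.1 ≠ .inl 1 := by rw [h2]; simp
    exact ⟨e, s, [l], he, Or.inr rfl, over_triv (over_ζw he (over_triv
      (over_ζw (h := []) he ⟨[], h1, rfl⟩ l) (pw_ne hk (List.IsChain.singleton _))
      (triv_ops _ _)) l) (pw_ne hk (List.IsChain.cons_cons (fun _ => rfl)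
        (List.IsChain.singleton _))) (triv_w _ _)⟩

theorem exists_split (M : Fin m → Instr r) (c₀ : Cfg r) (v : Word (Fin m)) :
    ∃ va vb c, v = va ++ vb ∧ Path M c₀ vb c ∧
      (va = [] ∨ ∃ va' l, va = va' ++ [l] ∧ ∀ c', ¬ SStep M l c c') := by
  induction v with
  | nil => exact ⟨[], [], c₀, rfl, Path.nil _, Or.inl rfl⟩
  | cons a v ih =>
    obtain ⟨va, vb, c, rfl, h1, rfl | ⟨va', l, rfl, h2⟩⟩ := ih
    · by_cases h : ∃ c', SStep M a c c'
      · obtain ⟨c', h⟩ := h
        refine ⟨[], a :: vb, c', rfl, ?_, Or.inl rfl⟩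
        rcases a with ⟨i, _ | _⟩
        · exact Path.bwd i h1 h
        · exact Path.fwd i h1 h
      · exact ⟨[a], vb, c, rfl, h1, Or.inr ⟨[], a, rfl, fun c' hc => h ⟨c', hc⟩⟩⟩
    · exact ⟨a :: (va' ++ [l]), vb, c, rfl, h1, Or.inr ⟨a :: va', l, rfl, h2⟩⟩

theorem decomp {k : ℕ} (hk : k ≠ 0) (M : Fin m → Instr r) (c₀ : Cfg r) {v : Word (Fin m)}
    (hv : FreeGroup.IsReduced v) {p : ZP r}
    (h : run true (subst (ρi M k) v) (cfp c₀.1 c₀.2) = p) :
    ∃ va vb c, v = va ++ vb ∧ Path M c₀ vb c ∧ run true (subst (ρi M k) va) (cfp c.1 c.2) = p ∧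
      k * va.length ≤ p.2.length ∧ (k ≤ c.1 → k ≤ p.2.length) ∧
        ∀ q a, p = cfp q a → va = [] := by
  obtain ⟨va, vb, c, rfl, h1, h2⟩ := exists_split M c₀ v
  rw [subst_append, run_append, run_path k h1] at h
  refine ⟨va, vb, c, rfl, h1, h, ?_⟩
  rcases h2 with rfl | ⟨va', l, rfl, h2⟩
  · refine ⟨by simp, fun hc => ?_, fun _ _ _ => rfl⟩
    rw [← h]
    exact hc.trans (length_cfp _ _).ge
  · obtain ⟨e, s, h', he, h3, h4⟩ := over_blocked hk h2
    have h5 : FreeGroup.IsReduced (va' ++ l :: h') := by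
      have h6 : FreeGroup.IsReduced (va' ++ [l]) := List.IsChain.left_of_append hv
      rcases h3 with rfl | rfl
      · exact h6
      · exact List.isChain_split.2 ⟨h6, List.IsChain.cons_cons (fun _ => rfl)
          (List.IsChain.singleton _)⟩
    have h7 := over_subst (ab := true) hk M he h4 h5
    have h8 : run true (subst (ρi M k) va') (run true (ρs M k l) (cfp c.1 c.2)) = p := by
      rw [← h, subst_append, run_append, subst_ρi_cons, subst_nil, List.append_nil]
    rw [h8] at h7
    have h9 := h7.le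
    have h10 := reduced_dbl h5
    rw [norm_pw k h10, List.length_append, length_dbl, List.length_cons] at h9
    refine ⟨le_trans (Nat.mul_le_mul_left _ (by simp; omega)) h9,
      fun _ => le_trans (Nat.le_mul_of_pos_right _ (by omega)) h9, fun q a hp => ?_⟩
    rw [hp] at h7
    obtain ⟨l'', h'', e2⟩ : ∃ l'' h'', dbl va' ++ l :: h' = l'' :: h'' :=
      List.exists_cons_of_ne_nil (by simp)
    rw [e2] at h7 h10
    exact absurd h7.cfp (pw_ne hk h10)

theorem count_subst {M : Fin m → Instr r} (hM : ∀ i, (M i).op.Ok) (k : ℕ) (v : Word (Fin m)) :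
    (subst (ρi M k) v).countP (fun a => a.1.isRight) ≤ 4 * v.length := by
  have h1 : ∀ l, (ζw r k l : Word (ZGen r)).countP (fun a => a.1.isRight) = 0 :=
    fun l : Fin m × Bool => by simp [ζw, List.countP_replicate]
  have h2 : ∀ (o : Op r) ε, o.Ok → (ops o ε).length ≤ 4 := fun o ε ho => by
    have : (opw o).length ≤ 4 := by
      cases o with
      | nop => simp [opw]
      | push j d => have : d < 4 := ho; simp [opw]; omega
      | pop j d => have : d < 4 := ho; simp [opw]; omega
    cases ε <;> simpa [ops] using this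
  induction v with
  | nil => simp
  | cons l v ih =>
    have h3 := h2 _ l.2 (hM l.1)
    have h4 : (ops (M l.1).op l.2 : Word (ZGen r)).countP (fun a => a.1.isRight) ≤ 4 :=
      List.countP_le_length.trans h3
    rw [subst_ρi_cons, ρs]
    simp only [List.countP_append, h1, List.countP_replicate, List.length_cons]
    simp only [Sum.isRight_inl, Bool.false_eq_true, if_false, zero_add, add_zero]
    exact (Nat.add_le_add h4 ih).trans (by omega)

theorem countP_invRev (u : Word (ZGen r)) : (FreeGroup.invRev u).countP (fun a => a.1.isRight) =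
    u.countP fun a => a.1.isRight := by
  simp [FreeGroup.invRev, List.countP_map, Function.comp_def]

theorem mem_RS_iff (M : Fin m → Instr r) (k : ℕ) (H : Word (ZGen r)) (v : Word (Fin m))
    (c : Cfg r) : ev (zg r) H * ev (fun i => ev (zg r) (ρi M k i)) v * ev (zg r) (cw c) ∈ RS r ↔
      run true (subst (ρi M k) v) (cfp c.1 c.2) = run true (FreeGroup.invRev H) (0, []) := by
  rw [← ev_subst, ← ev_append, ← ev_append]
  refine (run_base_iff true _).symm.trans ?_
  rw [run_append, run_append, run_cw]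
  constructor
  · intro h
    rw [← h, run_invRev _ (zwf_run _ (zwf_cfp _ _))]
  · intro h
    rw [h, run_invRev' _ (p := (0, [])) trivial]

theorem ev_reduce {α G : Type} [DecidableEq α] [Group G] (g : α → G) (v : Word α) :
    ev g (FreeGroup.reduce v) = ev g v := by
  rw [ev, ev, FreeGroup.reduce.self]

theorem reduced_reduce {α : Type} [DecidableEq α] (v : Word α) :
    FreeGroup.IsReduced (FreeGroup.reduce v) :=
  FreeGroup.IsReduced.of_reduce_eq FreeGroup.reduce.idem

theorem Path.ge {M : Fin m → Instr r} {k : ℕ} (h1 : ∀ i, k ≤ (M i).src) (h2 : ∀ i, k ≤ (M i).tgt)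
    {c c' : Cfg r} {v : Word (Fin m)} (h : Path M c v c') (hc : k ≤ c.1) : k ≤ c'.1 := by
  induction h with
  | nil => exact hc
  | fwd i _ hs _ => exact hs.2.1 ▸ h2 i
  | bwd i _ hs _ => exact hs.1 ▸ h1 i

end Vale.Agent.P193
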