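import Vale.Agent.P193.ZDef
import Vale.Agent.P193.PkgMain
import Vale.Agent.P193.Mach

/-! Facts about `ZG r` and existence of the machine subgroup. -/

namespace Vale.Agent.P193

theorem z_re_ne_one (r : ℕ) : REPred fun x : Word (ZGen r) => ev (zg r) x ≠ 1 :=
  (re_ne (computable_run false Computable.id (Computable.const (0, [])))
    (Computable.const (0, []))).of_eq fun x =>
      not_congr ((run_base_iff false x).trans Subgroup.mem_bot)

theorem z_re_not_mem_RS (r : ℕ) : REPred fun x : Word (ZGen r) => ev (zg r) x ∉ RS r :=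
  (re_ne (computable_run true Computable.id (Computable.const (0, [])))
    (Computable.const (0, []))).of_eq fun x => not_congr (run_base_iff true x)

theorem z_re_mem_RS (r : ℕ) : REPred fun x : Word (ZGen r) => ev (zg r) x ∈ RS r :=
  (re_eq (computable_run true Computable.id (Computable.const (0, [])))
    (Computable.const (0, []))).of_eq fun x => run_base_iff true x

theorem w_not_mem_RS (r : ℕ) : zg r (.inl 2) ∉ RS r := fun h => by
  have := (run_base_iff true [((.inl 2 : ZGen r), true)]).2 (by simpa using h)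
  simp [act, gen, split, isR] at this

theorem re_orbit_aux {r m : ℕ} (ρ : Fin m → Word (ZGen r)) {R : ℕ → Cfg r → Prop}
    (hR : REPred fun x : ℕ × Cfg r => R x.1 x.2) :
    REPred fun x : ℕ × Word (ZGen r) => ∀ va ∈ allW m x.2.length,
      run true (FreeGroup.invRev (subst ρ va) ++ FreeGroup.invRev x.2) (0, []) ≠
        run true (cw (dcd (run true (FreeGroup.invRev (subst ρ va) ++
          FreeGroup.invRev x.2) (0, [])))) (0, []) ∨
      R x.1 (dcd (run true (FreeGroup.invRev (subst ρ va) ++ FreeGroup.invRev x.2) (0, []))) := by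
  have hd : Computable fun x : ℕ × ZP r => dcd x.2 := primrec_dcd.to_comp.comp Computable.snd
  have h1 : REPred fun x : ℕ × ZP r => x.2 ≠ run true (cw (dcd x.2)) (0, []) ∨ R x.1 (dcd x.2) :=
    re_or (re_ne Computable.snd
      (computable_run true (primrec_cw.to_comp.comp hd) (Computable.const _)))
      (re_comp hR (f := fun x : ℕ × ZP r => (x.1, dcd x.2)) (Computable.fst.pair hd))
  have hp : Computable fun y : (ℕ × Word (ZGen r)) × Word (Fin m) =>
      run true (FreeGroup.invRev (subst ρ y.2) ++ FreeGroup.invRev y.1.2) (0, []) :=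
    computable_run true (Lib.Comp.co_append (computable_invRev (computable_subst (f := fun _ => ρ)
      ((primrec_of_finite ρ).to_comp.comp Computable.snd) Computable.snd))
      (by fun_prop)) (Computable.const _)
  have h2 := re_comp h1 (f := fun y : (ℕ × Word (ZGen r)) × Word (Fin m) => (y.1.1,
    run true (FreeGroup.invRev (subst ρ y.2) ++ FreeGroup.invRev y.1.2) (0, [])))
    ((Computable.fst.comp Computable.fst).pair hp)
  exact re_forall_mem (l := fun x : ℕ × Word (ZGen r) => allW m x.2.length)
    ((primrec_allW m).to_comp.comp (by fun_prop)) h2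

theorem pkg_of_mach {F : ℕ → List ℕ → Bool} {κ r Nc : ℕ} (X : MachPkg F (32 * (κ + 1)) r Nc) :
    Nonempty (Pkg F κ r Nc) := by
  obtain ⟨k, hk⟩ : ∃ k, k = 32 * (κ + 1) := ⟨_, rfl⟩
  have hk0 : k ≠ 0 := by omega
  have hlen : ∀ x v, ev (fun i => ev (zg r) (ρi X.M k i)) v = ev (zg r) x →
      k * (2 * (FreeGroup.reduce v).length) ≤ x.length := fun x v h =>
    len_le_of_reduced X.M k (reduced_reduce v) (by rw [ev_subst, ev_reduce, h])
  have hdec : ∀ e H v, ev (zg r) H * ev (fun i => ev (zg r) (ρi X.M k i)) v *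
      ev (zg r) (cw (X.root e)) ∈ RS r → ∃ va vb c, FreeGroup.reduce v = va ++ vb ∧
        Path X.M (X.root e) vb c ∧ run true (subst (ρi X.M k) va) (cfp c.1 c.2) =
          run true (FreeGroup.invRev H) (0, []) ∧ k * va.length ≤ H.length ∧ k ≤ H.length ∧
          ∀ q a, run true (FreeGroup.invRev H) (0, []) = cfp q a → va = [] := by
    intro e H v h
    rw [← ev_reduce _ v, mem_RS_iff] at h
    obtain ⟨va, vb, c, h1, h2, h3, h4, h5, h6⟩ := decomp hk0 X.M _ (reduced_reduce v) h
    have h7 := length_run_le true (FreeGroup.invRev H) (0, [])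
    simp only [List.length_nil, zero_add, FreeGroup.invRev_length] at h7
    exact ⟨va, vb, c, h1, h2, h3, h4.trans h7,
      (h5 (hk ▸ h2.ge X.src_ge X.tgt_ge (X.root_ge e))).trans h7, h6⟩
  have hc : ∀ {α : Type} [Primcodable α] {w : α → Word (Fin X.m)}, Computable w →
      Computable fun a => subst (ρi X.M k) (w a) := fun hw =>
    computable_subst (f := fun _ => ρi X.M k)
      ((primrec_of_finite (ρi X.M k)).to_comp.comp Computable.snd) hw
  refine ⟨{
    m := X.m
    ρw := ρi X.M k
    em := fun i => (X.M i).emit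
    rootw := fun e => cw (X.root e)
    root_comp := primrec_cw.to_comp.comp X.root_comp
    em_surj := X.em_surj
    inj := fun v h => ?_
    len_le := fun x v h => ⟨FreeGroup.reduce v, by rw [ev_reduce, h], ?_⟩
    closed := fun e v h => ?_
    realized := fun e w h1 h2 => ?_
    short := fun e H v h => ?_
    far := fun e => ⟨1, fun v h => ?_⟩
    re_orbit := ?_
    re_notPhi := ?_ }⟩
  · have h1 := hlen [] v h
    have h2 : (FreeGroup.reduce v).length = 0 := by
      rcases Nat.mul_eq_zero.1 (Nat.le_zero.1 h1) with h | h <;> omega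
    rw [← FreeGroup.reduce.self, List.length_eq_zero_iff.1 h2]; rfl
  · refine le_trans (Nat.mul_le_mul ?_ ?_) (hlen x v h) <;> omega
  · rw [← ev_invRev] at h
    obtain ⟨va, vb, c, h1, h2, h3, -, -, h6⟩ := hdec e _ v h
    rw [FreeGroup.invRev_invRev, run_cw] at h3 h6
    obtain rfl := h6 _ _ rfl
    have h7 : c = X.root e := by rw [← dcd_cfp c, ← dcd_cfp (X.root e), ← h3]; rfl
    rw [hol, ← ev_reduce, h1]
    exact X.closed e vb (h7 ▸ h2)
  · obtain ⟨v, h3, h4⟩ := X.realized e w h1 h2
    refine ⟨v, ?_, h4⟩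
    rw [← ev_invRev, mem_RS_iff, FreeGroup.invRev_invRev, run_cw, run_path k h3]
  · obtain ⟨va, vb, c, -, h2, h3, h4, h5, -⟩ := hdec e H v h
    have h6 := bd_run (ab := true) (FreeGroup.invRev (subst (ρi X.M k) va) ++ FreeGroup.invRev H)
    rw [run_append, ← h3, run_invRev _ (zwf_cfp _ _), List.countP_append, countP_invRev,
      countP_invRev] at h6
    have h7 := count_subst X.ok k va
    have h8 : H.countP (fun a => a.1.isRight) ≤ H.length := List.countP_le_length
    obtain ⟨vb', h9, h10⟩ := X.short e vb c _ h2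
      (bd_cfp (h6.mono (Nat.add_le_add h7 h8)))
    refine ⟨va ++ vb', ?_, ?_⟩
    · rw [mem_RS_iff, subst_append, run_append, run_path k h9, h3]
    · have h11 : cnt (fun i => (X.M i).emit) (va ++ vb') ≤
          va.length + cnt (fun i => (X.M i).emit) vb' := by
        rw [cnt, List.countP_append]
        exact Nat.add_le_add_right List.countP_le_length _
      refine (Nat.mul_le_mul_left κ h11).trans ?_
      subst hk
      generalize cnt (fun i => (X.M i).emit) vb' = n at h10
      nlinarith [Nat.zero_le (κ * va.length), Nat.zero_le (κ * n)]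
  · rw [← ev_nil (zg r)] at h
    obtain ⟨-, -, -, -, -, -, -, h5, -⟩ := hdec e [] v h
    exact hk0 (Nat.le_zero.1 h5)
  · refine (re_orbit_aux (ρi X.M k) (R := fun e c => ¬ ∃ v, Path X.M (X.root e) v c)
      X.re_far).of_eq fun x => ?_
    constructor
    · intro h v hv
      obtain ⟨va, vb, c, -, h2, h3, h4, -, -⟩ := hdec x.1 x.2 v hv
      have h5 := h va (mem_allW (le_trans (Nat.le_mul_of_pos_left _ (by omega)) h4))
      rw [run_append, ← h3, run_invRev _ (zwf_cfp _ _), dcd_cfp, run_cw] at h5
      exact h5.elim (fun h => h rfl) fun h => h ⟨vb, h2⟩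
    · intro h va _
      by_contra h1
      simp only [not_or, not_not] at h1
      obtain ⟨h1, vb, h2⟩ := h1
      refine h (va ++ vb) ?_
      rw [mem_RS_iff, subst_append, run_append, run_path k h2, ← run_cw, ← h1, run_append,
        run_invRev' _ (zwf_run _ (p := (0, [])) trivial)]
  · refine (re_forall_mem (l := fun x : Word (ZGen r) => allW X.m x.length)
      (p := fun x v => ev (zg r) (FreeGroup.invRev (subst (ρi X.M k) v) ++ x) ≠ 1)
      ((primrec_allW X.m).to_comp.comp (by fun_prop))
      (re_comp (z_re_ne_one r) (f := fun y : Word (ZGen r) × Word (Fin X.m) =>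
        FreeGroup.invRev (subst (ρi X.M k) y.2) ++ y.1) (Lib.Comp.co_append (computable_invRev (hc Computable.snd))
        Computable.fst))).of_eq fun x => ?_
    simp only [ev_append, ev_invRev, ev_subst, ne_eq, inv_mul_eq_one]
    refine ⟨fun h v hv => h (FreeGroup.reduce v) (mem_allW ?_) (by rw [ev_reduce, hv]),
      fun h v _ => h v⟩
    exact le_trans (le_trans (by omega) (Nat.le_mul_of_pos_left _ (by omega))) (hlen x v hv)

theorem exists_pkg (F : ℕ → List ℕ → Bool) (hF : Primrec₂ F) (κ : ℕ) :
    ∃ r, ∀ Nc, Nonempty (Pkg F κ r Nc) := by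
  obtain ⟨r, hr⟩ := exists_mach F hF (32 * (κ + 1))
  exact ⟨r, fun Nc => (hr Nc).elim pkg_of_mach⟩

end Vale.Agent.P193
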