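import Vale.Agent.P193.ZDef
import Mathlib.GroupTheory.NoncommPiCoprod
import Mathlib.Algebra.BigOperators.Pi

/-! The normal form action of `ZG r` on stacks. -/

namespace Vale.Agent.P193

variable {r : ℕ}

/-- Vectors. -/
abbrev ZV (r : ℕ) := Fin r → ℤ

/-- Signed letters. -/
abbrev ZL (r : ℕ) := ZGen r × Bool

/-- Points: a vector and a stack. -/
abbrev ZP (r : ℕ) := ZV r × List (ZL r × ZV r)

/-- Moving a letter past a vector: new vector and residue. -/
def split : ZL r → ZV r → ZV r × ZV r
  | (.inl k, _), β => if k = 2 then (0, β) else (β, 0)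
  | (.inr (_, false), _), β => (β, 0)
  | (.inr (j, true), true), β => (Function.update β j (4 * β j), 0)
  | (.inr (j, true), false), β => (Function.update β j (β j / 4), Pi.single j (β j % 4))

/-- The action of a stable letter. -/
def gen (ab : Bool) (a : ZL r) : ZP r → ZP r
  | (β, []) => if (split a β).2 = 0 ∧ ab = true ∧ isR a.1 = true then ((split a β).1, [])
      else ((split a β).1, [(a, (split a β).2)])
  | (β, e :: s) => if (split a β).2 = 0 ∧ e.1 = (a.1, !a.2) then ((split a β).1 + e.2, s)
      else ((split a β).1, (a, (split a β).2) :: e :: s)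

/-- The action of a letter. -/
def act (ab : Bool) : ZL r → ZP r → ZP r
  | (.inr (j, false), ε), p => (p.1 + Pi.single j (cond ε 1 (-1)), p.2)
  | (.inl k, ε), p => gen ab (.inl k, ε) p
  | (.inr (j, true), ε), p => gen ab (.inr (j, true), ε) p

/-- The action of a word. -/
def run (ab : Bool) (u : Word (ZGen r)) (p : ZP r) : ZP r := u.foldr (act ab) p

@[simp] theorem run_nil (ab : Bool) (p : ZP r) : run ab [] p = p := rfl

@[simp] theorem run_cons (ab : Bool) (a : ZL r) (u : Word (ZGen r)) (p : ZP r) :
    run ab (a :: u) p = act ab a (run ab u p) := rfl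

@[simp] theorem run_append (ab : Bool) (u v : Word (ZGen r)) (p : ZP r) :
    run ab (u ++ v) p = run ab u (run ab v p) := List.foldr_append

/-- Well-formed stacks. -/
def ZWF (ab : Bool) : List (ZL r × ZV r) → Prop
  | [] => True
  | [e] => (split e.1 e.2).1 = 0 ∧ (split e.1 e.2).2 = e.2 ∧
      ¬ (e.2 = 0 ∧ ab = true ∧ isR e.1.1 = true)
  | e :: e' :: s => ZWF ab (e' :: s) ∧ (split e.1 e.2).1 = 0 ∧ (split e.1 e.2).2 = e.2 ∧
      ¬ (e.2 = 0 ∧ e'.1 = (e.1.1, !e.1.2))

theorem ZWF.tail {ab : Bool} {e : ZL r × ZV r} {s : List (ZL r × ZV r)} (h : ZWF ab (e :: s)) :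
    ZWF ab s := by
  cases s with
  | nil => trivial
  | cons e' s => exact h.1

theorem ZWF.head {ab : Bool} {e : ZL r × ZV r} {s : List (ZL r × ZV r)} (h : ZWF ab (e :: s)) :
    (split e.1 e.2).1 = 0 ∧ (split e.1 e.2).2 = e.2 := by
  cases s with
  | nil => exact ⟨h.1, h.2.1⟩
  | cons e' s => exact ⟨h.2.1, h.2.2.1⟩

theorem split_res (a : ZL r) (β : ZV r) :
    (split a (split a β).2).1 = 0 ∧ (split a (split a β).2).2 = (split a β).2 := by
  rcases a with ⟨k | ⟨j, _ | _⟩, ε⟩
  · by_cases h : k = 2 <;> simp [split, h]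
  · simp [split]
  · cases ε
    · refine ⟨funext fun i => ?_, ?_⟩
      · by_cases h : i = j
        · subst h; simp [split]; omega
        · simp [split, h]
      · simp [split]
    · simp [split]

theorem split_inv (a : ZL r) (β : ZV r) : (split (a.1, !a.2) (split a β).1).2 = 0 ∧
    (split (a.1, !a.2) (split a β).1).1 + (split a β).2 = β := by
  rcases a with ⟨k | ⟨j, _ | _⟩, ε⟩
  · by_cases h : k = 2 <;> simp [split, h]
  · simp [split]
  · cases ε
    · refine ⟨rfl, funext fun i => ?_⟩
      by_cases h : i = j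
      · subst h; simp [split]; omega
      · simp [split, h]
    · simp [split]

theorem split_pop (a : ZL r) {β b : ZV r} (h0 : (split a β).2 = 0)
    (h1 : (split (a.1, !a.2) b).1 = 0) (h2 : (split (a.1, !a.2) b).2 = b) :
    split (a.1, !a.2) ((split a β).1 + b) = (β, b) := by
  rcases a with ⟨k | ⟨j, _ | _⟩, ε⟩
  · by_cases h : k = 2
    · simp only [split, h, if_true] at h0 ⊢
      simp [h0]
    · simp only [split, h, if_false] at h1 ⊢
      simp [h1]
  · simp only [split] at h1 ⊢
    simp [h1]
  · cases ε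
    · simp only [split, Bool.not_false] at h0 h2 ⊢
      subst h2
      have h3 := congrFun h0 j
      simp only [Pi.single_eq_same, Pi.zero_apply] at h3
      refine Prod.ext (funext fun i => ?_) rfl
      by_cases h : i = j
      · subst h; simp; omega
      · simp [h]
    · simp only [split, Bool.not_true] at h1 h2 ⊢
      have h3 := congrFun h1 j
      simp only [Function.update_self, Pi.zero_apply] at h3
      refine Prod.ext (funext fun i => ?_) (funext fun i => ?_)
      · by_cases h : i = j
        · subst h; simp; omega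
        · have h4 := congrFun h2 i
          simp only [Pi.single_eq_of_ne h] at h4
          simp [h, ← h4]
      · by_cases h : i = j
        · subst h; simp; omega
        · have h4 := congrFun h2 i
          simp only [Pi.single_eq_of_ne h] at h4
          simp [h, ← h4]

theorem zwf_gen {ab : Bool} (a : ZL r) {p : ZP r} (h : ZWF ab p.2) : ZWF ab (gen ab a p).2 := by
  rcases p with ⟨β, _ | ⟨e, s⟩⟩
  · simp only [gen]
    split_ifs with h1
    · trivial
    · exact ⟨(split_res a β).1, (split_res a β).2, h1⟩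
  · simp only [gen]
    split_ifs with h1
    · exact h.tail
    · exact ⟨h, (split_res a β).1, (split_res a β).2, h1⟩

theorem gen_inv {ab : Bool} (a : ZL r) {p : ZP r} (h : ZWF ab p.2) :
    gen ab (a.1, !a.2) (gen ab a p) = p := by
  rcases p with ⟨β, _ | ⟨e, s⟩⟩
  · obtain ⟨h2, h3⟩ := split_inv a β
    by_cases h1 : (split a β).2 = 0 ∧ ab = true ∧ isR a.1 = true
    · rw [h1.1, add_zero] at h3
      rw [gen, if_pos h1, gen, if_pos ⟨h2, h1.2⟩, h3]
    · rw [gen, if_neg h1, gen, if_pos ⟨h2, by simp⟩, h3]
  · by_cases h1 : (split a β).2 = 0 ∧ e.1 = (a.1, !a.2)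
    · rw [gen, if_pos h1]
      obtain ⟨a', b⟩ := e
      obtain ⟨h1, rfl⟩ := h1
      have h4 := split_pop a h1 h.head.1 h.head.2
      cases s with
      | nil =>
        rw [gen, h4, if_neg h.2.2]
      | cons e' s =>
        rw [gen, h4, if_neg h.2.2.2]
    · obtain ⟨h2, h3⟩ := split_inv a β
      rw [gen, if_neg h1, gen, if_pos ⟨h2, by simp⟩, h3]

theorem zwf_act {ab : Bool} (a : ZL r) {p : ZP r} (h : ZWF ab p.2) : ZWF ab (act ab a p).2 := by
  rcases a with ⟨k | ⟨j, _ | _⟩, ε⟩
  · exact zwf_gen _ h
  · exact h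
  · exact zwf_gen _ h

theorem zwf_run {ab : Bool} (u : Word (ZGen r)) {p : ZP r} (h : ZWF ab p.2) :
    ZWF ab (run ab u p).2 := by
  induction u with
  | nil => exact h
  | cons a u ih => exact zwf_act a ih

theorem act_inv {ab : Bool} (a : ZL r) {p : ZP r} (h : ZWF ab p.2) :
    act ab (a.1, !a.2) (act ab a p) = p := by
  rcases a with ⟨k | ⟨j, _ | _⟩, ε⟩
  · exact gen_inv (.inl k, ε) h
  · cases ε <;> simp [act, add_assoc, ← Pi.single_add]
  · exact gen_inv (.inr (j, true), ε) h

/-- Well-formed points. -/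
abbrev WP (r : ℕ) (ab : Bool) : Type := {p : ZP r // ZWF ab p.2}

/-- The permutation of a generator. -/
def pg (ab : Bool) (a : ZGen r) : Equiv.Perm (WP r ab) where
  toFun p := ⟨act ab (a, true) p.1, zwf_act _ p.2⟩
  invFun p := ⟨act ab (a, false) p.1, zwf_act _ p.2⟩
  left_inv p := Subtype.ext (act_inv (a, true) p.2)
  right_inv p := Subtype.ext (act_inv (a, false) p.2)

theorem ev_pg (ab : Bool) (u : Word (ZGen r)) (p : WP r ab) :
    (ev (pg ab) u p).1 = run ab u p.1 := by
  induction u with
  | nil => simp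
  | cons a u ih =>
    rw [ev_cons, Equiv.Perm.mul_apply, run_cons, ← ih]
    rcases a with ⟨a, _ | _⟩ <;> rfl

theorem gen_add {ab : Bool} {a : ZL r} {β γ γ' : ZV r} (s : List (ZL r × ZV r))
    (h : split a (β + γ) = ((split a β).1 + γ', (split a β).2)) :
    gen ab a (β + γ, s) = ((gen ab a (β, s)).1 + γ', (gen ab a (β, s)).2) := by
  rcases s with _ | ⟨e, s⟩
  · simp only [gen, h]
    split_ifs <;> rfl
  · simp only [gen, h]
    split_ifs
    · rw [add_right_comm]
    · rfl

theorem ev_commw_iff {G α : Type} [Group G] (g : α → G) (a b : α) :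
    ev g (commw a b) = 1 ↔ Commute (g a) (g b) := by
  simp only [commw, ev_cons, sgn_true, sgn_false, ev_nil, mul_one]
  rw [← mul_assoc, ← mul_inv_rev, mul_inv_eq_one]; rfl

theorem zrel_iff {G : Type} [Group G] (g : ZGen r → G) : (∀ w ∈ zrel r, ev g w = 1) ↔
    ∀ i, Commute (g (.inl 0)) (g (.inr (i, false))) ∧ Commute (g (.inl 1)) (g (.inr (i, false))) ∧
      (∀ j, Commute (g (.inr (j, false))) (g (.inr (i, false)))) ∧
      g (.inr (i, true)) * g (.inr (i, false)) = g (.inr (i, false)) ^ 4 * g (.inr (i, true)) ∧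
      ∀ j, j ≠ i → Commute (g (.inr (j, true))) (g (.inr (i, false))) := by
  have e : ∀ i, ev g ((.inr (i, true), true) :: (.inr (i, false), true) ::
      (.inr (i, true), false) :: List.replicate 4 (.inr (i, false), false)) = 1 ↔
      g (.inr (i, true)) * g (.inr (i, false)) = g (.inr (i, false)) ^ 4 * g (.inr (i, true)) := by
    intro i
    simp only [ev_cons, ev_replicate, sgn_true, sgn_false, inv_pow]
    rw [← mul_assoc, ← mul_inv_rev, mul_inv_eq_one]
  simp only [zrel, List.mem_flatMap, List.mem_finRange, true_and, forall_exists_index,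
    List.mem_append, List.mem_cons, List.not_mem_nil, or_false]
  constructor
  · intro h i
    refine ⟨(ev_commw_iff _ _ _).1 (h _ i (Or.inl (Or.inl rfl))),
      (ev_commw_iff _ _ _).1 (h _ i (Or.inl (Or.inr rfl))),
      fun j => (ev_commw_iff _ _ _).1 (h _ i (Or.inr ⟨j, Or.inl rfl⟩)),
      (e i).1 (h _ i (Or.inr ⟨i, Or.inr (by simp)⟩)),
      fun j hj => (ev_commw_iff _ _ _).1 (h _ i (Or.inr ⟨j, Or.inr (by simp [hj])⟩))⟩
  · rintro h w i ((rfl | rfl) | ⟨j, rfl | rfl⟩)
    · exact (ev_commw_iff _ _ _).2 (h i).1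
    · exact (ev_commw_iff _ _ _).2 (h i).2.1
    · exact (ev_commw_iff _ _ _).2 ((h i).2.2.1 j)
    · split_ifs with hj
      · exact (e i).2 (h i).2.2.2.1
      · exact (ev_commw_iff _ _ _).2 ((h i).2.2.2.2 j hj)

theorem pg_rel (ab : Bool) : ∀ w ∈ zrel r, ev (pg ab) w = 1 := by
  refine (zrel_iff _).2 fun i => ⟨?_, ?_, fun j => ?_, ?_, fun j hj => ?_⟩
  · exact Equiv.ext fun p => Subtype.ext (gen_add p.1.2 (by simp [split]))
  · exact Equiv.ext fun p => Subtype.ext (gen_add p.1.2 (by simp [split]))
  · exact Equiv.ext fun p => Subtype.ext (Prod.ext (add_right_comm _ _ _) rfl)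
  · refine Equiv.ext fun p => Subtype.ext ((gen_add (γ' := Pi.single i 4) p.1.2 ?_).trans ?_)
    · refine Prod.ext (funext fun k => ?_) rfl
      by_cases h : k = i
      · subst h; simp [split]; ring
      · simp [split, h]
    · refine Prod.ext ?_ rfl
      change _ = _ + Pi.single i 1 + Pi.single i 1 + Pi.single i 1 + Pi.single i 1
      simp only [add_assoc, ← Pi.single_add]
      rfl
  · refine Equiv.ext fun p => Subtype.ext (gen_add p.1.2 ?_)
    refine Prod.ext (funext fun k => ?_) rfl
    by_cases h : k = j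
    · subst h; simp [split, hj]
    · simp [split, h]

/-- The action of `ZG r`. -/
def zact (ab : Bool) : ZG r →* Equiv.Perm (WP r ab) := PG.lift _ (pg ab) (pg_rel ab)

theorem zact_ev (ab : Bool) (u : Word (ZGen r)) (p : WP r ab) :
    (zact ab (ev (zg r) u) p).1 = run ab u p.1 := by
  rw [zact, PG.lift_ev, ev_pg]

theorem run_congr {ab : Bool} {u v : Word (ZGen r)} (h : ev (zg r) u = ev (zg r) v) {p : ZP r}
    (hp : ZWF ab p.2) : run ab u p = run ab v p := by
  rw [← zact_ev ab u ⟨p, hp⟩, h, zact_ev]

theorem zg_rel : ∀ i : Fin r, Commute (zg r (.inl 0)) (zg r (.inr (i, false))) ∧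
    Commute (zg r (.inl 1)) (zg r (.inr (i, false))) ∧
      (∀ j, Commute (zg r (.inr (j, false))) (zg r (.inr (i, false)))) ∧
      zg r (.inr (i, true)) * zg r (.inr (i, false)) =
        zg r (.inr (i, false)) ^ 4 * zg r (.inr (i, true)) ∧
      ∀ j, j ≠ i → Commute (zg r (.inr (j, true))) (zg r (.inr (i, false))) :=
  (zrel_iff _).1 fun _ hw => ev_pgen_rel _ hw

/-- The element of a vector. -/
def xe (β : ZV r) : ZG r :=
  MonoidHom.noncommPiCoprod (N := fun _ : Fin r => Multiplicative ℤ)
    (fun j => zpowersHom _ (zg r (.inr (j, false))))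
    (fun i j _ _ _ => ((zg_rel j).2.2.1 i).zpow_zpow _ _) fun j => Multiplicative.ofAdd (β j)

theorem xe_add (β γ : ZV r) : xe (β + γ) = xe β * xe γ := by
  rw [xe, xe, xe, ← map_mul]; rfl

theorem xe_zero : xe (0 : ZV r) = 1 := map_one _

theorem xe_single (j : Fin r) (n : ℤ) : xe (Pi.single j n) = zg r (.inr (j, false)) ^ n := by
  have : (fun i => Multiplicative.ofAdd ((Pi.single j n : ZV r) i)) =
      Pi.mulSingle j (Multiplicative.ofAdd n) := by
    funext i
    by_cases h : i = j
    · subst h; simp
    · simp [h]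
  rw [xe, this]
  exact MonoidHom.noncommPiCoprod_mulSingle (N := fun _ : Fin r => Multiplicative ℤ)
    (fun j => zpowersHom _ (zg r (.inr (j, false)))) j _

theorem commute_xe {g : ZG r} (h : ∀ i, Commute g (zg r (.inr (i, false)))) (β : ZV r) :
    Commute g (xe β) := by
  induction β using Pi.single_induction with
  | zero => rw [xe_zero]; exact Commute.one_right _
  | add β γ h1 h2 => rw [xe_add]; exact h1.mul_right h2
  | single i n => rw [xe_single]; exact (h i).zpow_right n

theorem r_mul_xe (j : Fin r) (β : ZV r) : zg r (.inr (j, true)) * xe β =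
    xe (Function.update β j (4 * β j)) * zg r (.inr (j, true)) := by
  induction β using Pi.single_induction with
  | zero => simp [xe_zero]
  | add β γ h1 h2 =>
    have : Function.update (β + γ) j (4 * (β + γ) j) =
        Function.update β j (4 * β j) + Function.update γ j (4 * γ j) := by
      rw [← Function.update_add]; simp [mul_add]
    rw [this, xe_add, xe_add, ← mul_assoc, h1, mul_assoc, h2, mul_assoc]
  | single i n =>
    by_cases h : j = i
    · subst h
      have : Function.update (Pi.single j n : ZV r) j (4 * (Pi.single j n : ZV r) j) =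
          Pi.single j (4 * n) := by
        funext k
        by_cases h : k = j
        · subst h; simp
        · simp [h]
      rw [this, xe_single, xe_single, zpow_mul]
      exact SemiconjBy.zpow_right (x := zg r (.inr (j, false)))
        (y := zg r (.inr (j, false)) ^ (4 : ℤ)) (by exact_mod_cast (zg_rel j).2.2.2.1) n
    · have : Function.update (Pi.single i n : ZV r) j (4 * (Pi.single i n : ZV r) j) =
          Pi.single i n := by
        simp [h]
      rw [this, xe_single]
      exact (((zg_rel i).2.2.2.2 j h).zpow_right n).eq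

theorem sgn_mul_xe (a : ZL r) (β : ZV r) : sgn (zg r a.1) a.2 * xe β =
    xe (split a β).1 * (sgn (zg r a.1) a.2 * xe (split a β).2) := by
  have hc : ∀ g : ZG r, ∀ ε, (∀ i, Commute g (zg r (.inr (i, false)))) →
      sgn g ε * xe β = xe β * (sgn g ε * xe 0) := fun g ε h => by
    rw [xe_zero, mul_one]
    cases ε
    · exact (commute_xe h β).inv_left.eq
    · exact (commute_xe h β).eq
  rcases a with ⟨k | ⟨j, _ | _⟩, ε⟩
  · by_cases h : k = 2
    · simp [split, h, xe_zero]
    · simp only [split, if_neg h]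
      refine hc _ _ fun i => ?_
      have : k = 0 ∨ k = 1 := by omega
      rcases this with rfl | rfl
      · exact (zg_rel i).1
      · exact (zg_rel i).2.1
  · exact hc _ _ fun i => (zg_rel i).2.2.1 j
  · cases ε
    · have h1 := (split_inv (.inr (j, true), false) β).2
      rw [sgn_false, inv_mul_eq_iff_eq_mul, ← mul_assoc, r_mul_xe, mul_assoc, mul_inv_cancel_left,
        ← xe_add]
      exact congrArg xe h1.symm
    · simp only [split, xe_zero, mul_one]
      exact r_mul_xe j β

/-- The value of a stack. -/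
def sv : List (ZL r × ZV r) → ZG r
  | [] => 1
  | e :: s => sgn (zg r e.1.1) e.1.2 * xe e.2 * sv s

/-- The value of a point. -/
def pval (p : ZP r) : ZG r := xe p.1 * sv p.2

theorem pval_gen (ab : Bool) (a : ZL r) (p : ZP r) :
    (pval (gen ab a p))⁻¹ * (sgn (zg r a.1) a.2 * pval p) ∈ cond ab (RS r) ⊥ := by
  have key : ∀ {x y : ZG r}, x = y → x⁻¹ * y ∈ cond ab (RS r) ⊥ := by
    rintro x _ rfl
    rw [inv_mul_cancel]; exact Subgroup.one_mem _
  rcases p with ⟨β, _ | ⟨e, s⟩⟩
  · simp only [gen]
    split_ifs with h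
    · obtain ⟨h1, rfl, h3⟩ := h
      simp only [pval, sv, mul_one]
      rw [sgn_mul_xe, h1, xe_zero, mul_one, inv_mul_cancel_left]
      have : zg r a.1 ∈ RS r := Subgroup.subset_closure ⟨a.1, h3, rfl⟩
      cases a.2
      · exact Subgroup.inv_mem _ this
      · exact this
    · refine key ?_
      simp only [pval, sv, mul_one]
      rw [sgn_mul_xe a β]
  · simp only [gen]
    split_ifs with h
    · refine key ?_
      simp only [pval, sv]
      rw [← mul_assoc, sgn_mul_xe a β, h.1, h.2, xe_zero, xe_add]
      simp [mul_assoc]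
    · refine key ?_
      simp only [pval, sv]
      rw [← mul_assoc _ (xe β), sgn_mul_xe a β]
      simp only [mul_assoc]

theorem pval_act (ab : Bool) (a : ZL r) (p : ZP r) :
    (pval (act ab a p))⁻¹ * (sgn (zg r a.1) a.2 * pval p) ∈ cond ab (RS r) ⊥ := by
  rcases a with ⟨k | ⟨j, _ | _⟩, ε⟩
  · exact pval_gen _ _ _
  · have : pval (act ab (.inr (j, false), ε) p) = sgn (zg r (.inr (j, false))) ε * pval p := by
      simp only [pval, act]
      rw [add_comm, xe_add, xe_single, mul_assoc]
      cases ε <;> simp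
    rw [this, inv_mul_cancel]; exact Subgroup.one_mem _
  · exact pval_gen _ _ _

theorem pval_run (ab : Bool) (u : Word (ZGen r)) (p : ZP r) :
    (pval (run ab u p))⁻¹ * (ev (zg r) u * pval p) ∈ cond ab (RS r) ⊥ := by
  induction u with
  | nil => simp
  | cons a u ih =>
    have := Subgroup.mul_mem _ (pval_act ab a (run ab u p)) ih
    simpa [mul_assoc] using this

theorem run_base_iff (ab : Bool) (u : Word (ZGen r)) :
    run ab u (0, []) = (0, []) ↔ ev (zg r) u ∈ cond ab (RS r) ⊥ := by
  constructor
  · intro h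
    have := pval_run ab u (0, [])
    rw [h] at this
    simpa [pval, sv, xe_zero] using this
  · intro h
    obtain ⟨o, ho⟩ : ∃ o : WP r ab, o.1 = (0, []) := ⟨⟨(0, []), trivial⟩, rfl⟩
    rw [← ho, ← zact_ev ab u o]
    generalize ev (zg r) u = g at h
    cases ab
    · rw [Subgroup.mem_bot.1 h, map_one]; rfl
    · refine congrArg Subtype.val (?_ : _ = o)
      induction h using Subgroup.closure_induction with
      | mem x hx =>
        obtain ⟨a, ha, rfl⟩ := hx
        refine Subtype.ext ?_
        have := zact_ev true [(a, true)] o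
        rw [ev_single, sgn_true] at this
        rw [this, ho]
        rcases a with k | ⟨j, _ | _⟩
        · have : k ≠ 2 := by simpa [isR] using ha
          simp [act, gen, split, this, ha]
        · simp [isR] at ha
        · simp [act, gen, split, isR]
      | one => simp
      | mul x y _ _ hx hy => rw [map_mul, Equiv.Perm.mul_apply, hy, hx]
      | inv x _ hx => rw [map_inv, Equiv.Perm.inv_eq_iff_eq, hx]

end Vale.Agent.P193
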