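import Vale.Agent.P193.PkgAct

/-! The normal form action is primitive recursive; configuration points; bounds. -/

namespace Vale.Agent.P193

variable {r : ℕ}

theorem primrec_fin_left {α β σ : Type} [Primcodable α] [Primcodable β] [Primcodable σ] [Finite α]
    {f : α → β → σ} (h : ∀ a, Primrec (f a)) : Primrec fun x : α × β => f x.1 x.2 := by
  obtain ⟨n, ⟨e⟩⟩ := Finite.exists_equiv_fin α
  have h1 : Primrec₂ fun (i : Fin n) b => f (e.symm i) b := Primrec.fin_curry₁.2 fun i => h _
  exact (h1.comp ((primrec_of_finite e).comp Primrec.fst) Primrec.snd).of_eq fun x => by simp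

theorem primrec_vec {α : Type} [Primcodable α] {f : α → ZV r} (h : ∀ j, Primrec fun a => f a j) :
    Primrec f :=
  Primrec.fin_curry.2 (Primrec₂.swap (f := fun j a => f a j) (Primrec.fin_curry₁.2 h))

theorem primrec_app {α : Type} [Primcodable α] {f : α → ZV r} (h : Primrec f) (j : Fin r) :
    Primrec fun a => f a j :=
  Primrec.fin_app.comp h (Primrec.const j)

theorem primrec_vadd {α : Type} [Primcodable α] {f g : α → ZV r} (hf : Primrec f)
    (hg : Primrec g) : Primrec fun a => f a + g a :=
  primrec_vec fun j => primrec_int_add (primrec_app hf j) (primrec_app hg j)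

theorem primrec_split (a : ZL r) : Primrec (split a) := by
  rcases a with ⟨k | ⟨j, _ | _⟩, ε⟩
  · by_cases h : k = 2
    · exact ((Primrec.const 0).pair Primrec.id).of_eq fun β => by simp [split, h]
    · exact (Primrec.id.pair (Primrec.const 0)).of_eq fun β => by simp [split, h]
  · exact Primrec.id.pair (Primrec.const 0)
  · cases ε
    · exact (primrec_update Primrec.id (Primrec.const j)
        (primrec_int_ediv_four (primrec_app Primrec.id j))).pair
        (primrec_update (Primrec.const 0) (Primrec.const j)
          (primrec_int_emod_four (primrec_app Primrec.id j)))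
    · exact (primrec_update Primrec.id (Primrec.const j)
        (primrec_int_mul (Primrec.const 4) (primrec_app Primrec.id j))).pair (Primrec.const 0)

theorem primrec_gen (ab : Bool) (a : ZL r) : Primrec (gen ab a) := by
  have hs := primrec_split a
  have h0 : Primrec fun p : ZP r =>
      if (split a p.1).2 = 0 ∧ ab = true ∧ isR a.1 = true then ((split a p.1).1, [])
      else ((split a p.1).1, [(a, (split a p.1).2)]) :=
    Primrec.ite (PrimrecPred.and (Primrec.eq.comp (by fun_prop) (by fun_prop))
      (PrimrecPred.and (Primrec.eq.comp (by fun_prop) (by fun_prop))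
        (Primrec.eq.comp (by fun_prop) (by fun_prop)))) (by fun_prop) (by fun_prop)
  have h1 : Primrec fun x : ZP r × (ZL r × ZV r) × List (ZL r × ZV r) =>
      if (split a x.1.1).2 = 0 ∧ x.2.1.1 = (a.1, !a.2) then ((split a x.1.1).1 + x.2.1.2, x.2.2)
      else ((split a x.1.1).1, (a, (split a x.1.1).2) :: x.2.1 :: x.2.2) :=
    Primrec.ite (PrimrecPred.and (Primrec.eq.comp (by fun_prop) (by fun_prop))
      (Primrec.eq.comp (by fun_prop) (by fun_prop)))
      ((primrec_vadd (by fun_prop) (by fun_prop)).pair (by fun_prop)) (by fun_prop)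
  exact (Primrec.list_casesOn (f := fun p : ZP r => p.2)
    (h := fun p (y : (ZL r × ZV r) × List (ZL r × ZV r)) =>
      if (split a p.1).2 = 0 ∧ y.1.1 = (a.1, !a.2) then ((split a p.1).1 + y.1.2, y.2)
      else ((split a p.1).1, (a, (split a p.1).2) :: y.1 :: y.2)) Primrec.snd h0 h1).of_eq
    fun p => by rcases p with ⟨β, _ | ⟨e, s⟩⟩ <;> rfl

theorem primrec_act (ab : Bool) : Primrec fun x : ZL r × ZP r => act ab x.1 x.2 := by
  refine primrec_fin_left fun a => ?_
  rcases a with ⟨k | ⟨j, _ | _⟩, ε⟩
  · exact primrec_gen _ _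
  · exact (primrec_vadd Primrec.fst (Primrec.const _)).pair Primrec.snd
  · exact primrec_gen _ _

theorem primrec_run (ab : Bool) : Primrec fun x : Word (ZGen r) × ZP r => run ab x.1 x.2 :=
  Lib.Comp.pr_foldr (h := fun _ a p => act ab a p) Primrec.fst Primrec.snd
    ((primrec_act ab).comp Primrec.snd)

theorem computable_run {α : Type} [Primcodable α] (ab : Bool) {u : α → Word (ZGen r)}
    {p : α → ZP r} (hu : Computable u) (hp : Computable p) :
    Computable fun a => run ab (u a) (p a) :=
  (primrec_run ab).to_comp.comp (hu.pair hp)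

/-- The word of a vector. -/
def xw (β : ZV r) : Word (ZGen r) :=
  (List.finRange r).flatMap fun j => List.replicate (β j).toNat (.inr (j, false), true) ++
    List.replicate (-β j).toNat (.inr (j, false), false)

/-- The word of a configuration. -/
def cw (c : Cfg r) : Word (ZGen r) := List.replicate c.1 (.inl 2, true) ++ xw c.2

theorem primrec_cw : Primrec (cw : Cfg r → Word (ZGen r)) := by
  have h : Primrec fun x : ZV r × Fin r => x.1 x.2 := Primrec.fin_app
  have h1 : Primrec (xw : ZV r → Word (ZGen r)) :=
    Lib.Comp.pr_flatMap (g := fun (β : ZV r) (j : Fin r) =>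
      List.replicate (β j).toNat ((.inr (j, false) : ZGen r), true) ++
        List.replicate (-β j).toNat ((.inr (j, false) : ZGen r), false))
      (Primrec.const (List.finRange r))
      (Lib.Comp.pr_append (Lib.Comp.pr_replicate (primrec_toNat h) (by fun_prop))
        (Lib.Comp.pr_replicate (primrec_toNat (primrec_int_neg h)) (by fun_prop)))
  exact Lib.Comp.pr_append (by fun_prop) (h1.comp Primrec.snd)

theorem run_x (ab : Bool) (j : Fin r) (ε : Bool) (n : ℕ) (p : ZP r) :
    run ab (List.replicate n (.inr (j, false), ε)) p =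
      (p.1 + Pi.single j (cond ε (n : ℤ) (-(n : ℤ))), p.2) := by
  induction n with
  | zero => cases ε <;> simp
  | succ n ih =>
    rw [List.replicate_succ, run_cons, ih]
    cases ε <;> simp only [act, add_assoc, ← Pi.single_add, cond_true, cond_false] <;>
      push_cast <;> ring_nf

theorem run_xw (ab : Bool) (β : ZV r) (p : ZP r) : run ab (xw β) p = (p.1 + β, p.2) := by
  have : ∀ l : List (Fin r), run ab (l.flatMap fun j =>
      List.replicate (β j).toNat (.inr (j, false), true) ++
        List.replicate (-β j).toNat (.inr (j, false), false)) p =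
      (p.1 + (l.map fun j => Pi.single j (β j)).sum, p.2) := by
    intro l
    induction l with
    | nil => simp
    | cons j l ih =>
      rw [List.flatMap_cons, run_append, run_append, ih, run_x, run_x]
      have h : -((-β j).toNat : ℤ) + (β j).toNat = β j := by omega
      simp only [cond_true, cond_false, add_assoc, ← Pi.single_add, h, List.map_cons,
        List.sum_cons, add_comm (Pi.single j (β j) : ZV r)]
  rw [xw, this, ← Fin.sum_univ_def, Finset.univ_sum_single]

/-- The point of a configuration. -/
def cfp : ℕ → ZV r → ZP r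
  | 0, a => (a, [])
  | q + 1, a => (0, List.replicate q ((.inl 2, true), 0) ++ [((.inl 2, true), a)])

theorem act_w_cfp (q : ℕ) (a : ZV r) : act true (.inl 2, true) (cfp q a) = cfp (q + 1) a := by
  rcases q with _ | _ | q <;> simp [cfp, act, gen, split, isR, List.replicate_succ]

theorem act_winv_cfp (q : ℕ) (a : ZV r) : act true (.inl 2, false) (cfp (q + 1) a) = cfp q a := by
  rcases q with _ | q <;> simp [cfp, act, gen, split, List.replicate_succ]

theorem run_w_cfp (n q : ℕ) (a : ZV r) :
    run true (List.replicate n (.inl 2, true)) (cfp q a) = cfp (q + n) a := by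
  induction n with
  | zero => rfl
  | succ n ih => rw [List.replicate_succ, run_cons, ih, act_w_cfp]; rfl

theorem run_winv_cfp (n q : ℕ) (a : ZV r) :
    run true (List.replicate n (.inl 2, false)) (cfp (q + n) a) = cfp q a := by
  induction n with
  | zero => rfl
  | succ n ih => rw [List.replicate_succ', run_append, ← add_assoc, run_cons, run_nil,
      act_winv_cfp, ih]

theorem run_cw (c : Cfg r) : run true (cw c) (0, []) = cfp c.1 c.2 := by
  rw [cw, run_append, run_xw, zero_add]
  exact (run_w_cfp c.1 0 c.2).trans (by rw [zero_add])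

theorem zwf_cfp (q : ℕ) (a : ZV r) : ZWF true (cfp q a).2 :=
  run_cw (q, a) ▸ zwf_run _ (p := (0, [])) trivial

theorem length_cfp (q : ℕ) (a : ZV r) : (cfp q a).2.length = q := by
  cases q <;> simp [cfp]

theorem mem_cfp {q : ℕ} {a : ZV r} {e : ZL r × ZV r} (h : e ∈ (cfp q a).2) : e.1.1 = .inl 2 := by
  cases q with
  | zero => simp [cfp] at h
  | succ q =>
    simp only [cfp, List.mem_append, List.mem_replicate, List.mem_singleton] at h
    rcases h with ⟨-, rfl⟩ | rfl <;> rfl

/-- Decoding of a point. -/
def dcd (p : ZP r) : Cfg r := (p.2.length, p.2.foldr (fun e acc => e.2 + acc) p.1)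

theorem dcd_cfp (c : Cfg r) : dcd (cfp c.1 c.2) = c := by
  obtain ⟨q, a⟩ := c
  refine Prod.ext (length_cfp q a) ?_
  cases q with
  | zero => rfl
  | succ q =>
    simp only [dcd, cfp, List.foldr_append, List.foldr_cons, List.foldr_nil, add_zero]
    induction q with
    | zero => rfl
    | succ q ih => rw [List.replicate_succ, List.foldr_cons, ih, zero_add]

theorem primrec_dcd : Primrec (dcd : ZP r → Cfg r) :=
  Primrec.pair (by fun_prop) (Lib.Comp.pr_foldr
    (h := fun _ (e : ZL r × ZV r) (acc : ZV r) => e.2 + acc) Primrec.snd Primrec.fst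
    (primrec_vadd (by fun_prop) (by fun_prop)))

theorem run_winv_head {n q : ℕ} (h : q ≠ n) (a : ZV r) :
    ∃ e s, (run true (List.replicate n (.inl 2, false)) (cfp q a)).2 = e :: s ∧ e.1.1 = .inl 2 := by
  rcases Nat.lt_or_gt_of_ne h with h | h
  · obtain ⟨d, rfl⟩ := Nat.exists_eq_add_of_lt h
    have h1 : ∀ d, ∃ b s, (run true (List.replicate (d + 1) (.inl 2, false)) (cfp 0 a)).2 =
        ((.inl 2, false), b) :: s := by
      intro d
      induction d with
      | zero => exact ⟨a, [], by simp [cfp, act, gen, split, isR]⟩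
      | succ d ih =>
        obtain ⟨b, s, ih⟩ := ih
        rw [List.replicate_succ, run_cons]
        generalize run true (List.replicate (d + 1) (.inl 2, false)) (cfp 0 a) = p at ih
        obtain ⟨β, s'⟩ := p
        obtain rfl : s' = _ := ih
        exact ⟨β, ((.inl 2, false), b) :: s, by simp [act, gen, split]⟩
    obtain ⟨b, s, h2⟩ := h1 d
    refine ⟨((.inl 2, false), b), s, ?_, rfl⟩
    have h3 := run_winv_cfp q 0 a
    rw [zero_add] at h3
    rw [add_assoc, add_comm q, List.replicate_add, run_append, h3, h2]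
  · obtain ⟨d, rfl⟩ := Nat.exists_eq_add_of_lt h
    rw [add_assoc, add_comm n, run_winv_cfp]
    rcases d with _ | d
    · exact ⟨_, [], rfl, rfl⟩
    · exact ⟨_, _, rfl, rfl⟩

theorem length_act_le (ab : Bool) (a : ZL r) (p : ZP r) :
    (act ab a p).2.length ≤ p.2.length + 1 := by
  have : ∀ a, (gen ab a p).2.length ≤ p.2.length + 1 := fun a => by
    rcases p with ⟨β, _ | ⟨e, s⟩⟩ <;> simp only [gen] <;> split_ifs <;> simp
    omega
  rcases a with ⟨k | ⟨j, _ | _⟩, ε⟩
  · exact this _
  · exact Nat.le_succ _
  · exact this _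

theorem length_run_le (ab : Bool) (u : Word (ZGen r)) (p : ZP r) :
    (run ab u p).2.length ≤ p.2.length + u.length := by
  induction u with
  | nil => simp
  | cons a u ih =>
    have := length_act_le ab a (run ab u p)
    rw [run_cons, List.length_cons]; omega

/-- All entries are bounded. -/
def Bd (N : ℕ) (p : ZP r) : Prop :=
  (∀ j, |p.1 j| < 4 ^ N) ∧ ∀ e ∈ p.2, ∀ j, |e.2 j| < 4 ^ N

theorem Bd.mono {N N' : ℕ} {p : ZP r} (h : Bd N p) (hN : N ≤ N') : Bd N' p :=
  have h1 : (4 : ℤ) ^ N ≤ 4 ^ N' := pow_le_pow_right₀ (by norm_num) hN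
  ⟨fun j => (h.1 j).trans_le h1, fun e he j => (h.2 e he j).trans_le h1⟩

theorem bd_gen {ab : Bool} {N N' : ℕ} {a : ZL r} {p : ZP r} (h : Bd N p) (hN : N ≤ N')
    (hp : ZWF ab p.2) (h1 : ∀ j, |(split a p.1).1 j| < 4 ^ N') (h2 : ∀ j, |(split a p.1).2 j| < 4 ^ N')
    (h3 : ∀ b : ZV r, (∀ j, |b j| < 4 ^ N) → (split (a.1, !a.2) b).1 = 0 →
      (split (a.1, !a.2) b).2 = b → ∀ j, |((split a p.1).1 + b) j| < 4 ^ N') :
    Bd N' (gen ab a p) := by
  have h' := h.mono hN
  rcases p with ⟨β, _ | ⟨e, s⟩⟩ <;> simp only [gen] <;> split_ifs with h4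
  · exact ⟨h1, by simp⟩
  · exact ⟨h1, by simpa using h2⟩
  · refine ⟨h3 _ (h.2 e List.mem_cons_self) ?_ ?_, fun e' he' => h'.2 e' (List.mem_cons_of_mem _ he')⟩
    · rw [← h4.2]; exact hp.head.1
    · rw [← h4.2]; exact hp.head.2
  · exact ⟨h1, List.forall_mem_cons.2 ⟨h2, h'.2⟩⟩

theorem bd_act {ab : Bool} {N : ℕ} (a : ZL r) {p : ZP r} (h : Bd N p) (hp : ZWF ab p.2) :
    Bd (N + if a.1.isRight then 1 else 0) (act ab a p) := by
  have hpos : (0 : ℤ) < 4 ^ N := by positivity
  rcases a with ⟨k | ⟨j, _ | _⟩, ε⟩
  · refine bd_gen h le_rfl hp ?_ ?_ ?_ <;> by_cases hk : k = 2 <;> simp only [split, hk, if_true,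
      if_false]
    · simp
    · exact h.1
    · exact h.1
    · simp
    · intro b hb _ _; simpa using hb
    · rintro b - rfl -; simpa using h.1
  · refine ⟨fun i => ?_, (h.mono (Nat.le_succ N)).2⟩
    have := h.1 i
    rw [abs_lt] at this ⊢
    by_cases hi : i = j
    · subst hi
      cases ε <;> simp [act, pow_succ] <;> omega
    · simp [act, hi, pow_succ]; omega
  · have e : (4 : ℤ) ^ (N + if (Sum.inr (j, true) : ZGen r).isRight then 1 else 0) =
        4 ^ N * 4 := by simp [pow_succ]
    cases ε
    · have h1 : ∀ i, |(split (.inr (j, true), false) p.1).1 i| < 4 ^ N * 4 := fun i => by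
        have := h.1 i
        rw [abs_lt] at this ⊢
        by_cases hi : i = j
        · subst hi; simp [split]; omega
        · simp [split, hi]; omega
      refine bd_gen h (Nat.le_succ N) hp (e ▸ h1) (fun i => ?_) ?_
      · rw [e, abs_lt]
        by_cases hi : i = j
        · subst hi; simp [split]; omega
        · simp [split, hi]
      · intro b _ _ hb
        obtain rfl : 0 = b := hb
        rw [add_zero, e]; exact h1
    · refine bd_gen h (Nat.le_succ N) hp (fun i => ?_) (fun i => ?_) fun b _ hb1 hb2 i => ?_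
      · have := h.1 i
        rw [e]
        rw [abs_lt] at this ⊢
        by_cases hi : i = j
        · subst hi; simp [split]; omega
        · simp [split, hi]; omega
      · rw [e]; simp [split]
      · have := h.1 i
        have h5 := congrFun hb2 i
        rw [e]
        rw [abs_lt] at this ⊢
        by_cases hi : i = j
        · subst hi; simp [split] at h5 ⊢; omega
        · simp [split, hi] at h5 ⊢; omega

theorem bd_run {ab : Bool} (u : Word (ZGen r)) :
    Bd (u.countP fun a => a.1.isRight) (run ab u (0, [])) := by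
  induction u with
  | nil => exact ⟨by simp, by simp⟩
  | cons a u ih =>
    rw [List.countP_cons]
    exact bd_act a ih (zwf_run u (p := (0, [])) trivial)

theorem bd_cfp {N q : ℕ} {a : ZV r} (h : Bd N (cfp q a)) : ∀ j, |a j| < 4 ^ N := by
  cases q with
  | zero => exact h.1
  | succ q => exact h.2 ((.inl 2, true), a) (by simp [cfp])

end Vale.Agent.P193
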