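import Vale.Agent.P193.PkgComp

/-! The counting action and locality of the stack action. -/

namespace Vale.Agent.P193

variable {r m : ℕ}

/-- The counting action of the generators. -/
def lg : ZGen r → Equiv.Perm (ℤ × FreeGroup ℤ)
  | .inl k => if k = 0 then Equiv.prodCongrRight fun n => Equiv.mulLeft (FreeGroup.of (-n))
      else if k = 1 then Equiv.prodCongr (Equiv.addRight 1) (Equiv.refl _) else 1
  | .inr _ => 1

theorem lg_rel : ∀ w ∈ zrel r, ev lg w = 1 :=
  (zrel_iff _).2 fun _ => ⟨Commute.one_right _, Commute.one_right _, fun _ => Commute.one_right _,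
    by simp [lg], fun _ _ => Commute.one_right _⟩

theorem lg_congr {u v : Word (ZGen r)} (h : ev (zg r) u = ev (zg r) v) : ev lg u = ev lg v := by
  rw [← PG.lift_ev _ lg lg_rel, ← PG.lift_ev _ lg lg_rel]
  exact congrArg _ h

theorem lg_y (ε : Bool) (n : ℤ) (g : FreeGroup ℤ) :
    sgn (lg (.inl 0 : ZGen r)) ε (n, g) = (n, FreeGroup.mk [(-n, ε)] * g) := by
  cases ε
  · rw [sgn_false, Equiv.Perm.inv_eq_iff_eq]
    change _ = (n, FreeGroup.of (-n) * (FreeGroup.mk [(-n, false)] * g))
    have : FreeGroup.mk [(-n, false)] = (FreeGroup.of (-n))⁻¹ := rfl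
    rw [this, mul_inv_cancel_left]
  · rfl

theorem lg_z (ε : Bool) (n : ℤ) (g : FreeGroup ℤ) :
    sgn (lg (.inl 1 : ZGen r)) ε (n, g) = (n + cond ε 1 (-1), g) := by
  cases ε
  · rw [sgn_false, Equiv.Perm.inv_eq_iff_eq]
    change _ = (n + -1 + 1, g)
    simp
  · rfl

theorem norm_lg (u : Word (ZGen r)) (t : ℤ × FreeGroup ℤ) :
    (ev lg u t).2.norm ≤ u.length + t.2.norm := by
  induction u with
  | nil => simp
  | cons a u ih =>
    rw [ev_cons, Equiv.Perm.mul_apply, List.length_cons]
    generalize ev lg u t = t' at ih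
    obtain ⟨n, g⟩ := t'
    rcases a with ⟨k | j, ε⟩
    · have : k = 0 ∨ k = 1 ∨ k = 2 := by omega
      rcases this with rfl | rfl | rfl
      · rw [lg_y]
        have h1 := FreeGroup.norm_mul_le (FreeGroup.mk [(-n, ε)]) g
        have h2 := FreeGroup.norm_mk_le (L₁ := [(-n, ε)])
        simp only [List.length_singleton] at h2 ih ⊢
        omega
      · rw [lg_z]; exact ih.trans (by omega)
      · simp only [lg]; simp at ih ⊢; omega
    · simp only [lg]; simp at ih ⊢; omega

/-- The power word. -/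
def pw (k : ℕ) (h : Word (Fin m)) : Word ℤ :=
  h.flatMap fun l => List.replicate k (((l.1 : ℕ) : ℤ), l.2)

theorem reduced_replicate {α : Type} {a : α × Bool} {L : Word α} (n : ℕ)
    (h : FreeGroup.IsReduced (a :: L)) : FreeGroup.IsReduced (List.replicate n a ++ a :: L) := by
  induction n with
  | zero => exact h
  | succ n ih =>
    cases n with
    | zero => exact List.IsChain.cons_cons (fun _ => rfl) h
    | succ n => exact List.IsChain.cons_cons (fun _ => rfl) ih

theorem reduced_pw (k : ℕ) {h : Word (Fin m)} (hh : FreeGroup.IsReduced h) :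
    FreeGroup.IsReduced (pw (k + 1) h) := by
  induction hh with
  | nil => exact List.IsChain.nil
  | singleton a =>
    rw [pw, List.flatMap_cons, List.replicate_succ', List.append_assoc]
    exact reduced_replicate k (List.IsChain.singleton _)
  | @cons_cons a b l h1 _ ih =>
    rw [pw, List.flatMap_cons, List.replicate_succ', List.append_assoc]
    refine reduced_replicate k (List.IsChain.cons_cons (fun e => h1 ?_) ih)
    exact Fin.ext (by simpa using e)

theorem length_pw (k : ℕ) (h : Word (Fin m)) : (pw k h).length = k * h.length := by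
  induction h with
  | nil => rfl
  | cons a h ih =>
    rw [pw, List.flatMap_cons, List.length_append, List.length_replicate, ← pw, ih,
      List.length_cons]
    ring

theorem norm_pw (k : ℕ) {h : Word (Fin m)} (hh : FreeGroup.IsReduced h) :
    (FreeGroup.mk (pw k h)).norm = k * h.length := by
  cases k with
  | zero =>
    have := FreeGroup.norm_mk_le (L₁ := pw 0 h)
    rw [length_pw] at this
    omega
  | succ k => rw [FreeGroup.norm, FreeGroup.toWord_mk, (reduced_pw k hh).reduce_eq, length_pw]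

/-- The word `z^i y^(±k) z^(-i)`. -/
def ζw (r k : ℕ) (l : Fin m × Bool) : Word (ZGen r) :=
  List.replicate l.1 (.inl 1, true) ++
    (List.replicate k (.inl 0, l.2) ++ List.replicate l.1 (.inl 1, false))

theorem lg_zrep (ε : Bool) (i : ℕ) (n : ℤ) (g : FreeGroup ℤ) :
    ev lg (List.replicate i ((.inl 1 : ZGen r), ε)) (n, g) =
      (n + cond ε (i : ℤ) (-(i : ℤ)), g) := by
  induction i with
  | zero => cases ε <;> simp
  | succ i ih =>
    rw [List.replicate_succ, ev_cons, Equiv.Perm.mul_apply, ih, lg_z]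
    cases ε <;> simp <;> ring

theorem lg_yrep (ε : Bool) (k : ℕ) (n : ℤ) (g : FreeGroup ℤ) :
    ev lg (List.replicate k ((.inl 0 : ZGen r), ε)) (n, g) =
      (n, FreeGroup.mk (List.replicate k (-n, ε)) * g) := by
  induction k with
  | zero => simp [← FreeGroup.one_eq_mk]
  | succ k ih =>
    rw [List.replicate_succ, ev_cons, Equiv.Perm.mul_apply, ih, lg_y, ← mul_assoc,
      FreeGroup.mul_mk]
    rfl

theorem lg_ζw (k : ℕ) (l : Fin m × Bool) (h : Word (Fin m)) :
    ev lg (ζw r k l) (0, FreeGroup.mk (pw k h)) = (0, FreeGroup.mk (pw k (l :: h))) := by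
  rw [ζw, ev_append, ev_append, Equiv.Perm.mul_apply, Equiv.Perm.mul_apply, lg_zrep, lg_yrep,
    lg_zrep, FreeGroup.mul_mk]
  simp [pw]

/-- Letters acting trivially in the counting action. -/
def Triv (u : Word (ZGen r)) : Prop := ∀ a ∈ u, lg a.1 = 1

theorem Triv.ev {u : Word (ZGen r)} (h : Triv u) : ev lg u = 1 := by
  have := ev_mem ⊥ lg u fun a ha => Subgroup.mem_bot.2 (h a ha)
  exact Subgroup.mem_bot.1 this

theorem triv_w (n : ℕ) (ε : Bool) : Triv (List.replicate n ((.inl 2 : ZGen r), ε)) := by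
  intro a ha
  rw [List.eq_of_mem_replicate ha]
  rfl

/-- The stack lies over `B`, and the upper part has counting value `t`. -/
def Over (B : List (ZL r × ZV r)) (t : ℤ × FreeGroup ℤ) (p : ZP r) : Prop :=
  ∃ T, p.2 = T ++ B ∧ ev lg (T.map Prod.fst) (0, 1) = t

theorem over_act {ab : Bool} {e : ZL r × ZV r} {s : List (ZL r × ZV r)} {t : ℤ × FreeGroup ℤ}
    {p : ZP r} (h : Over (e :: s) t p) (a : ZL r) (ha : a.1 = e.1.1 → t ≠ (0, 1)) :
    Over (e :: s) (sgn (lg a.1) a.2 t) (act ab a p) := by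
  have key : Over (e :: s) (sgn (lg a.1) a.2 t) (gen ab a p) := by
    obtain ⟨β, st⟩ := p
    obtain ⟨T, rfl, rfl⟩ := h
    rcases T with _ | ⟨e', T⟩
    · rw [List.nil_append, gen, if_neg fun h1 => ha (by rw [h1.2]) (by simp)]
      exact ⟨[(a, _)], rfl, by simp⟩
    · rw [List.cons_append, gen]
      split_ifs with h1
      · exact ⟨T, rfl, by simp [h1.2]⟩
      · exact ⟨(a, _) :: e' :: T, rfl, by simp⟩
  rcases a with ⟨k | ⟨j, _ | _⟩, ε⟩
  · exact key
  · rw [show lg (.inr (j, false) : ZGen r) = 1 from rfl, one_sgn]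
    exact h
  · exact key

theorem over_run {ab : Bool} {e : ZL r × ZV r} {s : List (ZL r × ZV r)} {t : ℤ × FreeGroup ℤ}
    {p : ZP r} (h : Over (e :: s) t p) (u : Word (ZGen r)) (hu : ∀ a ∈ u, a.1 ≠ e.1.1) :
    Over (e :: s) (ev lg u t) (run ab u p) := by
  induction u with
  | nil => simpa using h
  | cons a u ih =>
    rw [ev_cons, Equiv.Perm.mul_apply]
    exact over_act (ih fun b hb => hu b (List.mem_cons_of_mem _ hb)) a
      fun e => absurd e (hu a List.mem_cons_self)

theorem over_triv {ab : Bool} {e : ZL r × ZV r} {s : List (ZL r × ZV r)} {t : ℤ × FreeGroup ℤ}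
    {p : ZP r} (h : Over (e :: s) t p) (ht : t ≠ (0, 1)) {u : Word (ZGen r)} (hu : Triv u) :
    Over (e :: s) t (run ab u p) := by
  induction u with
  | nil => exact h
  | cons a u ih =>
    have := over_act (ab := ab) (ih fun b hb => hu b (List.mem_cons_of_mem _ hb)) a fun _ => ht
    rwa [hu a List.mem_cons_self, one_sgn] at this

theorem over_ζw {ab : Bool} {e : ZL r × ZV r} {s : List (ZL r × ZV r)} {k : ℕ}
    {h : Word (Fin m)} {p : ZP r} (he : e.1.1 ≠ .inl 0 ∧ e.1.1 ≠ .inl 1)
    (hp : Over (e :: s) (0, FreeGroup.mk (pw k h)) p) (l : Fin m × Bool) :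
    Over (e :: s) (0, FreeGroup.mk (pw k (l :: h))) (run ab (ζw r k l) p) := by
  rw [← lg_ζw (r := r)]
  refine over_run hp _ fun a ha => ?_
  simp only [ζw, List.mem_append, List.mem_replicate] at ha
  rcases ha with ⟨-, rfl⟩ | ⟨-, rfl⟩ | ⟨-, rfl⟩
  · exact he.2.symm
  · exact he.1.symm
  · exact he.2.symm

theorem pw_ne {k : ℕ} (hk : k ≠ 0) {l : Fin m × Bool} {h : Word (Fin m)}
    (hh : FreeGroup.IsReduced (l :: h)) :
    ((0 : ℤ), FreeGroup.mk (pw k (l :: h))) ≠ (0, 1) := fun e => by
  have h1 := norm_pw k hh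
  rw [(Prod.mk.inj e).2, FreeGroup.norm_one, List.length_cons] at h1
  exact Nat.mul_ne_zero hk (Nat.succ_ne_zero _) h1.symm

theorem Over.le {B : List (ZL r × ZV r)} {t : ℤ × FreeGroup ℤ} {p : ZP r} (h : Over B t p) :
    t.2.norm ≤ p.2.length := by
  obtain ⟨T, h1, rfl⟩ := h
  have := norm_lg (T.map Prod.fst) (0, 1)
  rw [h1]
  simp at this ⊢
  omega

theorem Over.cfp {B : List (ZL r × ZV r)} {t : ℤ × FreeGroup ℤ} {q : ℕ} {a : ZV r}
    (h : Over B t (cfp q a)) : t = (0, 1) := by
  obtain ⟨T, h1, rfl⟩ := h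
  have : Triv (T.map Prod.fst) := fun x hx => by
    obtain ⟨e, he, rfl⟩ := List.mem_map.1 hx
    rw [mem_cfp (h1 ▸ List.mem_append_left _ he)]
    rfl
  rw [this.ev]; rfl

/-- All words of bounded length. -/
def allW (m n : ℕ) : List (Word (Fin m)) :=
  (fun W : List (Word (Fin m)) => [] :: W.flatMap fun v =>
    ((List.finRange m).flatMap fun i => [(i, true), (i, false)]).map fun a => a :: v)^[n] [[]]

theorem mem_allW {n : ℕ} {v : Word (Fin m)} (h : v.length ≤ n) : v ∈ allW m n := by
  induction n generalizing v with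
  | zero => simp [allW, List.length_eq_zero_iff.1 (Nat.le_zero.1 h)]
  | succ n ih =>
    rw [allW, Function.iterate_succ_apply']
    rcases v with _ | ⟨⟨i, ε⟩, v⟩
    · exact List.mem_cons_self
    · refine List.mem_cons_of_mem _ (List.mem_flatMap.2 ⟨v, ih (by simpa using h), ?_⟩)
      refine List.mem_map.2 ⟨(i, ε), List.mem_flatMap.2 ⟨i, List.mem_finRange i, ?_⟩, rfl⟩
      cases ε <;> simp

theorem primrec_allW (m : ℕ) : Primrec (allW m) :=
  Lib.Comp.pr_iterate (h := fun _ (W : List (Word (Fin m))) => [] :: W.flatMap fun v =>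
    ((List.finRange m).flatMap fun i => [(i, true), (i, false)]).map fun a => a :: v)
    Primrec.id (Primrec.const _) (Lib.Comp.pr_cons (Primrec.const _)
      (Lib.Comp.pr_flatMap Primrec.snd (Lib.Comp.pr_map (Primrec.const _) (by fun_prop))))

end Vale.Agent.P193
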