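import Vale.Agent.P193.Basic
import Vale.Agent.Lib.Comp.FunProp
import Mathlib.Computability.Halting
import Mathlib.Tactic.LinearCombination
import Mathlib.Data.List.Chain

/-! Recursively enumerable predicates, enumeration operators, and words. -/

namespace Vale.Agent.P193

section RE
variable {α β γ : Type} [Primcodable α] [Primcodable β] [Primcodable γ]

/-- An r.e. predicate has a primitive recursive monotone approximation. -/
theorem re_iff_primrec {p : α → Prop} (hp : REPred p) :
    ∃ f : α × ℕ → Bool, Primrec f ∧ (∀ a, p a ↔ ∃ n, f (a, n) = true) ∧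
      ∀ a m n, m ≤ n → f (a, m) = true → f (a, n) = true := by
  obtain ⟨c, hc⟩ := Nat.Partrec.Code.exists_code.1 hp
  refine ⟨fun x => (Nat.Partrec.Code.evaln x.2 c (Encodable.encode x.1)).isSome,
    Primrec.option_isSome.comp (Nat.Partrec.Code.primrec_evaln.comp
      ((Primrec.snd.pair (Primrec.const c)).pair (Primrec.encode.comp Primrec.fst))),
    fun a => ?_, fun a m n hmn h => ?_⟩
  · have e : ∀ y, y ∈ c.eval (Encodable.encode a) ↔ p a ∧ y = Encodable.encode () := by
      intro y
      rw [hc]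
      simp only [Encodable.encodek, Part.coe_some, Part.bind_some, Part.mem_map_iff,
        Part.mem_assert_iff, Part.mem_some_iff]
      exact ⟨fun ⟨_, ⟨h1, _⟩, h2⟩ => ⟨h1, h2.symm⟩, fun ⟨h1, h2⟩ => ⟨(), ⟨h1, trivial⟩, h2.symm⟩⟩
    constructor
    · intro h
      obtain ⟨k, hk⟩ := Nat.Partrec.Code.evaln_complete.1 ((e _).2 ⟨h, rfl⟩)
      exact ⟨k, Option.isSome_iff_exists.2 ⟨_, hk⟩⟩
    · rintro ⟨k, hk⟩
      obtain ⟨y, hy⟩ := Option.isSome_iff_exists.1 hk
      exact ((e y).1 (Nat.Partrec.Code.evaln_sound hy)).1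
  · obtain ⟨y, hy⟩ := Option.isSome_iff_exists.1 h
    exact Option.isSome_iff_exists.2 ⟨y, Nat.Partrec.Code.evaln_mono hmn hy⟩

theorem re_of_exists {f : α × ℕ → Bool} (hf : Computable f) :
    REPred fun a => ∃ n, f (a, n) = true := by
  have h : Partrec fun a => Nat.rfind fun n => Part.some (f (a, n)) :=
    Partrec.rfind (p := fun a n => Part.some (f (a, n))) hf.partrec
  refine h.dom_re.of_eq fun a => ?_
  refine (Nat.rfind_dom (p := fun n => Part.some (f (a, n)))).trans ?_
  simp

theorem re_of_iff {p q : α → Prop} (hp : REPred p) (h : ∀ a, p a ↔ q a) : REPred q :=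
  hp.of_eq h

theorem re_comp {p : β → Prop} {f : α → β} (hp : REPred p) (hf : Computable f) :
    REPred fun a => p (f a) :=
  Partrec.comp hp hf

theorem re_of_computable {f : α → Bool} (hf : Computable f) : REPred fun a => f a = true :=
  (ComputablePred.computable_iff.2 ⟨f, hf, rfl⟩).to_re

theorem re_of_primrecPred {p : α → Prop} (hp : PrimrecPred p) : REPred p :=
  hp.computablePred.to_re

theorem re_eq {f g : α → β} (hf : Computable f) (hg : Computable g) :
    REPred fun a => f a = g a :=
  re_comp (p := fun x : β × β => x.1 = x.2) (re_of_primrecPred Primrec.eq) (hf.pair hg)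

theorem re_ne {f g : α → β} (hf : Computable f) (hg : Computable g) :
    REPred fun a => f a ≠ g a :=
  re_comp (p := fun x : β × β => x.1 ≠ x.2) (re_of_primrecPred (PrimrecPred.not Primrec.eq))
    (hf.pair hg)

theorem re_const (p : Prop) : REPred fun _ : α => p := by
  classical
  exact (re_of_computable (Computable.const (decide p))).of_eq fun _ => by simp

theorem re_and {p q : α → Prop} (hp : REPred p) (hq : REPred q) :
    REPred fun a => p a ∧ q a := by
  obtain ⟨f, hf, h1, h2⟩ := re_iff_primrec hp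
  obtain ⟨g, hg, h3, h4⟩ := re_iff_primrec hq
  refine (re_of_exists (Primrec.and.comp hf hg).to_comp).of_eq fun a => ?_
  simp only [Bool.and_eq_true, h1, h3]
  exact ⟨fun ⟨n, a1, a2⟩ => ⟨⟨n, a1⟩, n, a2⟩, fun ⟨⟨m, a1⟩, n, a2⟩ =>
    ⟨max m n, h2 _ _ _ (le_max_left _ _) a1, h4 _ _ _ (le_max_right _ _) a2⟩⟩

theorem re_or {p q : α → Prop} (hp : REPred p) (hq : REPred q) :
    REPred fun a => p a ∨ q a := by
  obtain ⟨f, hf, h1, -⟩ := re_iff_primrec hp
  obtain ⟨g, hg, h3, -⟩ := re_iff_primrec hq
  refine (re_of_exists (Primrec.or.comp hf hg).to_comp).of_eq fun a => ?_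
  simp only [Bool.or_eq_true, h1, h3, exists_or]

theorem re_exists {p : α → β → Prop} (hp : REPred fun x : α × β => p x.1 x.2) :
    REPred fun a => ∃ b, p a b := by
  obtain ⟨f, hf, h1, -⟩ := re_iff_primrec hp
  have hg : Primrec fun x : α × ℕ => Option.elim (Encodable.decode (α := β) x.2.unpair.1) false
      fun b => f ((x.1, b), x.2.unpair.2) :=
    Lib.Comp.pr_optElim (h := fun (x : α × ℕ) b => f ((x.1, b), x.2.unpair.2))
      (Primrec.decode.comp (by fun_prop)) (Primrec.const _) (hf.comp (by fun_prop))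
  refine (re_of_exists hg.to_comp).of_eq fun a => ⟨?_, ?_⟩
  · rintro ⟨n, hn⟩
    cases h : Encodable.decode (α := β) n.unpair.1 with
    | none => simp [h] at hn
    | some b =>
      simp only [h, Option.elim_some] at hn
      exact ⟨b, (h1 (a, b)).2 ⟨_, hn⟩⟩
  · rintro ⟨b, hb⟩
    obtain ⟨n, hn⟩ := (h1 (a, b)).1 hb
    exact ⟨Nat.pair (Encodable.encode b) n, by simpa using hn⟩

theorem re_forall_mem {p : α → β → Prop} {l : α → List β} (hl : Computable l)
    (hp : REPred fun x : α × β => p x.1 x.2) : REPred fun a => ∀ b ∈ l a, p a b := by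
  obtain ⟨f, hf, h1, h2⟩ := re_iff_primrec hp
  have hg : Primrec fun x : (α × List β) × ℕ =>
      x.1.2.foldr (fun b s => f ((x.1.1, b), x.2) && s) true :=
    Lib.Comp.pr_foldr (h := fun (x : (α × List β) × ℕ) b s => f ((x.1.1, b), x.2) && s)
      (by fun_prop) (Primrec.const _) (Primrec.and.comp (hf.comp (by fun_prop)) (by fun_prop))
  have key : REPred fun x : α × List β => ∀ b ∈ x.2, p x.1 b := by
    refine (re_of_exists hg.to_comp).of_eq ?_
    rintro ⟨a, L⟩
    have e : ∀ n, L.foldr (fun b s => f ((a, b), n) && s) true = true ↔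
        ∀ b ∈ L, f ((a, b), n) = true := fun n => by
      induction L with
      | nil => simp
      | cons b L ih => simp [ih]
    simp only [e]
    clear e
    refine ⟨fun ⟨n, hn⟩ b hb => (h1 (a, b)).2 ⟨n, hn b hb⟩, fun h => ?_⟩
    induction L with
    | nil => simp
    | cons b L ih =>
      obtain ⟨m, hm⟩ := ih fun b hb => h b (List.mem_cons_of_mem _ hb)
      obtain ⟨n, hn⟩ := (h1 (a, b)).1 (h b List.mem_cons_self)
      refine ⟨max m n, fun c hc => ?_⟩
      rcases List.mem_cons.1 hc with rfl | hc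
      · exact h2 _ _ _ (le_max_right _ _) hn
      · exact h2 _ _ _ (le_max_left _ _) (hm c hc)
  exact re_comp key (Computable.id.pair hl)

theorem re_forall_lt {p : α → ℕ → Prop} {n : α → ℕ} (hn : Computable n)
    (hp : REPred fun x : α × ℕ => p x.1 x.2) : REPred fun a => ∀ k < n a, p a k :=
  (re_forall_mem (l := fun a => List.range (n a)) (Lib.Comp.co_range hn) hp).of_eq fun a => by
    simp

theorem re_mem_list {f : α → β} {l : α → List β} (hf : Computable f) (hl : Computable l) :
    REPred fun a => f a ∈ l a :=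
  (re_exists (p := fun a (i : ℕ) => (l a)[i]? = some (f a))
    (re_eq (Computable.list_getElem?.comp (hl.comp Computable.fst) Computable.snd)
      (Computable.option_some.comp (hf.comp Computable.fst)))).of_eq fun _ =>
    List.mem_iff_getElem?.symm

theorem isChain_iff_zip {δ : Type} (R : δ → δ → Prop) (l : List δ) :
    List.IsChain R l ↔ ∀ k < l.length, l[k + 1]? = none ∨
      ∃ x : δ × δ, (l[k]? = some x.1 ∧ l[k + 1]? = some x.2) ∧ R x.1 x.2 := by
  rw [List.isChain_iff_getElem]
  constructor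
  · intro h k hk
    by_cases h1 : k + 1 < l.length
    · exact Or.inr ⟨(l[k], l[k + 1]), ⟨by simp, by simp⟩, h k h1⟩
    · exact Or.inl (by simpa using h1)
  · intro h k hk
    rcases h k (by omega) with h1 | ⟨x, ⟨h1, h2⟩, h3⟩
    · simp at h1; omega
    · rw [List.getElem?_eq_getElem (by omega), Option.some_inj] at h1 h2
      rwa [h1, h2]

theorem co_getElem? {l : α → List β} {n : α → ℕ} (hl : Computable l) (hn : Computable n) :
    Computable fun a => (l a)[n a]? := Computable.list_getElem?.comp hl hn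

theorem co_some {f : α → β} (hf : Computable f) : Computable fun a => some (f a) :=
  Computable.option_some.comp hf

theorem re_isChain {R : α → β → β → Prop} {l : α → List β} (hl : Computable l)
    (hR : REPred fun x : α × β × β => R x.1 x.2.1 x.2.2) :
    REPred fun a => List.IsChain (R a) (l a) := by
  refine (re_forall_lt (n := fun a => (l a).length) (p := fun a k => (l a)[k + 1]? = none ∨
      ∃ x : β × β, ((l a)[k]? = some x.1 ∧ (l a)[k + 1]? = some x.2) ∧ R a x.1 x.2)
    (by fun_prop) (re_or (re_eq (co_getElem? (by fun_prop) (by fun_prop)) (by fun_prop))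
      (re_exists (p := fun (y : α × ℕ) (x : β × β) =>
        ((l y.1)[y.2]? = some x.1 ∧ (l y.1)[y.2 + 1]? = some x.2) ∧ R y.1 x.1 x.2)
        (re_and (re_and
          (re_eq (co_getElem? (by fun_prop) (by fun_prop)) (co_some (by fun_prop)))
          (re_eq (co_getElem? (by fun_prop) (by fun_prop)) (co_some (by fun_prop))))
          (re_comp hR (f := fun y : (α × ℕ) × β × β => (y.1.1, y.2)) (by fun_prop)))))).of_eq
    fun a => (isChain_iff_zip _ _).symm

theorem re_reflTransGen {R : α → β → β → Prop}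
    (hR : REPred fun x : α × β × β => R x.1 x.2.1 x.2.2) :
    REPred fun x : α × β × β => Relation.ReflTransGen (R x.1) x.2.1 x.2.2 := by
  refine (re_exists (p := fun (x : α × β × β) (l : List β) =>
      List.IsChain (R x.1) (x.2.1 :: l) ∧ (x.2.1 :: l)[l.length]? = some x.2.2)
    (re_and (re_isChain (R := fun (y : (α × β × β) × List β) => R y.1.1)
      (l := fun y => y.1.2.1 :: y.2) (by fun_prop)
      (re_comp hR (f := fun y : ((α × β × β) × List β) × β × β => (y.1.1.1, y.2)) (by fun_prop)))
      (re_eq (co_getElem? (by fun_prop) (by fun_prop)) (co_some (by fun_prop))))).of_eq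
    fun x => ?_
  have e : ∀ l : List β, (x.2.1 :: l)[l.length]? = some x.2.2 ↔
      (x.2.1 :: l).getLast (List.cons_ne_nil _ _) = x.2.2 := fun l => by
    rw [List.getLast_eq_getElem, List.getElem?_eq_getElem (by simp), Option.some_inj]
    simp
  simp only [e]
  exact ⟨fun ⟨l, h1, h2⟩ => List.relationReflTransGen_of_exists_isChain_cons l h1 h2,
    List.exists_isChain_cons_of_relationReflTransGen⟩

/-- Membership in a value of a partial recursive function is r.e. -/
theorem re_mem_partrec {f : α →. β} (hf : Partrec f) : REPred fun x : α × β => x.2 ∈ f x.1 := by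
  have h2 : REPred fun y : (α × β) × β => y.1.2 = y.2 := re_eq (by fun_prop) (by fun_prop)
  have h := (hf.comp (Computable.fst (β := β))).bind
    (g := fun (x : α × β) y => Part.assert (x.2 = y) fun _ => Part.some ()) h2
  refine h.dom_re.of_eq fun x => ?_
  simp [Part.dom_iff_mem]

/-- Kleene's recursion theorem, in the form used here. -/
theorem exists_fixed_code {p : ℕ → ℕ → Prop} {f : ℕ → ℕ → ℕ}
    (hp : REPred fun x : ℕ × ℕ => p x.1 x.2) (hf : Computable fun x : ℕ × ℕ => f x.1 x.2) :
    ∃ e : ℕ, ∀ k y : ℕ,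
      y ∈ (Denumerable.ofNat Nat.Partrec.Code e).eval k ↔ p e k ∧ y = f e k := by
  have h1 : REPred fun x : Nat.Partrec.Code × ℕ => p (Encodable.encode x.1) x.2 :=
    re_comp hp (f := fun x : Nat.Partrec.Code × ℕ => (Encodable.encode x.1, x.2)) (by fun_prop)
  have h2 := Partrec.map h1 (g := fun (x : Nat.Partrec.Code × ℕ) _ => f (Encodable.encode x.1) x.2)
    (hf.comp (g := fun x : (Nat.Partrec.Code × ℕ) × Unit => (Encodable.encode x.1.1, x.1.2))
      (by fun_prop))
  obtain ⟨c, hc⟩ := Nat.Partrec.Code.fixed_point₂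
    (f := fun c k => (Part.assert (p (Encodable.encode c) k) fun _ => Part.some ()).map
      fun _ => f (Encodable.encode c) k) h2
  refine ⟨Encodable.encode c, fun k y => ?_⟩
  rw [Denumerable.ofNat_encode, hc]
  simp [eq_comm]

/-- Enumeration operators: `F S a` holds iff some finite list of positive information about `S`
together with an r.e. condition is available. -/
def EnumOp (F : (β → Prop) → α → Prop) : Prop :=
  ∃ St : α → List β → Prop, REPred (fun x : α × List β => St x.1 x.2) ∧
    ∀ S a, F S a ↔ ∃ L, St a L ∧ ∀ y ∈ L, S y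

theorem EnumOp.of_iff {F F' : (β → Prop) → α → Prop} (h : EnumOp F)
    (e : ∀ S a, F S a ↔ F' S a) : EnumOp F' := by
  obtain ⟨St, h1, h2⟩ := h
  exact ⟨St, h1, fun S a => (e S a).symm.trans (h2 S a)⟩

theorem EnumOp.mono {F : (β → Prop) → α → Prop} (h : EnumOp F) {S S' : β → Prop}
    (hS : ∀ y, S y → S' y) {a : α} (ha : F S a) : F S' a := by
  obtain ⟨St, -, h2⟩ := h
  obtain ⟨L, a1, a2⟩ := (h2 S a).1 ha
  exact (h2 S' a).2 ⟨L, a1, fun y hy => hS y (a2 y hy)⟩

theorem EnumOp.re {F : (β → Prop) → α → Prop} (h : EnumOp F) {S : β → Prop} (hS : REPred S) :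
    REPred (F S) := by
  obtain ⟨St, h1, h2⟩ := h
  exact (re_exists (p := fun a L => St a L ∧ ∀ y ∈ L, S y) (re_and h1
    (re_forall_mem (p := fun (_ : α × List β) y => S y) Computable.snd
      (re_comp hS Computable.snd)))).of_eq fun a => (h2 S a).symm

theorem EnumOp.const {p : α → Prop} (hp : REPred p) : EnumOp fun (_ : β → Prop) a => p a :=
  ⟨fun a _ => p a, re_comp hp Computable.fst, fun _ _ =>
    ⟨fun h => ⟨[], h, by simp⟩, fun ⟨_, h, _⟩ => h⟩⟩

theorem EnumOp.query {f : α → β} (hf : Computable f) : EnumOp fun S a => S (f a) :=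
  ⟨fun a L => f a ∈ L, re_mem_list (hf.comp Computable.fst) Computable.snd, fun _ a =>
    ⟨fun h => ⟨[f a], by simp, by simpa using h⟩, fun ⟨_, h1, h2⟩ => h2 _ h1⟩⟩

theorem EnumOp.comp {F : (β → Prop) → α → Prop} (h : EnumOp F) {f : γ → α}
    (hf : Computable f) : EnumOp fun S c => F S (f c) := by
  obtain ⟨St, h1, h2⟩ := h
  exact ⟨fun c L => St (f c) L,
    re_comp h1 (f := fun x : γ × List β => (f x.1, x.2)) (by fun_prop), fun S c => h2 S (f c)⟩

/-- The side condition may be taken monotone in the list. -/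
theorem EnumOp.up {F : (β → Prop) → α → Prop} (h : EnumOp F) :
    ∃ St : α → List β → Prop, REPred (fun x : α × List β => St x.1 x.2) ∧
      (∀ S a, F S a ↔ ∃ L, St a L ∧ ∀ y ∈ L, S y) ∧
      ∀ a L L', (∀ y ∈ L, y ∈ L') → St a L → St a L' := by
  obtain ⟨St, h1, h2⟩ := h
  refine ⟨fun a L => ∃ L', St a L' ∧ ∀ y ∈ L', y ∈ L,
    re_exists (p := fun (x : α × List β) L' => St x.1 L' ∧ ∀ y ∈ L', y ∈ x.2) (re_and
      (re_comp h1 (f := fun x : (α × List β) × List β => (x.1.1, x.2)) (by fun_prop))
      (re_forall_mem (p := fun (x : (α × List β) × List β) y => y ∈ x.1.2) Computable.snd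
        (re_mem_list (by fun_prop) (by fun_prop)))), fun S a => ?_, ?_⟩
  · rw [h2]
    exact ⟨fun ⟨L, a1, a2⟩ => ⟨L, ⟨L, a1, fun _ h => h⟩, a2⟩,
      fun ⟨L, ⟨L', a1, a3⟩, a2⟩ => ⟨L', a1, fun y hy => a2 y (a3 y hy)⟩⟩
  · rintro a L L' hL ⟨L'', a1, a2⟩
    exact ⟨L'', a1, fun y hy => hL y (a2 y hy)⟩

theorem EnumOp.and {F F' : (β → Prop) → α → Prop} (h : EnumOp F) (h' : EnumOp F') :
    EnumOp fun S a => F S a ∧ F' S a := by
  obtain ⟨St, h1, h2, h3⟩ := h.up
  obtain ⟨St', h1', h2', h3'⟩ := h'.up
  refine ⟨fun a L => St a L ∧ St' a L, re_and h1 h1', fun S a => ?_⟩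
  simp only [h2, h2']
  refine ⟨fun ⟨⟨L, a1, a2⟩, L', a3, a4⟩ => ⟨L ++ L', ⟨h3 _ _ _ (by simp +contextual) a1,
    h3' _ _ _ (by simp +contextual) a3⟩, fun y hy => ?_⟩,
    fun ⟨L, ⟨a1, a2⟩, a3⟩ => ⟨⟨L, a1, a3⟩, L, a2, a3⟩⟩
  exact (List.mem_append.1 hy).elim (a2 y) (a4 y)

theorem EnumOp.or {F F' : (β → Prop) → α → Prop} (h : EnumOp F) (h' : EnumOp F') :
    EnumOp fun S a => F S a ∨ F' S a := by
  obtain ⟨St, h1, h2⟩ := h
  obtain ⟨St', h1', h2'⟩ := h'
  refine ⟨fun a L => St a L ∨ St' a L, re_or h1 h1', fun S a => ?_⟩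
  simp only [h2, h2', or_and_right, exists_or]

theorem EnumOp.exists {F : (β → Prop) → α → γ → Prop}
    (h : EnumOp fun S (x : α × γ) => F S x.1 x.2) : EnumOp fun S a => ∃ c, F S a c := by
  obtain ⟨St, h1, h2⟩ := h
  refine ⟨fun a L => ∃ c, St (a, c) L,
    re_exists (p := fun (x : α × List β) c => St (x.1, c) x.2)
      (re_comp h1 (f := fun x : (α × List β) × γ => ((x.1.1, x.2), x.1.2)) (by fun_prop)),
    fun S a => ?_⟩
  exact ⟨fun ⟨c, hc⟩ => let ⟨L, a1, a2⟩ := (h2 S (a, c)).1 hc; ⟨L, ⟨c, a1⟩, a2⟩,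
    fun ⟨L, ⟨c, a1⟩, a2⟩ => ⟨c, (h2 S (a, c)).2 ⟨L, a1, a2⟩⟩⟩

theorem EnumOp.forall_mem {F : (β → Prop) → α → γ → Prop} {l : α → List γ} (hl : Computable l)
    (h : EnumOp fun S (x : α × γ) => F S x.1 x.2) : EnumOp fun S a => ∀ c ∈ l a, F S a c := by
  obtain ⟨St, h1, h2, h3⟩ := h.up
  refine ⟨fun a L => ∀ c ∈ l a, St (a, c) L,
    re_forall_mem (p := fun (x : α × List β) c => St (x.1, c) x.2) (hl.comp Computable.fst)
      (re_comp h1 (f := fun x : (α × List β) × γ => ((x.1.1, x.2), x.1.2)) (by fun_prop)),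
    fun S a => ⟨fun h => ?_, fun ⟨L, a1, a2⟩ c hc => (h2 S (a, c)).2 ⟨L, a1 c hc, a2⟩⟩⟩
  simp only at h ⊢
  generalize l a = l' at h
  induction l' with
  | nil => exact ⟨[], by simp, by simp⟩
  | cons c l' ih =>
    obtain ⟨L, a1, a2⟩ := ih fun c hc => h c (List.mem_cons_of_mem _ hc)
    obtain ⟨L', a3, a4⟩ := (h2 S (a, c)).1 (h c List.mem_cons_self)
    refine ⟨L ++ L', fun c' hc' => ?_, fun y hy => (List.mem_append.1 hy).elim (a2 y) (a4 y)⟩
    rcases List.mem_cons.1 hc' with rfl | hc'
    · exact h3 _ _ _ (by simp +contextual) a3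
    · exact h3 _ _ _ (by simp +contextual) (a1 c' hc')

theorem EnumOp.isChain {R : (β → Prop) → α → γ → γ → Prop} {l : α → List γ} (hl : Computable l)
    (hR : EnumOp fun S (x : α × γ × γ) => R S x.1 x.2.1 x.2.2) :
    EnumOp fun S a => List.IsChain (R S a) (l a) := by
  refine (EnumOp.forall_mem (l := fun a => List.range (l a).length)
    (F := fun S a k => (l a)[k + 1]? = none ∨
      ∃ x : γ × γ, ((l a)[k]? = some x.1 ∧ (l a)[k + 1]? = some x.2) ∧ R S a x.1 x.2)
    (by fun_prop) (EnumOp.or
      (EnumOp.const (re_eq (co_getElem? (by fun_prop) (by fun_prop)) (by fun_prop)))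
      (EnumOp.exists (F := fun S (y : α × ℕ) (x : γ × γ) =>
        ((l y.1)[y.2]? = some x.1 ∧ (l y.1)[y.2 + 1]? = some x.2) ∧ R S y.1 x.1 x.2)
        (EnumOp.and (EnumOp.const (re_and
          (re_eq (co_getElem? (by fun_prop) (by fun_prop)) (co_some (by fun_prop)))
          (re_eq (co_getElem? (by fun_prop) (by fun_prop)) (co_some (by fun_prop)))))
          (hR.comp (f := fun y : (α × ℕ) × γ × γ => (y.1.1, y.2)) (by fun_prop)))))).of_iff
    fun S a => ?_
  rw [isChain_iff_zip]
  simp only [List.mem_range]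

/-- Recursion on a rank through an enumeration operator; `α` is a parameter. -/
def rankRec (F : (α × β → Prop) → (α × ℕ) × β → Prop) : ℕ → α × β → Prop
  | 0, _ => False
  | d + 1, x => F (rankRec F d) ((x.1, d), x.2)

theorem re_rankRec {F : (α × β → Prop) → (α × ℕ) × β → Prop} (h : EnumOp F) :
    REPred fun x : ℕ × α × β => rankRec F x.1 x.2 := by
  obtain ⟨St, h1, h2⟩ := h
  let Row : List (ℕ × α × β) → ℕ × α × β → Prop := fun T r =>
    ∃ z : ℕ × List (α × β), (r.1 = z.1 + 1 ∧ St ((r.2.1, z.1), r.2.2) z.2) ∧ ∀ y ∈ z.2, (z.1, y) ∈ T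
  have hRow : REPred fun x : List (ℕ × α × β) × (ℕ × α × β) => Row x.1 x.2 :=
    re_exists (p := fun (x : List (ℕ × α × β) × (ℕ × α × β)) (z : ℕ × List (α × β)) =>
      (x.2.1 = z.1 + 1 ∧ St ((x.2.2.1, z.1), x.2.2.2) z.2) ∧ ∀ y ∈ z.2, (z.1, y) ∈ x.1)
      (re_and (re_and (re_eq (by fun_prop) (by fun_prop))
        (re_comp h1 (f := fun w : (List (ℕ × α × β) × (ℕ × α × β)) × (ℕ × List (α × β)) =>
          (((w.1.2.2.1, w.2.1), w.1.2.2.2), w.2.2)) (by fun_prop)))
        (re_forall_mem (p := fun (w : (List (ℕ × α × β) × (ℕ × α × β)) × (ℕ × List (α × β))) y =>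
          (w.2.1, y) ∈ w.1.1) (by fun_prop) (re_mem_list (by fun_prop) (by fun_prop))))
  have mono : ∀ T T' r, (∀ y ∈ T, y ∈ T') → Row T r → Row T' r := by
    rintro T T' r hT ⟨z, a1, a2⟩
    exact ⟨z, a1, fun y hy => hT _ (a2 y hy)⟩
  refine (re_exists (p := fun (x : ℕ × α × β) (T : List (ℕ × α × β)) =>
      x ∈ T ∧ ∀ r ∈ T, Row T r) (re_and (re_mem_list (by fun_prop) (by fun_prop))
      (re_forall_mem (p := fun (x : (ℕ × α × β) × List (ℕ × α × β)) r => Row x.2 r)
        Computable.snd (re_comp hRow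
          (f := fun w : ((ℕ × α × β) × List (ℕ × α × β)) × (ℕ × α × β) => (w.1.2, w.2))
          (by fun_prop))))).of_eq ?_
  rintro ⟨d, x⟩
  constructor
  · rintro ⟨T, a1, a2⟩
    induction d generalizing x with
    | zero => obtain ⟨z, ⟨a3, -⟩, -⟩ := a2 _ a1; simp at a3
    | succ d ih =>
      obtain ⟨⟨d', L⟩, ⟨a3, a4⟩, a5⟩ := a2 _ a1
      obtain rfl : d = d' := by simpa using a3
      exact (h2 _ _).2 ⟨L, a4, fun y hy => ih y (a5 y hy)⟩
  · intro hx
    induction d generalizing x with
    | zero => exact hx.elim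
    | succ d ih =>
      obtain ⟨L, a1, a2⟩ := (h2 _ _).1 hx
      have : ∃ T : List (ℕ × α × β), (∀ y ∈ L, (d, y) ∈ T) ∧ ∀ r ∈ T, Row T r := by
        clear a1
        induction L with
        | nil => exact ⟨[], by simp, by simp⟩
        | cons y L ihL =>
          obtain ⟨T, b1, b2⟩ := ihL fun y hy => a2 y (List.mem_cons_of_mem _ hy)
          obtain ⟨T', b3, b4⟩ := ih y (a2 y List.mem_cons_self)
          refine ⟨T ++ T', fun y' hy' => ?_, fun r hr => ?_⟩
          · rcases List.mem_cons.1 hy' with rfl | hy'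
            · exact List.mem_append_right _ b3
            · exact List.mem_append_left _ (b1 y' hy')
          · rcases List.mem_append.1 hr with hr | hr
            · exact mono _ _ _ (by simp +contextual) (b2 r hr)
            · exact mono _ _ _ (by simp +contextual) (b4 r hr)
      obtain ⟨T, b1, b2⟩ := this
      refine ⟨(d + 1, x) :: T, List.mem_cons_self, fun r hr => ?_⟩
      rcases List.mem_cons.1 hr with rfl | hr
      · exact ⟨(d, L), ⟨rfl, a1⟩, fun y hy => List.mem_cons_of_mem _ (b1 y hy)⟩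
      · exact mono _ _ _ (by simp +contextual) (b2 r hr)

end RE

section Words
variable {α β ι π : Type} [Primcodable α] [Primcodable β] [Primcodable ι] [Primcodable π]

@[fun_prop] theorem primrec_invRev {f : π → Word α} (hf : Primrec f) :
    Primrec fun a => FreeGroup.invRev (f a) :=
  Primrec.list_reverse.comp (Lib.Comp.pr_map (g := fun _ (x : α × Bool) => (x.1, !x.2)) hf
    ((Primrec.fst.comp Primrec.snd).pair (Primrec.not.comp (Primrec.snd.comp Primrec.snd))))

@[fun_prop] theorem primrec_wmap {f : α → β} {w : π → Word α} (hf : Primrec f) (hw : Primrec w) :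
    Primrec fun a => wmap f (w a) :=
  Lib.Comp.pr_map (g := fun _ (x : α × Bool) => (f x.1, x.2)) hw (by fun_prop)

@[fun_prop] theorem primrec_subst {f : π → α → Word β} {w : π → Word α}
    (hf : Primrec fun x : π × α => f x.1 x.2) (hw : Primrec w) :
    Primrec fun a => subst (f a) (w a) :=
  have h1 : Primrec fun x : π × α × Bool => f x.1 x.2.1 :=
    hf.comp (g := fun x : π × α × Bool => (x.1, x.2.1)) (by fun_prop)
  Lib.Comp.pr_flatMap
    (g := fun a (x : α × Bool) => cond x.2 (f a x.1) (FreeGroup.invRev (f a x.1))) hw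
    (Primrec.cond (by fun_prop) h1 (primrec_invRev h1))

@[fun_prop] theorem computable_invRev {f : π → Word α} (hf : Computable f) :
    Computable fun a => FreeGroup.invRev (f a) :=
  (primrec_invRev Primrec.id).to_comp.comp hf

@[fun_prop] theorem computable_wmap {f : α → β} {w : π → Word α} (hf : Computable f)
    (hw : Computable w) : Computable fun a => wmap f (w a) :=
  Lib.Comp.co_map (g := fun _ (x : α × Bool) => (f x.1, x.2)) hw (by fun_prop)

@[fun_prop] theorem computable_subst {f : π → α → Word β} {w : π → Word α}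
    (hf : Computable fun x : π × α => f x.1 x.2) (hw : Computable w) :
    Computable fun a => subst (f a) (w a) :=
  have h1 : Computable fun x : π × α × Bool => f x.1 x.2.1 :=
    hf.comp (g := fun x : π × α × Bool => (x.1, x.2.1)) (by fun_prop)
  (Primrec.list_flatten.to_comp.comp (Lib.Comp.co_map
    (g := fun a (x : α × Bool) => cond x.2 (f a x.1) (FreeGroup.invRev (f a x.1))) hw
    (Computable.cond (by fun_prop) h1 (computable_invRev h1)))).of_eq fun a => by
      simp [subst, List.flatMap]

/-- Any function on a finite type is primitive recursive. -/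
theorem primrec_of_finite [Finite α] (f : α → β) : Primrec f := Primrec.dom_finite f

theorem primrec_reduce [DecidableEq α] : Primrec (FreeGroup.reduce : Word α → Word α) := by
  have h1 : Primrec fun x : (Word α × (α × Bool) × Word α × Word α) × (α × Bool) × Word α =>
      if x.1.2.1.1 = x.2.1.1 ∧ x.1.2.1.2 = not x.2.1.2 then x.2.2
      else x.1.2.1 :: x.2.1 :: x.2.2 :=
    Primrec.ite (PrimrecPred.and (Primrec.eq.comp (by fun_prop) (by fun_prop))
      (Primrec.eq.comp (by fun_prop) (Primrec.not.comp (by fun_prop)))) (by fun_prop)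
      (by fun_prop)
  have h2 := Primrec.list_casesOn
    (f := fun x : Word α × (α × Bool) × Word α × Word α => x.2.2.2) (g := fun x => [x.2.1])
    (h := fun x (y : (α × Bool) × Word α) =>
      if x.2.1.1 = y.1.1 ∧ x.2.1.2 = not y.1.2 then y.2 else x.2.1 :: y.1 :: y.2)
    (by fun_prop) (by fun_prop) h1
  exact Primrec.list_rec (f := fun w : Word α => w) (g := fun _ => ([] : Word α))
    (h := fun _ (x : (α × Bool) × Word α × Word α) =>
      List.casesOn (motive := fun _ => Word α) x.2.2 [x.1] fun b l =>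
        if x.1.1 = b.1 ∧ x.1.2 = not b.2 then l else x.1 :: b :: l)
    Primrec.id (Primrec.const _) h2

theorem re_mk_eq : REPred fun x : Word α × Word α => FreeGroup.mk x.1 = FreeGroup.mk x.2 := by
  classical
  exact (re_eq (primrec_reduce.to_comp.comp Computable.fst)
    (primrec_reduce.to_comp.comp Computable.snd)).of_eq fun x =>
      ⟨FreeGroup.reduce.exact, FreeGroup.reduce.sound⟩

theorem re_mk_ne : REPred fun x : Word α × Word α => FreeGroup.mk x.1 ≠ FreeGroup.mk x.2 := by
  classical
  exact (re_ne (primrec_reduce.to_comp.comp Computable.fst)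
    (primrec_reduce.to_comp.comp Computable.snd)).of_eq fun x =>
      not_congr ⟨FreeGroup.reduce.exact, FreeGroup.reduce.sound⟩

omit [Primcodable α] in
theorem mem_closure_words {G : Type*} [Group G] (g : α → G) (S : Word α → Prop) (x : G) :
    x ∈ Subgroup.closure {y | ∃ w, S w ∧ ev g w = y} ↔
      ∃ L : Word (Word α), (∀ y ∈ L, S y.1) ∧ ev g (subst (fun w => w) L) = x := by
  constructor
  · intro hx
    induction hx using Subgroup.closure_induction with
    | mem x hx =>
      obtain ⟨w, h1, rfl⟩ := hx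
      exact ⟨[(w, true)], by simpa using h1, by simp⟩
    | one => exact ⟨[], by simp, by simp⟩
    | mul x y _ _ hx hy =>
      obtain ⟨L, a1, rfl⟩ := hx
      obtain ⟨L', a2, rfl⟩ := hy
      exact ⟨L ++ L', fun y hy => (List.mem_append.1 hy).elim (a1 y) (a2 y), by simp⟩
    | inv x _ hx =>
      obtain ⟨L, a1, rfl⟩ := hx
      refine ⟨FreeGroup.invRev L, fun y hy => ?_, by simp [ev_subst]⟩
      simp only [FreeGroup.invRev, List.mem_reverse, List.mem_map] at hy
      obtain ⟨y', h1, rfl⟩ := hy
      exact a1 y' h1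
  · rintro ⟨L, a1, rfl⟩
    rw [ev_subst]
    exact ev_mem _ _ _ fun a ha => Subgroup.subset_closure ⟨a.1, a1 a ha, rfl⟩

theorem re_mem_closure_ev {G : Type*} [Group G] (g : α → G)
    (hg : REPred fun w : Word α => ev g w = 1) {S : π → Word α → Prop}
    (hS : REPred fun x : π × Word α => S x.1 x.2) :
    REPred fun x : π × Word α =>
      ev g x.2 ∈ Subgroup.closure {y | ∃ w, S x.1 w ∧ ev g w = y} := by
  refine (re_exists (p := fun (x : π × Word α) (L : Word (Word α)) => (∀ y ∈ L, S x.1 y.1) ∧
      ev g (FreeGroup.invRev x.2 ++ subst (fun w => w) L) = 1)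
    (re_and (re_forall_mem (p := fun (x : (π × Word α) × Word (Word α)) y => S x.1.1 y.1)
      Computable.snd (re_comp hS
        (f := fun z : ((π × Word α) × Word (Word α)) × (Word α × Bool) => (z.1.1.1, z.2.1))
        (by fun_prop)))
      (re_comp hg (Lib.Comp.co_append (by fun_prop)
        (computable_subst (f := fun _ w => w) Computable.snd Computable.snd))))).of_eq fun x => ?_
  rw [mem_closure_words]
  simp only [ev_append, ev_invRev, inv_mul_eq_one]
  simp only [eq_comm]

theorem re_mk_eq_one : REPred fun w : Word α => ev FreeGroup.of w = 1 :=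
  (re_comp re_mk_eq (f := fun w : Word α => (w, [])) (by fun_prop)).of_eq fun w => by
    rw [ev_of]; rfl

/-- Membership in the subgroup generated by a uniformly r.e. family of words. -/
theorem re_mem_closure {S : π → Word α → Prop} (hS : REPred fun x : π × Word α => S x.1 x.2) :
    REPred fun x : π × Word α =>
      FreeGroup.mk x.2 ∈ Subgroup.closure {g | ∃ w, S x.1 w ∧ FreeGroup.mk w = g} := by
  simpa only [ev_of] using re_mem_closure_ev FreeGroup.of re_mk_eq_one hS

/-- Membership in the normal closure of a uniformly r.e. family of words. -/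
theorem re_mem_normalClosure {S : π → Word α → Prop}
    (hS : REPred fun x : π × Word α => S x.1 x.2) :
    REPred fun x : π × Word α =>
      FreeGroup.mk x.2 ∈ Subgroup.normalClosure {g | ∃ w, S x.1 w ∧ FreeGroup.mk w = g} := by
  refine (re_mem_closure (S := fun a w => ∃ z : Word α × Word α, S a z.2 ∧
      w = z.1 ++ z.2 ++ FreeGroup.invRev z.1)
    (re_exists (p := fun (x : π × Word α) (z : Word α × Word α) => S x.1 z.2 ∧
      x.2 = z.1 ++ z.2 ++ FreeGroup.invRev z.1) (re_and (re_comp hS
        (f := fun y : (π × Word α) × (Word α × Word α) => (y.1.1, y.2.2)) (by fun_prop))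
        (re_eq (by fun_prop) (by fun_prop))))).of_eq fun x => ?_
  unfold Subgroup.normalClosure
  apply Iff.of_eq
  congr 2
  ext g
  simp only [Set.mem_ofPred_eq, Group.mem_conjugatesOfSet_iff, isConj_iff]
  constructor
  · rintro ⟨w, ⟨z, h1, rfl⟩, rfl⟩
    exact ⟨_, ⟨z.2, h1, rfl⟩, FreeGroup.mk z.1, by simp [FreeGroup.inv_mk]⟩
  · rintro ⟨_, ⟨w, h1, rfl⟩, c, rfl⟩
    obtain ⟨c, rfl⟩ := Quot.exists_rep c
    exact ⟨_, ⟨(c, w), h1, rfl⟩, by
      rw [← FreeGroup.mul_mk, ← FreeGroup.mul_mk, ← FreeGroup.inv_mk]; rfl⟩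

theorem re_pg_eq_one (l : List (Word α)) : REPred fun w : Word α => ev (pgen l) w = 1 :=
  (re_comp (re_mem_normalClosure (π := Unit) (S := fun _ w => w ∈ l)
    (re_mem_list Computable.snd (Computable.const l))) (f := fun w : Word α => ((), w))
    (by fun_prop)).of_eq fun w => (ev_pgen_eq_one l w).symm

/-- Membership in a subgroup of `PG l` generated by an r.e. family of words. -/
theorem re_pg_mem_closure (l : List (Word α)) {S : π → Word α → Prop}
    (hS : REPred fun x : π × Word α => S x.1 x.2) :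
    REPred fun x : π × Word α =>
      ev (pgen l) x.2 ∈ Subgroup.closure {g | ∃ w, S x.1 w ∧ ev (pgen l) w = g} :=
  re_mem_closure_ev _ (re_pg_eq_one l) hS

end Words

section Int
variable {α : Type} [Primcodable α]

theorem primrec_negSucc : Primrec Int.negSucc :=
  Primrec.encode_iff.1 (Primrec.nat_double_succ.of_eq fun _ => rfl)

theorem primrec_ofNat : Primrec fun n : ℕ => (n : ℤ) :=
  Primrec.encode_iff.1 (Primrec.nat_double.of_eq fun _ => rfl)

theorem primrec_subNat : Primrec fun x : ℕ × ℕ => (x.1 : ℤ) - x.2 :=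
  (Primrec.ite (Primrec.nat_le.comp Primrec.snd Primrec.fst)
    (primrec_ofNat.comp (g := fun x : ℕ × ℕ => x.1 - x.2) (by fun_prop))
    (primrec_negSucc.comp (g := fun x : ℕ × ℕ => x.2 - x.1 - 1) (by fun_prop))).of_eq fun x => by
    split_ifs <;> omega

theorem primrec_toNat' : Primrec Int.toNat :=
  (Primrec.ite (Primrec.eq.comp (g := fun _ => 0)
      (f := fun z : ℤ => Encodable.encode z % 2) (by fun_prop) (by fun_prop))
    (f := fun z : ℤ => Encodable.encode z / 2) (g := fun _ => 0) (by fun_prop)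
    (by fun_prop)).of_eq fun z => by
    rcases z with n | n
    · have : Encodable.encode (Int.ofNat n) = 2 * n := rfl
      rw [this, if_pos (by omega)]; simp
    · have : Encodable.encode (Int.negSucc n) = 2 * n + 1 := rfl
      rw [this, if_neg (by omega)]; simp

theorem primrec_negToNat : Primrec fun z : ℤ => (-z).toNat :=
  (Primrec.ite (Primrec.eq.comp (g := fun _ => 0)
      (f := fun z : ℤ => Encodable.encode z % 2) (by fun_prop) (by fun_prop))
    (g := fun z : ℤ => Encodable.encode z / 2 + 1) (f := fun _ => 0) (by fun_prop)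
    (by fun_prop)).of_eq fun z => by
    rcases z with n | n
    · have : Encodable.encode (Int.ofNat n) = 2 * n := rfl
      rw [this, if_pos (by omega)]; simp
    · have : Encodable.encode (Int.negSucc n) = 2 * n + 1 := rfl
      rw [this, if_neg (by omega)]; omega

theorem primrec_int_of {f : α → ℤ} {a b : α → ℕ} (ha : Primrec a) (hb : Primrec b)
    (h : ∀ x, (a x : ℤ) - b x = f x) : Primrec f :=
  (primrec_subNat.comp (ha.pair hb)).of_eq h

@[fun_prop] theorem primrec_intCast {f : α → ℕ} (hf : Primrec f) :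
    Primrec fun a => (f a : ℤ) :=
  primrec_ofNat.comp hf

@[fun_prop] theorem primrec_int_neg {f : α → ℤ} (hf : Primrec f) : Primrec fun a => -f a :=
  primrec_int_of (primrec_negToNat.comp hf) (primrec_toNat'.comp hf) fun x => by omega

@[fun_prop] theorem primrec_int_add {f g : α → ℤ} (hf : Primrec f) (hg : Primrec g) :
    Primrec fun a => f a + g a :=
  primrec_int_of (Primrec.nat_add.comp (primrec_toNat'.comp hf) (primrec_toNat'.comp hg))
    (Primrec.nat_add.comp (primrec_negToNat.comp hf) (primrec_negToNat.comp hg)) fun x => by omega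

@[fun_prop] theorem primrec_int_mul {f g : α → ℤ} (hf : Primrec f) (hg : Primrec g) :
    Primrec fun a => f a * g a :=
  primrec_int_of (Primrec.nat_add.comp
      (Primrec.nat_mul.comp (primrec_toNat'.comp hf) (primrec_toNat'.comp hg))
      (Primrec.nat_mul.comp (primrec_negToNat.comp hf) (primrec_negToNat.comp hg)))
    (Primrec.nat_add.comp
      (Primrec.nat_mul.comp (primrec_toNat'.comp hf) (primrec_negToNat.comp hg))
      (Primrec.nat_mul.comp (primrec_negToNat.comp hf) (primrec_toNat'.comp hg))) fun x => by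
    have h1 := Int.toNat_sub_toNat_neg (f x)
    have h2 := Int.toNat_sub_toNat_neg (g x)
    push_cast
    linear_combination (((g x).toNat : ℤ) - ((-g x).toNat : ℤ)) * h1 + f x * h2

@[fun_prop] theorem primrec_int_ediv_four {f : α → ℤ} (hf : Primrec f) :
    Primrec fun a => f a / 4 :=
  primrec_int_of (Primrec.nat_div.comp (primrec_toNat'.comp hf) (Primrec.const 4))
    (Primrec.nat_div.comp (Primrec.nat_add.comp (primrec_negToNat.comp hf) (Primrec.const 3))
      (Primrec.const 4)) fun x => by omega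

@[fun_prop] theorem primrec_int_emod_four {f : α → ℤ} (hf : Primrec f) :
    Primrec fun a => f a % 4 :=
  (primrec_int_add hf (primrec_int_mul (Primrec.const (-4)) (primrec_int_ediv_four hf))).of_eq
    fun x => by omega

@[fun_prop] theorem primrec_natAbs {f : α → ℤ} (hf : Primrec f) :
    Primrec fun a => (f a).natAbs :=
  (Primrec.nat_add.comp (primrec_toNat'.comp hf) (primrec_negToNat.comp hf)).of_eq fun x => by
    omega

@[fun_prop] theorem primrec_toNat {f : α → ℤ} (hf : Primrec f) :
    Primrec fun a => (f a).toNat :=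
  primrec_toNat'.comp hf

@[fun_prop] theorem primrec_update {r : ℕ} {f : α → Fin r → ℤ} {j : α → Fin r} {g : α → ℤ}
    (hf : Primrec f) (hj : Primrec j) (hg : Primrec g) :
    Primrec fun a => Function.update (f a) (j a) (g a) :=
  Primrec.fin_curry.2 ((Primrec.ite (Primrec.eq.comp Primrec.snd (hj.comp Primrec.fst))
    (hg.comp Primrec.fst) (Primrec.fin_app.comp (hf.comp Primrec.fst) Primrec.snd)).of_eq
    fun x => by simp [Function.update_apply])

end Int

end Vale.Agent.P193
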