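import Mathlib.GroupTheory.Perm.Basic
import Mathlib.GroupTheory.GroupAction.Quotient
import Mathlib.Algebra.Group.MinimalAxioms
import Mathlib.GroupTheory.Finiteness
import Mathlib.Tactic.Group

/-! Wreath product elements, levels and pre-systems. -/

namespace Vale.Agent.P193.SV

open Equiv

/-- A permutation of the cubes together with a label for each cube. -/
@[ext] structure W (G : Type) where
  p : Perm ℕ
  g : ℕ → G

variable {G : Type} [Group G]

namespace W

instance : Mul (W G) := ⟨fun u v => ⟨u.p * v.p, fun i => u.g (v.p i) * v.g i⟩⟩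
instance : One (W G) := ⟨⟨1, fun _ => 1⟩⟩
instance : Inv (W G) := ⟨fun u => ⟨u.p⁻¹, fun i => (u.g (u.p⁻¹ i))⁻¹⟩⟩

@[simp] lemma mul_p (u v : W G) : (u * v).p = u.p * v.p := rfl
@[simp] lemma mul_g (u v : W G) (i : ℕ) : (u * v).g i = u.g (v.p i) * v.g i := rfl
@[simp] lemma one_p : (1 : W G).p = 1 := rfl
@[simp] lemma one_g (i : ℕ) : (1 : W G).g i = 1 := rfl
@[simp] lemma inv_p (u : W G) : u⁻¹.p = u.p⁻¹ := rfl
@[simp] lemma inv_g (u : W G) (i : ℕ) : u⁻¹.g i = (u.g (u.p⁻¹ i))⁻¹ := rfl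

instance : Group (W G) := Group.ofLeftAxioms
  (fun a b c => by ext <;> simp [mul_assoc]) (fun a => by ext <;> simp)
  (fun a => by ext <;> simp)

end W

/-- elements supported on the first `n` cubes -/
def Lv (n : ℕ) : Subgroup (W G) where
  carrier := {w | ∀ i, n ≤ i → w.p i = i ∧ w.g i = 1}
  mul_mem' := fun {a b} ha hb i hi => by
    simp [(hb i hi).1, (hb i hi).2, (ha i hi).1, (ha i hi).2]
  one_mem' := fun i _ => by simp
  inv_mem' := fun {a} ha i hi => by
    have : a.p⁻¹ i = i := by rw [Perm.inv_eq_iff_eq, (ha i hi).1]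
    simp only [W.inv_p, W.inv_g, this, (ha i hi).2, inv_one, and_self]

lemma mem_Lv {n : ℕ} {w : W G} : w ∈ Lv n ↔ ∀ i, n ≤ i → w.p i = i ∧ w.g i = 1 := Iff.rfl

lemma Lv_mono {n m : ℕ} (h : n ≤ m) {w : W G} (hw : w ∈ Lv n) : w ∈ Lv m :=
  fun i hi => hw i (h.trans hi)

lemma Lv_lt {n i : ℕ} {w : W G} (hw : w ∈ Lv n) (hi : i < n) : w.p i < n := by
  by_contra h
  have h1 := (hw _ (not_lt.1 h)).1
  have := w.p.injective h1
  omega

/-- pure permutations -/
def prm : Perm ℕ →* W G where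
  toFun π := ⟨π, fun _ => 1⟩
  map_one' := rfl
  map_mul' a b := by ext <;> simp

@[simp] lemma prm_p (π : Perm ℕ) : (prm π : W G).p = π := rfl
@[simp] lemma prm_g (π : Perm ℕ) (i : ℕ) : (prm π : W G).g i = 1 := rfl

/-- a single label -/
def lab (i : ℕ) : G →* W G where
  toFun x := ⟨1, fun j => if j = i then x else 1⟩
  map_one' := by ext <;> simp
  map_mul' a b := by
    ext j
    · simp
    · by_cases h : j = i <;> simp [h]

@[simp] lemma lab_p (i : ℕ) (x : G) : (lab i x).p = 1 := rfl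
@[simp] lemma lab_g (i : ℕ) (x : G) (j : ℕ) : (lab i x).g j = if j = i then x else 1 := rfl

/-- duplicate the label of `i` at the new cube `n` -/
def plus (n i : ℕ) (w : W G) : W G := ⟨w.p, fun j => if j = n then w.g i else w.g j⟩

@[simp] lemma plus_p (n i : ℕ) (w : W G) : (plus n i w).p = w.p := rfl
@[simp] lemma plus_g (n i : ℕ) (w : W G) (j : ℕ) :
    (plus n i w).g j = if j = n then w.g i else w.g j := rfl

/-- erase the label at `n` -/
def trunc (n : ℕ) (w : W G) : W G := ⟨w.p, fun j => if j = n then 1 else w.g j⟩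

@[simp] lemma trunc_p (n : ℕ) (w : W G) : (trunc n w).p = w.p := rfl
@[simp] lemma trunc_g (n : ℕ) (w : W G) (j : ℕ) :
    (trunc n w).g j = if j = n then 1 else w.g j := rfl

lemma plus_mem {n : ℕ} (i : ℕ) {w : W G} (hw : w ∈ Lv n) : plus n i w ∈ Lv (n + 1) := by
  intro j hj
  have := hw j (by omega)
  simp [this, show j ≠ n by omega]

lemma plus_mul {n : ℕ} (i : ℕ) (u : W G) {v : W G} (hv : v.p n = n) :
    plus n i (u * v) = plus n (v.p i) u * plus n i v := by
  ext j
  · simp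
  · by_cases h : j = n
    · simp [h, hv]
    · have : v.p j ≠ n := fun h2 => h (v.p.injective (h2.trans hv.symm))
      simp [h, this]

@[simp] lemma plus_prm (n i : ℕ) (π : Perm ℕ) : plus n i (prm π : W G) = prm π := by
  ext <;> simp

@[simp] lemma plus_one (n i : ℕ) : plus n i (1 : W G) = 1 := by
  ext <;> simp

@[simp] lemma trunc_prm (n : ℕ) (π : Perm ℕ) : trunc n (prm π : W G) = prm π := by
  ext <;> simp

lemma trunc_mul {n : ℕ} (u : W G) {v : W G} (hv : v.p n = n) :
    trunc n (u * v) = trunc n u * trunc n v := by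
  ext j
  · simp
  · by_cases h : j = n
    · simp [h, hv]
    · have : v.p j ≠ n := fun h2 => h (v.p.injective (h2.trans hv.symm))
      simp [h, this]

lemma trunc_mem {n : ℕ} {w : W G} (hw : w ∈ Lv (n + 1)) (hn : w.p n = n) : trunc n w ∈ Lv n := by
  intro j hj
  by_cases h : j = n
  · simp [h, hn]
  · have := hw j (by omega)
    simp [h, this]

lemma trunc_plus {n : ℕ} (i : ℕ) {w : W G} (hw : w ∈ Lv n) : trunc n (plus n i w) = w := by
  ext j
  · simp
  · by_cases h : j = n
    · simp [h, (hw n le_rfl).2]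
    · simp [h]

lemma swap_mem {n a b : ℕ} (ha : a < n) (hb : b < n) : (prm (swap a b) : W G) ∈ Lv n := by
  intro j hj
  simp [swap_apply_of_ne_of_ne (show j ≠ a by omega) (show j ≠ b by omega)]

lemma lab_mem {n i : ℕ} (hi : i < n) (x : G) : lab i x ∈ Lv n := by
  intro j hj
  simp [show j ≠ i by omega]

lemma prm_mem_iff {n : ℕ} {π : Perm ℕ} : (prm π : W G) ∈ Lv n ↔ ∀ i, n ≤ i → π i = i := by
  simp [mem_Lv]

lemma conj_lab (w : W G) (i : ℕ) (x : G) :
    w * lab i x = lab (w.p i) (w.g i * x * (w.g i)⁻¹) * w := by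
  ext j
  · simp
  · by_cases h : j = i
    · simp [h]
    · simp [h]

lemma exists_perm2 {a b p q : ℕ} (hab : a ≠ b) (hpq : p ≠ q) :
    ∃ π : Perm ℕ, π a = p ∧ π b = q ∧ ∀ x, x ≠ a → x ≠ b → x ≠ p → x ≠ q → π x = x := by
  refine ⟨swap (swap a p b) q * swap a p, ?_, by simp, fun x h1 h2 h3 h4 => ?_⟩
  · simp only [Perm.mul_apply, swap_apply_left]
    refine swap_apply_of_ne_of_ne (fun h => hab ?_) hpq
    apply (swap a p).injective
    rw [← h, swap_apply_left]
  · simp only [Perm.mul_apply, swap_apply_of_ne_of_ne h1 h3]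
    refine swap_apply_of_ne_of_ne (fun h => ?_) h4
    rw [swap_apply_def] at h
    split_ifs at h <;> omega

/-- an element with two prescribed values -/
lemma exists_W2 {a b p q : ℕ} (hab : a ≠ b) (hpq : p ≠ q) (x y : G) :
    ∃ w : W G, w.p a = p ∧ w.p b = q ∧ w.g a = x ∧ w.g b = y ∧
      (∀ i, i ≠ a → i ≠ b → i ≠ p → i ≠ q → w.p i = i) ∧ ∀ i, i ≠ a → i ≠ b → w.g i = 1 := by
  obtain ⟨π, h1, h2, h3⟩ := exists_perm2 hab hpq
  refine ⟨⟨π, fun i => if i = a then x else if i = b then y else 1⟩, h1, h2, by simp,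
    by simp [hab.symm], h3, fun i h4 h5 => by simp [h4, h5]⟩

lemma perm_induction {n : ℕ} {Q : Perm ℕ → Prop} (h1 : Q 1)
    (hs : ∀ a b π, a < n → b < n → (∀ i, n ≤ i → π i = i) → Q π → Q (swap a b * π))
    (π : Perm ℕ) (hπ : ∀ i, n ≤ i → π i = i) : Q π := by
  have : ∀ m, m ≤ n → ∀ π : Perm ℕ, (∀ i, m ≤ i → π i = i) → Q π := by
    intro m
    induction m with
    | zero =>
      intro _ π hπ
      have : π = 1 := Equiv.ext fun i => hπ i (Nat.zero_le _)
      exact this ▸ h1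
    | succ m ih =>
      intro hm π hπ
      have h2 : π m < m + 1 := Lv_lt (G := Perm ℕ) (prm_mem_iff.2 hπ) (by omega)
      have h3 : ∀ i, m ≤ i → (swap (π m) m * π) i = i := by
        intro i hi
        by_cases h : i = m
        · simp [h]
        · simp only [Perm.mul_apply, hπ i (by omega)]
          exact swap_apply_of_ne_of_ne (by omega) h
      have := hs (π m) m _ (by omega) (by omega) (fun i hi => h3 i (by omega))
        (ih (by omega) _ h3)
      rwa [swap_mul_self_mul] at this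
  exact this n le_rfl π hπ

lemma lab_induction {n : ℕ} {Q : W G → Prop} (w : W G) (hw : w ∈ Lv n) (h1 : Q (prm w.p))
    (hs : ∀ u i, i < n → Q u → Q (u * lab i (w.g i))) : Q w := by
  have : ∀ m, m ≤ n → Q ⟨w.p, fun j => if j < m then w.g j else 1⟩ := by
    intro m
    induction m with
    | zero => intro _; simpa using! h1
    | succ m ih =>
      intro hm
      convert hs _ m (by omega) (ih (by omega)) using 1
      ext j
      · simp
      · rcases lt_trichotomy j m with h | h | h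
        · simp [h, h.ne, Nat.lt_succ_of_lt h]
        · simp [h]
        · simp [h.ne', h.not_gt, show ¬ j < m + 1 by omega]
  convert this n le_rfl using 1
  ext j
  · rfl
  · by_cases h : j < n
    · simp [h]
    · simp [h, (hw j (by omega)).2]

variable (P : Subgroup G)

/-- the stabiliser of the base coordinate of cube `0` -/
def St (n : ℕ) : Subgroup (W G) where
  carrier := {w | w ∈ Lv n ∧ w.p 0 = 0 ∧ w.g 0 ∈ P}
  mul_mem' := fun {a b} ha hb => ⟨mul_mem ha.1 hb.1, by simp [ha.2.1, hb.2.1], by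
    simpa [hb.2.1] using mul_mem ha.2.2 hb.2.2⟩
  one_mem' := ⟨one_mem _, rfl, one_mem _⟩
  inv_mem' := fun {a} ha => by
    have : a.p⁻¹ 0 = 0 := by rw [Perm.inv_eq_iff_eq, ha.2.1]
    refine ⟨inv_mem ha.1, this, ?_⟩
    rw [W.inv_g, this]
    exact inv_mem ha.2.2

lemma mem_St {n : ℕ} {w : W G} : w ∈ St P n ↔ w ∈ Lv n ∧ w.p 0 = 0 ∧ w.g 0 ∈ P := Iff.rfl

/-- the transposition of the first two cubes -/
def sg : W G := prm (swap 0 1)

/-- the transposition of two consecutive cubes -/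
def ta (m : ℕ) : W G := prm (swap m (m + 1))

lemma sg_mem {n : ℕ} (h : 2 ≤ n) : (sg : W G) ∈ Lv n := swap_mem (by omega) (by omega)
lemma ta_mem {n m : ℕ} (h : m + 2 ≤ n) : (ta m : W G) ∈ Lv n := swap_mem (by omega) (by omega)
@[simp] lemma sg_sg : (sg * sg : W G) = 1 := by rw [sg, ← map_mul, swap_mul_self, map_one]
@[simp] lemma ta_ta (m : ℕ) : (ta m * ta m : W G) = 1 := by
  rw [ta, ← map_mul, swap_mul_self, map_one]
@[simp] lemma plus_sg (n i : ℕ) : plus n i (sg : W G) = sg := plus_prm _ _ _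
@[simp] lemma plus_ta (n i m : ℕ) : plus n i (ta m : W G) = ta m := plus_prm _ _ _

/-- a family of homomorphisms on the levels `B, ..., n` with the basic relations -/
structure Pre {H : Type} [Group H] (a : ℕ → W G → H) (B n : ℕ) : Prop where
  mul : ∀ m, B ≤ m → m ≤ n → ∀ u ∈ Lv m, ∀ v ∈ Lv m, a m (u * v) = a m u * a m v
  e0 : ∀ m, B ≤ m → m + 1 ≤ n → ∀ u ∈ St P m, a m u = a (m + 1) (plus m 0 u)
  cc : ∀ m, B ≤ m → m + 2 ≤ n → a (m + 2) (sg * ta m) = a (m + 1) sg * a m sg * a (m + 1) sg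

variable {P}

namespace Pre

variable {H : Type} [Group H] {a : ℕ → W G → H} {B n : ℕ} (h : Pre P a B n)

include h

lemma one {m : ℕ} (h1 : B ≤ m) (h2 : m ≤ n) : a m 1 = 1 := by
  have := h.mul m h1 h2 1 (one_mem _) 1 (one_mem _)
  simpa using this

lemma inv {m : ℕ} (h1 : B ≤ m) (h2 : m ≤ n) {u : W G} (hu : u ∈ Lv m) : a m u⁻¹ = (a m u)⁻¹ := by
  rw [eq_inv_iff_mul_eq_one, ← h.mul m h1 h2 _ (inv_mem hu) _ hu, inv_mul_cancel, h.one h1 h2]

end Pre

end Vale.Agent.P193.SV
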