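import Vale.Agent.P193.SVDef

/-! Extension of a pre-system to the next level. -/

namespace Vale.Agent.P193.SV

open Equiv

lemma local_global {A H : Type} [Group A] [Group H] (T : Subgroup A) (D : Set A) (F : A → H)
    (hT : ∀ d ∈ D, d ∈ T) (hD : ∀ d ∈ D, d⁻¹ ∈ D) (hinv : ∀ d ∈ D, F d⁻¹ = (F d)⁻¹)
    (htri : ∀ d1 ∈ D, ∀ d2 ∈ D, d1 * d2 ∈ D → F d1 * F d2 = F (d1 * d2))
    (hnb : ∀ w1 ∈ T, ∀ w2 ∈ T, ∀ w3 ∈ T, ∃ d ∈ D, w1⁻¹ * d ∈ D ∧ w2⁻¹ * d ∈ D ∧ w3⁻¹ * d ∈ D) :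
    ∃ a : A → H, (∀ u ∈ T, ∀ v ∈ T, a (u * v) = a u * a v) ∧
      ∀ w ∈ T, ∀ d ∈ D, w⁻¹ * d ∈ D → a w = F d * F (d⁻¹ * w) := by
  have key : ∀ w d e, d ∈ D → e ∈ D → w⁻¹ * d ∈ D → w⁻¹ * e ∈ D → d⁻¹ * e ∈ D →
      F d * F (d⁻¹ * w) = F e * F (e⁻¹ * w) := by
    intro w d e hd he hwd hwe hde
    have h1 : e⁻¹ * d ∈ D := by simpa using hD _ hde
    have h2 : d⁻¹ * w ∈ D := by simpa using hD _ hwd
    have h3 : e⁻¹ * w ∈ D := by simpa using hD _ hwe
    have h4 := htri e he _ h1 (by simpa using hd)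
    have h5 := htri _ h1 _ h2 (by simpa [mul_assoc] using h3)
    rw [mul_inv_cancel_left] at h4
    rw [mul_assoc, mul_inv_cancel_left] at h5
    rw [← h4, ← h5, mul_assoc]
  have wd : ∀ w ∈ T, ∀ d d', d ∈ D → d' ∈ D → w⁻¹ * d ∈ D → w⁻¹ * d' ∈ D →
      F d * F (d⁻¹ * w) = F d' * F (d'⁻¹ * w) := by
    intro w hw d d' hd hd' h1 h2
    obtain ⟨e, he, h3, h4, h5⟩ := hnb w hw d (hT d hd) d' (hT d' hd')
    rw [key w d e hd he h1 h3 h4, key w d' e hd' he h2 h3 h5]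
  have ex : ∀ w, ∃ d, w ∈ T → d ∈ D ∧ w⁻¹ * d ∈ D := by
    intro w
    by_cases hw : w ∈ T
    · obtain ⟨d, hd, h, -⟩ := hnb w hw w hw w hw
      exact ⟨d, fun _ => ⟨hd, h⟩⟩
    · exact ⟨1, fun h => absurd h hw⟩
  choose c hc using ex
  have h2 : ∀ w ∈ T, ∀ d ∈ D, w⁻¹ * d ∈ D → F (c w) * F ((c w)⁻¹ * w) = F d * F (d⁻¹ * w) :=
    fun w hw d hd h => wd w hw _ _ (hc w hw).1 hd (hc w hw).2 h
  refine ⟨fun w => F (c w) * F ((c w)⁻¹ * w), fun u hu v hv => ?_, h2⟩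
  obtain ⟨d, hd, h3, h4, -⟩ := hnb u hu _ (mul_mem hu hv) u hu
  have h5 : d⁻¹ * u = (u⁻¹ * d)⁻¹ := by group
  beta_reduce
  rw [h2 _ (mul_mem hu hv) d hd h4, h2 u hu d hd h3,
    h2 v hv _ h3 (by simpa [mul_assoc] using h4), h5, hinv _ h3, ← h5]
  simp [mul_assoc]

lemma braid_aux {H : Type} [Group H] (x y z r t : H) (hx : x * x = 1) (hy : y * y = 1)
    (hr : r * r = 1) (ht : t * t = 1) (hxr : x * r * x = r * x * r)
    (hyr : y * r * y = r * y * r) (hzr : z * r * (z * r) * (z * r) = 1) (hxt : x * t = t * x)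
    (hrt : r * t = t * r) (hc : x * t = y * z * y) :
    (x * y * x) * (r * t) * (x * y * x) = (r * t) * (x * y * x) * (r * t) := by
  have xx : ∀ w, x * (x * w) = w := fun w => by rw [← mul_assoc, hx, one_mul]
  have yy : ∀ w, y * (y * w) = w := fun w => by rw [← mul_assoc, hy, one_mul]
  have rr : ∀ w, r * (r * w) = w := fun w => by rw [← mul_assoc, hr, one_mul]
  have tt : ∀ w, t * (t * w) = w := fun w => by rw [← mul_assoc, ht, one_mul]
  have tx : ∀ w, t * (x * w) = x * (t * w) := fun w => by rw [← mul_assoc, ← hxt, mul_assoc]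
  have tr : ∀ w, t * (r * w) = r * (t * w) := fun w => by rw [← mul_assoc, ← hrt, mul_assoc]
  have xrx : ∀ w, x * (r * (x * w)) = r * (x * (r * w)) := fun w => by
    rw [← mul_assoc, ← mul_assoc, hxr]; simp only [mul_assoc]
  have yry : ∀ w, y * (r * (y * w)) = r * (y * (r * w)) := fun w => by
    rw [← mul_assoc, ← mul_assoc, hyr]; simp only [mul_assoc]
  have hz : ∀ w, z * w = y * (x * (t * (y * w))) := fun w => by
    rw [← mul_assoc x, hc]; simp only [mul_assoc, yy]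
  have k1 : ∀ w, y * (r * (t * (x * (r * (r * (x * (t * (r * (y * w))))))))) = w := fun w => by
    rw [rr, xx, tt, rr, yy]
  have e1 : ∀ w, x * (y * (x * (r * (t * w)))) =
      r * (x * (t * (r * (y * (z * (r * (y * (r * (t * (x * (r * w))))))))))) := fun w => by
    rw [hz, yy, yry, rr, tr, tx, tt, tx, tr, xrx, rr, rr]
  have h3 : ∀ w, z * (r * (z * (r * (z * (r * w))))) = w := fun w => by
    have := congrArg (· * w) hzr
    simpa only [mul_assoc, one_mul] using this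
  have e2 : x * (y * (x * (r * (t * (x * (y * (x * (r * (t * (x * (y * (x * (r * (t * 1))))))))))))))
      = 1 := by
    rw [e1 1, e1, e1, k1, k1, h3, yy, rr, tt, xx, rr]
  have e3 : ∀ w, x * (y * (x * (x * (y * (x * w))))) = w := fun w => by rw [xx, yy, xx]
  have e4 : ∀ w, r * (t * (r * (t * w))) = w := fun w => by rw [tr, rr, tt]
  calc (x * y * x) * (r * t) * (x * y * x)
      = x * (y * (x * (r * (t * (x * (y * (x * (r * (t * (x * (y * (x * (r * (t * 1)))))))))))))) *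
        (r * (t * (x * (y * (x * (r * t)))))) := by
        simp only [mul_assoc, one_mul, e4, e3]
        rw [tr, rr, ht, mul_one]
    _ = _ := by rw [e2]; simp only [mul_assoc, one_mul]

variable {G : Type} [Group G] (P : Subgroup G)

/-- elements of level `n + 1` coming from the stabiliser of level `n` -/
def Kn (n : ℕ) : Subgroup (W G) where
  carrier := {k | k ∈ Lv (n + 1) ∧ k.p 0 = 0 ∧ k.p n = n ∧ k.g 0 ∈ P ∧ k.g n = k.g 0}
  mul_mem' := fun {a b} ha hb => ⟨mul_mem ha.1 hb.1, by simp [ha.2.1, hb.2.1],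
    by simp [ha.2.2.1, hb.2.2.1], by simpa [hb.2.1] using mul_mem ha.2.2.2.1 hb.2.2.2.1,
    by simp [hb.2.1, hb.2.2.1, ha.2.2.2.2, hb.2.2.2.2]⟩
  one_mem' := ⟨one_mem _, rfl, rfl, one_mem _, rfl⟩
  inv_mem' := fun {a} ha => by
    have h0 : a.p⁻¹ 0 = 0 := by rw [Perm.inv_eq_iff_eq, ha.2.1]
    have hn : a.p⁻¹ n = n := by rw [Perm.inv_eq_iff_eq, ha.2.2.1]
    refine ⟨inv_mem ha.1, h0, hn, ?_, ?_⟩
    · rw [W.inv_g, h0]; exact inv_mem ha.2.2.2.1
    · rw [W.inv_g, W.inv_g, h0, hn, ha.2.2.2.2]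

lemma mem_Kn {n : ℕ} {k : W G} :
    k ∈ Kn P n ↔ k ∈ Lv (n + 1) ∧ k.p 0 = 0 ∧ k.p n = n ∧ k.g 0 ∈ P ∧ k.g n = k.g 0 := Iff.rfl

/-- elements moving the pair `0, n` off itself -/
def Dn (n : ℕ) : Set (W G) :=
  {d | d ∈ Lv (n + 1) ∧ d.p 0 ≠ 0 ∧ d.p 0 ≠ n ∧ d.p n ≠ 0 ∧ d.p n ≠ n}

/-- the basic element -/
def v0 (m : ℕ) : W G := sg * ta (m + 1)

lemma v0_p (m : ℕ) : (v0 m : W G).p = swap 0 1 * swap (m + 1) (m + 2) := rfl
@[simp] lemma v0_g (m j : ℕ) : (v0 m : W G).g j = 1 := by simp [v0, sg, ta]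

lemma v0_mem {m : ℕ} : (v0 m : W G) ∈ Lv (m + 3) :=
  mul_mem (sg_mem (by omega)) (ta_mem le_rfl)

lemma v0_apply {m : ℕ} (hm : 1 ≤ m) (j : ℕ) : (v0 m : W G).p j =
    if j = 0 then 1 else if j = 1 then 0 else if j = m + 1 then m + 2 else
      if j = m + 2 then m + 1 else j := by
  simp only [v0_p, Perm.mul_apply, swap_apply_def]
  grind

lemma v0_v0 {m : ℕ} (hm : 1 ≤ m) : (v0 m * v0 m : W G) = 1 := by
  ext j
  · simp only [W.mul_p, Perm.mul_apply, v0_apply hm, W.one_p, Perm.one_apply]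
    grind
  · simp

lemma v0_inv {m : ℕ} (hm : 1 ≤ m) : (v0 m : W G)⁻¹ = v0 m := inv_eq_of_mul_eq_one_right (v0_v0 hm)

variable {P}

lemma trunc_St {n : ℕ} (hn : n ≠ 0) {k : W G} (hk : k ∈ Kn P n) : trunc n k ∈ St P n :=
  ⟨trunc_mem hk.1 hk.2.2.1, hk.2.1, by simpa [hn.symm] using hk.2.2.2.1⟩

lemma plus_trunc {n : ℕ} (hn : n ≠ 0) {k : W G} (hk : k ∈ Kn P n) : plus n 0 (trunc n k) = k := by
  ext j
  · rfl
  · by_cases h : j = n
    · simp [h, hn.symm, hk.2.2.2.2]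
    · simp [h]

lemma plus_Kn {n : ℕ} (hn : n ≠ 0) {u : W G} (hu : u ∈ St P n) : plus n 0 u ∈ Kn P n :=
  ⟨plus_mem 0 hu.1, hu.2.1, (hu.1 n le_rfl).1, by simpa [hn.symm] using hu.2.2, by simp⟩

lemma Dn_dec {m : ℕ} (hm : 1 ≤ m) {d : W G} (hd : d ∈ Dn (m + 2)) :
    ∃ x ∈ Kn P (m + 2), ∃ y ∈ Kn P (m + 2), d = x * v0 m * y := by
  obtain ⟨h0, h1, h2, h3, h4⟩ := hd
  have h5 : d.p 0 ≠ d.p (m + 2) := fun h => by have := d.p.injective h; omega
  have h6 := Lv_lt h0 (i := 0) (by omega)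
  have h7 := Lv_lt h0 (i := m + 2) (by omega)
  obtain ⟨x, x1, x2, x3, x4, x5, x6⟩ := exists_W2 (a := 1) (b := m + 1) (by omega) h5
    (d.g 0) (d.g (m + 2))
  have hx : x ∈ Kn P (m + 2) := ⟨fun i hi => ⟨x5 i (by omega) (by omega) (by omega) (by omega),
    x6 i (by omega) (by omega)⟩, x5 0 (by omega) (by omega) (by omega) (by omega),
    x5 _ (by omega) (by omega) (by omega) (by omega), by rw [x6 0 (by omega) (by omega)]; simp,
    by rw [x6 0 (by omega) (by omega), x6 _ (by omega) (by omega)]⟩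
  have i1 : x.p⁻¹ (d.p 0) = 1 := by rw [Perm.inv_eq_iff_eq, x1]
  have i2 : x.p⁻¹ (d.p (m + 2)) = m + 1 := by rw [Perm.inv_eq_iff_eq, x2]
  refine ⟨x, hx, v0 m * x⁻¹ * d, ⟨mul_mem (mul_mem v0_mem (inv_mem hx.1)) h0, ?_, ?_, ?_, ?_⟩, ?_⟩
  · simp only [W.mul_p, W.inv_p, Perm.mul_apply, i1, v0_apply hm]; simp
  · simp only [W.mul_p, W.inv_p, Perm.mul_apply, i2, v0_apply hm]
    grind
  · simp only [W.mul_g, W.inv_g, i1, x3, v0_g]; simp
  · simp only [W.mul_g, W.inv_g, i1, i2, x3, x4, v0_g]; simp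
  · rw [mul_assoc x, ← mul_assoc (v0 m), ← mul_assoc (v0 m), v0_v0 hm]; simp

lemma Dn_mul {n : ℕ} {x y d : W G} (hx : x ∈ Kn P n) (hy : y ∈ Kn P n) (hd : d ∈ Dn n) :
    x * d * y ∈ Dn n := by
  have h0 : ∀ j, x.p j = 0 → j = 0 := fun j h => x.p.injective (h.trans hx.2.1.symm)
  have hn : ∀ j, x.p j = n → j = n := fun j h => x.p.injective (h.trans hx.2.2.1.symm)
  refine ⟨mul_mem (mul_mem hx.1 hd.1) hy.1, ?_, ?_, ?_, ?_⟩ <;>
    simp only [W.mul_p, Perm.mul_apply, hy.2.1, hy.2.2.1]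
  exacts [fun h => hd.2.1 (h0 _ h), fun h => hd.2.2.1 (hn _ h), fun h => hd.2.2.2.1 (h0 _ h),
    fun h => hd.2.2.2.2 (hn _ h)]

lemma v0_Dn {m : ℕ} (hm : 1 ≤ m) : (v0 m : W G) ∈ Dn (m + 2) := by
  refine ⟨v0_mem, ?_, ?_, ?_, ?_⟩ <;> rw [v0_apply hm] <;> split_ifs <;> omega

lemma Dn_inv {n : ℕ} {d : W G} (hd : d ∈ Dn n) : d⁻¹ ∈ Dn n := by
  refine ⟨inv_mem hd.1, ?_, ?_, ?_, ?_⟩ <;> rw [W.inv_p, Ne, Perm.inv_eq_iff_eq]
  exacts [fun h => hd.2.1 h.symm, fun h => hd.2.2.2.1 h.symm, fun h => hd.2.2.1 h.symm,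
    fun h => hd.2.2.2.2 h.symm]

lemma exists_two_free (n : ℕ) (hn : 9 ≤ n) (l : List ℕ) (hl : l.length ≤ 8) :
    ∃ p q, p ≠ q ∧ p ≤ n ∧ q ≤ n ∧ p ∉ l ∧ q ∉ l := by
  have h1 : 1 < (Finset.range (n + 1) \ l.toFinset).card := by
    have := Finset.le_card_sdiff l.toFinset (Finset.range (n + 1))
    have h2 := List.toFinset_card_le l
    rw [Finset.card_range] at this
    omega
  obtain ⟨p, hp, q, hq, hpq⟩ := Finset.one_lt_card.1 h1
  simp only [Finset.mem_sdiff, Finset.mem_range, List.mem_toFinset] at hp hq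
  exact ⟨p, q, hpq, by omega, by omega, hp.2, hq.2⟩

lemma Dn_nb {n : ℕ} (hn : 9 ≤ n) (w1 : W G) (h1 : w1 ∈ Lv (n + 1)) (w2 : W G)
    (h2 : w2 ∈ Lv (n + 1)) (w3 : W G) (h3 : w3 ∈ Lv (n + 1)) :
    ∃ d ∈ Dn n, w1⁻¹ * d ∈ Dn n ∧ w2⁻¹ * d ∈ Dn n ∧ w3⁻¹ * d ∈ Dn n := by
  obtain ⟨p, q, hpq, hp, hq, hp', hq'⟩ := exists_two_free n hn
    [0, n, w1.p 0, w1.p n, w2.p 0, w2.p n, w3.p 0, w3.p n] le_rfl
  obtain ⟨d, x1, x2, -, -, x5, x6⟩ := exists_W2 (G := G) (a := 0) (b := n) (by omega) hpq 1 1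
  have hd : d ∈ Lv (n + 1) := fun i hi => ⟨x5 i (by omega) (by omega) (by omega) (by omega),
    x6 i (by omega) (by omega)⟩
  have key : ∀ w ∈ Lv (n + 1), p ≠ w.p 0 → p ≠ w.p n → q ≠ w.p 0 → q ≠ w.p n →
      w⁻¹ * d ∈ Dn n := by
    intro w hw a1 a2 a3 a4
    refine ⟨mul_mem (inv_mem hw) hd, ?_, ?_, ?_, ?_⟩ <;>
      simp only [W.mul_p, W.inv_p, Perm.mul_apply, x1, x2, Ne, Perm.inv_eq_iff_eq] <;> assumption
  simp only [List.mem_cons, List.not_mem_nil, or_false, not_or] at hp' hq'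
  refine ⟨d, by simpa using key 1 (one_mem _) hp'.1 hp'.2.1 hq'.1 hq'.2.1,
    key w1 h1 ?_ ?_ ?_ ?_, key w2 h2 ?_ ?_ ?_ ?_, key w3 h3 ?_ ?_ ?_ ?_⟩ <;> tauto

section ext

variable {H : Type} [Group H] {a : ℕ → W G → H} {B m : ℕ} (h : Pre P a B (m + 2)) (hB : B ≤ m)
  (hm : 7 ≤ m)

/-- the value on `Kn` -/
def bK (a : ℕ → W G → H) (n : ℕ) (k : W G) : H := a n (trunc n k)

/-- the value on the basic element -/
def th (a : ℕ → W G → H) (m : ℕ) : H := a (m + 2) sg * a (m + 1) sg * a (m + 2) sg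

include h hB

lemma bK_mul {x y : W G} (hx : x ∈ Kn P (m + 2)) (hy : y ∈ Kn P (m + 2)) :
    bK a (m + 2) (x * y) = bK a (m + 2) x * bK a (m + 2) y := by
  rw [bK, trunc_mul _ hy.2.2.1]
  exact h.mul _ (by omega) le_rfl _ (trunc_mem hx.1 hx.2.2.1) _ (trunc_mem hy.1 hy.2.2.1)

lemma bK_one : bK a (m + 2) 1 = 1 := by
  have := bK_mul h hB (one_mem _) (one_mem _)
  simpa using this

lemma bK_inv {x : W G} (hx : x ∈ Kn P (m + 2)) : bK a (m + 2) x⁻¹ = (bK a (m + 2) x)⁻¹ := by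
  rw [eq_inv_iff_mul_eq_one, ← bK_mul h hB (inv_mem hx) hx, inv_mul_cancel, bK_one h hB]

lemma a_sg_sg {k : ℕ} (h1 : B ≤ k) (h2 : k ≤ m + 2) (h3 : 2 ≤ k) : a k sg * a k sg = 1 := by
  rw [← h.mul k h1 h2 _ (sg_mem h3) _ (sg_mem h3), sg_sg, h.one h1 h2]

include hm

lemma th_th : th a m * th a m = 1 := by
  have h1 := a_sg_sg h hB (k := m + 2) (by omega) le_rfl (by omega)
  have h2 := a_sg_sg h hB (k := m + 1) (by omega) (by omega) (by omega)
  calc th a m * th a m = a (m + 2) sg * (a (m + 1) sg * (a (m + 2) sg * a (m + 2) sg) *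
      a (m + 1) sg) * a (m + 2) sg := by simp only [th, mul_assoc]
    _ = 1 := by rw [h1, mul_one, h2, mul_one, h1]

lemma bK_th {x y : W G} (hx : x ∈ Kn P (m + 2)) (hy : y ∈ Kn P (m + 2))
    (hxy : x * v0 m = v0 m * y) : bK a (m + 2) x * th a m = th a m * bK a (m + 2) y := by
  have hm1 : 1 ≤ m := by omega
  obtain rfl : y = v0 m * x * v0 m := by
    rw [mul_assoc, hxy, ← mul_assoc, v0_v0 hm1, one_mul]
  obtain ⟨hL, x0, xn, g0, gn⟩ := hx
  obtain ⟨-, y0, yn, yg0, ygn⟩ := hy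
  have vinj : ∀ i j, (v0 m : W G).p i = j → i = (v0 m : W G).p j := fun i j hij => by
    rw [← hij]
    exact (congrArg (fun w : W G => w.p i) (v0_v0 hm1)).symm
  have x1 : x.p 1 = 1 := by
    have := vinj _ _ y0
    simpa [v0_apply hm1] using this
  have xm : x.p (m + 1) = m + 1 := by
    have := vinj _ _ yn
    simpa [v0_apply hm1, show m ≠ 0 by omega] using this
  have g1 : x.g 1 ∈ P := by simpa [v0_apply hm1] using yg0
  have gm : x.g (m + 1) = x.g 1 := by simpa [v0_apply hm1, show m ≠ 0 by omega] using ygn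
  have n0 : ∀ j, x.p j = 0 → j = 0 := fun j h => x.p.injective (h.trans x0.symm)
  have n1 : ∀ j, x.p j = 1 → j = 1 := fun j h => x.p.injective (h.trans x1.symm)
  have n2 : ∀ j, x.p j = m + 1 → j = m + 1 := fun j h => x.p.injective (h.trans xm.symm)
  have n3 : ∀ j, x.p j = m + 2 → j = m + 2 := fun j h => x.p.injective (h.trans xn.symm)
  set x' := trunc (m + 1) (trunc (m + 2) x) with hx'
  have hx'L : x' ∈ Lv (m + 1) := trunc_mem (trunc_mem hL xn) xm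
  have s1 : (sg : W G) ∈ Lv (m + 1) := sg_mem (by omega)
  have s2 : (sg : W G) ∈ Lv (m + 2) := sg_mem (by omega)
  have e1 : trunc (m + 2) x * sg = sg * plus (m + 1) 0 (sg * x' * sg) := by
    ext j
    · simp [hx', sg]
    · simp only [hx', sg, W.mul_g, W.mul_p, trunc_g, plus_g, prm_g, prm_p, swap_apply_def,
        mul_one, one_mul]
      grind
  have e2 : sg * x' * sg ∈ St P (m + 1) := ⟨mul_mem (mul_mem s1 hx'L) s1,
    by simp [hx', sg, x1], by simpa [hx', sg, show m ≠ 0 by omega] using g1⟩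
  have e3 : x' ∈ St P (m + 1) := ⟨hx'L, x0, by simpa [hx'] using g0⟩
  have e4 : plus (m + 1) 0 x' * sg = sg * trunc (m + 2) (v0 m * x * v0 m) := by
    ext j
    · simp only [hx', sg, W.mul_p, trunc_p, plus_p, prm_p, Perm.mul_apply, v0_apply hm1,
        swap_apply_def]
      have := n0 j
      have := n1 j
      have := n2 j
      have := n3 j
      grind
    · simp only [hx', sg, W.mul_g, W.mul_p, trunc_g, plus_g, prm_g, prm_p, swap_apply_def, v0_g,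
        v0_apply hm1, mul_one, one_mul]
      grind
  have t2 : trunc (m + 2) (v0 m * x * v0 m) ∈ Lv (m + 2) :=
    trunc_mem (mul_mem (mul_mem v0_mem hL) v0_mem) yn
  have M2 := h.mul (m + 2) (by omega) le_rfl
  have M1 := h.mul (m + 1) (by omega) (by omega)
  have f1 := M2 _ (trunc_mem hL xn) _ s2
  rw [e1, M2 _ s2 _ (plus_mem 0 e2.1), ← h.e0 (m + 1) (by omega) le_rfl _ e2] at f1
  have f2 : a (m + 1) (sg * x' * sg) * a (m + 1) sg = a (m + 1) sg * a (m + 1) x' := by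
    rw [← M1 _ e2.1 _ s1, ← M1 _ s1 _ hx'L, mul_assoc, sg_sg, mul_one]
  have f3 := M2 _ (plus_mem 0 hx'L) _ s2
  rw [e4, M2 _ s2 _ t2, ← h.e0 (m + 1) (by omega) le_rfl _ e3] at f3
  simp only [bK, th]
  rw [← mul_assoc, ← mul_assoc, ← f1, mul_assoc (a (m + 2) sg), f2, mul_assoc, mul_assoc, ← f3]
  simp only [mul_assoc]

/-- the second basic element -/
def bt (m : ℕ) : W G := prm (swap 1 2) * ta m

omit h hB in
lemma bt_apply (j : ℕ) : (bt m : W G).p j =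
    if j = 1 then 2 else if j = 2 then 1 else if j = m then m + 1 else
      if j = m + 1 then m else j := by
  simp only [bt, ta, W.mul_p, prm_p, Perm.mul_apply, swap_apply_def]
  grind

omit h hB hm in
@[simp] lemma bt_g (j : ℕ) : (bt m : W G).g j = 1 := by simp [bt, ta]

omit h hB in
lemma v0_bt : (v0 m * bt m * v0 m : W G) = bt m * v0 m * bt m := by
  ext j
  · have a1 := v0_apply (G := G) (m := m) (by omega) j
    have a2 := bt_apply (G := G) hm ((v0 m : W G).p j)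
    have a3 := v0_apply (G := G) (m := m) (by omega) ((bt m : W G).p ((v0 m : W G).p j))
    have b1 := bt_apply (G := G) hm j
    have b2 := v0_apply (G := G) (m := m) (by omega) ((bt m : W G).p j)
    have b3 := bt_apply (G := G) hm ((v0 m : W G).p ((bt m : W G).p j))
    simp only [W.mul_p, Perm.mul_apply]
    grind (splits := 40)
  · simp

omit h hB in
lemma bt_Kn : (bt m : W G) ∈ Kn P (m + 2) := by
  refine ⟨fun i hi => ⟨?_, bt_g _⟩, ?_, ?_, by simp, by simp⟩ <;> rw [bt_apply hm] <;> grind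

lemma th_bt : th a m * bK a (m + 2) (bt m) * th a m =
    bK a (m + 2) (bt m) * th a m * bK a (m + 2) (bt m) := by
  have M2 := h.mul (m + 2) (by omega) le_rfl
  have M1 := h.mul (m + 1) (by omega) (by omega)
  have M0 := h.mul m hB (by omega)
  set ρ : W G := prm (swap 1 2) with hρ
  have r0 : ρ ∈ Lv m := swap_mem (by omega) (by omega)
  have r1 : ρ ∈ Lv (m + 1) := Lv_mono (by omega) r0
  have r2 : ρ ∈ Lv (m + 2) := Lv_mono (by omega) r0
  have s0 : (sg : W G) ∈ Lv m := sg_mem (by omega)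
  have s1 : (sg : W G) ∈ Lv (m + 1) := sg_mem (by omega)
  have s2 : (sg : W G) ∈ Lv (m + 2) := sg_mem (by omega)
  have t2 : (ta m : W G) ∈ Lv (m + 2) := ta_mem le_rfl
  have e1 : a (m + 1) ρ = a (m + 2) ρ := by
    rw [h.e0 (m + 1) (by omega) le_rfl ρ ⟨r1, by simp [hρ, swap_apply_def], by simp [hρ]⟩, hρ,
      plus_prm]
  have e0 : a m ρ = a (m + 2) ρ := by
    rw [h.e0 m hB (by omega) ρ ⟨r0, by simp [hρ, swap_apply_def], by simp [hρ]⟩, hρ,
      plus_prm, e1]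
  have br : (sg * ρ * sg : W G) = ρ * sg * ρ := by
    ext j
    · simp only [hρ, sg, W.mul_p, prm_p, Perm.mul_apply, swap_apply_def]; grind
    · simp [hρ, sg]
  have br3 : (sg * ρ * (sg * ρ) * (sg * ρ) : W G) = 1 := by
    ext j
    · simp only [hρ, sg, W.mul_p, prm_p, Perm.mul_apply, swap_apply_def, W.one_p,
        Perm.one_apply]
      grind
    · simp [hρ, sg]
  have c1 : (sg * ta m : W G) = ta m * sg := by
    ext j
    · simp only [ta, sg, W.mul_p, prm_p, Perm.mul_apply, swap_apply_def]; grind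
    · simp [ta, sg]
  have c2 : (ρ * ta m : W G) = ta m * ρ := by
    ext j
    · simp only [ta, hρ, W.mul_p, prm_p, Perm.mul_apply, swap_apply_def]; grind
    · simp [ta, hρ]
  have hb : bK a (m + 2) (bt m) = a (m + 2) ρ * a (m + 2) (ta m) := by
    rw [← M2 _ r2 _ t2, bK]
    congr 1
    ext j
    · rfl
    · simp [hρ, ta]
  rw [hb, th]
  refine braid_aux _ _ (a m sg) _ _ (a_sg_sg h hB (by omega) le_rfl (by omega))
    (a_sg_sg h hB (by omega) (by omega) (by omega)) ?_ ?_ ?_ ?_ ?_ ?_ ?_ ?_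
  · rw [← M2 _ r2 _ r2, hρ, ← map_mul, swap_mul_self, map_one, h.one (by omega) le_rfl]
  · rw [← M2 _ t2 _ t2, ta_ta, h.one (by omega) le_rfl]
  · rw [← M2 _ s2 _ r2, ← M2 _ (mul_mem s2 r2) _ s2, br, M2 _ (mul_mem r2 s2) _ r2, M2 _ r2 _ s2]
  · rw [← e1, ← M1 _ s1 _ r1, ← M1 _ (mul_mem s1 r1) _ s1, br, M1 _ (mul_mem r1 s1) _ r1,
      M1 _ r1 _ s1]
  · rw [← e0, ← M0 _ s0 _ r0, ← M0 _ (mul_mem s0 r0) _ (mul_mem s0 r0),
      ← M0 _ (mul_mem (mul_mem s0 r0) (mul_mem s0 r0)) _ (mul_mem s0 r0), br3,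
      h.one hB (by omega)]
  · rw [← M2 _ s2 _ t2, c1, M2 _ t2 _ s2]
  · rw [← M2 _ r2 _ t2, c2, M2 _ t2 _ r2]
  · rw [← M2 _ s2 _ t2, h.cc m hB le_rfl]

open Classical in
/-- the local homomorphism on `Dn` -/
noncomputable def FD (P : Subgroup G) (a : ℕ → W G → H) (m : ℕ) (d : W G) : H :=
  if h : ∃ xy : W G × W G, xy.1 ∈ Kn P (m + 2) ∧ xy.2 ∈ Kn P (m + 2) ∧ d = xy.1 * v0 m * xy.2 then
    bK a (m + 2) h.choose.1 * th a m * bK a (m + 2) h.choose.2 else 1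

lemma FD_eq {x y : W G} (hx : x ∈ Kn P (m + 2)) (hy : y ∈ Kn P (m + 2)) :
    FD P a m (x * v0 m * y) = bK a (m + 2) x * th a m * bK a (m + 2) y := by
  have hex : ∃ xy : W G × W G, xy.1 ∈ Kn P (m + 2) ∧ xy.2 ∈ Kn P (m + 2) ∧
    x * v0 m * y = xy.1 * v0 m * xy.2 := ⟨(x, y), hx, hy, rfl⟩
  rw [FD, dif_pos hex]
  obtain ⟨h1, h2, h3⟩ := hex.choose_spec
  set x' := hex.choose.1
  set y' := hex.choose.2
  have := bK_th h hB hm (mul_mem (inv_mem hx) h1) (mul_mem hy (inv_mem h2)) (by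
    rw [mul_assoc, inv_mul_eq_iff_eq_mul, ← mul_assoc, ← mul_assoc, h3]; simp)
  rw [bK_mul h hB (inv_mem hx) h1, bK_mul h hB hy (inv_mem h2), bK_inv h hB hx, bK_inv h hB h2,
    mul_assoc, inv_mul_eq_iff_eq_mul] at this
  rw [this]
  simp [mul_assoc]

lemma FD_mul {x y d : W G} (hx : x ∈ Kn P (m + 2)) (hy : y ∈ Kn P (m + 2))
    (hd : d ∈ Dn (m + 2)) :
    FD P a m (x * d * y) = bK a (m + 2) x * FD P a m d * bK a (m + 2) y := by
  obtain ⟨x', hx', y', hy', rfl⟩ := Dn_dec (P := P) (by omega) hd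
  have : x * (x' * v0 m * y') * y = (x * x') * v0 m * (y' * y) := by group
  rw [this, FD_eq h hB hm (mul_mem hx hx') (mul_mem hy' hy), FD_eq h hB hm hx' hy',
    bK_mul h hB hx hx', bK_mul h hB hy' hy]
  simp only [mul_assoc]

lemma FD_inv {d : W G} (hd : d ∈ Dn (m + 2)) : FD P a m d⁻¹ = (FD P a m d)⁻¹ := by
  obtain ⟨x, hx, y, hy, rfl⟩ := Dn_dec (P := P) (by omega) hd
  rw [mul_inv_rev, mul_inv_rev, v0_inv (by omega), ← mul_assoc,
    FD_eq h hB hm (inv_mem hy) (inv_mem hx), FD_eq h hB hm hx hy, bK_inv h hB hx, bK_inv h hB hy,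
    mul_inv_rev, mul_inv_rev, inv_eq_of_mul_eq_one_right (th_th h hB hm), mul_assoc]

lemma FD_tri0 {k : W G} (hk : k ∈ Kn P (m + 2)) (hd : v0 m * k * v0 m ∈ Dn (m + 2)) :
    th a m * bK a (m + 2) k * th a m = FD P a m (v0 m * k * v0 m) := by
  have hm1 : 1 ≤ m := by omega
  obtain ⟨hL, k0, kn, g0, gn⟩ := hk
  obtain ⟨-, d1, d2, d3, d4⟩ := hd
  simp only [W.mul_p, Perm.mul_apply, v0_apply hm1] at d1 d2 d3 d4
  have kinj : ∀ i j, k.p i = k.p j → i = j := fun i j h => k.p.injective h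
  have l1 := Lv_lt hL (i := 1) (by omega)
  have l2 := Lv_lt hL (i := m + 1) (by omega)
  have p0 := kinj 1 0
  have p1 := kinj 1 (m + 2)
  have p2 := kinj (m + 1) 0
  have p3 := kinj (m + 1) (m + 2)
  have p4 := kinj 1 (m + 1)
  obtain ⟨x, x1, x2, x3, x4, x5, x6⟩ := exists_W2 (a := 2) (b := m) (p := k.p 1) (q := k.p (m + 1))
    (by omega) (by grind) (k.g 1) (k.g (m + 1))
  have hxL : x ∈ Lv (m + 3) := fun i hi => ⟨x5 i (by omega) (by omega) (by omega) (by omega),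
    x6 i (by omega) (by omega)⟩
  have q0 : x.p 0 = 0 := x5 0 (by omega) (by omega) (by grind) (by grind)
  have q1 : x.p 1 = 1 := x5 1 (by omega) (by omega) (by grind) (by grind)
  have q2 : x.p (m + 1) = m + 1 := x5 _ (by omega) (by omega) (by grind) (by grind)
  have q3 : x.p (m + 2) = m + 2 := x5 _ (by omega) (by omega) (by grind) (by grind)
  have r0 := x6 0 (by omega) (by omega)
  have r1 := x6 1 (by omega) (by omega)
  have r2 := x6 (m + 1) (by omega) (by omega)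
  have r3 := x6 (m + 2) (by omega) (by omega)
  have hx : x ∈ Kn P (m + 2) := ⟨hxL, q0, q3, by simp [r0], by simp [r0, r3]⟩
  have vv : ∀ u : W G, u ∈ Lv (m + 3) → u.p 1 = 1 → u.p (m + 1) = m + 1 → u.g 1 = 1 →
      u.g (m + 1) = 1 → v0 m * u * v0 m ∈ Kn P (m + 2) := by
    intro u hu u1 u2 u3 u4
    refine ⟨mul_mem (mul_mem v0_mem hu) v0_mem, ?_, ?_, ?_, ?_⟩
    · simp [v0_apply hm1, u1]
    · simp [v0_apply hm1, u2, show m ≠ 0 by omega]
    · simp [v0_apply hm1, u3]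
    · simp [v0_apply hm1, u3, u4, show m ≠ 0 by omega]
  have hb := bt_Kn (P := P) hm
  set y := (bt m)⁻¹ * x⁻¹ * k with hy
  have hyK : y ∈ Kn P (m + 2) := mul_mem (mul_mem (inv_mem hb) (inv_mem hx)) ⟨hL, k0, kn, g0, gn⟩
  have i1 : x.p⁻¹ (k.p 1) = 2 := by rw [Perm.inv_eq_iff_eq, x1]
  have i2 : x.p⁻¹ (k.p (m + 1)) = m := by rw [Perm.inv_eq_iff_eq, x2]
  have hx' := vv x hxL q1 q2 r1 r2
  have hy' := vv y hyK.1
    (by simp only [hy, W.mul_p, W.inv_p, Perm.mul_apply, i1, Perm.inv_eq_iff_eq, bt_apply hm]; simp)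
    (by simp only [hy, W.mul_p, W.inv_p, Perm.mul_apply, i2, Perm.inv_eq_iff_eq, bt_apply hm]; grind)
    (by simp only [hy, W.mul_g, W.inv_g, i1, x3, bt_g]; simp)
    (by simp only [hy, W.mul_g, W.inv_g, i2, x4, bt_g]; simp)
  have hk' : k = x * bt m * y := by rw [hy]; group
  have vvv : ∀ u : W G, v0 m * (v0 m * u) = u := fun u => by rw [← mul_assoc, v0_v0 hm1, one_mul]
  have br := v0_bt (G := G) hm
  have e1 : v0 m * k * v0 m = (v0 m * x * v0 m) * (bt m * v0 m * bt m) * (v0 m * y * v0 m) := by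
    rw [← br, hk']
    simp only [mul_assoc, vvv]
  have f1 := bK_th h hB hm hx' hx (by simp only [mul_assoc, v0_v0 hm1, mul_one])
  have f2 := bK_th h hB hm hyK hy' (by simp only [mul_assoc, vvv])
  rw [e1, FD_mul h hB hm hx' hy' (Dn_mul hb hb (v0_Dn hm1)), FD_eq h hB hm hb hb,
    ← th_bt h hB hm, hk', bK_mul h hB (mul_mem hx hb) hyK, bK_mul h hB hx hb]
  generalize v0 m * y * v0 m = y' at f2
  generalize v0 m * x * v0 m = x' at f1
  simp only [← mul_assoc]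
  rw [← f1]
  simp only [mul_assoc]
  rw [f2]

lemma FD_tri {d1 d2 : W G} (h1 : d1 ∈ Dn (m + 2)) (h2 : d2 ∈ Dn (m + 2))
    (h3 : d1 * d2 ∈ Dn (m + 2)) : FD P a m d1 * FD P a m d2 = FD P a m (d1 * d2) := by
  obtain ⟨x1, hx1, y1, hy1, rfl⟩ := Dn_dec (P := P) (by omega) h1
  obtain ⟨x2, hx2, y2, hy2, rfl⟩ := Dn_dec (P := P) (by omega) h2
  have e : x1 * v0 m * y1 * (x2 * v0 m * y2) = x1 * (v0 m * (y1 * x2) * v0 m) * y2 := by group
  have h4 : v0 m * (y1 * x2) * v0 m ∈ Dn (m + 2) := by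
    have := Dn_mul (inv_mem hx1) (inv_mem hy2) h3
    rw [e] at this
    simpa [mul_assoc] using this
  rw [e, FD_mul h hB hm hx1 hy2 h4, ← FD_tri0 h hB hm (mul_mem hy1 hx2) h4,
    FD_eq h hB hm hx1 hy1, FD_eq h hB hm hx2 hy2, bK_mul h hB hy1 hx2]
  simp only [mul_assoc]

theorem Pre.extend : ∃ a' : ℕ → W G → H, Pre P a' B (m + 3) ∧ ∀ k, k ≤ m + 2 → a' k = a k := by
  obtain ⟨A, hA, hA2⟩ := local_global (Lv (m + 3)) (Dn (m + 2)) (FD P a m) (fun d hd => hd.1)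
    (fun d hd => Dn_inv hd) (fun d hd => FD_inv h hB hm hd)
    (fun d1 h1 d2 h2 h3 => FD_tri h hB hm h1 h2 h3) (Dn_nb (by omega))
  have hK : ∀ k ∈ Kn P (m + 2), A k = bK a (m + 2) k := by
    intro k hk
    have hv := v0_Dn (G := G) (m := m) (by omega)
    rw [hA2 k hk.1 _ hv (by simpa using Dn_mul (inv_mem hk) (one_mem _) hv)]
    have := FD_mul h hB hm (one_mem _) hk (Dn_inv hv)
    rw [one_mul, bK_one h hB, one_mul, FD_inv h hB hm hv] at this
    rw [this, mul_inv_cancel_left]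
  have hv : A (v0 m) = th a m := by
    have hv := v0_Dn (G := G) (m := m) (by omega)
    obtain ⟨d, hd, h1, -⟩ := Dn_nb (n := m + 2) (by omega) _ hv.1 _ hv.1 _ hv.1
    have h2 : d⁻¹ * v0 m ∈ Dn (m + 2) := by simpa using Dn_inv h1
    rw [hA2 _ hv.1 d hd h1, FD_tri h hB hm hd h2 (by simpa using hv), mul_inv_cancel_left]
    have := FD_eq h hB hm (one_mem _) (one_mem _)
    simpa [bK_one h hB] using this
  refine ⟨fun k => if k = m + 3 then A else a k, ⟨?_, ?_, ?_⟩, fun k hk => if_neg (by omega)⟩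
  · intro k h1 h2 u hu v hv
    by_cases hk : k = m + 3
    · subst hk
      simpa using hA u hu v hv
    · simpa [hk] using h.mul k h1 (by omega) u hu v hv
  · intro k h1 h2 u hu
    by_cases hk : k = m + 2
    · subst hk
      simp [hK _ (plus_Kn (by omega) hu), bK, trunc_plus 0 hu.1]
    · simpa [show k ≠ m + 3 by omega, hk] using h.e0 k h1 (by omega) u hu
  · intro k h1 h2
    by_cases hk : k = m + 1
    · subst hk
      simpa using! hv
    · simpa [show k ≠ m + 3 by omega, show k ≠ m + 2 by omega, hk] using h.cc k h1 (by omega)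

end ext

theorem Pre.extend_all {H : Type} [Group H] {a : ℕ → W G → H} {B m : ℕ} (h : Pre P a B (m + 2))
    (hB : B ≤ m) (hm : 7 ≤ m) :
    ∃ A : ℕ → W G → H, (∀ n, Pre P A B n) ∧ ∀ k, k ≤ m + 2 → A k = a k := by
  have step : ∀ (j : ℕ) (b : {b : ℕ → W G → H // Pre P b B (m + j + 2)}),
      ∃ b' : {b : ℕ → W G → H // Pre P b B (m + (j + 1) + 2)},
        ∀ k, k ≤ m + j + 2 → b'.1 k = b.1 k := by
    intro j b
    obtain ⟨a', h1, h2⟩ := Pre.extend b.2 (by omega) (by omega)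
    exact ⟨⟨a', h1⟩, h2⟩
  choose st hst using step
  let f : ∀ j : ℕ, {b : ℕ → W G → H // Pre P b B (m + j + 2)} :=
    fun j => Nat.rec ⟨a, h⟩ st j
  have hf : ∀ i j k, k ≤ m + i + 2 → (f (i + j)).1 k = (f i).1 k := by
    intro i j k hk
    induction j with
    | zero => rfl
    | succ j ih => exact (hst (i + j) (f (i + j)) k (by omega)).trans ih
  have hf2 : ∀ i k, k ≤ m + i + 2 → (f k).1 k = (f i).1 k := by
    intro i k hk
    rw [← hf i k k hk, ← hf k i k (by omega), add_comm k i]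
  refine ⟨fun k => (f k).1 k, fun n => ⟨?_, ?_, ?_⟩, fun k hk => hf2 0 k hk⟩
  · intro k h1 _
    exact (f k).2.mul k h1 (by omega)
  · intro k h1 _ u hu
    rw [hf2 k (k + 1) (by omega)]
    exact (f k).2.e0 k h1 (by omega) u hu
  · intro k h1 _
    rw [hf2 k (k + 1) (by omega), hf2 k (k + 2) (by omega)]
    exact (f k).2.cc k h1 (by omega)

lemma Dn_factor {n : ℕ} (hn : 9 ≤ n) {w : W G} (hw : w ∈ Lv (n + 1)) :
    ∃ d1 ∈ Dn n, ∃ d2 ∈ Dn n, w = d1 * d2 := by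
  obtain ⟨d, hd, h1, -⟩ := Dn_nb hn _ hw _ hw _ hw
  exact ⟨d, hd, _, Dn_inv h1, by group⟩

/-- the values on high levels lie in any set closed under the group operations -/
theorem Pre.gen {H : Type} [Group H] {a : ℕ → W G → H} {B : ℕ} (h : ∀ n, Pre P a B n)
    (hB : 8 ≤ B) (Q : ℕ → W G → Prop) (h0 : ∀ m, B ≤ m → m ≤ B + 1 → ∀ w ∈ Lv m, Q m w)
    (hmul : ∀ m, B ≤ m → ∀ u ∈ Lv m, ∀ v ∈ Lv m, Q m u → Q m v → Q m (u * v))
    (he : ∀ m, B ≤ m → ∀ u ∈ St P m, Q m u → Q (m + 1) (plus m 0 u))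
    (hc : ∀ m, B ≤ m → Q m sg → Q (m + 1) sg → Q (m + 2) (sg * ta m)) :
    ∀ m, B ≤ m → ∀ w ∈ Lv m, Q m w := by
  intro m
  induction m using Nat.strong_induction_on with
  | _ m ih =>
    intro hm w hw
    by_cases h1 : m ≤ B + 1
    · exact h0 m hm h1 w hw
    obtain ⟨k, rfl⟩ : ∃ k, m = k + 3 := ⟨m - 3, by omega⟩
    have hK : ∀ x ∈ Kn P (k + 2), Q (k + 3) x := by
      intro x hx
      rw [← plus_trunc (by omega) hx]
      have := trunc_St (by omega) hx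
      exact he _ (by omega) _ this (ih _ (by omega) (by omega) _ this.1)
    have hD : ∀ d ∈ Dn (k + 2), Q (k + 3) d := by
      intro d hd
      obtain ⟨x, hx, y, hy, rfl⟩ := Dn_dec (P := P) (by omega) hd
      exact hmul _ hm _ (mul_mem hx.1 v0_mem) _ hy.1 (hmul _ hm _ hx.1 _ v0_mem (hK x hx)
        (hc (k + 1) (by omega) (ih _ (by omega) (by omega) _ (sg_mem (by omega)))
          (ih _ (by omega) (by omega) _ (sg_mem (by omega))))) (hK y hy)
    obtain ⟨d1, h1, d2, h2, rfl⟩ := Dn_factor (n := k + 2) (by omega) hw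
    exact hmul _ hm _ h1.1 _ h2.1 (hD _ h1) (hD _ h2)

end Vale.Agent.P193.SV
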