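import Vale.Agent.P193.SVConc
import Mathlib.Algebra.BigOperators.Group.Finset.Basic
import Mathlib.Algebra.Order.BigOperators.Group.Finset

/-! Forests, uniform forests and coherence. -/

namespace Vale.Agent.P193.SV

open Equiv

variable {G : Type} [Group G] {P : Subgroup G} {H : Type} [Group H]

/-- forests as lists of splittings -/
abbrev Fl (P : Subgroup G) : Type := List (ℕ × (G ⧸ P))

/-- the element given by a forest -/
noncomputable def Fo (a : ℕ → W G → H) : ℕ → Fl P → H
  | _, [] => 1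
  | n, x :: l => Fo a (n + 1) l * LL a n x.1 x.2

/-- validity of a forest -/
def Val : ℕ → Fl P → Prop
  | _, [] => True
  | n, x :: l => x.1 < n ∧ Val (n + 1) l

lemma Fo_append (a : ℕ → W G → H) (n : ℕ) (l l' : Fl P) :
    Fo a n (l ++ l') = Fo a (n + l.length) l' * Fo a n l := by
  induction l generalizing n with
  | nil => simp [Fo]
  | cons x l ih =>
    simp only [List.cons_append, Fo, ih, List.length_cons, mul_assoc]
    rw [show n + 1 + l.length = n + (l.length + 1) by omega]

lemma Val_append {n : ℕ} {l l' : Fl P} : Val n (l ++ l') ↔ Val n l ∧ Val (n + l.length) l' := by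
  induction l generalizing n with
  | nil => simp [Val]
  | cons x l ih =>
    simp only [List.cons_append, Val, ih, List.length_cons, and_assoc]
    rw [show n + 1 + l.length = n + (l.length + 1) by omega]

open Classical in
/-- the depths remaining after a splitting -/
noncomputable def upd (n i : ℕ) (s : G ⧸ P) (m : ℕ → Multiset (G ⧸ P)) : ℕ → Multiset (G ⧸ P) :=
  fun j => if j = i ∨ j = n then (m i).erase s else m j

/-- uniform forests of a given type -/
inductive Unif : ℕ → (ℕ → Multiset (G ⧸ P)) → Fl P → Prop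
  | nil (n : ℕ) (m : ℕ → Multiset (G ⧸ P)) (h : ∀ i, i < n → m i = 0) : Unif n m []
  | cons (n : ℕ) (m : ℕ → Multiset (G ⧸ P)) (i : ℕ) (s : G ⧸ P) (l : Fl P) (hi : i < n)
      (hs : s ∈ m i) (h : Unif (n + 1) (upd n i s m) l) : Unif n m ((i, s) :: l)

lemma Unif.val {n : ℕ} {m : ℕ → Multiset (G ⧸ P)} {l : Fl P} (h : Unif n m l) : Val n l := by
  induction h with
  | nil => trivial
  | cons n m i s l hi hs h ih => exact ⟨hi, ih⟩

/-- transport of a forest by a permutation -/
def trp (π : Perm ℕ) (l : Fl P) : Fl P := l.map fun x => (π x.1, x.2)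

@[simp] lemma trp_length (π : Perm ℕ) (l : Fl P) : (trp π l).length = l.length := by simp [trp]

lemma Unif.trp {n : ℕ} {m : ℕ → Multiset (G ⧸ P)} {l : Fl P} (h : Unif n m l) {π : Perm ℕ}
    (hπ : (prm π : W G) ∈ Lv n) {m' : ℕ → Multiset (G ⧸ P)} (hm : ∀ i, i < n → m' (π i) = m i) :
    Unif n m' (trp π l) := by
  induction h generalizing m' with
  | nil n m h =>
    refine Unif.nil _ _ fun i hi => ?_
    have h2 : π⁻¹ i < n := Lv_lt (inv_mem hπ) hi
    have := hm _ h2
    rw [h _ h2] at this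
    simpa using this
  | cons n m i s l hi hs h ih =>
    refine Unif.cons _ _ _ _ _ (Lv_lt hπ hi) (by rwa [hm i hi]) (ih (Lv_mono (by omega) hπ) ?_)
    intro j hj
    have h1 : π n = n := (hπ n le_rfl).1
    have h2 : π j = n ↔ j = n := ⟨fun h => π.injective (h.trans h1.symm), fun h => h ▸ h1⟩
    simp only [upd, π.injective.eq_iff, h2, hm i hi]
    split_ifs with h3
    · rfl
    · exact hm j (by omega)

lemma Unif.append {n : ℕ} {l l' : Fl P} {m : ℕ → Multiset (G ⧸ P)} (h : Unif n m (l ++ l')) :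
    ∃ m', Unif (n + l.length) m' l' := by
  induction l generalizing n m with
  | nil => exact ⟨m, h⟩
  | cons x l ih =>
    cases h with
    | cons _ _ i s _ hi hs h =>
      obtain ⟨m', h'⟩ := ih h
      exact ⟨m', by rwa [List.length_cons, show n + (l.length + 1) = n + 1 + l.length by omega]⟩

/-- the termination measure -/
def mu (n : ℕ) (m : ℕ → Multiset (G ⧸ P)) : ℕ := ∑ i ∈ Finset.range n, 3 ^ (m i).card

lemma mu_lt {n i : ℕ} {s : G ⧸ P} {m : ℕ → Multiset (G ⧸ P)} (hi : i < n) (hs : s ∈ m i) :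
    mu (n + 1) (upd n i s m) < mu n m := by
  classical
  have hc : (m i).card = ((m i).erase s).card + 1 := (Multiset.card_erase_add_one hs).symm
  have h1 : ∑ j ∈ (Finset.range n).erase i, 3 ^ (upd n i s m j).card =
      ∑ j ∈ (Finset.range n).erase i, 3 ^ (m j).card := by
    refine Finset.sum_congr rfl fun j hj => ?_
    simp only [Finset.mem_erase, Finset.mem_range] at hj
    rw [upd, if_neg (by omega)]
  rw [mu, mu, Finset.sum_range_succ, ← Finset.add_sum_erase _ _ (Finset.mem_range.2 hi),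
    ← Finset.add_sum_erase _ _ (Finset.mem_range.2 hi), h1, hc]
  have h2 : upd n i s m i = (m i).erase s := by simp [upd]
  have h3 : upd n i s m n = (m i).erase s := by simp [upd]
  have : 0 < 3 ^ ((m i).erase s).card := Nat.pow_pos (by omega)
  rw [h2, h3, pow_succ]
  omega

lemma exists_unif (n : ℕ) (m : ℕ → Multiset (G ⧸ P)) : ∃ l, Unif n m l := by
  induction hμ : mu n m using Nat.strong_induction_on generalizing n m with
  | _ k ih =>
    by_cases h : ∀ i, i < n → m i = 0
    · exact ⟨[], Unif.nil n m h⟩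
    · push Not at h
      obtain ⟨i, hi, h⟩ := h
      obtain ⟨s, hs⟩ := Multiset.exists_mem_of_ne_zero h
      obtain ⟨l, hl⟩ := ih _ (hμ ▸ mu_lt hi hs) _ _ rfl
      exact ⟨_, Unif.cons n m i s l hi hs hl⟩

lemma exists_unif_append {n : ℕ} {l : Fl P} (hl : Val n l) {m : ℕ → Multiset (G ⧸ P)}
    (hm : ∀ i, i < n → ((l.map Prod.snd : List (G ⧸ P)) : Multiset (G ⧸ P)) ≤ m i) :
    ∃ l', Unif n m (l ++ l') := by
  classical
  induction l generalizing n m with
  | nil => exact exists_unif n m
  | cons x l ih =>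
    obtain ⟨i, s⟩ := x
    have hi : i < n := hl.1
    simp only [List.map_cons, ← Multiset.cons_coe] at hm
    obtain ⟨l', h⟩ := ih hl.2 (m := upd n i s m) (fun j hj => by
      rw [upd]
      split_ifs with h
      · have := Multiset.erase_le_erase s (hm i hi)
        rwa [Multiset.erase_cons_head] at this
      · exact (Multiset.le_cons_self _ s).trans (hm j (by omega)))
    exact ⟨l', Unif.cons n m i s _ hi (Multiset.mem_of_le (hm i hi) (Multiset.mem_cons_self _ _)) h⟩

variable {a : ℕ → W G → H} {B : ℕ} (h : ∀ n, Pre P a B n)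

include h

lemma Fo_tr {n N : ℕ} (hn : B ≤ n) {l : Fl P} (hl : Val n l) (hN : n + l.length = N) {w : W G}
    (hw : w ∈ Lv n) : ∃ l' : Fl P, ∃ w' ∈ Lv N, Val n l' ∧ l'.length = l.length ∧
      Fo a n l' * a n w = a N w' * Fo a n l := by
  induction l generalizing n w with
  | nil =>
    obtain rfl : n = N := hN
    exact ⟨[], w, hw, trivial, rfl, by simp [Fo]⟩
  | cons x l ih =>
    obtain ⟨l', w', h1, h2, h3, h4⟩ := ih (n := n + 1) (by omega) hl.2
      (by rw [← hN, List.length_cons]; omega) (plus_mem x.1 hw)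
    refine ⟨(w.p x.1, w.g x.1 • x.2) :: l', w', h1, ⟨Lv_lt hw hl.1, h2⟩, by simp [h3], ?_⟩
    rw [Fo, Fo, mul_assoc, LL_E h hn hl.1 _ hw, ← mul_assoc, h4, mul_assoc]

lemma Fo_trp {n N : ℕ} (hn : B ≤ n) {l : Fl P} (hl : Val n l) (hN : n + l.length = N) {π : Perm ℕ}
    (hw : (prm π : W G) ∈ Lv n) : Fo a n (trp π l) * a n (prm π) = a N (prm π) * Fo a n l := by
  induction l generalizing n with
  | nil =>
    obtain rfl : n = N := hN
    simp [Fo, trp]
  | cons x l ih =>
    have := ih (n := n + 1) (by omega) hl.2 (by rw [← hN, List.length_cons]; omega)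
      (Lv_mono (by omega) hw)
    change Fo a (n + 1) (trp π l) * LL a n (π x.1) x.2 * _ = _
    rw [Fo, mul_assoc, LL_prm h hn hl.1 _ hw rfl, ← mul_assoc, this, mul_assoc]

/-- equality of forests up to a permutation of the leaves -/
def Eqv (a : ℕ → W G → H) (n : ℕ) (l1 l2 : Fl P) : Prop :=
  l1.length = l2.length ∧ ∃ π : Perm ℕ, (prm π : W G) ∈ Lv (n + l1.length) ∧
    Fo a n l1 = a (n + l1.length) (prm π) * Fo a n l2

lemma Eqv.refl {n : ℕ} (hn : B ≤ n) (l : Fl P) : Eqv a n l l :=
  ⟨rfl, 1, by simp, by rw [map_one, aone h (by omega), one_mul]⟩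

lemma Eqv.symm {n : ℕ} (hn : B ≤ n) {l1 l2 : Fl P} (e : Eqv a n l1 l2) : Eqv a n l2 l1 := by
  obtain ⟨e1, π, e2, e3⟩ := e
  refine ⟨e1.symm, π⁻¹, ?_, ?_⟩
  · rw [map_inv, ← e1]; exact inv_mem e2
  · rw [map_inv, ← e1, ainv h (by omega) e2, e3, inv_mul_cancel_left]

lemma Eqv.trans {n : ℕ} (hn : B ≤ n) {l1 l2 l3 : Fl P} (e : Eqv a n l1 l2) (e' : Eqv a n l2 l3) :
    Eqv a n l1 l3 := by
  obtain ⟨e1, π, e2, e3⟩ := e
  obtain ⟨f1, ρ, f2, f3⟩ := e'
  rw [← e1] at f2 f3
  refine ⟨e1.trans f1, π * ρ, ?_, ?_⟩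
  · rw [map_mul]; exact mul_mem e2 f2
  · rw [map_mul, amul h (by omega) e2 f2, e3, f3, mul_assoc]

omit h in
lemma Eqv.cons {n : ℕ} {l1 l2 : Fl P} (x : ℕ × (G ⧸ P)) (e : Eqv a (n + 1) l1 l2) :
    Eqv a n (x :: l1) (x :: l2) := by
  obtain ⟨e1, π, e2, e3⟩ := e
  rw [show n + 1 + l1.length = n + (x :: l1).length by simp; omega] at e2 e3
  exact ⟨by simp [e1], π, e2, by rw [Fo, Fo, e3, mul_assoc]⟩

lemma Eqv.of_ta {n k : ℕ} (hn : B ≤ n) {p q l : Fl P} (hp : p.length = k) (hq : q.length = k)
    (hk : 2 ≤ k) (hl : Val (n + k) l) (e : Fo a n p = a (n + k) (ta n) * Fo a n q) :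
    Eqv a n (p ++ l) (q ++ trp (swap n (n + 1)) l) := by
  have ht : (prm (swap n (n + 1)) : W G) ∈ Lv (n + k) := ta_mem (by omega)
  have := Fo_trp h (by omega) hl (N := n + (p ++ l).length) (by simp [hp, add_assoc]) ht
  have ht2 : (prm (swap n (n + 1)) : W G) ∈ Lv (n + (p ++ l).length) :=
    Lv_mono (by simp [hp]) ht
  refine ⟨by simp [hp, hq], swap n (n + 1), ht2, ?_⟩
  have tt : ∀ M, B ≤ M → n + 2 ≤ M → a M (prm (swap n (n + 1))) * a M (prm (swap n (n + 1))) = 1 :=
    fun M h1 h2 => by
      change a M (ta n) * a M (ta n) = 1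
      rw [← amul h h1 (ta_mem h2) (ta_mem h2), ta_ta, aone h h1]
  rw [Fo_append, Fo_append, hp, hq, e, ← mul_assoc, ← mul_assoc]
  congr 1
  rw [eq_mul_inv_of_mul_eq this, ← mul_assoc, ← mul_assoc, tt _ (by omega) (by simp; omega),
    one_mul, inv_eq_of_mul_eq_one_right (tt _ (by omega) (by omega))]
  rfl

theorem Unif.coh (hX : ∀ m i, B ≤ m → i < m → ∀ s s' : G ⧸ P, s ≠ s' → XR a m i s s') {n : ℕ}
    (hn : B ≤ n) {m : ℕ → Multiset (G ⧸ P)} {l1 l2 : Fl P} (h1 : Unif n m l1) (h2 : Unif n m l2) :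
    Eqv a n l1 l2 := by
  classical
  induction hμ : mu n m using Nat.strong_induction_on generalizing n m l1 l2 with
  | _ k ih =>
    subst hμ
    cases h1 with
    | nil _ _ g1 =>
      cases h2 with
      | nil => exact Eqv.refl h hn _
      | cons _ _ j t l2 hj ht g2 => rw [g1 j hj] at ht; simp at ht
    | cons _ _ i s l1 hi hs g1 =>
      cases h2 with
      | nil _ _ g2 => rw [g2 i hi] at hs; simp at hs
      | cons _ _ j t l2 hj ht g2 =>
        have ih1 := fun l (hl : Unif _ _ l) =>
          Eqv.cons (i, s) (ih _ (mu_lt hi hs) (by omega) g1 hl rfl)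
        have ih2 := fun l (hl : Unif _ _ l) =>
          Eqv.cons (j, t) (ih _ (mu_lt hj ht) (by omega) hl g2 rfl)
        have ht2 : ∀ {k}, n + 2 ≤ k → (prm (swap n (n + 1)) : W G) ∈ Lv k := ta_mem
        by_cases hij : i = j
        · subst hij
          by_cases hst : s = t
          · subst hst
            exact ih1 _ g2
          obtain ⟨l3, g3⟩ := exists_unif (n + 3) (upd (n + 2) n t (upd (n + 1) i t (upd n i s m)))
          have m1 : t ∈ (m i).erase s := (Multiset.mem_erase_of_ne (Ne.symm hst)).2 ht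
          have m2 : s ∈ (m i).erase t := (Multiset.mem_erase_of_ne hst).2 hs
          have u1 := Unif.cons _ _ i t _ (by omega) (by simpa [upd] using m1)
            (Unif.cons _ _ n t _ (by omega) (by simpa [upd, hi.ne'] using m1) g3)
          have g4 := g3.trp (ht2 (by omega))
            (m' := upd (n + 2) n s (upd (n + 1) i s (upd n i t m))) (fun k hk => by
              have := Multiset.erase_comm (m i) s t
              simp only [upd, swap_apply_def]
              grind)
          have u2 := Unif.cons _ _ i s _ (by omega) (by simpa [upd] using m2)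
            (Unif.cons _ _ n s _ (by omega) (by simpa [upd, hi.ne'] using m2) g4)
          refine ((ih1 _ u1).trans h hn ?_).trans h hn (ih2 _ u2)
          refine Eqv.of_ta h hn (p := [(i, s), (i, t), (n, t)]) (q := [(i, t), (i, s), (n, s)])
            (k := 3) rfl rfl (by omega) g3.val ?_
          have := hX n i hn hi s t hst
          simpa [Fo, XR, mul_assoc] using this
        · obtain ⟨l3, g3⟩ := exists_unif (n + 2) (upd (n + 1) j t (upd n i s m))
          have u1 := Unif.cons _ _ j t _ (by omega)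
            (by simpa [upd, Ne.symm hij, hj.ne] using ht) g3
          have g4 := g3.trp (ht2 le_rfl) (m' := upd (n + 1) i s (upd n j t m)) (fun k hk => by
              simp only [upd, swap_apply_def]
              grind)
          have u2 := Unif.cons _ _ i s _ (by omega) (by simpa [upd, hij, hi.ne] using hs) g4
          refine ((ih1 _ u1).trans h hn ?_).trans h hn (ih2 _ u2)
          refine Eqv.of_ta h hn (p := [(i, s), (j, t)]) (q := [(j, t), (i, s)])
            rfl rfl le_rfl g3.val ?_
          have := LL_C h hn hi hj hij s t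
          simpa [Fo, mul_assoc] using this

end Vale.Agent.P193.SV
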