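import Vale.Agent.P193.SVNF
import Mathlib.GroupTheory.Subgroup.Simple
import Mathlib.GroupTheory.QuotientGroup.Defs

/-! Normal form, faithfulness and simplicity. -/

namespace Vale.Agent.P193.SV

open Equiv

variable {G : Type} [Group G] {P : Subgroup G} {H : Type} [Group H]

/-- the permutation given by a forest -/
noncomputable def Fh : ℕ → Fl P → Perm (Pt P)
  | _, [] => 1
  | n, x :: l => Fh (n + 1) l * Lh n x.1 x.2

lemma Lh_cases {n i : ℕ} (hi : i < n) (s : G ⧸ P) (x : Pt P) :
    (x.1 = i ∧ Lh n i s x = (if x.2 s 0 then n else i, tl s x.2)) ∨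
      (x.1 ≠ i ∧ x.1 < n ∧ Lh n i s x = x) ∨ (n ≤ x.1 ∧ Lh n i s x = (x.1 + 1, x.2)) := by
  obtain ⟨j, κ⟩ := x
  rw [Lh_apply hi]
  by_cases h : j = i
  · exact Or.inl ⟨h, h ▸ LF_self _ _ _ _⟩
  · by_cases h2 : j < n
    · exact Or.inr (Or.inl ⟨h, h2, LF_lt _ _ h h2⟩)
    · exact Or.inr (Or.inr ⟨by omega, LF_ge _ _ h (by omega)⟩)

lemma Lh_lt_iff {n i : ℕ} (hi : i < n) (s : G ⧸ P) (x : Pt P) :
    (Lh n i s x).1 < n + 1 ↔ x.1 < n := by
  rcases Lh_cases hi s x with h | h | h
  · rw [h.2]; grind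
  · rw [h.2.2]; grind
  · rw [h.2]; grind

lemma Lh_refine {n i : ℕ} (hi : i < n) (s : G ⧸ P) {x y : Pt P}
    (h : (Lh n i s x).1 = (Lh n i s y).1) : x.1 = y.1 := by
  rcases Lh_cases hi s x with hx | hx | hx <;> rcases Lh_cases hi s y with hy | hy | hy <;> grind

lemma Fh_ge {n : ℕ} {l : Fl P} (hl : Val n l) {x : Pt P} (hx : n ≤ x.1) :
    Fh n l x = (x.1 + l.length, x.2) := by
  induction l generalizing n x with
  | nil => rfl
  | cons y l ih =>
    have : Lh n y.1 y.2 x = (x.1 + 1, x.2) := by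
      have := hl.1
      rcases Lh_cases hl.1 y.2 x with h | h | h
      · omega
      · omega
      · exact h.2
    rw [Fh, Perm.mul_apply, this, ih hl.2 (by simpa using hx)]
    simp; omega

lemma Fh_lt_iff {n : ℕ} {l : Fl P} (hl : Val n l) (x : Pt P) :
    (Fh n l x).1 < n + l.length ↔ x.1 < n := by
  induction l generalizing n x with
  | nil => rfl
  | cons y l ih =>
    rw [Fh, Perm.mul_apply, ← Lh_lt_iff hl.1 y.2, ← ih hl.2, List.length_cons,
      show n + 1 + l.length = n + (l.length + 1) by omega]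

lemma Fh_refine {n : ℕ} {l : Fl P} (hl : Val n l) {x y : Pt P}
    (h : (Fh n l x).1 = (Fh n l y).1) : x.1 = y.1 := by
  induction l generalizing n x y with
  | nil => exact h
  | cons z l ih => exact Lh_refine hl.1 z.2 (ih hl.2 h)

open Classical in
/-- agreement of the first digits -/
def agree (c : Multiset (G ⧸ P)) (κ κ' : Cube P) : Prop :=
  ∀ s k, k < c.count s → κ s k = κ' s k

open Classical in
lemma agree_tl {c : Multiset (G ⧸ P)} {s : G ⧸ P} (hs : s ∈ c) (κ κ' : Cube P) :
    (κ s 0 = κ' s 0 ∧ agree (c.erase s) (tl s κ) (tl s κ')) ↔ agree c κ κ' := by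
  have hc : 0 < c.count s := Multiset.count_pos.2 hs
  constructor
  · rintro ⟨h0, h⟩ t k hk
    by_cases ht : t = s
    · subst ht
      cases k with
      | zero => exact h0
      | succ k =>
        have := h t k (by rw [Multiset.count_erase_self]; omega)
        simpa [tl] using this
    · have := h t k (by rwa [Multiset.count_erase_of_ne ht])
      simpa [tl, ht] using this
  · intro h
    refine ⟨h s 0 hc, fun t k hk => ?_⟩
    by_cases ht : t = s
    · subst ht
      rw [Multiset.count_erase_self] at hk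
      simpa [tl] using h t (k + 1) (by omega)
    · rw [Multiset.count_erase_of_ne ht] at hk
      simpa [tl, ht] using h t k hk

/-- the partition into leaves is the partition into bricks of type `m` -/
def Sem (n : ℕ) (m : ℕ → Multiset (G ⧸ P)) (f : Perm (Pt P)) : Prop :=
  ∀ x y : Pt P, x.1 < n → y.1 < n → ((f x).1 = (f y).1 ↔ x.1 = y.1 ∧ agree (m x.1) x.2 y.2)

lemma Lh_key {n i : ℕ} (hi : i < n) {s : G ⧸ P} {m : ℕ → Multiset (G ⧸ P)} (hs : s ∈ m i)
    {x y : Pt P} (hx : x.1 < n) (hy : y.1 < n) :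
    ((Lh n i s x).1 = (Lh n i s y).1 ∧
      agree (upd n i s m (Lh n i s x).1) (Lh n i s x).2 (Lh n i s y).2) ↔
      x.1 = y.1 ∧ agree (m x.1) x.2 y.2 := by
  rcases Lh_cases hi s x with h1 | h1 | h1
  · rcases Lh_cases hi s y with h2 | h2 | h2
    · rw [h1.2, h2.2, h1.1, h2.1, ← agree_tl hs]
      have e : upd n i s m (if x.2 s 0 = true then n else i) = by
          classical exact (m i).erase s := by
        rw [upd, if_pos (by grind)]
      simp only [e, true_and]
      refine and_congr_left fun _ => ?_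
      cases x.2 s 0 <;> cases y.2 s 0 <;> simp [hi.ne, hi.ne']
    · rw [h1.2, h2.2.2]; grind
    · omega
  · rcases Lh_cases hi s y with h2 | h2 | h2
    · rw [h1.2.2, h2.2]; grind
    · rw [h1.2.2, h2.2.2, upd, if_neg (by omega)]
    · omega
  · omega

lemma Unif.sem {n : ℕ} {m : ℕ → Multiset (G ⧸ P)} {l : Fl P} (h : Unif n m l) :
    Sem n m (Fh n l) := by
  induction h with
  | nil n m h =>
    intro x y hx _
    refine ⟨fun e => ⟨e, fun s k hk => ?_⟩, fun e => e.1⟩
    simp [h _ hx] at hk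
  | cons n m i s l hi hs h ih =>
    intro x y hx hy
    rw [← Lh_key hi hs hx hy]
    exact ih _ _ ((Lh_lt_iff hi s x).2 hx) ((Lh_lt_iff hi s y).2 hy)

lemma Sem.unif {n : ℕ} {m : ℕ → Multiset (G ⧸ P)} {l : Fl P} (hl : Val n l)
    (h : Sem n m (Fh n l)) : Unif n m l := by
  classical
  induction l generalizing n m with
  | nil =>
    refine Unif.nil _ _ fun i hi => Multiset.eq_zero_of_forall_notMem fun s hs => ?_
    have := ((h (i, fun _ _ => false) (i, fun _ _ => true) hi hi).1 rfl).2 s 0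
      (by convert Multiset.count_pos.2 hs)
    simp at this
  | cons z l ih =>
    obtain ⟨i, s⟩ := z
    have hi : i < n := hl.1
    have hs : s ∈ m i := by
      by_contra hs
      have := (h (i, fun _ _ => false) (i, fun t _ => decide (t = s)) hi hi).2 ⟨rfl, fun t k hk => by
        have : t ≠ s := by
          rintro rfl
          exact hs (Multiset.count_pos.1 (by convert Nat.zero_lt_of_lt hk))
        simp [this]⟩
      have h2 := Fh_refine hl.2 this
      simp only [Lh_apply hi, LF_self] at h2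
      simp [hi.ne] at h2
    refine Unif.cons _ _ _ _ _ hi hs (ih hl.2 fun x y hx hy => ?_)
    obtain ⟨x, rfl⟩ := (Lh n i s).surjective x
    obtain ⟨y, rfl⟩ := (Lh n i s).surjective y
    rw [Lh_lt_iff hi] at hx hy
    rw [Lh_key hi hs hx hy]
    exact h x y hx hy

lemma Pre.map {a : ℕ → W G → H} {B n : ℕ} (h : Pre P a B n) {K : Type} [Group K] (f : H →* K) :
    Pre P (fun m w => f (a m w)) B n :=
  ⟨fun m h1 h2 u hu v hv => by rw [h.mul m h1 h2 u hu v hv, map_mul],
    fun m h1 h2 u hu => by rw [h.e0 m h1 h2 u hu],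
    fun m h1 h2 => by rw [h.cc m h1 h2, map_mul, map_mul]⟩

lemma prm_swap_conj (π : Perm ℕ) (x y : ℕ) :
    (prm (swap (π x) (π y)) : W G) = prm π * prm (swap x y) * (prm π)⁻¹ := by
  rw [swap_apply_apply, map_mul, map_mul, map_inv]

variable {a : ℕ → W G → H} {B : ℕ} (h : ∀ n, Pre P a B n)

include h

lemma a_conj {m : ℕ} (hm : B ≤ m) {u v : W G} (hu : u ∈ Lv m) (hv : v ∈ Lv m) :
    a m (u * v * u⁻¹) = a m u * a m v * (a m u)⁻¹ := by
  rw [amul h hm (mul_mem hu hv) (inv_mem hu), amul h hm hu hv, ainv h hm hu]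

lemma swap_rel {m : ℕ} (hm : B ≤ m) {x y z w : ℕ} (hx : x < m) (hy : y < m) (hz : z < m)
    (hw : w < m) (e : a m (prm (swap x y)) = a m (prm (swap z w))) {π : Perm ℕ}
    (hπ : (prm π : W G) ∈ Lv m) : a m (prm (swap (π x) (π y))) = a m (prm (swap (π z) (π w))) := by
  rw [prm_swap_conj, prm_swap_conj, a_conj h hm hπ (swap_mem hx hy),
    a_conj h hm hπ (swap_mem hz hw), e]

lemma three_rel {m : ℕ} (hm : B ≤ m) {x y z : ℕ} (hx : x < m) (hy : y < m) (hz : z < m)
    (h1 : x ≠ y) (h2 : x ≠ z) (h3 : y ≠ z) (e : a m (prm (swap x y)) = a m (prm (swap x z)))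
    {x' y' z' : ℕ} (hx' : x' < m) (hy' : y' < m) (hz' : z' < m) (h1' : x' ≠ y') (h2' : x' ≠ z') :
    a m (prm (swap x' y')) = a m (prm (swap x' z')) := by
  by_cases h3' : y' = z'
  · rw [h3']
  obtain ⟨π, p1, p2, p3⟩ := exists_perm2 h1 h1'
  have hπ : (prm π : W G) ∈ Lv m := prm_mem_iff.2 fun i hi =>
    p3 i (by omega) (by omega) (by omega) (by omega)
  have e1 := swap_rel h hm hx hy hx hz e hπ
  have q1 : π z ≠ x' := fun h => h2 (π.injective (p1.trans h.symm))
  have q2 : π z ≠ y' := fun h => h3 (π.injective (p2.trans h.symm))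
  have q3 : π z < m := Lv_lt hπ hz
  rw [p1, p2] at e1
  have e2 := swap_rel h hm hx' hy' hx' q3 e1 (swap_mem q3 hz')
  rwa [swap_apply_left, swap_apply_of_ne_of_ne q1.symm h2',
    swap_apply_of_ne_of_ne q2.symm h3'] at e2

lemma collapse (hB : 8 ≤ B) (hP : Subgroup.normalClosure (P : Set G) = ⊤) {M : ℕ} (hM : B ≤ M)
    {π : Perm ℕ} (hπ : (prm π : W G) ∈ Lv M) (h1 : π ≠ 1) (h2 : a M (prm π) = 1) :
    ∀ m, B ≤ m → ∀ w ∈ Lv m, a m w = 1 := by
  obtain ⟨i, hi⟩ : ∃ i, π i ≠ i := by
    by_contra hc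
    push Not at hc
    exact h1 (Equiv.ext hc)
  have hiM : i < M := by
    by_contra hc
    exact hi (hπ i (by omega)).1
  have hj : π i < M := Lv_lt hπ hiM
  have ex : ∀ x y z w : ℕ, ∃ k, k < 5 ∧ k ≠ x ∧ k ≠ y ∧ k ≠ z ∧ k ≠ w := by
    intro x y z w
    by_contra hc
    push Not at hc
    have h0 := hc 0
    have h1 := hc 1
    have h2 := hc 2
    have h3 := hc 3
    have h4 := hc 4
    omega
  obtain ⟨k, k0, k1, k2, k3, -⟩ := ex i (π i) (π⁻¹ i) i
  have hk : k < M := by omega
  have hp : π k < M := Lv_lt hπ hk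
  have e : a M (prm (swap (π i) (π k))) = a M (prm (swap i k)) := by
    rw [prm_swap_conj, a_conj h hM hπ (swap_mem hiM hk), h2]; simp
  have p1 : π k ≠ π i := fun h => k1 (π.injective h)
  have p2 : π k ≠ i := fun h => k3 (by rw [← h]; simp)
  have R0 : a M (prm (swap 1 2)) = a M (prm (swap 1 3)) := by
    by_cases hpk : π k = k
    · rw [hpk, swap_comm (π i), swap_comm i] at e
      exact three_rel h hM hk hj hiM k2 k1 hi e (by omega) (by omega) (by omega) (by omega)
        (by omega)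
    · obtain ⟨q, q0, q1, q2, q3, q4⟩ := ex i (π i) k (π k)
      have e2 := swap_rel h hM hj hp hiM hk e (swap_mem hp (show q < M by omega))
      rw [swap_apply_left, swap_apply_of_ne_of_ne p1.symm q2.symm,
        swap_apply_of_ne_of_ne p2.symm q1.symm, swap_apply_of_ne_of_ne (Ne.symm hpk) q3.symm,
        ← e] at e2
      exact three_rel h hM hj (by omega) hp q2.symm p1.symm q4 e2 (by omega) (by omega) (by omega)
        (by omega) (by omega)
  have up : ∀ m, B ≤ m → ∀ x y, 0 < x → x < m → 0 < y → y < m →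
      a (m + 1) (prm (swap x y)) = a m (prm (swap x y)) := by
    intro m hm x y h1 h2 h3 h4
    rw [ae0 h hm (u := prm (swap x y)) ⟨swap_mem h2 h4,
      swap_apply_of_ne_of_ne (by omega) (by omega), by simp⟩, plus_prm]
  have R2 : a (M + 2) (prm (swap 1 2)) = a (M + 2) (prm (swap 1 3)) := by
    rw [up (M + 1), up (M + 1), up M, up M, R0] <;> omega
  have T := fun x' y' z' => three_rel h (m := M + 2) (by omega) (by omega) (by omega) (by omega)
    (by omega) (by omega) (by omega) R2 (x' := x') (y' := y') (z' := z')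
  have e3 : a (M + 2) (ta M) = a (M + 2) sg := by
    rw [ta, sg, T M (M + 1) 0, swap_comm, T 0 M 1] <;> omega
  have e4 := (h (M + 2)).cc M hM le_rfl
  rw [amul h (by omega) (sg_mem (by omega)) (ta_mem le_rfl), e3,
    ← amul h (by omega) (sg_mem (by omega)) (sg_mem (by omega)), sg_sg, aone h (by omega)] at e4
  have e5 : a M sg = 1 := by
    have := sg_inv h (m := M + 1) (by omega) (by omega)
    calc a M sg = (a (M + 1) sg)⁻¹ * (a (M + 1) sg * a M sg * a (M + 1) sg) * (a (M + 1) sg)⁻¹ := by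
          group
      _ = 1 := by rw [← e4, mul_one]; exact (congrArg (_ * ·) this).trans (inv_mul_cancel _)
  have allsw : ∀ m, B ≤ m → ∀ x y, x ≠ y → x < m → y < m → a m (prm (swap x y)) = 1 →
      ∀ z w, z < m → w < m → a m (prm (swap z w)) = 1 := by
    intro m hm x y hxy hx hy e z w hz hw
    by_cases hzw : z = w
    · rw [hzw, swap_self]; exact aone h hm
    obtain ⟨ρ, p1, p2, p3⟩ := exists_perm2 hxy hzw
    have hρ : (prm ρ : W G) ∈ Lv m := prm_mem_iff.2 fun i hi =>
      p3 i (by omega) (by omega) (by omega) (by omega)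
    rw [← p1, ← p2, prm_swap_conj, a_conj h hm hρ (swap_mem hx hy), e]; simp
  have c12 : ∀ m, B ≤ m → a m (prm (swap 1 2)) = a B (prm (swap 1 2)) := by
    intro m hm
    induction m, hm using Nat.le_induction with
    | base => rfl
    | succ m hm ih => rw [up m hm, ih] <;> omega
  have e6 : ∀ m, B ≤ m → ∀ z w, z < m → w < m → a m (prm (swap z w)) = 1 := by
    intro m hm
    refine allsw m hm 1 2 (by omega) (by omega) (by omega) ?_
    rw [c12 m hm, ← c12 M hM]
    exact allsw M hM 0 1 (by omega) (by omega) (by omega) e5 _ _ (by omega) (by omega)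
  have e7 : ∀ m, B ≤ m → ∀ ρ : Perm ℕ, (prm ρ : W G) ∈ Lv m → a m (prm ρ) = 1 := by
    intro m hm ρ hρ
    refine perm_induction (n := m) (Q := fun ρ => a m (prm ρ) = 1) (aone h hm) ?_ ρ
      (prm_mem_iff.1 hρ)
    intro x y ρ hx hy hρ e
    rw [map_mul, amul h hm (swap_mem hx hy) (prm_mem_iff.2 hρ), e, e6 m hm x y hx hy, one_mul]
  have l1 : ∀ m, B ≤ m → ∀ i, i < m → ∀ g, a m (lab i g) = a m (lab 1 g) := by
    intro m hm i hi g
    have := conj_lab (prm (swap 1 i)) 1 g
    simp only [prm_p, prm_g, swap_apply_left, one_mul, inv_one, mul_one] at this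
    have s1 : (prm (swap 1 i) : W G) ∈ Lv m := swap_mem (by omega) hi
    have e := congrArg (a m) this
    rw [amul h hm s1 (lab_mem (by omega) g), amul h hm (lab_mem hi g) s1, e7 m hm _ s1] at e
    simpa using e.symm
  have l2 : ∀ m, B ≤ m → ∀ g, a (m + 1) (lab 1 g) = a m (lab 1 g) := by
    intro m hm g
    rw [ae0 h hm (u := lab 1 g) ⟨lab_mem (by omega) g, rfl, by simp⟩]
    congr 1
    ext j
    · rfl
    · simp only [lab_g, plus_g]; grind
  have l3 : ∀ m, B ≤ m → ∀ g, a m (lab 1 g) = 1 := by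
    intro m hm
    let f : G →* H := MonoidHom.mk' (fun g => a m (lab 1 g)) fun x y => by
      rw [map_mul, amul h hm (lab_mem (by omega) x) (lab_mem (by omega) y)]
    have : Subgroup.normalClosure (P : Set G) ≤ f.ker := by
      refine Subgroup.normalClosure_le_normal fun p hp => ?_
      have e := ae0 h hm (u := lab 0 p) ⟨lab_mem (by omega) p, rfl, by simpa using hp⟩
      have e' : plus m 0 (lab 0 p) = lab 0 p * lab m p := by
        ext j
        · rfl
        · simp only [lab_g, plus_g, W.mul_g, lab_p, Perm.one_apply]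
          by_cases h1 : j = m
          · simp [h1, show m ≠ 0 by omega]
          · simp [h1]
      rw [e', amul h (by omega) (lab_mem (by omega) p) (lab_mem (by omega) p),
        l1 m hm 0 (by omega), l1 (m + 1) (by omega) 0 (by omega),
        l1 (m + 1) (by omega) m (by omega), l2 m hm] at e
      simpa using! e
    intro g
    exact this (hP ▸ Subgroup.mem_top g)
  intro m hm w hw
  refine (lab_induction (Q := fun u => u ∈ Lv m ∧ a m u = 1) w hw ?_ ?_).2
  · have : (prm w.p : W G) ∈ Lv m := prm_mem_iff.2 fun i hi => (hw i hi).1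
    exact ⟨this, e7 m hm _ this⟩
  · rintro u i hi ⟨hu, e⟩
    exact ⟨mul_mem hu (lab_mem hi _), by
      rw [amul h hm hu (lab_mem hi _), e, l1 m hm i hi, l3 m hm, one_mul]⟩

end Vale.Agent.P193.SV
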