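import Vale.Agent.P193.SVDef

/-! The splitting elements of a system and their relations. -/

namespace Vale.Agent.P193.SV

open Equiv

variable {G : Type} [Group G] {P : Subgroup G}

/-- the base coordinate -/
abbrev s0 (P : Subgroup G) : G ⧸ P := ((1 : G) : G ⧸ P)

lemma smul_s0 (g : G) : g • s0 P = (g : G ⧸ P) := by
  rw [s0, MulAction.Quotient.smul_coe, smul_eq_mul, mul_one]

lemma out_smul_s0 (s : G ⧸ P) : s.out • s0 P = s := by
  rw [smul_s0, QuotientGroup.out_eq']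

/-- a chosen element moving `(0, s0)` to `(i, s)` -/
noncomputable def w0 (i : ℕ) (s : G ⧸ P) : W G := prm (swap 0 i) * lab 0 s.out

lemma w0_mem {m i : ℕ} (hi : i < m) (s : G ⧸ P) : w0 i s ∈ Lv m :=
  mul_mem (swap_mem (by omega) hi) (lab_mem (by omega) _)

@[simp] lemma w0_p (i : ℕ) (s : G ⧸ P) : (w0 i s).p 0 = i := by simp [w0]
@[simp] lemma w0_g (i : ℕ) (s : G ⧸ P) : (w0 i s).g 0 = s.out := by simp [w0]

variable {H : Type} [Group H]

/-- the splitting element -/
noncomputable def LL (a : ℕ → W G → H) (m i : ℕ) (s : G ⧸ P) : H :=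
  a (m + 1) (plus m 0 (w0 i s)) * (a m (w0 i s))⁻¹

/-- the relation between splittings of one cube along two coordinates -/
def XR (a : ℕ → W G → H) (m i : ℕ) (s s' : G ⧸ P) : Prop :=
  LL a (m + 2) m s' * LL a (m + 1) i s' * LL a m i s =
    a (m + 3) (ta m) * LL a (m + 2) m s * LL a (m + 1) i s * LL a m i s'

section

variable {a : ℕ → W G → H} {B : ℕ} (h : ∀ n, Pre P a B n)

include h

lemma amul {m : ℕ} (hm : B ≤ m) {u v : W G} (hu : u ∈ Lv m) (hv : v ∈ Lv m) :
    a m (u * v) = a m u * a m v := (h m).mul m hm le_rfl u hu v hv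

lemma aone {m : ℕ} (hm : B ≤ m) : a m 1 = 1 := (h m).one hm le_rfl

lemma ainv {m : ℕ} (hm : B ≤ m) {u : W G} (hu : u ∈ Lv m) : a m u⁻¹ = (a m u)⁻¹ :=
  (h m).inv hm le_rfl hu

lemma ae0 {m : ℕ} (hm : B ≤ m) {u : W G} (hu : u ∈ St P m) : a m u = a (m + 1) (plus m 0 u) :=
  (h (m + 1)).e0 m hm le_rfl u hu

lemma LL_eq {m : ℕ} (hm : B ≤ m) (h0 : 0 < m) {w : W G} (hw : w ∈ Lv m) :
    LL a m (w.p 0) (w.g 0 • s0 P) = a (m + 1) (plus m 0 w) * (a m w)⁻¹ := by
  set v := w0 (w.p 0) (w.g 0 • s0 P) with hv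
  have hvm : v ∈ Lv m := w0_mem (Lv_lt hw h0) _
  have i0 : v.p⁻¹ (w.p 0) = 0 := by rw [Perm.inv_eq_iff_eq, hv, w0_p]
  have hu : v⁻¹ * w ∈ St P m := ⟨mul_mem (inv_mem hvm) hw, i0, by
    rw [W.mul_g, W.inv_g, i0, hv, w0_g, ← QuotientGroup.eq, QuotientGroup.out_eq', smul_s0]⟩
  have e : w = v * (v⁻¹ * w) := by group
  have e2 : plus m 0 w = plus m 0 v * plus m 0 (v⁻¹ * w) := by
    conv_lhs => rw [e, plus_mul 0 _ (hu.1 m le_rfl).1, hu.2.1]
  rw [LL, ← hv, e2, amul h (by omega) (plus_mem 0 hvm) (plus_mem 0 hu.1), ← ae0 h hm hu]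
  conv_rhs => rw [e, amul h hm hvm hu.1]
  group

lemma LL_E {m i : ℕ} (hm : B ≤ m) (hi : i < m) (s : G ⧸ P) {w : W G} (hw : w ∈ Lv m) :
    LL a m (w.p i) (w.g i • s) * a m w = a (m + 1) (plus m i w) * LL a m i s := by
  have hv := w0_mem hi s
  have := LL_eq h hm (by omega) (mul_mem hw hv)
  rw [W.mul_p, Perm.mul_apply, W.mul_g, w0_p, w0_g, mul_smul, out_smul_s0,
    plus_mul 0 _ (hv m le_rfl).1, w0_p, amul h (by omega) (plus_mem i hw) (plus_mem 0 hv),
    amul h hm hw hv] at this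
  rw [this, LL]
  group

lemma LL_E' {m i : ℕ} (hm : B ≤ m) (hi : i < m) (s : G ⧸ P) {w : W G} (hw : w ∈ Lv m) {j : ℕ}
    {t : G ⧸ P} (hj : w.p i = j) (ht : w.g i • s = t) :
    LL a m j t = a (m + 1) (plus m i w) * LL a m i s * (a m w)⁻¹ := by
  rw [← LL_E h hm hi s hw, hj, ht, mul_inv_cancel_right]

lemma LL_prm {m i : ℕ} (hm : B ≤ m) (hi : i < m) (s : G ⧸ P) {π : Perm ℕ}
    (hw : (prm π : W G) ∈ Lv m) {j : ℕ} (hj : π i = j) :
    LL a m j s * a m (prm π) = a (m + 1) (prm π) * LL a m i s := by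
  have := LL_E h hm hi s hw
  rwa [prm_p, prm_g, one_smul, plus_prm, hj] at this

lemma LL_zero {m : ℕ} (hm : B ≤ m) (h0 : 0 < m) : LL a m 0 (s0 P) = 1 := by
  have := LL_eq h hm h0 (one_mem _)
  simpa [aone h hm, aone h (Nat.le_succ_of_le hm)] using this

lemma LL_one {m : ℕ} (hm : B ≤ m) (h0 : 2 ≤ m) :
    LL a m 1 (s0 P) = a (m + 1) sg * (a m sg)⁻¹ := by
  have := LL_eq h hm (by omega) (sg_mem h0)
  simpa [sg] using this

lemma sg_inv {m : ℕ} (hm : B ≤ m) (h0 : 2 ≤ m) : (a m sg)⁻¹ = a m sg := by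
  rw [← ainv h hm (sg_mem h0), inv_eq_of_mul_eq_one_right sg_sg]

lemma LL_C0 {m : ℕ} (hm : B ≤ m) (h0 : 2 ≤ m) :
    LL a (m + 1) 1 (s0 P) = a (m + 2) (ta m) * LL a m 1 (s0 P) := by
  have c1 : (sg * ta m : W G) = ta m * sg := by
    ext j
    · simp only [ta, sg, W.mul_p, prm_p, Perm.mul_apply, swap_apply_def]; grind
    · simp [ta, sg]
  have := (h (m + 2)).cc m hm le_rfl
  rw [c1, amul h (by omega) (ta_mem le_rfl) (sg_mem (by omega))] at this
  have h2 : a (m + 2) (ta m) * a (m + 2) (ta m) = 1 := by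
    rw [← amul h (by omega) (ta_mem le_rfl) (ta_mem le_rfl), ta_ta, aone h (by omega)]
  rw [LL_one h (by omega) (by omega), LL_one h hm h0, sg_inv h hm h0, ← inv_mul_eq_iff_eq_mul,
    inv_eq_of_mul_eq_one_right h2, ← mul_assoc, this, mul_inv_cancel_right]

lemma LL_C {m i j : ℕ} (hm : B ≤ m) (hi : i < m) (hj : j < m) (hij : i ≠ j) (s s' : G ⧸ P) :
    LL a (m + 1) j s' * LL a m i s = a (m + 2) (ta m) * LL a (m + 1) i s * LL a m j s' := by
  obtain ⟨v, v1, v2, v3, v4, v5, v6⟩ := exists_W2 (a := 0) (b := 1) (by omega) hij s.out s'.out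
  have hv : v ∈ Lv m := fun k hk => ⟨v5 k (by omega) (by omega) (by omega) (by omega),
    v6 k (by omega) (by omega)⟩
  have e1 := LL_E' h hm (i := 0) (by omega) (s0 P) hv v1 (by rw [v3, out_smul_s0])
  have e2 := LL_E' h hm (i := 1) (by omega) (s0 P) hv v2 (by rw [v4, out_smul_s0])
  have e3 := LL_E' h (m := m + 1) (by omega) (i := 1) (by omega) (s0 P) (plus_mem 0 hv) v2
    (t := s') (by rw [plus_g, if_neg (by omega), v4, out_smul_s0])
  have e4 := LL_E' h (m := m + 1) (by omega) (i := 0) (by omega) (s0 P) (plus_mem 1 hv) v1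
    (t := s) (by rw [plus_g, if_neg (by omega), v3, out_smul_s0])
  have c : plus (m + 1) 1 (plus m 0 v) * ta m = ta m * plus (m + 1) 0 (plus m 1 v) := by
    have n1 : ∀ k, v.p k = m → k = m := fun k hk => v.p.injective (hk.trans (hv m le_rfl).1.symm)
    have n2 : ∀ k, v.p k = m + 1 → k = m + 1 := fun k hk =>
      v.p.injective (hk.trans (hv (m + 1) (by omega)).1.symm)
    have n3 := (hv m le_rfl).1
    have n4 := (hv (m + 1) (by omega)).1
    ext k
    · have := n1 k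
      have := n2 k
      simp only [ta, W.mul_p, plus_p, prm_p, Perm.mul_apply, swap_apply_def]; grind
    · simp only [ta, W.mul_g, plus_g, prm_g, prm_p, swap_apply_def, mul_one, one_mul]; grind
  have c2 := congrArg (a (m + 2)) c
  rw [amul h (by omega) (plus_mem _ (plus_mem _ hv)) (ta_mem le_rfl),
    amul h (by omega) (ta_mem le_rfl) (plus_mem _ (plus_mem _ hv))] at c2
  rw [e1, e2, e3, e4, LL_C0 h hm (by omega), LL_zero h hm (by omega),
    LL_zero h (m := m + 1) (by omega) (by omega)]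
  simp only [mul_assoc, inv_mul_cancel_left, one_mul, mul_one]
  rw [← mul_assoc, c2, mul_assoc]

lemma XR_succ {m : ℕ} (hm : B ≤ m) (h2 : 2 ≤ m) {s s' : G ⧸ P} (hX : XR a m 0 s s') :
    XR a (m + 1) 0 s s' := by
  have t0 : ∀ {n}, m + 2 ≤ n → (ta m : W G) ∈ Lv n := ta_mem
  have t1 : ∀ {n}, m + 3 ≤ n → (ta (m + 1) : W G) ∈ Lv n := ta_mem
  have t2 : ∀ {n}, m + 4 ≤ n → (ta (m + 2) : W G) ∈ Lv n := ta_mem
  have key : ∀ t t' : G ⧸ P, LL a (m + 3) 1 (s0 P) * (LL a (m + 2) m t' * LL a (m + 1) 0 t' *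
      LL a m 0 t) = a (m + 4) (ta (m + 2) * ta (m + 1) * ta m) * (LL a (m + 3) (m + 1) t' *
        LL a (m + 2) 0 t' * LL a (m + 1) 0 t) * LL a m 1 (s0 P) := by
    intro t t'
    have c2 := LL_C h (m := m + 2) (i := m) (j := 1) (by omega) (by omega) (by omega) (by omega)
      t' (s0 P)
    have c1 := LL_C h (m := m + 1) (i := 0) (j := 1) (by omega) (by omega) (by omega) (by omega)
      t' (s0 P)
    have c0 := LL_C h (m := m) (i := 0) (j := 1) hm (by omega) (by omega) (by omega) t (s0 P)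
    have d1 := LL_prm h (m := m + 2) (i := 0) (by omega) (by omega) t' (t0 le_rfl) (j := 0)
      (by simp only [swap_apply_def]; grind)
    have d2 := LL_prm h (m := m + 3) (i := m) (by omega) (by omega) t' (t1 le_rfl) (j := m)
      (by simp only [swap_apply_def]; grind)
    have d3 := LL_prm h (m := m + 3) (i := m + 1) (by omega) (by omega) t' (t0 (by omega)) (j := m)
      (by simp)
    rw [amul h (by omega) (mul_mem (t2 le_rfl) (t1 (by omega))) (t0 (by omega)),
      amul h (by omega) (t2 le_rfl) (t1 (by omega))]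
    change _ * a _ (ta m) = a _ (ta m) * _ at d1 d3
    change _ * a _ (ta (m + 1)) = a _ (ta (m + 1)) * _ at d2
    calc _ = (LL a (m + 3) 1 (s0 P) * LL a (m + 2) m t') * LL a (m + 1) 0 t' * LL a m 0 t := by
          simp only [mul_assoc]
      _ = a (m + 4) (ta (m + 2)) * LL a (m + 3) m t' * (LL a (m + 2) 1 (s0 P) *
          LL a (m + 1) 0 t') * LL a m 0 t := by rw [c2]; simp only [mul_assoc]
      _ = a (m + 4) (ta (m + 2)) * (LL a (m + 3) m t' * a (m + 3) (ta (m + 1))) *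
          LL a (m + 2) 0 t' * (LL a (m + 1) 1 (s0 P) * LL a m 0 t) := by
          rw [c1]; simp only [mul_assoc]
      _ = a (m + 4) (ta (m + 2)) * a (m + 4) (ta (m + 1)) * LL a (m + 3) m t' *
          (LL a (m + 2) 0 t' * a (m + 2) (ta m)) * LL a (m + 1) 0 t * LL a m 1 (s0 P) := by
          rw [c0, d2]; simp only [mul_assoc]
      _ = a (m + 4) (ta (m + 2)) * a (m + 4) (ta (m + 1)) * (LL a (m + 3) m t' *
          a (m + 3) (ta m)) * LL a (m + 2) 0 t' * LL a (m + 1) 0 t * LL a m 1 (s0 P) := by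
          rw [d1]; simp only [mul_assoc]
      _ = _ := by rw [d3]; simp only [mul_assoc]
  have d := LL_prm h (m := m + 3) (i := 1) (by omega) (by omega) (s0 P) (t0 (by omega)) (j := 1)
    (by simp only [swap_apply_def]; grind)
  change _ * a _ (ta m) = a _ (ta m) * _ at d
  have e := key s s'
  rw [hX, mul_assoc (a _ _), mul_assoc (a _ _), ← mul_assoc, d, mul_assoc,
    key s' s, ← mul_assoc, mul_left_inj, ← mul_assoc] at e
  have c : (ta m * (ta (m + 2) * ta (m + 1) * ta m) : W G) =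
      (ta (m + 2) * ta (m + 1) * ta m) * ta (m + 1) := by
    ext k
    · simp only [ta, W.mul_p, prm_p, Perm.mul_apply, swap_apply_def]; grind (splits := 40)
    · simp [ta]
  have t3 : (ta (m + 2) * ta (m + 1) * ta m : W G) ∈ Lv (m + 4) :=
    mul_mem (mul_mem (t2 le_rfl) (t1 (by omega))) (t0 (by omega))
  rw [← amul h (by omega) (t0 (by omega)) t3, c, amul h (by omega) t3 (t1 (by omega)), mul_assoc,
    mul_right_inj] at e
  rw [XR, ← e]
  simp only [mul_assoc]

lemma XR_all (hB : 2 ≤ B) {g0 : G} (hdc : ∀ g, g ∉ P → ∃ p ∈ P, ∃ q ∈ P, g = p * g0 * q)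
    (hX : XR a B 0 (s0 P) (g0 • s0 P)) {m i : ℕ} (hm : B ≤ m) (hi : i < m) {s s' : G ⧸ P}
    (hs : s ≠ s') : XR a m i s s' := by
  have h0 : ∀ m, B ≤ m → XR a m 0 (s0 P) (g0 • s0 P) := by
    intro m hm
    induction m, hm using Nat.le_induction with
    | base => exact hX
    | succ m hm ih => exact XR_succ h hm (by omega) ih
  obtain ⟨p, hp, q, hq, e⟩ := hdc (s.out⁻¹ * s'.out) (fun h => hs (by
    rw [← QuotientGroup.eq, QuotientGroup.out_eq', QuotientGroup.out_eq'] at h; exact h))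
  have g1 : (s.out * p) • s0 P = s := by
    rw [smul_s0, QuotientGroup.mk_mul_of_mem _ hp, QuotientGroup.out_eq']
  have g2 : (s.out * p) • g0 • s0 P = s' := by
    rw [smul_smul, smul_s0, ← QuotientGroup.mk_mul_of_mem _ hq, mul_assoc, mul_assoc,
      ← mul_assoc p, ← e, mul_inv_cancel_left, QuotientGroup.out_eq']
  set v : W G := prm (swap 0 i) * lab 0 (s.out * p) with hv'
  have hv : v ∈ Lv m := mul_mem (swap_mem (by omega) hi) (lab_mem (by omega) _)
  have v1 : v.p 0 = i := by simp [hv']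
  have v3 : v.g 0 = s.out * p := by simp [hv']
  have key : ∀ t t' : G ⧸ P, LL a (m + 2) m (v.g 0 • t') * LL a (m + 1) i (v.g 0 • t') *
      LL a m i (v.g 0 • t) = a (m + 3) (plus (m + 2) m (plus (m + 1) 0 (plus m 0 v))) *
        (LL a (m + 2) m t' * LL a (m + 1) 0 t' * LL a m 0 t) * (a m v)⁻¹ := by
    intro t t'
    rw [LL_E' h hm (i := 0) (by omega) t hv v1 rfl,
      LL_E' h (m := m + 1) (by omega) (i := 0) (by omega) t' (plus_mem 0 hv) v1
        (t := v.g 0 • t') (by rw [plus_g, if_neg (by omega)]),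
      LL_E' h (m := m + 2) (by omega) (i := m) (by omega) t' (plus_mem 0 (plus_mem 0 hv))
        (hv m le_rfl).1 (t := v.g 0 • t') (by simp)]
    group
  have c : plus (m + 2) m (plus (m + 1) 0 (plus m 0 v)) * ta m =
      ta m * plus (m + 2) m (plus (m + 1) 0 (plus m 0 v)) := by
    have n1 : ∀ k, v.p k = m → k = m := fun k hk => v.p.injective (hk.trans (hv m le_rfl).1.symm)
    have n2 : ∀ k, v.p k = m + 1 → k = m + 1 := fun k hk =>
      v.p.injective (hk.trans (hv (m + 1) (by omega)).1.symm)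
    have n3 := (hv m le_rfl).1
    have n4 := (hv (m + 1) (by omega)).1
    ext k
    · have := n1 k
      have := n2 k
      simp only [ta, W.mul_p, plus_p, prm_p, Perm.mul_apply, swap_apply_def]; grind
    · simp only [ta, W.mul_g, plus_g, prm_g, prm_p, swap_apply_def, mul_one, one_mul]; grind
  have c2 := congrArg (a (m + 3)) c
  have hm3 := plus_mem m (plus_mem 0 (plus_mem 0 hv))
  rw [amul h (by omega) hm3 (ta_mem (by omega)), amul h (by omega) (ta_mem (by omega)) hm3] at c2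
  have k1 := key (s0 P) (g0 • s0 P)
  have k2 := key (g0 • s0 P) (s0 P)
  rw [v3, g1, g2] at k1 k2
  rw [XR, k1, h0 m hm, mul_assoc (a _ (ta m)), mul_assoc (a _ (ta m)), mul_assoc (a _ (ta m)),
    mul_assoc (a _ (ta m)), k2, ← mul_assoc, c2]
  simp only [mul_assoc]

end

end Vale.Agent.P193.SV
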