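import Vale.Agent.P193.TPsub
import Vale.Agent.P193.Pkg

/-! Certificates for one level of the tower. -/

namespace Vale.Agent.P193

namespace TD
variable (D : TD)

/-- First projection of a word. -/
def fstw (q : Word D.Q) : Word D.A := subst (Sum.elim (fun a => [(a, true)]) fun _ => []) q

/-- Second projection of a word. -/
def sndw (q : Word D.Q) : Word (Fin D.m1) := subst (Sum.elim (fun _ => []) fun b => [(b, true)]) q

theorem length_fstw (q : Word D.Q) : (D.fstw q).length ≤ q.length :=
  length_subst_le _ (by rintro (a | a) <;> simp) q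

/-- Negative information on the product. -/
def NotA (S : Word D.A → Prop) (q : Word D.Q) : Prop :=
  S (D.fstw q) ∨ ev (pgen D.rel1) (D.sndw q) ≠ 1

/-- Atoms of the linking layer. -/
def atC (b : Bool) (e : ℕ) (M : Bool → Word D.A → Prop) : CAt D.Q where
  eqC y := M false (subst D.defw y)
  inP y := M b (subst D.defw y)
  notI n := ¬ I b e n
  uw := D.uw e
  gw := D.gw e

/-- Words for the letters of the emission group. -/
noncomputable def flat : ELet (ZGen D.r) D.C → Word D.A :=
  Sum.elim (fun a => [(some a, true)]) (Sum.elim D.defw fun _ => [(none, true)])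

/-- Atoms of the emission layer. -/
def atE (b : Bool) (e : ℕ) (M : Bool → Word D.A → Prop) : EAt (ZGen D.r) D.C where
  eqK x := M false (subst D.flat x)
  eqZ x := ev (zg D.r) x = 1
  notPhi x := ∀ v, ev D.ρ v ≠ ev (zg D.r) x
  notR x := ev (zg D.r) x ∉ D.Rb b
  inP x := ev (zg D.r) x ∈ D.Ob b e
  notOrb x := ∀ v, ev (zg D.r) x * ev D.ρ v ∉ D.Ob b e

/-- Letters of the tower group as letters of the emission group. -/
def lft : D.A → ELet (ZGen D.r) D.C := fun a => a.elim (.inr (.inr ())) .inl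

/-- The certificate operator. -/
def Op (e : ℕ) (M S : Bool → Word D.A → Prop) (b : Bool) (u : Word D.A) : Prop :=
  CertE D.X.ρw D.emw (D.atE b e M)
    (fun y => CertC (D.atC false e M) (D.NotA (S false)) (D.NotA (S false)) y)
    (fun y => CertC (D.atC b e M) (D.NotA (S false)) (D.NotA (S b)) y) (wmap D.lft u)

theorem Op.mono {D : TD} {e : ℕ} {M M' S S' : Bool → Word D.A → Prop}
    (hM : ∀ b x, M b x → M' b x) (hS : ∀ b x, S b x → S' b x) {b : Bool} {u : Word D.A}
    (h : D.Op e M S b u) : D.Op e M' S' b u := by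
  have hN : ∀ b q, D.NotA (S b) q → D.NotA (S' b) q := fun b q h => h.imp_left (hS _ _)
  have hC : ∀ b y, CertC (D.atC b e M) (D.NotA (S false)) (D.NotA (S b)) y →
      CertC (D.atC b e M') (D.NotA (S' false)) (D.NotA (S' b)) y := fun b y h =>
    CertC.mono (B := D.atC b e M) (B' := D.atC b e M') (fun x => hM _ _) (fun x => hM _ _)
      (fun _ h => h) rfl rfl (hN _) (hN _) h
  exact CertE.mono (A := D.atE b e M) (A' := D.atE b e M') (fun x => hM _ _) (fun _ h => h)
    (fun _ h => h) (fun _ h => h) (fun _ h => h) (fun _ h => h) (hC false) (hC b) h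

/-- Membership in the subgroups of the next level. -/
def memM (e : ℕ) (N P : Subgroup D.F) (b : Bool) (x : Word D.A) : Prop :=
  FreeGroup.mk x ∈ cond b (D.P' e N P) (D.N' N)

section Level
variable (N : Subgroup D.F) [N.Normal]

theorem av_ev (q : Word D.Q) : ev (D.av N) q =
    (((FreeGroup.mk (D.fstw q) : D.F) : D.F ⧸ N), ev (pgen D.rel1) (D.sndw q)) := by
  have h1 : ((FreeGroup.mk (D.fstw q) : D.F) : D.F ⧸ N) =
      ev (fun a => QuotientGroup.mk' N (FreeGroup.of a)) (D.fstw q) := by
    rw [← map_ev, ev_of]; rfl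
  rw [h1, fstw, sndw, ev_subst, ev_subst]
  refine Prod.ext ?_ ?_
  · refine (map_ev (G := D.AG N) (MonoidHom.fst (D.F ⧸ N) (PG D.rel1)) _ q).trans ?_
    congr 1; ext (a | a) <;> simp [av]
  · refine (map_ev (G := D.AG N) (MonoidHom.snd (D.F ⧸ N) (PG D.rel1)) _ q).trans ?_
    congr 1; ext (a | a) <;> simp [av]

theorem av_not_mem {P : Subgroup D.F} (h : N ≤ P) (q : Word D.Q) :
    ev (D.av N) q ∉ D.Pt N P ↔ D.NotA (fun x => FreeGroup.mk x ∉ P) q := by
  rw [av_ev, D.mem_Pt N h, not_and_or]; rfl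

theorem av_ne_one (q : Word D.Q) :
    ev (D.av N) q ≠ 1 ↔ D.NotA (fun x => FreeGroup.mk x ∉ N) q := by
  rw [← D.av_not_mem N le_rfl, Pt_self, Subgroup.mem_bot]

theorem atC_eq {e : ℕ} (he : e.unpair.1 = D.Nc) (P : Subgroup D.F) (b : Bool) :
    D.atC b e (D.memM e N P) =
      semC (D.av N) (D.Pt N (cond b P N)) (I b e) (D.uw e) (D.gw e) := by
  unfold atC semC
  congr 1
  · ext y; exact D.subst_mem_N' N y
  · ext y; exact D.subst_mem N he P b y

theorem kv_flat (x : Word (ELet (ZGen D.r) D.C)) :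
    ev (D.kv N) (subst D.flat x) = ev (eval (zg D.r) (cval (D.av N)) D.X.ρw D.emw) x := by
  rw [ev_subst]
  congr 1; ext (a | a | a)
  · simp [flat, eval, kv]
  · simp [flat, eval, kv_defw]
  · simp [flat, eval, kv]

theorem atE_eq (e : ℕ) (P : Subgroup D.F) (b : Bool) :
    D.atE b e (D.memM e N P) =
      semE (zg D.r) (cval (D.av N)) D.X.ρw D.emw (D.Rb b) (D.Ob b e) := by
  unfold atE semE
  congr 1
  ext x
  rw [memM, cond_false, ← D.π_eq_one N, π_mk, kv_flat]

theorem eval_lft (u : Word D.A) :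
    ev (eval (zg D.r) (cval (D.av N)) D.X.ρw D.emw) (wmap D.lft u) =
      D.π N (FreeGroup.mk u) := by
  rw [ev_wmap, π_mk]
  congr 1; ext (_ | a) <;> rfl

theorem ewt_lft (κ : ℕ) (u : Word D.A) : ewt κ (wmap D.lft u) = u.length := by
  induction u with
  | nil => simp [ewt, wmap]
  | cons a u ih =>
    simp only [ewt, wmap, List.map_cons, List.sum_cons, List.length_cons] at ih ⊢
    rw [ih]
    rcases a with ⟨_ | a, b⟩ <;> simp [lft, add_comm]

theorem op_sound {e : ℕ} (he : e.unpair.1 = D.Nc) {P : Subgroup D.F} (hNP : N ≤ P)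
    (adm : D.Adm N e P) {S : Bool → Word D.A → Prop}
    (hS : ∀ b x, S b x → FreeGroup.mk x ∉ cond b P N) {b : Bool} {u : Word D.A}
    (h : D.Op e (D.memM e N P) S b u) : ¬ D.memM e N P b u := by
  have hle : ∀ b, N ≤ cond b P N := by rintro (_ | _); exacts [le_rfl, hNP]
  have hC : ∀ b y, CertC (D.atC b e (D.memM e N P)) (D.NotA (S false)) (D.NotA (S b)) y →
      ev (cval (D.av N)) y ∉ D.Qp N b e (cond b P N) := by
    intro b y h
    rw [D.atC_eq N he] at h
    refine certC_sound ?_ (h.mono (fun _ h => h) (fun _ h => h) (fun _ h => h) rfl rfl ?_ ?_)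
    · cases b
      · intro n hn; exact absurd hn.1 (by simp)
      · exact adm
    · intro x hx
      exact (D.av_ne_one N x).2 (hx.imp_left (hS false _))
    · intro x hx
      exact (D.av_not_mem N (hle b) x).2 (hx.imp_left (hS b _))
  rw [Op, D.atE_eq N] at h
  rw [memM, ← D.π_mem N he, ← eval_lft]
  refine certE_sound (D.good N b e _) (h.mono (fun _ h => h) (fun _ h => h) (fun _ h => h)
    (fun _ h => h) (fun _ h => h) (fun _ h => h) (fun y hy => ?_) (hC b))
  have := hC false y hy
  rwa [cond_false, Qp_false, Subgroup.mem_bot] at this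

theorem op_complete {e : ℕ} (he : e.unpair.1 = D.Nc) {P : Subgroup D.F} (hNP : N ≤ P)
    {b : Bool} {u : Word D.A} (h : ¬ D.memM e N P b u) :
    D.Op e (D.memM e N P)
      (fun b x => FreeGroup.mk x ∉ cond b P N ∧ 2 * x.length ≤ u.length) b u := by
  have hle : ∀ b, N ≤ cond b P N := by rintro (_ | _); exacts [le_rfl, hNP]
  have hC : ∀ b y, ev (cval (D.av N)) y ∉ D.Qp N b e (cond b P N) →
      64 * y.length ≤ 8 * u.length → CertC (D.atC b e (D.memM e N P))
        (D.NotA fun x => FreeGroup.mk x ∉ N ∧ 2 * x.length ≤ u.length)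
        (D.NotA fun x => FreeGroup.mk x ∉ cond b P N ∧ 2 * x.length ≤ u.length) y := by
    intro b y hy hl
    rw [D.atC_eq N he]
    refine (certC_complete (D.length_uw b e) (D.length_gw b e) hy).mono (fun _ h => h)
      (fun _ h => h) (fun _ h => h) rfl rfl ?_ ?_
    · rintro x ⟨h1, h2⟩
      have := D.length_fstw x
      exact ((D.av_ne_one N x).1 h1).imp_left fun h => ⟨h, by omega⟩
    · rintro x ⟨h1, h2⟩
      have := D.length_fstw x
      exact ((D.av_not_mem N (hle b) x).1 h1).imp_left fun h => ⟨h, by omega⟩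
  rw [memM, ← D.π_mem N he, ← eval_lft] at h
  rw [Op, D.atE_eq N]
  refine (certE_complete 64 ?_ ?_ (D.wd N) h).mono (fun _ h => h) (fun _ h => h) (fun _ h => h)
    (fun _ h => h) (fun _ h => h) (fun _ h => h) ?_ ?_
  · intro x v hv
    obtain ⟨v', h1, h2⟩ := D.X.len_le x v hv
    have := D.length_emw_cnt v'
    have h3 : cnt D.X.em v' ≤ v'.length := List.countP_le_length
    exact ⟨v', h1, by omega⟩
  · intro H v hv
    obtain ⟨v', h1, h2⟩ := D.X.short e H v hv.2
    have := D.length_emw_cnt v'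
    exact ⟨v', ⟨hv.1, h1⟩, by omega⟩
  · rintro y ⟨h1, h2⟩
    rw [ewt_lft] at h2
    exact hC false y (by rwa [cond_false, Qp_false, Subgroup.mem_bot]) h2
  · rintro y ⟨h1, h2⟩
    rw [ewt_lft] at h2
    exact hC b y h1 h2

end Level

theorem computable_uw : Computable fun x : ℕ × ℕ => D.uw x.1 x.2 := by
  have h : Primrec D.decQs := by
    have : Primrec D.decQ := primrec_toList Primrec.decode
    unfold decQs; fun_prop
  have := primrec_look
  unfold uw
  exact Primrec.to_comp (by fun_prop)

theorem computable_gw : Computable fun x : ℕ × ℕ => D.gw x.1 x.2 := by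
  have h : Primrec D.decQs := by
    have : Primrec D.decQ := primrec_toList Primrec.decode
    unfold decQs; fun_prop
  have := primrec_look
  unfold gw
  exact Primrec.to_comp (by fun_prop)

theorem computable_subst_fin {α β : Type} [Primcodable α] [Primcodable β] [Finite α]
    (f : α → Word β) : Computable (subst f) :=
  computable_subst (f := fun _ => f) (((Primrec.dom_finite f).comp Primrec.snd).to_comp)
    Computable.id

theorem notA_enumOp (hre1 : REPred fun w => ev (pgen D.rel1) w ≠ 1)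
    {β : (ℕ × ℕ) × Bool → Bool} (hβ : Computable β) :
    EnumOp fun (S : ℕ × Bool × Word D.A → Prop) (x : ((ℕ × ℕ) × Bool) × Word D.Q) =>
      D.NotA (fun y => S (x.1.1.1, β x.1, y)) x.2 := by
  have cfst : Computable D.fstw := computable_subst_fin _
  have csnd : Computable D.sndw := computable_subst_fin _
  have h1 : Computable fun x : ((ℕ × ℕ) × Bool) × Word D.Q => (x.1.1.1, β x.1, D.fstw x.2) := by
    fun_prop
  have h2 := re_comp (p := fun w => ev (pgen D.rel1) w ≠ 1) hre1
    (csnd.comp (Computable.snd (α := (ℕ × ℕ) × Bool)))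
  exact EnumOp.or (EnumOp.query h1) (EnumOp.const h2)

theorem atC_enumOp (hre1 : REPred fun w => ev (pgen D.rel1) w ≠ 1)
    (M : ℕ × ℕ → Bool → Word D.A → Prop)
    (hM : REPred fun x : (ℕ × ℕ) × Bool × Word D.A => M x.1 x.2.1 x.2.2)
    {β : (ℕ × ℕ) × Bool → Bool} (hβ : Computable β) :
    EnumOp fun (S : ℕ × Bool × Word D.A → Prop) (x : ((ℕ × ℕ) × Bool) × Word D.C) =>
      CertC (D.atC (β x.1) x.1.1.1 (M x.1.1)) (D.NotA fun y => S (x.1.1.1, false, y))
        (D.NotA fun y => S (x.1.1.1, β x.1, y)) x.2 := by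
  have cdefw : Computable (subst D.defw) := computable_subst_fin _
  have a1 : Computable fun x : ((ℕ × ℕ) × Bool) × Word D.C =>
      (x.1.1, false, subst D.defw x.2) :=
    (Computable.fst.comp Computable.fst).pair ((Computable.const _).pair
      (cdefw.comp Computable.snd))
  have a2 : Computable fun x : ((ℕ × ℕ) × Bool) × Word D.C =>
      (x.1.1, β x.1, subst D.defw x.2) :=
    (Computable.fst.comp Computable.fst).pair ((hβ.comp Computable.fst).pair
      (cdefw.comp Computable.snd))
  have a3 : Computable fun x : ((ℕ × ℕ) × Bool) × ℕ => (x.1.1.1, x.2) := by fun_prop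
  have b1 := re_comp hM a1
  have b2 := re_comp hM a2
  have h0 := primrec_look.to_comp.comp a3
  have h1 := Primrec.option_isSome.to_comp.comp h0
  have b4 := D.computable_uw.comp a3
  have b5 := D.computable_gw.comp a3
  have b3 : REPred fun x : ((ℕ × ℕ) × Bool) × ℕ => ¬ I (β x.1) x.1.1.1 x.2 :=
    re_of_iff (re_or (re_eq (hβ.comp Computable.fst) (Computable.const false))
      (re_eq h1 (Computable.const false))) fun x => by
        simp only [I, not_and_or, Bool.not_eq_true]
  exact certC_enumOp (fun p : (ℕ × ℕ) × Bool => D.atC (β p) p.1.1 (M p.1))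
    (fun S p => D.NotA fun y => S (p.1.1, false, y))
    (fun S p => D.NotA fun y => S (p.1.1, β p, y)) b1 b2 b3 b4 b5
    (D.notA_enumOp hre1 (β := fun _ => false) (Computable.const _))
    (D.notA_enumOp hre1 hβ)

theorem op_enumOp (hre1 : REPred fun w => ev (pgen D.rel1) w ≠ 1)
    (M : ℕ × ℕ → Bool → Word D.A → Prop)
    (hM : REPred fun x : (ℕ × ℕ) × Bool × Word D.A => M x.1 x.2.1 x.2.2) :
    EnumOp fun (S : ℕ × Bool × Word D.A → Prop) (x : (ℕ × ℕ) × Bool × Word D.A) =>
      D.Op x.1.1 (M x.1) (fun b y => S (x.1.1, b, y)) x.2.1 x.2.2 := by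
  have cflat : Computable (subst D.flat) := computable_subst_fin _
  have clft : Computable (wmap D.lft) :=
    computable_wmap (Primrec.dom_finite _).to_comp Computable.id
  have a1 : Computable fun x : ((ℕ × ℕ) × Bool) × Word (ELet (ZGen D.r) D.C) =>
      (x.1.1, false, subst D.flat x.2) :=
    (Computable.fst.comp Computable.fst).pair ((Computable.const _).pair
      (cflat.comp Computable.snd))
  have a2 : Computable fun x : ((ℕ × ℕ) × Bool) × Word (ZGen D.r) => x.1.2 := by fun_prop
  have a3 : Computable fun x : ((ℕ × ℕ) × Bool) × Word (ZGen D.r) => x.2 := Computable.snd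
  have a4 : Computable fun x : ((ℕ × ℕ) × Bool) × Word (ZGen D.r) => x.1.1.1 := by fun_prop
  have b1 := re_comp hM a1
  have b2 := re_comp (re_pg_eq_one (zrel D.r)) a3
  have b3 := re_comp D.X.re_notPhi a3
  have b4 : REPred fun x : ((ℕ × ℕ) × Bool) × Word (ZGen D.r) =>
      ev (zg D.r) x.2 ∉ D.Rb x.1.2 :=
    re_of_iff (re_or
      (re_and (re_eq a2 (Computable.const false))
        (re_comp (p := fun x => ev (zg D.r) x ≠ 1) (z_re_ne_one D.r) a3))
      (re_and (re_eq a2 (Computable.const true))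
        (re_comp (p := fun x => ev (zg D.r) x ∉ RS D.r) (z_re_not_mem_RS D.r) a3)))
      (by rintro ⟨⟨p, _ | _⟩, x⟩ <;> simp [Rb])
  have b5 : REPred fun x : ((ℕ × ℕ) × Bool) × Word (ZGen D.r) =>
      ev (zg D.r) x.2 ∈ D.Ob x.1.2 x.1.1.1 :=
    re_of_iff (re_and (re_eq a2 (Computable.const true))
      (re_comp (z_re_mem_RS D.r) (Computable.list_append.comp a3 (D.X.root_comp.comp a4))))
      (by intro x; simp [Ob])
  have b6 : REPred fun x : ((ℕ × ℕ) × Bool) × Word (ZGen D.r) =>
      ∀ v, ev (zg D.r) x.2 * ev D.ρ v ∉ D.Ob x.1.2 x.1.1.1 :=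
    re_of_iff (re_or (re_eq a2 (Computable.const false)) (re_comp D.X.re_orbit (a4.pair a3)))
      (by rintro ⟨⟨p, _ | _⟩, x⟩ <;> simp [Ob])
  have hE := certE_enumOp D.X.ρw D.emw (fun p : (ℕ × ℕ) × Bool => D.atE p.2 p.1.1 (M p.1))
    (fun (S : ℕ × Bool × Word D.A → Prop) p y => CertC (D.atC false p.1.1 (M p.1))
      (D.NotA fun y => S (p.1.1, false, y)) (D.NotA fun y => S (p.1.1, false, y)) y)
    (fun S p y => CertC (D.atC p.2 p.1.1 (M p.1))
      (D.NotA fun y => S (p.1.1, false, y)) (D.NotA fun y => S (p.1.1, p.2, y)) y)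
    b1 b2 b3 b4 b5 b6 (D.atC_enumOp hre1 M hM (β := fun _ => false) (Computable.const _))
    (D.atC_enumOp hre1 M hM (β := fun p => p.2) Computable.snd)
  have a5 : Computable fun x : (ℕ × ℕ) × Bool × Word D.A => ((x.1, x.2.1), wmap D.lft x.2.2) :=
    (Computable.fst.pair (Computable.fst.comp Computable.snd)).pair
      (clft.comp (Computable.snd.comp Computable.snd))
  exact hE.comp a5

end TD

end Vale.Agent.P193
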