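import Vale.Agent.P193.TLook
import Vale.Agent.P193.Asc
import Vale.Agent.P193.ZDef
import Vale.Agent.P193.Emit
import Vale.Agent.P193.CLayer
import Mathlib.GroupTheory.NoncommCoprod

/-! One level of the tower. -/

namespace Vale.Agent.P193

/-- The commutator of two words. -/
def wcomm {α : Type} (u v : Word α) : Word α :=
  u ++ v ++ FreeGroup.invRev u ++ FreeGroup.invRev v

theorem ev_wcomm_eq_one {α G : Type} [Group G] (g : α → G) (u v : Word α) :
    ev g (wcomm u v) = 1 ↔ Commute (ev g u) (ev g v) := by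
  rw [← commutatorElement_eq_one_iff_commute, commutatorElement_def]
  simp [wcomm, mul_assoc]

theorem length_subst_le {α β : Type} (f : α → Word β) (hf : ∀ a, (f a).length ≤ 1) (w : Word α) :
    (subst f w).length ≤ w.length := by
  induction w with
  | nil => simp
  | cons a w ih =>
    have := hf a.1
    rcases a with ⟨a, _ | _⟩ <;> simp at this ⊢ <;> omega

theorem commute_ev₂ {α β G : Type} [Group G] {f : α → G} {g : β → G}
    (h : ∀ a b, Commute (f a) (g b)) (u : Word α) (v : Word β) : Commute (ev f u) (ev g v) := by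
  have h1 : ∀ (x : G) (b : Bool) (y : G), Commute x y → Commute (sgn x b) y := by
    intro x b y hxy; cases b
    · exact hxy.inv_left
    · exact hxy
  induction u with
  | nil => simp
  | cons a u ih =>
    rw [ev_cons]
    refine Commute.mul_left (h1 _ _ _ ?_) ih
    clear ih
    induction v with
    | nil => simp
    | cons b v ihv => rw [ev_cons]; exact Commute.mul_right (h1 _ _ _ (h _ _).symm).symm ihv

/-- The data of the tower. -/
structure TD where
  r : ℕ
  m1 : ℕ
  rel1 : List (Word (Fin m1))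
  Nc : ℕ
  X : Pkg accF 64 r Nc
  hN2 : 2 < Nc
  hN : ∀ a : (Option (ZGen r) ⊕ Fin m1) × Bool, Encodable.encode a + 3 < Nc

namespace TD
variable (D : TD)

/-- The alphabet of the tower group. -/
abbrev A : Type := Option (ZGen D.r)
/-- The alphabet of the product with the given group. -/
abbrev Q : Type := D.A ⊕ Fin D.m1
/-- The alphabet of the linking layer. -/
abbrev C : Type := D.Q ⊕ Bool
/-- The free group. -/
abbrev F : Type := FreeGroup D.A

/-- Decoding of an offset letter. -/
def decQ (k : ℕ) : Word D.Q := (Encodable.decode (α := D.Q × Bool) k).toList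

/-- Decoding of an offset word. -/
def decQs (x : List ℕ) : Word D.Q := x.flatMap D.decQ

/-- Decoding of a raw letter. -/
def dec : ℕ → Word D.C
  | 0 => [(.inr true, true)]
  | 1 => [(.inr true, false)]
  | 2 => [(.inr false, true)]
  | k + 3 => wmap .inl (D.decQ k)

/-- The emitted word of an instruction. -/
def emw (i : Fin D.X.m) : Word D.C := (D.X.em i).elim [] D.dec

/-- The raw letter of a generator. -/
def code : D.C → ℕ
  | .inl q => Encodable.encode (q, true) + 3
  | .inr true => 0
  | .inr false => 2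

theorem code_lt (c : D.C) : D.code c < D.Nc := by
  have := D.hN2
  rcases c with q | _ | _
  · exact D.hN _
  · exact this
  · simp only [code]; omega

theorem dec_code (c : D.C) : D.dec (D.code c) = [(c, true)] := by
  rcases c with q | _ | _ <;> simp [code, dec, decQ, wmap]

/-- An instruction emitting a given generator. -/
noncomputable def ix (c : D.C) : Fin D.X.m := (D.X.em_surj _ (D.code_lt c)).choose

theorem emw_ix (c : D.C) : D.emw (D.ix c) = [(c, true)] := by
  rw [emw, ix, (D.X.em_surj _ (D.code_lt c)).choose_spec, Option.elim_some, dec_code]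

/-- The word defining a generator of the linking layer. -/
noncomputable def defw (c : D.C) : Word D.A :=
  FreeGroup.invRev (wmap some (D.X.ρw (D.ix c))) ++ (none, false) ::
    wmap some (D.X.ρw (D.ix c)) ++ [(none, true)]

/-- The substitution defining the endomorphism. -/
noncomputable def s (a : D.A) : Word D.A := D.defw (.inl (.inl a))

/-- The relation of an instruction. -/
noncomputable def trel (i : Fin D.X.m) : Word D.A :=
  (none, true) :: wmap some (D.X.ρw i) ++ subst D.defw (D.emw i) ++ (none, false) ::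
    FreeGroup.invRev (wmap some (D.X.ρw i))

/-- The basic relators. -/
noncomputable def R0 : List (Word D.A) :=
  (zrel D.r).map (wmap some) ++
  (Finset.univ : Finset (ZGen D.r × D.C)).toList.map
    (fun p => wcomm [(some p.1, true)] (D.defw p.2)) ++
  (List.finRange D.X.m).map D.trel ++
  D.rel1.map (fun w => subst D.defw (wmap (fun b => .inl (.inr b)) w)) ++
  (Finset.univ : Finset (D.A × Fin D.m1)).toList.map
    fun p => wcomm (D.defw (.inl (.inl p.1))) (D.defw (.inl (.inr p.2)))

theorem mem_R0_1 {w : Word (ZGen D.r)} (hw : w ∈ zrel D.r) : wmap some w ∈ D.R0 := by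
  simp only [R0, List.mem_append, List.mem_map]
  exact Or.inl (Or.inl (Or.inl (Or.inl ⟨w, hw, rfl⟩)))

theorem mem_R0_2 (a : ZGen D.r) (c : D.C) : wcomm [(some a, true)] (D.defw c) ∈ D.R0 := by
  simp only [R0, List.mem_append, List.mem_map]
  exact Or.inl (Or.inl (Or.inl (Or.inr ⟨(a, c), by simp, rfl⟩)))

theorem mem_R0_3 (i : Fin D.X.m) : D.trel i ∈ D.R0 := by
  simp only [R0, List.mem_append, List.mem_map]
  exact Or.inl (Or.inl (Or.inr ⟨i, by simp, rfl⟩))

theorem mem_R0_4 {w : Word (Fin D.m1)} (hw : w ∈ D.rel1) :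
    subst D.defw (wmap (fun b => .inl (.inr b)) w) ∈ D.R0 := by
  simp only [R0, List.mem_append, List.mem_map]
  exact Or.inl (Or.inr ⟨w, hw, rfl⟩)

theorem mem_R0_5 (a : D.A) (b : Fin D.m1) :
    wcomm (D.defw (.inl (.inl a))) (D.defw (.inl (.inr b))) ∈ D.R0 := by
  simp only [R0, List.mem_append, List.mem_map]
  exact Or.inr ⟨(a, b), by simp, rfl⟩

/-- The conjugate of the stable letter attached to the root. -/
def troot (e : ℕ) : Word D.A :=
  FreeGroup.invRev (wmap some (D.X.rootw e)) ++ (none, true) :: wmap some (D.X.rootw e)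

/-- The basic generators of the stabiliser. -/
noncomputable def Gs (e : ℕ) : List (Word D.A) :=
  D.troot e :: ((Finset.univ : Finset (ZGen D.r)).toList.filter isR).map fun a => [(some a, true)]

/-- The next normal subgroup. -/
noncomputable def N' (N : Subgroup D.F) : Subgroup D.F :=
  Subgroup.normalClosure (relSet D.R0 ∪ endo D.s '' N)

instance (N : Subgroup D.F) : (D.N' N).Normal := Subgroup.normalClosure_normal

/-- The next stabiliser. -/
noncomputable def P' (e : ℕ) (N P : Subgroup D.F) : Subgroup D.F :=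
  D.N' N ⊔ Subgroup.closure (relSet (D.Gs e)) ⊔ P.map (endo D.s)

/-- The values of the instructions in the base group. -/
abbrev ρ : Fin D.X.m → ZG D.r := fun i => ev (zg D.r) (D.X.ρw i)

/-- The root element. -/
abbrev root (e : ℕ) : ZG D.r := ev (zg D.r) (D.X.rootw e)

section Level
variable (N : Subgroup D.F) [N.Normal]

/-- The product of the quotient with the given group. -/
abbrev AG : Type := (D.F ⧸ N) × PG D.rel1

/-- Its generators. -/
def av : D.Q → D.AG N :=
  Sum.elim (fun a => (((FreeGroup.of a : D.F) : D.F ⧸ N), 1)) fun b => (1, pgen _ b)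

/-- The emitted elements. -/
abbrev ε : Fin D.X.m → CG (D.AG N) := fun i => ev (cval (D.av N)) (D.emw i)

/-- The group of the next level. -/
abbrev KG : Type := EmW (zg D.r) (cval (D.av N)) D.X.ρw D.emw

/-- Its generators. -/
def kv : D.A → D.KG N := fun a => a.elim Em.t fun a => Em.z (zg D.r a)

/-- The map from the free group. -/
def π : D.F →* D.KG N := FreeGroup.lift (D.kv N)

theorem π_mk (w : Word D.A) : D.π N (FreeGroup.mk w) = ev (D.kv N) w := rfl

theorem kv_wmap (w : Word (ZGen D.r)) : ev (D.kv N) (wmap some w) = Em.z (ev (zg D.r) w) := by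
  rw [ev_wmap, map_ev]; rfl

theorem kv_defw (c : D.C) : ev (D.kv N) (D.defw c) = Em.c (cval (D.av N) c) := by
  have h := Em.rel (ρ := D.ρ) (em := D.ε N) (D.ix c)
  simp only [ε, emw_ix, ev_cons, sgn_true, ev_nil, mul_one] at h
  simp only [defw, ev_append, ev_invRev, ev_cons, kv_wmap, sgn_true, sgn_false, ev_nil, mul_one]
  change (Em.z (D.ρ (D.ix c)))⁻¹ * ((Em.t : D.KG N)⁻¹ * Em.z (D.ρ (D.ix c))) * Em.t = _
  rw [mul_assoc, mul_assoc, ← h]; group

theorem kv_subst (y : Word D.C) :
    ev (D.kv N) (subst D.defw y) = Em.c (ev (cval (D.av N)) y) := by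
  rw [ev_subst, map_ev]; simp only [kv_defw]

theorem av_wmap_inl (w : Word D.A) :
    ev (D.av N) (wmap .inl w) = (((FreeGroup.mk w : D.F) : D.F ⧸ N), 1) := by
  rw [ev_wmap, ← ev_of]
  exact (map_ev (H := D.AG N) ((MonoidHom.inl _ (PG D.rel1)).comp (QuotientGroup.mk' N))
    FreeGroup.of w).symm

theorem av_wmap_inr (w : Word (Fin D.m1)) :
    ev (D.av N) (wmap .inr w) = (1, ev (pgen _) w) := by
  rw [ev_wmap]
  exact (map_ev (H := D.AG N) (MonoidHom.inr (D.F ⧸ N) _) (pgen D.rel1) w).symm

theorem cval_wmap (w : Word D.Q) :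
    ev (cval (D.av N)) (wmap .inl w) = Monoid.Coprod.inl (ev (D.av N) w) := by
  rw [ev_wmap, map_ev]; rfl

theorem π_endo (x : D.F) :
    D.π N (endo D.s x) = Em.c (Monoid.Coprod.inl ((x : D.F ⧸ N), 1)) := by
  obtain ⟨w, rfl⟩ := Quot.exists_rep x
  change D.π N (endo D.s (FreeGroup.mk w)) = Em.c (Monoid.Coprod.inl
    (((FreeGroup.mk w : D.F) : D.F ⧸ N), 1))
  rw [endo_mk, π_mk, ← av_wmap_inl, ← cval_wmap, ← kv_subst, ev_subst, ev_subst, ev_wmap, ev_wmap]
  rfl

theorem π_R0 {w : Word D.A} (hw : w ∈ D.R0) : ev (D.kv N) w = 1 := by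
  simp only [R0, List.mem_append, List.mem_map] at hw
  rcases hw with (((⟨w, hw, rfl⟩ | ⟨p, -, rfl⟩) | ⟨i, -, rfl⟩) | ⟨w, hw, rfl⟩) | ⟨p, -, rfl⟩
  · rw [kv_wmap, ev_pgen_rel _ hw, map_one]
  · rw [ev_wcomm_eq_one, kv_defw]
    simpa [kv] using Em.commute _ _
  · have h := Em.rel (ρ := D.ρ) (em := D.ε N) i
    simp only [trel, ev_append, ev_invRev, ev_cons, kv_wmap, sgn_true, sgn_false, kv_subst]
    change (Em.t : D.KG N) * Em.z (D.ρ i) * Em.c (D.ε N i) * (Em.t⁻¹ * (Em.z (D.ρ i))⁻¹) = 1
    rw [h]; group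
  · have : wmap (fun b => (.inl (.inr b) : D.C)) w = wmap .inl (wmap .inr w) := by
      simp [wmap]
    rw [kv_subst, this, cval_wmap, av_wmap_inr, ev_pgen_rel _ hw]
    exact (congrArg Em.c (map_one _)).trans (map_one _)
  · rw [ev_wcomm_eq_one, kv_defw, kv_defw]
    refine Commute.map (Commute.map ?_ Monoid.Coprod.inl) Em.c
    simp [av, Commute, SemiconjBy]

theorem N'_le_ker : D.N' N ≤ (D.π N).ker := by
  refine Subgroup.normalClosure_le_normal ?_
  rintro _ (⟨w, hw, rfl⟩ | ⟨x, hx, rfl⟩)
  · exact D.π_R0 N hw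
  · simp only [SetLike.mem_coe, MonoidHom.mem_ker]
    rw [π_endo, (QuotientGroup.eq_one_iff x).2 hx]
    exact (congrArg Em.c (map_one _)).trans (map_one _)

theorem ker_le_N' : (D.π N).ker ≤ D.N' N := by
  let q : D.F →* D.F ⧸ D.N' N := QuotientGroup.mk' _
  let g : D.A → D.F ⧸ D.N' N := fun a => q (FreeGroup.of a)
  have hq : ∀ w, q (FreeGroup.mk w) = ev g w := fun w => by rw [← ev_of, map_ev]
  have hR : ∀ w ∈ D.R0, ev g w = 1 := fun w hw => by
    rw [← hq]
    exact (QuotientGroup.eq_one_iff _).2 (Subgroup.subset_normalClosure (Or.inl ⟨w, hw, rfl⟩))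
  let fz : ZG D.r →* D.F ⧸ D.N' N := PG.lift _ (fun a => g (some a)) fun w hw => by
    rw [← ev_wmap g some]
    exact hR _ (D.mem_R0_1 hw)
  let f1 : D.F ⧸ N →* D.F ⧸ D.N' N := QuotientGroup.map _ _ (endo D.s) fun x hx =>
    Subgroup.subset_normalClosure (Or.inr ⟨x, hx, rfl⟩)
  let f2 : PG D.rel1 →* D.F ⧸ D.N' N :=
    PG.lift _ (fun b => ev g (D.defw (.inl (.inr b)))) fun w hw => by
      rw [← ev_wmap (fun c => ev g (D.defw c)) (fun b => .inl (.inr b)), ← ev_subst]
      exact hR _ (D.mem_R0_4 hw)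
  have hf1 : ∀ w, f1 ((FreeGroup.mk w : D.F) : D.F ⧸ N) =
      ev (fun a => ev g (D.defw (.inl (.inl a)))) w := fun w => by
    change q (endo D.s (FreeGroup.mk w)) = _
    rw [endo_mk, hq, ev_subst]; rfl
  have h12 : ∀ x y, Commute (f1 x) (f2 y) := by
    intro x y
    obtain ⟨x, rfl⟩ := QuotientGroup.mk_surjective x
    obtain ⟨u, rfl⟩ := Quot.exists_rep x
    obtain ⟨v, rfl⟩ := pgen_surj _ y
    change Commute (f1 ((FreeGroup.mk u : D.F) : D.F ⧸ N)) _
    rw [hf1, PG.lift_ev]
    refine commute_ev₂ (fun a b => ?_) u v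
    rw [← ev_wcomm_eq_one]
    exact hR _ (D.mem_R0_5 a b)
  let fc : CG (D.AG N) →* D.F ⧸ D.N' N := Monoid.Coprod.lift (f1.noncommCoprod f2 h12)
    (FreeGroup.lift fun b => ev g (D.defw (.inr b)))
  have hfc : ∀ c, fc (cval (D.av N) c) = ev g (D.defw c) := by
    rintro ((a | b) | b)
    · have := hf1 [(a, true)]
      simp only [ev_cons, sgn_true, ev_nil, mul_one] at this
      simp only [fc, cval, av, Sum.elim_inl, Monoid.Coprod.lift_apply_inl,
        MonoidHom.noncommCoprod_apply, map_one, mul_one]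
      exact this
    · simp [fc, cval, av, f2]
    · simp [fc, cval]
  have hfc' : ∀ y, fc (ev (cval (D.av N)) y) = ev g (subst D.defw y) := fun y => by
    rw [map_ev, ev_subst]; simp only [hfc]
  have hsurj : ∀ y : CG (D.AG N), ∃ w, ev (cval (D.av N)) w = y := by
    intro y
    rw [← mem_closure_range_iff]
    induction y using Monoid.Coprod.induction_on with
    | inl a =>
      obtain ⟨x, y⟩ := a
      obtain ⟨x, rfl⟩ := QuotientGroup.mk_surjective x
      obtain ⟨u, rfl⟩ := Quot.exists_rep x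
      obtain ⟨v, rfl⟩ := pgen_surj _ y
      refine (mem_closure_range_iff _).2 ⟨wmap .inl (wmap .inl u ++ wmap .inr v), ?_⟩
      rw [cval_wmap, ev_append, av_wmap_inl, av_wmap_inr]
      simp
    | inr b =>
      obtain ⟨u, rfl⟩ := Quot.exists_rep b
      refine (mem_closure_range_iff _).2 ⟨wmap .inr u, ?_⟩
      rw [ev_wmap]
      change _ = Monoid.Coprod.inr (FreeGroup.mk u)
      rw [← ev_of, map_ev]; rfl
    | mul x y hx hy => exact mul_mem hx hy
  obtain ⟨f, hz, -, ht⟩ := Em.exists_lift (ρ := D.ρ) (em := D.ε N) fz fc (g none) (by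
    intro x y
    obtain ⟨u, rfl⟩ := pgen_surj _ x
    obtain ⟨v, rfl⟩ := hsurj y
    rw [PG.lift_ev, map_ev]
    refine commute_ev₂ (fun a b => ?_) u v
    rw [hfc]
    have := (ev_wcomm_eq_one g [(some a, true)] (D.defw b)).1 (hR _ (D.mem_R0_2 a b))
    simpa using this) (by
    intro i
    have := hR (D.trel i) (D.mem_R0_3 i)
    simp only [trel, ev_append, ev_invRev, ev_cons, sgn_true, sgn_false, ev_wmap] at this
    rw [hfc', PG.lift_ev, ← mul_inv_eq_one, ← this]; group)
  have key : f.comp (D.π N) = q := by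
    ext a
    cases a with
    | none => simpa [π, kv] using ht
    | some a => simpa [π, kv, fz] using hz (zg D.r a)
  intro x hx
  rw [← QuotientGroup.eq_one_iff]
  change q x = 1
  rw [← key, MonoidHom.comp_apply, MonoidHom.mem_ker.1 hx, map_one]

theorem π_eq_one (x : D.F) : D.π N x = 1 ↔ x ∈ D.N' N :=
  ⟨fun h => D.ker_le_N' N h, fun h => D.N'_le_ker N h⟩

theorem wd (v : Word (Fin D.X.m)) (h : ev D.ρ v = 1) : ev (D.ε N) v = 1 := by
  rw [← lift_mk, D.X.inj v h, map_one]

end Level

end TD

end Vale.Agent.P193
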