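import Vale.Agent.P193.RE

/-! The universal acceptance predicate used by the tower. -/

namespace Vale.Agent.P193

open Nat.Partrec

/-- The raw word for `σ ^ n α σ ^ (-n)`. -/
def Pw (n : ℕ) : List ℕ := List.replicate n 0 ++ 2 :: List.replicate n 1

/-- Size check for a linking pair. -/
def okPair (Nc n : ℕ) (p : List ℕ × List ℕ) : Prop :=
  p.1.length ≤ n ∧ p.2.length ≤ n ∧ ∀ k ∈ p.1 ++ p.2, k + 3 < Nc

instance (Nc n : ℕ) (p : List ℕ × List ℕ) : Decidable (okPair Nc n p) := by
  unfold okPair; infer_instance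

/-- The linking pair attached to the height `n`; the parameter is the pair of the alphabet bound
and a program. -/
def look (e n : ℕ) : Option (List ℕ × List ℕ) :=
  ((Code.evaln n (Denumerable.ofNat Code e.unpair.2) n.unpair.1).bind
    (Encodable.decode (α := List ℕ × List ℕ))).bind
      fun p => if okPair e.unpair.1 n p ∧ 2 < e.unpair.1 then some p else none

/-- The raw word for a linking element. -/
def Yw (n : ℕ) (p : List ℕ × List ℕ) : List ℕ := p.1.map (· + 3) ++ Pw n ++ p.2.map (· + 3)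

/-- The accepted words. -/
def accF (e : ℕ) (w : List ℕ) : Bool :=
  decide (∃ n < w.length + 1, ∃ p ∈ (look e n).toList, w = Pw n ∨ w = Yw n p)

theorem primrec_Pw : Primrec Pw := by
  unfold Pw; fun_prop

theorem primrec_Yw : Primrec fun x : ℕ × List ℕ × List ℕ => Yw x.1 x.2 := by
  have := primrec_Pw
  unfold Yw; fun_prop

theorem primrec_okPair :
    PrimrecPred fun x : ℕ × ℕ × List ℕ × List ℕ => okPair x.1 x.2.1 x.2.2 := by
  unfold okPair
  refine (Primrec.nat_le.comp (by fun_prop) (by fun_prop)).and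
    ((Primrec.nat_le.comp (by fun_prop) (by fun_prop)).and ?_)
  have h : PrimrecRel fun (k : ℕ) (N : ℕ) => k + 3 < N :=
    Primrec.nat_lt.comp (f := fun x : ℕ × ℕ => x.1 + 3) (g := fun x : ℕ × ℕ => x.2)
      (by fun_prop) (by fun_prop)
  exact h.forall_mem_list.comp (f := fun x : ℕ × ℕ × List ℕ × List ℕ => x.2.2.1 ++ x.2.2.2)
    (g := fun x : ℕ × ℕ × List ℕ × List ℕ => x.1) (by fun_prop) (by fun_prop)

theorem primrec_look : Primrec fun x : ℕ × ℕ => look x.1 x.2 := by
  unfold look
  refine Primrec.option_bind (Primrec.option_bind ?_ (Primrec.decode.comp Primrec.snd).to₂) ?_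
  · refine Code.primrec_evaln.comp (g := fun x : ℕ × ℕ =>
      ((x.2, Denumerable.ofNat Code x.1.unpair.2), x.2.unpair.1)) ?_
    have := Primrec.ofNat Code
    fun_prop
  · refine Primrec.ite (c := fun x : (ℕ × ℕ) × List ℕ × List ℕ =>
      okPair x.1.1.unpair.1 x.1.2 x.2 ∧ 2 < x.1.1.unpair.1) ?_ (by fun_prop) (by fun_prop)
    exact (primrec_okPair.comp (f := fun x : (ℕ × ℕ) × List ℕ × List ℕ =>
      (x.1.1.unpair.1, x.1.2, x.2)) (by fun_prop)).and
        (Primrec.nat_lt.comp (by fun_prop) (by fun_prop))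

theorem primrec_toList {α β : Type} [Primcodable α] [Primcodable β] {f : α → Option β}
    (hf : Primrec f) : Primrec fun a => (f a).toList :=
  (Primrec.option_casesOn hf (Primrec.const []) (g := fun _ b => [b])
    (show Primrec fun x : α × β => [x.2] by fun_prop)).of_eq fun a => by cases f a <;> rfl

theorem primrec_accF : Primrec₂ accF := by
  have h1 : PrimrecRel fun (p : List ℕ × List ℕ) (y : ℕ × List ℕ) =>
      y.2 = Pw y.1 ∨ y.2 = Yw y.1 p :=
    PrimrecPred.or (p := fun x : (List ℕ × List ℕ) × ℕ × List ℕ => x.2.2 = Pw x.2.1)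
      (Primrec.eq.comp (by fun_prop) (primrec_Pw.comp (by fun_prop)))
      (Primrec.eq.comp (by fun_prop) (primrec_Yw.comp
        (g := fun x : (List ℕ × List ℕ) × ℕ × List ℕ => (x.2.1, x.1)) (by fun_prop)))
  have h2 : PrimrecRel fun (n : ℕ) (y : ℕ × List ℕ) =>
      ∃ p ∈ (look y.1 n).toList, y.2 = Pw n ∨ y.2 = Yw n p :=
    h1.exists_mem_list.comp (f := fun x : ℕ × ℕ × List ℕ => (look x.2.1 x.1).toList)
      (g := fun x : ℕ × ℕ × List ℕ => (x.1, x.2.2))
      (primrec_toList (primrec_look.comp (g := fun x : ℕ × ℕ × List ℕ => (x.2.1, x.1))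
        (by fun_prop))) (by fun_prop)
  have h4 := h2.exists_mem_list.comp (f := fun x : ℕ × List ℕ => List.range (x.2.length + 1))
    (g := fun x : ℕ × List ℕ => x) (by fun_prop) (by fun_prop)
  exact h4.decide.of_eq fun x => by simp only [accF, List.mem_range]

theorem accF_iff (e : ℕ) (w : List ℕ) :
    accF e w = true ↔ ∃ n p, look e n = some p ∧ (w = Pw n ∨ w = Yw n p) := by
  simp only [accF, decide_eq_true_eq, Option.mem_toList]
  constructor
  · rintro ⟨n, -, p, hp, h⟩; exact ⟨n, p, hp, h⟩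
  · rintro ⟨n, p, hp, h⟩
    refine ⟨n, ?_, p, hp, h⟩
    rcases h with rfl | rfl <;> simp [Pw, Yw] <;> omega

theorem look_ok {e n : ℕ} {p : List ℕ × List ℕ} (h : look e n = some p) :
    okPair e.unpair.1 n p ∧ 2 < e.unpair.1 := by
  simp only [look, Option.bind_eq_some_iff] at h
  obtain ⟨q, -, h⟩ := h
  split_ifs at h with h2
  cases h; exact h2

theorem accF_lt {e : ℕ} {w : List ℕ} (h : accF e w = true) : ∀ a ∈ w, a < e.unpair.1 := by
  obtain ⟨n, p, hp, h⟩ := (accF_iff e w).1 h
  obtain ⟨⟨-, -, h1⟩, h2⟩ := look_ok hp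
  have h3 : ∀ a ∈ Pw n, a < e.unpair.1 := by
    intro a ha
    simp only [Pw, List.mem_append, List.mem_cons, List.mem_replicate] at ha
    omega
  rcases h with rfl | rfl
  · exact h3
  · intro a ha
    simp only [Yw, List.mem_append, List.mem_map] at ha
    rcases ha with (⟨k, hk, rfl⟩ | ha) | ⟨k, hk, rfl⟩
    · exact h1 k (List.mem_append_left _ hk)
    · exact h3 a ha
    · exact h1 k (List.mem_append_right _ hk)

theorem look_sound {e n : ℕ} {p : List ℕ × List ℕ} (h : look e n = some p) :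
    ∃ k y, y ∈ (Denumerable.ofNat Code e.unpair.2).eval k ∧ Encodable.decode y = some p := by
  simp only [look, Option.bind_eq_some_iff] at h
  obtain ⟨q, ⟨y, hy, hq⟩, h⟩ := h
  split_ifs at h with h2
  cases h
  exact ⟨_, y, Code.evaln_sound hy, hq⟩

theorem look_complete {e k : ℕ} {p : List ℕ × List ℕ}
    (h : Encodable.encode p ∈ (Denumerable.ofNat Code e.unpair.2).eval k)
    (h1 : ∀ a ∈ p.1 ++ p.2, a + 3 < e.unpair.1) (h2 : 2 < e.unpair.1) :
    ∃ n, look e n = some p := by
  obtain ⟨j, hj⟩ := Code.evaln_complete.1 h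
  have hn := Nat.right_le_pair k (j + p.1.length + p.2.length)
  refine ⟨Nat.pair k (j + p.1.length + p.2.length), ?_⟩
  have := Code.evaln_mono (k₂ := Nat.pair k (j + p.1.length + p.2.length)) (by omega) hj
  rw [Option.mem_def] at this
  simp only [look, Nat.unpair_pair, this, Option.bind_some, Encodable.encodek]
  rw [if_pos ⟨⟨by omega, by omega, h1⟩, h2⟩]

end Vale.Agent.P193
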