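import Vale.Agent.P193.TCert

/-! The levels of the tower, the fixed point and the limit. -/

namespace Vale.Agent.P193

theorem normalClosure_union_image {G : Type} [Group G] (A T : Set G) (f : G →* G) :
    Subgroup.normalClosure (A ∪ f '' Subgroup.normalClosure T) =
      Subgroup.normalClosure (A ∪ f '' T) := by
  refine le_antisymm (Subgroup.normalClosure_le_normal ?_) (Subgroup.normalClosure_mono
    (Set.union_subset_union_right _ (Set.image_mono Subgroup.subset_normalClosure)))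
  rintro _ (h | ⟨x, hx, rfl⟩)
  · exact Subgroup.subset_normalClosure (Or.inl h)
  · have : Subgroup.normalClosure T ≤ (Subgroup.normalClosure (A ∪ f '' T)).comap f :=
      Subgroup.normalClosure_le_normal fun y hy =>
        Subgroup.subset_normalClosure (Or.inr ⟨y, hy, rfl⟩)
    exact this hx

/-- The first `d` iterates of a list of words. -/
def iterLt {𝒜 : Type} (s : 𝒜 → Word 𝒜) (L : List (Word 𝒜)) (d : ℕ) : Set (FreeGroup 𝒜) :=
  {g | ∃ i < d, ∃ w ∈ L, endoN s i (FreeGroup.mk w) = g}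

theorem iterLt_succ {𝒜 : Type} (s : 𝒜 → Word 𝒜) (L : List (Word 𝒜)) (d : ℕ) :
    iterLt s L (d + 1) = relSet L ∪ endo s '' iterLt s L d := by
  ext g
  constructor
  · rintro ⟨_ | i, hi, w, hw, rfl⟩
    · exact Or.inl ⟨w, hw, rfl⟩
    · exact Or.inr ⟨_, ⟨i, by omega, w, hw, rfl⟩, rfl⟩
  · rintro (⟨w, hw, rfl⟩ | ⟨_, ⟨i, hi, w, hw, rfl⟩, rfl⟩)
    · exact ⟨0, by omega, w, hw, rfl⟩
    · exact ⟨i + 1, by omega, w, hw, rfl⟩

theorem iterSet_eq {𝒜 : Type} (s : 𝒜 → Word 𝒜) (L : List (Word 𝒜)) :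
    iterSet s L = relSet L ∪ endo s '' iterSet s L := by
  ext g
  constructor
  · rintro ⟨_ | i, w, hw, rfl⟩
    · exact Or.inl ⟨w, hw, rfl⟩
    · exact Or.inr ⟨_, ⟨i, w, hw, rfl⟩, rfl⟩
  · rintro (⟨w, hw, rfl⟩ | ⟨_, ⟨i, w, hw, rfl⟩, rfl⟩)
    · exact ⟨0, w, hw, rfl⟩
    · exact ⟨i + 1, w, hw, rfl⟩

namespace TD
variable (D : TD)

/-- The normal subgroup of level `d`. -/
noncomputable def Nn (d : ℕ) : Subgroup D.F :=
  Subgroup.normalClosure (iterLt D.s D.R0 d ∪ Set.range (endoN D.s d))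

instance (d : ℕ) : (D.Nn d).Normal := Subgroup.normalClosure_normal

/-- The stabiliser of level `d`. -/
noncomputable def Pn (e d : ℕ) : Subgroup D.F :=
  D.Nn d ⊔ Subgroup.closure (iterLt D.s (D.Gs e) d)

theorem Nn_le_Pn (e d : ℕ) : D.Nn d ≤ D.Pn e d := le_sup_left

theorem endoN_mem_Nn (d : ℕ) (x : D.F) : endoN D.s d x ∈ D.Nn d :=
  Subgroup.subset_normalClosure (Or.inr ⟨x, rfl⟩)

theorem Nn_succ (d : ℕ) : D.Nn (d + 1) = D.N' (D.Nn d) := by
  rw [N', Nn, Nn, normalClosure_union_image, iterLt_succ, Set.image_union, Set.union_assoc,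
    ← Set.range_comp]
  rfl

theorem P'_sup (e : ℕ) (N : Subgroup D.F) (T : Set D.F) :
    D.P' e N (N ⊔ Subgroup.closure T) =
      D.N' N ⊔ Subgroup.closure (relSet (D.Gs e) ∪ endo D.s '' T) := by
  have h : N.map (endo D.s) ≤ D.N' N := by
    rintro _ ⟨x, hx, rfl⟩
    exact Subgroup.subset_normalClosure (Or.inr ⟨x, hx, rfl⟩)
  rw [P', Subgroup.map_sup, MonoidHom.map_closure, Subgroup.closure_union]
  refine le_antisymm (sup_le (sup_le le_sup_left (le_sup_of_le_right le_sup_left))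
    (sup_le (le_sup_of_le_left h) (le_sup_of_le_right le_sup_right)))
    (sup_le (le_sup_of_le_left le_sup_left)
      (sup_le (le_sup_of_le_left le_sup_right) (le_sup_of_le_right le_sup_right)))

theorem Pn_succ (e d : ℕ) : D.Pn e (d + 1) = D.P' e (D.Nn d) (D.Pn e d) := by
  rw [Pn, Pn, P'_sup, iterLt_succ, Nn_succ]

theorem Ninf_eq : Ninf D.s D.R0 = D.N' (Ninf D.s D.R0) := by
  rw [N', Ninf, normalClosure_union_image, ← iterSet_eq]

theorem Pinf_eq (e : ℕ) :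
    Pinf D.s D.R0 (D.Gs e) = D.P' e (Ninf D.s D.R0) (Pinf D.s D.R0 (D.Gs e)) := by
  rw [Pinf, P'_sup, ← iterSet_eq, ← Ninf_eq]

theorem N'_mono {N N₂ : Subgroup D.F} (h : N ≤ N₂) : D.N' N ≤ D.N' N₂ :=
  Subgroup.normalClosure_mono (Set.union_subset_union_right _ (Set.image_mono h))

theorem P'_mono (e : ℕ) {N N₂ P P₂ : Subgroup D.F} (h : N ≤ N₂) (h2 : P ≤ P₂) :
    D.P' e N P ≤ D.P' e N₂ P₂ :=
  sup_le_sup (sup_le_sup_right (D.N'_mono h) _) (Subgroup.map_mono h2)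

theorem Nn_zero : D.Nn 0 = ⊤ := eq_top_iff.2 fun x _ => D.endoN_mem_Nn 0 x

theorem Pn_zero (e : ℕ) : D.Pn e 0 = ⊤ := eq_top_iff.2 (D.Nn_zero ▸ D.Nn_le_Pn e 0)

theorem anti_succ (e d : ℕ) : D.Nn (d + 1) ≤ D.Nn d ∧ D.Pn e (d + 1) ≤ D.Pn e d := by
  induction d with
  | zero => rw [Nn_zero, Pn_zero]; exact ⟨le_top, le_top⟩
  | succ d ih =>
    constructor
    · rw [Nn_succ, D.Nn_succ d]; exact D.N'_mono (D.Nn_succ d ▸ ih.1)
    · rw [Pn_succ, D.Pn_succ e d, ← D.Pn_succ e d]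
      nth_rewrite 2 [D.Pn_succ e d]
      exact D.P'_mono e ih.1 ih.2

theorem Nn_anti : Antitone D.Nn := antitone_nat_of_succ_le fun d => (D.anti_succ 0 d).1

theorem Pn_anti (e : ℕ) : Antitone (D.Pn e) := antitone_nat_of_succ_le fun d => (D.anti_succ e d).2

theorem inf_le (e d : ℕ) : Ninf D.s D.R0 ≤ D.Nn d ∧ Pinf D.s D.R0 (D.Gs e) ≤ D.Pn e d := by
  induction d with
  | zero => rw [Nn_zero, Pn_zero]; exact ⟨le_top, le_top⟩
  | succ d ih =>
    rw [Nn_succ, Pn_succ]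
    exact ⟨D.Ninf_eq.le.trans (D.N'_mono ih.1), (D.Pinf_eq e).le.trans (D.P'_mono e ih.1 ih.2)⟩

theorem re_iterLt {π : Type} [Primcodable π] {L : π → List (Word D.A)} (hL : Computable L) :
    REPred fun x : (π × ℕ) × Word D.A =>
      ∃ i < x.1.2, ∃ w ∈ L x.1.1, x.2 = (subst D.s)^[i] w := by
  have hs : Primrec (subst D.s) := primrec_subst (f := fun _ => D.s)
    ((Primrec.dom_finite D.s).comp Primrec.snd) Primrec.id
  have hit : Primrec fun x : ℕ × Word D.A => (subst D.s)^[x.1] x.2 :=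
    Primrec.nat_iterate Primrec.fst Primrec.snd (hs.comp Primrec.snd).to₂
  refine re_exists (p := fun (x : (π × ℕ) × Word D.A) i =>
    i < x.1.2 ∧ ∃ w ∈ L x.1.1, x.2 = (subst D.s)^[i] w) (re_and ?_ ?_)
  · exact re_of_primrecPred (Primrec.nat_lt.comp Primrec.snd (by fun_prop))
  · refine re_exists (p := fun (x : ((π × ℕ) × Word D.A) × ℕ) w =>
      w ∈ L x.1.1.1 ∧ x.1.2 = (subst D.s)^[x.2] w) (re_and ?_ ?_)
    · exact re_mem_list Computable.snd (hL.comp (by fun_prop))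
    · have a1 : Computable fun x : (((π × ℕ) × Word D.A) × ℕ) × Word D.A => (x.1.2, x.2) := by
        fun_prop
      have a2 := hit.to_comp.comp a1
      exact re_eq (by fun_prop) a2

theorem re_Nn : REPred fun x : ℕ × Word D.A => FreeGroup.mk x.2 ∈ D.Nn x.1 := by
  have hs : Primrec (subst D.s) := primrec_subst (f := fun _ => D.s)
    ((Primrec.dom_finite D.s).comp Primrec.snd) Primrec.id
  have hit : Primrec fun x : ℕ × Word D.A => (subst D.s)^[x.1] x.2 :=
    Primrec.nat_iterate Primrec.fst Primrec.snd (hs.comp Primrec.snd).to₂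
  have a1 : Computable fun x : ℕ × Word D.A => ((((), x.1), x.2) : (Unit × ℕ) × Word D.A) := by
    fun_prop
  have b1 := re_comp (D.re_iterLt (π := Unit) (Computable.const D.R0)) a1
  have a2 : Computable fun x : (ℕ × Word D.A) × Word D.A => (x.1.1, x.2) := by fun_prop
  have a3 := hit.to_comp.comp a2
  have b2 := re_exists (p := fun (x : ℕ × Word D.A) w => x.2 = (subst D.s)^[x.1] w)
    (re_eq (by fun_prop) a3)
  refine re_of_iff (re_mem_normalClosure (S := fun d x =>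
    (∃ i < d, ∃ w ∈ D.R0, x = (subst D.s)^[i] w) ∨ ∃ w, x = (subst D.s)^[d] w)
      (re_or b1 b2)) fun x => ?_
  rw [Nn]
  congr! 2
  ext g
  constructor
  · rintro ⟨_, ⟨i, hi, w, hw, rfl⟩ | ⟨w, rfl⟩, rfl⟩
    · exact Or.inl ⟨i, hi, w, hw, endo_pow_mk _ _ _⟩
    · exact Or.inr ⟨_, endo_pow_mk _ _ _⟩
  · rintro (⟨i, hi, w, hw, rfl⟩ | ⟨y, rfl⟩)
    · exact ⟨_, Or.inl ⟨i, hi, w, hw, rfl⟩, (endo_pow_mk _ _ _).symm⟩
    · obtain ⟨w, rfl⟩ := Quot.exists_rep y
      exact ⟨_, Or.inr ⟨w, rfl⟩, (endo_pow_mk _ _ w).symm⟩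

theorem computable_Gs : Computable D.Gs := by
  have h1 : Computable fun e => wmap (some : ZGen D.r → D.A) (D.X.rootw e) :=
    computable_wmap Computable.option_some D.X.root_comp
  exact Computable.list_cons.comp (Computable.list_append.comp (computable_invRev h1)
    (Computable.list_cons.comp (Computable.const _) h1)) (Computable.const _)

theorem re_Pn : REPred fun x : (ℕ × ℕ) × Word D.A => FreeGroup.mk x.2 ∈ D.Pn x.1.1 x.1.2 := by
  have a1 : Computable fun x : (ℕ × ℕ) × Word D.A => (x.1.2, x.2) := by fun_prop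
  have b1 := re_comp D.re_Nn a1
  have b2 := D.re_iterLt D.computable_Gs
  refine re_of_iff (re_mem_closure (S := fun (p : ℕ × ℕ) x => FreeGroup.mk x ∈ D.Nn p.2 ∨
    ∃ i < p.2, ∃ w ∈ D.Gs p.1, x = (subst D.s)^[i] w) (re_or b1 b2)) fun x => ?_
  have e1 : D.Pn x.1.1 x.1.2 =
      Subgroup.closure (↑(D.Nn x.1.2) ∪ iterLt D.s (D.Gs x.1.1) x.1.2) := by
    rw [Pn, Subgroup.closure_union, Subgroup.closure_eq]
  rw [e1]
  congr! 2
  ext g
  constructor
  · rintro ⟨_, h | ⟨i, hi, w, hw, rfl⟩, rfl⟩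
    · exact Or.inl h
    · exact Or.inr ⟨i, hi, w, hw, endo_pow_mk _ _ _⟩
  · rintro (h | ⟨i, hi, w, hw, rfl⟩)
    · obtain ⟨w, rfl⟩ := Quot.exists_rep g
      exact ⟨w, Or.inl h, rfl⟩
    · exact ⟨_, Or.inr ⟨i, hi, w, hw, rfl⟩, (endo_pow_mk _ _ _).symm⟩

/-- The subgroups of level `d`. -/
noncomputable def Sub (e d : ℕ) (b : Bool) : Subgroup D.F := cond b (D.Pn e d) (D.Nn d)

theorem memM_eq (e d : ℕ) (b : Bool) (x : Word D.A) :
    D.memM e (D.Nn d) (D.Pn e d) b x ↔ FreeGroup.mk x ∈ D.Sub e (d + 1) b := by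
  rw [memM, Sub, Nn_succ, Pn_succ]

theorem re_memM : REPred fun x : (ℕ × ℕ) × Bool × Word D.A =>
    D.memM x.1.1 (D.Nn x.1.2) (D.Pn x.1.1 x.1.2) x.2.1 x.2.2 := by
  have a1 : Computable fun x : (ℕ × ℕ) × Bool × Word D.A => (x.1.2 + 1, x.2.2) := by fun_prop
  have a2 : Computable fun x : (ℕ × ℕ) × Bool × Word D.A => ((x.1.1, x.1.2 + 1), x.2.2) := by
    fun_prop
  have a3 : Computable fun x : (ℕ × ℕ) × Bool × Word D.A => x.2.1 := by fun_prop
  have b1 := re_comp D.re_Nn a1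
  have b2 := re_comp D.re_Pn a2
  refine re_of_iff (re_or (re_and (re_eq a3 (Computable.const false)) b1)
    (re_and (re_eq a3 (Computable.const true)) b2)) ?_
  rintro ⟨p, _ | _, x⟩ <;> simp [memM_eq, Sub]

/-- Certified non-membership. -/
def Neg : ℕ → ℕ × Bool × Word D.A → Prop :=
  rankRec fun S x => D.Op x.1.1 (D.memM x.1.1 (D.Nn x.1.2) (D.Pn x.1.1 x.1.2))
    (fun b y => S (x.1.1, b, y)) x.2.1 x.2.2

theorem Neg_succ (d e : ℕ) (b : Bool) (u : Word D.A) : D.Neg (d + 1) (e, b, u) ↔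
    D.Op e (D.memM e (D.Nn d) (D.Pn e d)) (fun b y => D.Neg d (e, b, y)) b u := Iff.rfl

theorem re_Neg (hre1 : REPred fun w => ev (pgen D.rel1) w ≠ 1) :
    REPred fun x : ℕ × ℕ × Bool × Word D.A => D.Neg x.1 x.2 :=
  re_rankRec (D.op_enumOp hre1 (fun p => D.memM p.1 (D.Nn p.2) (D.Pn p.1 p.2)) D.re_memM)

theorem neg_complete {e : ℕ} (he : e.unpair.1 = D.Nc) (d : ℕ) (b : Bool) (u : Word D.A)
    (h : FreeGroup.mk u ∉ D.Sub e d b) : D.Neg d (e, b, u) := by
  induction d generalizing b u with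
  | zero => cases b <;> simp [Sub, Nn_zero, Pn_zero] at h
  | succ d ih =>
    rw [← memM_eq] at h
    exact (D.op_complete _ he (D.Nn_le_Pn e d) h).mono (fun _ _ h => h) fun b x h => ih b x h.1

/-- The offset word of a word. -/
def codeQ (u : Word D.A) : List ℕ := u.map fun a => Encodable.encode ((.inl a.1, a.2) : D.Q × Bool)

theorem decQs_codeQ (u : Word D.A) : D.decQs (D.codeQ u) = wmap .inl u := by
  induction u with
  | nil => rfl
  | cons a u ih =>
    simp only [decQs, codeQ, List.map_cons, List.flatMap_cons, wmap] at ih ⊢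
    rw [ih, decQ, Encodable.encodek]; rfl

/-- The free letter. -/
def w0 : Word D.A := [(some (.inl 2), true)]

/-- The linking pair of a word of a given rank. -/
noncomputable def pairOf (u : Word D.A) (δ : ℕ) : List ℕ × List ℕ :=
  (D.codeQ (FreeGroup.invRev ((subst D.s)^[δ - 1] D.w0)), D.codeQ u)

/-- The specification of the self-referential program. -/
def Fix (e : ℕ) : Prop :=
  e.unpair.1 = D.Nc ∧ ∀ p, (∃ n, look e n = some p) ↔
    ∃ u δ, D.Neg δ (e, true, u) ∧ FreeGroup.mk u ∈ D.Pn e (δ - 1) ∧ p = D.pairOf u δ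

theorem exists_fix (hre1 : REPred fun w => ev (pgen D.rel1) w ≠ 1) : ∃ e, D.Fix e := by
  let z : ℕ → Word D.A × ℕ := fun k => (Encodable.decode k).getD ([], 0)
  have hz : Primrec z := Primrec.option_getD.comp Primrec.decode (Primrec.const _)
  have hs : Primrec (subst D.s) := primrec_subst (f := fun _ => D.s)
    ((Primrec.dom_finite D.s).comp Primrec.snd) Primrec.id
  have hc : Primrec D.codeQ := by unfold codeQ; fun_prop
  have hit : Primrec fun x : ℕ => (subst D.s)^[x - 1] D.w0 :=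
    Primrec.nat_iterate (by fun_prop) (Primrec.const _) (hs.comp Primrec.snd).to₂
  have hp : Primrec fun x : Word D.A × ℕ => D.pairOf x.1 x.2 :=
    (hc.comp (primrec_invRev (hit.comp Primrec.snd))).pair (hc.comp Primrec.fst)
  have a1 : Primrec fun x : ℕ × ℕ => ((z x.2).2, Nat.pair D.Nc x.1, true, (z x.2).1) := by
    fun_prop
  have a2 : Primrec fun x : ℕ × ℕ => ((Nat.pair D.Nc x.1, (z x.2).2 - 1), (z x.2).1) := by
    fun_prop
  have b1 := re_comp (D.re_Neg hre1) a1.to_comp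
  have b2 := re_comp D.re_Pn a2.to_comp
  have a3 := Primrec.encode.comp (hp.comp (hz.comp (Primrec.snd (α := ℕ))))
  obtain ⟨e, he⟩ := exists_fixed_code
    (p := fun e k => D.Neg (z k).2 (Nat.pair D.Nc e, true, (z k).1) ∧
      FreeGroup.mk (z k).1 ∈ D.Pn (Nat.pair D.Nc e) ((z k).2 - 1))
    (f := fun _ k => Encodable.encode (D.pairOf (z k).1 (z k).2)) (re_and b1 b2) a3.to_comp
  refine ⟨Nat.pair D.Nc e, by simp, fun p => ⟨?_, ?_⟩⟩
  · rintro ⟨n, hn⟩
    obtain ⟨k, y, h1, h2⟩ := look_sound hn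
    rw [Nat.unpair_pair] at h1
    obtain ⟨⟨h3, h4⟩, rfl⟩ := (he k y).1 h1
    rw [Encodable.encodek] at h2
    exact ⟨_, _, h3, h4, (Option.some.inj h2).symm⟩
  · rintro ⟨u, δ, h1, h2, rfl⟩
    have hk : z (Encodable.encode (u, δ)) = (u, δ) := by simp only [z, Encodable.encodek]; rfl
    refine look_complete (k := Encodable.encode (u, δ)) ?_ ?_ (by simpa using D.hN2)
    · rw [Nat.unpair_pair, he, hk]
      exact ⟨⟨h1, h2⟩, rfl⟩
    · intro a ha
      simp only [pairOf, codeQ, List.mem_append, List.mem_map] at ha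
      rw [Nat.unpair_pair]
      rcases ha with ⟨a, -, rfl⟩ | ⟨a, -, rfl⟩ <;> exact D.hN _

theorem adm_of {e : ℕ} (h : D.Fix e) (N : Subgroup D.F) [N.Normal] {P : Subgroup D.F}
    (hNP : N ≤ P) (H : ∀ u δ, D.Neg δ (e, true, u) → FreeGroup.mk u ∈ D.Pn e (δ - 1) →
      (FreeGroup.mk u ∈ P ↔ endoN D.s (δ - 1) (FreeGroup.mk D.w0) ∈ P)) : D.Adm N e P := by
  intro n hn
  obtain ⟨p, hp⟩ := Option.isSome_iff_exists.1 hn.2
  obtain ⟨u, δ, h1, h2, rfl⟩ := (h.2 p).1 ⟨n, hp⟩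
  simp only [uw, gw, hp, Option.elim_some, pairOf, decQs_codeQ, ev_invRev, av_wmap_inl,
    inv_mem_iff, D.mem_Pt N hNP, and_true, ← FreeGroup.inv_mk, ← endo_pow_mk]
  exact H u δ h1 h2

theorem levels {e : ℕ} (h : D.Fix e) (d : ℕ) :
    (∀ b u, D.Neg d (e, b, u) → FreeGroup.mk u ∉ D.Sub e d b) ∧
      D.Adm (D.Nn d) e (D.Pn e d) := by
  induction d using Nat.strong_induction_on with
  | _ d ih =>
    have h1 : ∀ j ≤ d, ∀ b u, D.Neg j (e, b, u) → FreeGroup.mk u ∉ D.Sub e j b := by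
      intro j hj
      rcases j with _ | j
      · intro b u h; exact h.elim
      · intro b u hu
        rw [← memM_eq]
        exact D.op_sound _ h.1 (D.Nn_le_Pn e j) (ih j (by omega)).2 (ih j (by omega)).1 hu
    have h2 : ∀ i j, i < j → j ≤ d → endoN D.s i (FreeGroup.mk D.w0) ∉ D.Pn e j := by
      intro i
      induction i with
      | zero =>
        rintro (_ | j) h1 h2
        · omega
        · rw [Pn_succ]; exact D.w_not_mem_P' _ h.1 _ (w_not_mem_RS D.r)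
      | succ i ihi =>
        rintro (_ | j) h1 h2
        · omega
        · rw [Pn_succ]
          exact fun h3 => ihi j (by omega) (by omega)
            (D.endo_mem_P' _ h.1 (D.Nn_le_Pn e j) (ih j (by omega)).2 h3)
    refine ⟨h1 d le_rfl, D.adm_of h _ (D.Nn_le_Pn e d) fun u δ hu hu' => ?_⟩
    rcases δ with _ | δ
    · exact hu.elim
    rw [Nat.add_sub_cancel] at hu' ⊢
    rcases le_or_gt d δ with hd | hd
    · exact iff_of_true (D.Pn_anti e hd hu')
        (D.Pn_anti e hd (D.Nn_le_Pn e δ (D.endoN_mem_Nn δ _)))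
    · exact iff_of_false (fun h3 => h1 (δ + 1) hd true u hu (D.Pn_anti e hd h3))
        (h2 δ d hd le_rfl)

theorem w_not_mem_Pn {e : ℕ} (h : D.Fix e) (i : ℕ) :
    endoN D.s i (FreeGroup.mk D.w0) ∉ D.Pn e (i + 1) := by
  induction i with
  | zero => rw [Pn_succ]; exact D.w_not_mem_P' _ h.1 _ (w_not_mem_RS D.r)
  | succ i ih =>
    rw [Pn_succ]
    exact fun h3 => ih (D.endo_mem_P' _ h.1 (D.Nn_le_Pn e _) (D.levels h _).2 h3)

theorem contraction {e : ℕ} (h : D.Fix e) (n : ℕ) : ∃ d, ∀ b (u : Word D.A), u.length ≤ n →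
    FreeGroup.mk u ∉ cond b (Pinf D.s D.R0 (D.Gs e)) (Ninf D.s D.R0) →
      FreeGroup.mk u ∉ D.Sub e d b := by
  induction n with
  | zero =>
    refine ⟨0, fun b u hu h => ?_⟩
    obtain rfl : u = [] := List.length_eq_zero_iff.1 (by omega)
    exact absurd (one_mem _) h
  | succ n ih =>
    obtain ⟨d, hd⟩ := ih
    refine ⟨d + 1, fun b u hu hu' => ?_⟩
    have h1 : ¬ D.memM e (Ninf D.s D.R0) (Pinf D.s D.R0 (D.Gs e)) b u := by
      rwa [memM, ← Ninf_eq, ← Pinf_eq]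
    have h2 := D.op_complete _ h.1 le_sup_left h1
    rw [← memM_eq]
    refine D.op_sound _ h.1 (D.Nn_le_Pn e d) (D.levels h d).2
      (S := fun b x => FreeGroup.mk x ∉ D.Sub e d b) (fun _ _ h => h) (h2.mono ?_ ?_)
    · rintro (_ | _) x hx
      · exact D.N'_mono (D.inf_le e d).1 hx
      · exact D.P'_mono e (D.inf_le e d).1 (D.inf_le e d).2 hx
    · exact fun b x hx => hd b x (by omega) hx.1

theorem adm_inf {e : ℕ} (h : D.Fix e) : D.Adm (Ninf D.s D.R0) e (Pinf D.s D.R0 (D.Gs e)) := by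
  refine D.adm_of h _ le_sup_left fun u δ hu _ => ?_
  rcases δ with _ | δ
  · exact hu.elim
  · exact iff_of_false (fun h3 => (D.levels h _).1 true u hu ((D.inf_le e _).2 h3))
      fun h3 => D.w_not_mem_Pn h δ ((D.inf_le e _).2 h3)

theorem link_inf {e : ℕ} (h : D.Fix e) (x : D.F) (hx : x ∉ Pinf D.s D.R0 (D.Gs e)) :
    ∃ i, ∃ p ∈ Pinf D.s D.R0 (D.Gs e), ∃ q ∈ Pinf D.s D.R0 (D.Gs e),
      endo D.s x = p * endoN D.s i (FreeGroup.mk D.w0) * q := by
  classical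
  obtain ⟨u, rfl⟩ := Quot.exists_rep x
  change FreeGroup.mk u ∉ _ at hx
  obtain ⟨d, hd⟩ := D.contraction h u.length
  have hex : ∃ d, FreeGroup.mk u ∉ D.Pn e d := ⟨d, hd true u le_rfl hx⟩
  have h1 := Nat.find_spec hex
  have h2 : FreeGroup.mk u ∈ D.Pn e (Nat.find hex - 1) := by
    by_contra h3
    have := Nat.find_min' hex h3
    have h4 : Nat.find hex = 0 := by omega
    rw [h4, Pn_zero] at h1
    exact h1 trivial
  obtain ⟨n, hn⟩ := (h.2 _).2 ⟨u, _, D.neg_complete h.1 _ true u h1, h2, rfl⟩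
  obtain ⟨a, ha, b, hb, h3⟩ := D.link (Ninf D.s D.R0) h.1 (Pinf D.s D.R0 (D.Gs e)) hn
    (D.decQs_codeQ _) (D.decQs_codeQ _)
  rw [← Pinf_eq] at ha hb
  exact ⟨Nat.find hex - 1 + 1, a, ha, b, hb, by rw [endoN_succ, endo_pow_mk]; exact h3⟩

/-- The projection onto the base group. -/
def pr : D.F →* ZG D.r := FreeGroup.lift fun a => a.elim 1 (zg D.r)

theorem pr_eq (N : Subgroup D.F) [N.Normal] :
    ∃ f : D.KG N →* ZG D.r, (∀ y, f (Em.c y) = 1) ∧ ∀ x, D.pr x = f (D.π N x) := by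
  obtain ⟨f, h1, h2, h3⟩ := Em.exists_lift (ρ := D.ρ) (em := D.ε N) (MonoidHom.id _) 1 1
    (by simp) (by simp)
  refine ⟨f, h2, fun x => ?_⟩
  have : D.pr = f.comp (D.π N) := by
    ext (_ | a)
    · simpa [pr, π, kv] using h3.symm
    · simpa [pr, π, kv] using (h1 _).symm
  rw [this]; rfl

end TD

end Vale.Agent.P193
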