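import Vale.Agent.P193.TLevel

/-! The stabiliser at one level of the tower. -/

namespace Vale.Agent.P193

namespace TD
variable (D : TD)

/-- The linked word. -/
def uw (e n : ℕ) : Word D.Q := (look e n).elim [] fun p => D.decQs p.2

/-- The linking target. -/
def gw (e n : ℕ) : Word D.Q := (look e n).elim [] fun p => FreeGroup.invRev (D.decQs p.1)

/-- The active heights. -/
def I (b : Bool) (e n : ℕ) : Prop := b = true ∧ (look e n).isSome = true

/-- The subgroup of the base group. -/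
def Rb (b : Bool) : Subgroup (ZG D.r) := cond b (RS D.r) ⊥

/-- The orbit set. -/
def Ob (b : Bool) (e : ℕ) : Set (ZG D.r) := {H | b = true ∧ H * D.root e ∈ RS D.r}

theorem length_decQs (x : List ℕ) : (D.decQs x).length ≤ x.length := by
  induction x with
  | nil => simp [decQs]
  | cons a x ih =>
    have : (D.decQ a).length ≤ 1 := by
      unfold decQ; cases (Encodable.decode (α := D.Q × Bool) a) <;> simp
    simp only [decQs, List.flatMap_cons, List.length_append, List.length_cons] at ih ⊢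
    omega

theorem length_uw (b : Bool) (e n : ℕ) (h : I b e n) : (D.uw e n).length ≤ n := by
  obtain ⟨p, hp⟩ := Option.isSome_iff_exists.1 h.2
  rw [uw, hp, Option.elim_some]
  exact (D.length_decQs _).trans (look_ok hp).1.2.1

theorem length_gw (b : Bool) (e n : ℕ) (h : I b e n) : (D.gw e n).length ≤ n := by
  obtain ⟨p, hp⟩ := Option.isSome_iff_exists.1 h.2
  rw [gw, hp, Option.elim_some, FreeGroup.invRev_length]
  exact (D.length_decQs _).trans (look_ok hp).1.1

theorem length_dec (k : ℕ) : (D.dec k).length ≤ 1 := by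
  rcases k with _ | _ | _ | k
  · simp [dec]
  · simp [dec]
  · simp [dec]
  · simpa [dec, decQs] using D.length_decQs [k]

theorem length_emw_cnt (v : Word (Fin D.X.m)) : (subst D.emw v).length ≤ cnt D.X.em v := by
  induction v with
  | nil => simp
  | cons a v ih =>
    have : (D.emw a.1).length ≤ if (D.X.em a.1).isSome then 1 else 0 := by
      unfold emw
      cases D.X.em a.1 with
      | none => simp
      | some k => simpa using D.length_dec k
    simp only [cnt, List.countP_cons] at ih ⊢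
    rcases a with ⟨a, _ | _⟩ <;> simp at this ⊢ <;> omega

section Level
variable (N : Subgroup D.F) [N.Normal]

/-- The image of a subgroup in the product. -/
def Pt (P : Subgroup D.F) : Subgroup (D.AG N) := (P.map (QuotientGroup.mk' N)).prod ⊥

theorem mem_Pt {P : Subgroup D.F} (h : N ≤ P) (x : D.F) (y : PG D.rel1) :
    ((x : D.F ⧸ N), y) ∈ D.Pt N P ↔ x ∈ P ∧ y = 1 := by
  rw [Pt, Subgroup.mem_prod, Subgroup.mem_bot]
  refine and_congr_left fun _ => ?_
  have := Subgroup.comap_map_eq_self (f := QuotientGroup.mk' N) (H := P) (by simpa using h)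
  conv_rhs => rw [← this]
  rfl

theorem Pt_self : D.Pt N N = ⊥ := by
  rw [eq_bot_iff]
  rintro ⟨x, y⟩ h
  obtain ⟨x, rfl⟩ := QuotientGroup.mk_surjective x
  obtain ⟨h1, rfl⟩ := (D.mem_Pt N le_rfl x y).1 h
  rw [(QuotientGroup.eq_one_iff x).2 h1]; exact one_mem _

/-- The stabiliser in the linking layer. -/
def Qp (b : Bool) (e : ℕ) (P : Subgroup D.F) : Subgroup (CG (D.AG N)) :=
  Pplus (D.Pt N P) (I b e) (fun n => ev (D.av N) (D.uw e n)) fun n => ev (D.av N) (D.gw e n)

theorem Qp_false (e : ℕ) : D.Qp N false e N = ⊥ := by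
  have : I false e = fun _ => False := by ext n; simp [I]
  rw [Qp, Pt_self, this, Pplus_bot]

/-- Decoding as a homomorphism. -/
def decHom : FreeGroup ℕ →* CG (D.AG N) := FreeGroup.lift fun k => ev (cval (D.av N)) (D.dec k)

theorem ev_ε (v : Word (Fin D.X.m)) : ev (D.ε N) v = D.decHom N (hol D.X.em v) := by
  rw [hol, map_ev]
  congr 1; ext i
  simp only [ε, emw]
  cases D.X.em i <;> simp [decHom]

theorem decHom_posw (w : List ℕ) :
    D.decHom N (FreeGroup.mk (posw w)) = ev (fun k => ev (cval (D.av N)) (D.dec k)) (posw w) := rfl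

theorem decHom_Pw (n : ℕ) : D.decHom N (FreeGroup.mk (posw (Pw n))) = pEl _ n := by
  rw [decHom_posw]
  simp [posw, Pw, pEl, dec, cval, mul_assoc]

theorem decHom_off (x : List ℕ) : D.decHom N (FreeGroup.mk (posw (x.map (· + 3)))) =
    Monoid.Coprod.inl (ev (D.av N) (D.decQs x)) := by
  rw [decHom_posw]
  induction x with
  | nil => simp [posw, decQs]
  | cons a x ih =>
    simp only [posw, List.map_cons, ev_cons, sgn_true, decQs, List.flatMap_cons, ev_append,
      map_mul] at ih ⊢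
    rw [ih, dec, cval_wmap]

theorem decHom_Yw (n : ℕ) (p : List ℕ × List ℕ) : D.decHom N (FreeGroup.mk (posw (Yw n p))) =
    Monoid.Coprod.inl (ev (D.av N) (D.decQs p.1)) * pEl _ n *
      Monoid.Coprod.inl (ev (D.av N) (D.decQs p.2)) := by
  rw [← decHom_off, ← decHom_off, ← decHom_Pw, ← map_mul, ← map_mul, FreeGroup.mul_mk,
    FreeGroup.mul_mk]
  simp [posw, Yw]

theorem pEl_mem {e n : ℕ} {p : List ℕ × List ℕ} (hp : look e n = some p) (P : Subgroup D.F) :
    pEl _ n ∈ D.Qp N true e P :=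
  Subgroup.subset_closure (Or.inl (Or.inr ⟨n, ⟨rfl, by simp [hp]⟩, rfl⟩))

theorem yEl_mem {e n : ℕ} {p : List ℕ × List ℕ} (hp : look e n = some p) (P : Subgroup D.F) :
    Monoid.Coprod.inl (ev (D.av N) (D.decQs p.1)) * pEl _ n *
      Monoid.Coprod.inl (ev (D.av N) (D.decQs p.2)) ∈ D.Qp N true e P :=
  Subgroup.subset_closure (Or.inr ⟨n, ⟨rfl, by simp [hp]⟩, by simp [uw, gw, hp]⟩)

theorem good (b : Bool) (e : ℕ) (P : Subgroup D.F) :
    Em.Good D.ρ (D.ε N) (D.Rb b) (D.Ob b e) (D.Qp N b e P) := by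
  refine ⟨D.wd N, ?_, ?_⟩
  · rintro x hx H ⟨rfl, hH⟩
    exact ⟨rfl, by rw [mul_assoc]; exact mul_mem hx hH⟩
  · rintro H ⟨rfl, hH⟩ v ⟨-, hv⟩
    have h1 := D.X.closed e v (by
      have := mul_mem (inv_mem hH) hv
      convert this using 1; group)
    have h2 : accSub accF e ≤ (D.Qp N true e P).comap (D.decHom N) := by
      rw [accSub, Subgroup.closure_le]
      rintro _ ⟨w, hw, rfl⟩
      obtain ⟨n, p, hp, rfl | rfl⟩ := (accF_iff e w).1 hw
      · simp only [SetLike.mem_coe, Subgroup.mem_comap]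
        rw [decHom_Pw]; exact D.pEl_mem N hp P
      · simp only [SetLike.mem_coe, Subgroup.mem_comap]
        rw [decHom_Yw]; exact D.yEl_mem N hp P
    rw [ev_ε]; exact h2 h1

theorem kv_troot (e : ℕ) : ev (D.kv N) (D.troot e) = Em.τ (D.root e)⁻¹ := by
  simp only [troot, ev_append, ev_invRev, ev_cons, kv_wmap, Em.τ]
  simp [kv, mul_assoc]

theorem π_mem_true {e : ℕ} (he : e.unpair.1 = D.Nc) (P : Subgroup D.F) (x : D.F) :
    D.π N x ∈ Em.Psub D.ρ (D.ε N) (D.Rb true) (D.Ob true e) (D.Qp N true e P) ↔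
      x ∈ D.P' e N P := by
  have hker : (D.π N).ker ≤ D.P' e N P :=
    (D.ker_le_N' N).trans (le_sup_of_le_left le_sup_left)
  have hG : ∀ w ∈ D.Gs e, ev (D.kv N) w ∈ (D.P' e N P).map (D.π N) := fun w hw =>
    ⟨_, Subgroup.mem_sup_left (Subgroup.mem_sup_right
      (Subgroup.subset_closure ⟨w, hw, rfl⟩)), rfl⟩
  have hR : ∀ y ∈ RS D.r, Em.z y ∈ (D.P' e N P).map (D.π N) := by
    intro y hy
    have : RS D.r ≤ ((D.P' e N P).map (D.π N)).comap Em.z := by
      rw [RS, Subgroup.closure_le]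
      rintro _ ⟨a, ha, rfl⟩
      have := hG [(some a, true)] (List.mem_cons_of_mem _ (List.mem_map.2 ⟨a, by simpa, rfl⟩))
      simpa [kv] using this
    exact this hy
  have hτ : ∀ H ∈ D.Ob true e, Em.τ H ∈ (D.P' e N P).map (D.π N) := by
    rintro H ⟨-, hH⟩
    have h1 := hG _ List.mem_cons_self
    rw [kv_troot] at h1
    have h2 := hR _ hH
    convert mul_mem (mul_mem h2 h1) (inv_mem h2) using 1
    simp [Em.τ, mul_assoc]
  have hacc : ∀ w, accF e w = true →
      Em.c (D.decHom N (FreeGroup.mk (posw w))) ∈ (D.P' e N P).map (D.π N) := by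
    intro w hw
    obtain ⟨v, h1, h2⟩ := D.X.realized e w hw (he ▸ accF_lt hw)
    have h3 := hτ ((D.root e)⁻¹ * ev D.ρ v) ⟨rfl, h1⟩
    have h4 := hτ (D.root e)⁻¹ ⟨rfl, by simp⟩
    rw [Em.τ_mul, ev_ε, h2] at h3
    simpa using mul_mem (inv_mem h4) h3
  constructor
  · intro hx
    have h1 : Em.Psub D.ρ (D.ε N) (D.Rb true) (D.Ob true e) (D.Qp N true e P) ≤
        (D.P' e N P).map (D.π N) := by
      rw [Em.Psub, Subgroup.closure_le]
      rintro _ ((⟨y, hy, rfl⟩ | ⟨H, hH, rfl⟩) | ⟨y, hy, rfl⟩)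
      · exact hR y hy
      · exact hτ H hH
      · have : D.Qp N true e P ≤ ((D.P' e N P).map (D.π N)).comap Em.c := by
          rw [Qp, Pplus, Subgroup.closure_le]
          rintro _ ((⟨⟨a, a'⟩, ⟨⟨a, ha, rfl⟩, h⟩, rfl⟩ | ⟨n, ⟨-, hn⟩, rfl⟩) | ⟨n, ⟨-, hn⟩, rfl⟩)
          · obtain rfl : a' = 1 := h
            exact ⟨_, Subgroup.mem_sup_right ⟨a, ha, rfl⟩, D.π_endo N a⟩
          · obtain ⟨p, hp⟩ := Option.isSome_iff_exists.1 hn
            have := hacc _ ((accF_iff e _).2 ⟨n, p, hp, Or.inl rfl⟩)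
            rwa [decHom_Pw] at this
          · obtain ⟨p, hp⟩ := Option.isSome_iff_exists.1 hn
            have := hacc _ ((accF_iff e _).2 ⟨n, p, hp, Or.inr rfl⟩)
            rw [decHom_Yw] at this
            simpa [uw, gw, hp] using this
        exact this hy
    have h2 := h1 hx
    rwa [← Subgroup.mem_comap, Subgroup.comap_map_eq_self hker] at h2
  · intro hx
    have : D.P' e N P ≤ (Em.Psub D.ρ (D.ε N) (D.Rb true) (D.Ob true e)
        (D.Qp N true e P)).comap (D.π N) := by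
      refine sup_le (sup_le (fun y hy => ?_) ((Subgroup.closure_le _).2 ?_)) ?_
      · rw [Subgroup.mem_comap, (D.π_eq_one N y).2 hy]; exact one_mem _
      · rintro _ ⟨w, hw, rfl⟩
        simp only [SetLike.mem_coe, Subgroup.mem_comap, π_mk]
        rcases List.mem_cons.1 hw with rfl | hw
        · rw [kv_troot]
          exact Subgroup.subset_closure (Or.inl (Or.inr ⟨_, ⟨rfl, by simp⟩, rfl⟩))
        · obtain ⟨a, ha, rfl⟩ := List.mem_map.1 hw
          refine Subgroup.subset_closure (Or.inl (Or.inl ⟨zg D.r a, ?_, by simp [kv]⟩))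
          exact Subgroup.subset_closure ⟨a, by simpa using ha, rfl⟩
      · rintro _ ⟨y, hy, rfl⟩
        rw [Subgroup.mem_comap, π_endo]
        refine Subgroup.subset_closure (Or.inr ⟨_, ?_, rfl⟩)
        exact Subgroup.subset_closure (Or.inl (Or.inl ⟨_, ⟨⟨y, hy, rfl⟩, one_mem _⟩, rfl⟩))
    exact this hx

theorem π_mem {e : ℕ} (he : e.unpair.1 = D.Nc) (P : Subgroup D.F) (b : Bool) (x : D.F) :
    D.π N x ∈ Em.Psub D.ρ (D.ε N) (D.Rb b) (D.Ob b e) (D.Qp N b e (cond b P N)) ↔
      x ∈ cond b (D.P' e N P) (D.N' N) := by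
  cases b
  · have : D.Ob false e = ∅ := by ext H; simp [Ob]
    rw [cond_false, cond_false, Qp_false, this, Rb, cond_false, Em.Psub_bot, Subgroup.mem_bot,
      π_eq_one]
  · exact D.π_mem_true N he P x

theorem subst_mem {e : ℕ} (he : e.unpair.1 = D.Nc) (P : Subgroup D.F) (b : Bool) (y : Word D.C) :
    FreeGroup.mk (subst D.defw y) ∈ cond b (D.P' e N P) (D.N' N) ↔
      ev (cval (D.av N)) y ∈ D.Qp N b e (cond b P N) := by
  rw [← D.π_mem N he, π_mk, kv_subst, Em.c_mem_Psub (D.good N b e _)]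

theorem subst_mem_N' (y : Word D.C) :
    FreeGroup.mk (subst D.defw y) ∈ D.N' N ↔ ev (cval (D.av N)) y = 1 := by
  rw [← D.π_eq_one N, π_mk, kv_subst, map_eq_one_iff _ (Em.c_injective (D.wd N))]

theorem endo_mem_N' {x : D.F} (h : endo D.s x ∈ D.N' N) : x ∈ N := by
  rw [← D.π_eq_one N, π_endo, map_eq_one_iff _ (Em.c_injective (D.wd N)),
    map_eq_one_iff _ Monoid.Coprod.inl_injective, Prod.mk_eq_one] at h
  exact (QuotientGroup.eq_one_iff x).1 h.1

/-- Admissibility of the links. -/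
def Adm (e : ℕ) (P : Subgroup D.F) : Prop :=
  ∀ n, I true e n → (ev (D.av N) (D.uw e n) ∈ D.Pt N P ↔ ev (D.av N) (D.gw e n) ∈ D.Pt N P)

theorem endo_mem_P' {e : ℕ} (he : e.unpair.1 = D.Nc) {P : Subgroup D.F} (hNP : N ≤ P)
    (adm : D.Adm N e P) {x : D.F} (h : endo D.s x ∈ D.P' e N P) : x ∈ P := by
  rw [← D.π_mem_true N he, π_endo, Em.c_mem_Psub (D.good N true e _), Qp, inl_mem_Pplus adm,
    D.mem_Pt N hNP] at h
  exact h.1

theorem w_not_mem_P' {e : ℕ} (he : e.unpair.1 = D.Nc) (P : Subgroup D.F)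
    (hw : zg D.r (.inl 2) ∉ RS D.r) : FreeGroup.of (some (.inl 2)) ∉ D.P' e N P := by
  rw [← D.π_mem_true N he]
  have : D.π N (FreeGroup.of (some (.inl 2))) = Em.z (zg D.r (.inl 2)) := by simp [π, kv]
  rw [this, Em.z_mem_Psub]
  exact hw

theorem conj_not_mem_P' {e : ℕ} (he : e.unpair.1 = D.Nc) (P : Subgroup D.F) {x : D.F}
    (hx : x ∉ N) : ∃ y, y * endo D.s x * y⁻¹ ∉ D.P' e N P := by
  obtain ⟨H, hH⟩ := D.X.far e
  obtain ⟨w, rfl⟩ := pgen_surj _ H
  refine ⟨FreeGroup.mk (wmap some w ++ (none, true) :: FreeGroup.invRev (wmap some w)), ?_⟩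
  rw [← D.π_mem_true N he, map_mul, map_mul, map_inv, π_endo]
  have : D.π N (FreeGroup.mk (wmap some w ++ (none, true) :: FreeGroup.invRev (wmap some w))) =
      Em.τ (ev (zg D.r) w) := by
    simp only [π_mk, ev_append, ev_invRev, ev_cons, kv_wmap, Em.τ]
    simp [kv, mul_assoc]
  rw [this]
  refine Em.conj_not_mem (D.good N true e P) (fun v hv => hH v hv.2) fun h => hx ?_
  rw [map_eq_one_iff _ Monoid.Coprod.inl_injective, Prod.mk_eq_one] at h
  exact (QuotientGroup.eq_one_iff x).1 h.1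

theorem link {e : ℕ} (he : e.unpair.1 = D.Nc) (P : Subgroup D.F) {n : ℕ} {p : List ℕ × List ℕ}
    (hp : look e n = some p) {g u : Word D.A} (hg : D.decQs p.1 = wmap .inl (FreeGroup.invRev g))
    (hu : D.decQs p.2 = wmap .inl u) : ∃ a ∈ D.P' e N P, ∃ b ∈ D.P' e N P,
      endo D.s (FreeGroup.mk u) = a * endo D.s (FreeGroup.mk g) * b := by
  have hp' : ∃ w, ev (cval (D.av N)) w = pEl (D.AG N) n :=
    ⟨List.replicate n (.inr true, true) ++ (.inr false, true) ::
      List.replicate n (.inr true, false), by simp [pEl, cval, mul_assoc]⟩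
  obtain ⟨w, hw⟩ := hp'
  have h1 : FreeGroup.mk (subst D.defw w) ∈ D.P' e N P := by
    refine (D.subst_mem N he P true w).2 ?_
    rw [hw]; exact D.pEl_mem N hp P
  have h2 : (endo D.s (FreeGroup.mk g))⁻¹ * FreeGroup.mk (subst D.defw w) *
      endo D.s (FreeGroup.mk u) ∈ D.P' e N P := by
    rw [← D.π_mem_true N he, map_mul, map_mul, map_inv, π_endo, π_endo, π_mk, kv_subst,
      ← map_inv, ← map_mul, ← map_mul, Em.c_mem_Psub (D.good N true e _), hw]
    have := D.yEl_mem N hp P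
    rw [hg, hu, av_wmap_inl, av_wmap_inl, ← FreeGroup.inv_mk] at this
    rw [← map_inv, Prod.inv_mk, inv_one]
    exact this
  exact ⟨_, inv_mem h1, _, h2, by group⟩

theorem g1_inj {w : Word (Fin D.m1)}
    (h : FreeGroup.mk (subst (fun b => D.defw (.inl (.inr b))) w) ∈ D.N' N) :
    ev (pgen D.rel1) w = 1 := by
  have e1 : subst (fun b => D.defw (.inl (.inr b))) w =
      subst D.defw (wmap .inl (wmap .inr w)) := by
    simp [subst, wmap, List.flatMap_map]
  rw [e1, subst_mem_N', cval_wmap, av_wmap_inr, map_eq_one_iff _ Monoid.Coprod.inl_injective,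
    Prod.mk_eq_one] at h
  exact h.2

end Level

end TD

end Vale.Agent.P193
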